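import Crest.Agent.R177.Design

/-!
# Rows 177/184/199: the identities in the group algebra
-/

set_option autoImplicit false
set_option linter.unusedSectionVars false

namespace Crest.Agent.R177

open Finset

theorem cancel_sum {P R : Type} [Fintype P] [Ring R] (ρ : Equiv.Perm P) (A : P → Prop)
    (hA : ∀ h, A (ρ h) ↔ A h) (U V : Bool → P → R)
    (h1 : ∀ h, A h → (∀ ε, U ε (ρ h) = U ε h) ∧ V false (ρ h) = V true h)
    (h2 : ∀ h, ¬ A h → (∀ ε, V ε (ρ h) = V ε h) ∧ U false (ρ h) = U true h) :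
    ∑ h, (U true h - U false h) * (V true h - V false h) = 0 := by
  classical
  let F : Bool → P → R := fun ε h =>
    if A h then (U true h - U false h) * V ε h else U ε h * (V true h - V false h)
  have e1 : ∀ h, (U true h - U false h) * (V true h - V false h) = F true h - F false h := by
    intro h
    by_cases hh : A h
    · simp only [F, if_pos hh, mul_sub]
    · simp only [F, if_neg hh, sub_mul]
  have e2 : ∀ h, F false (ρ h) = F true h := by
    intro h
    by_cases hh : A h
    · simp only [F, if_pos hh, if_pos ((hA h).2 hh), (h1 h hh).1, (h1 h hh).2]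
    · simp only [F, if_neg hh, if_neg (mt (hA h).1 hh), (h2 h hh).1, (h2 h hh).2]
  simp only [e1, sum_sub_distrib]
  rw [← Equiv.sum_comp ρ (F false)]
  simp only [e2, sub_self]

section

variable {P L : Type} [Fintype P] [Fintype L] [DecidableEq P]
variable {ln : L → Finset P} {B B' : Finset P} {ρ : Equiv.Perm P} {M : ℕ}

theorem sum_col_main {R : Type} [AddCommMonoid R] (κ : Srt × P) (F : MV L M → R) :
    ∑ d ∈ univ.filter (fun d => col ln B B' M d = κ), F d.1.1 =
      ∑ u, if srtU M u = κ.1 ∧ κ.2 ∈ ty ln B B' M u then F u else 0 := by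
  classical
  rw [← sum_filter]
  refine sum_bij (fun d _ => d.1.1) ?_ ?_ ?_ (fun _ _ => rfl)
  · intro d hd
    have := (mem_filter.1 hd).2
    subst this
    exact mem_filter.2 ⟨mem_univ _, rfl, d.2⟩
  · intro d hd d' hd' h
    have e := ((mem_filter.1 hd).2).trans ((mem_filter.1 hd').2).symm
    exact Subtype.ext (Prod.ext h (congrArg (Prod.snd : Srt × P → P) e))
  · intro u hu
    obtain ⟨h1, h2⟩ := (mem_filter.1 hu).2
    exact ⟨⟨(u, κ.2), h2⟩, mem_filter.2 ⟨mem_univ _, Prod.ext h1 rfl⟩, rfl⟩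

variable {idx : Ed ln B B' M → Fin (Fintype.card (Ed ln B B' M))}

theorem sum_col_aux {R : Type} [AddCommMonoid R]
    (hidx : ∀ d d', col ln B B' M d = col ln B B' M d' → idx d = idx d' → d = d')
    (hsur : ∀ κ (i : Fin (Fintype.card (Ed ln B B' M))),
      (∃ d, col ln B B' M d = κ ∧ idx d = i) ↔ i.val < cnt ln B B' M κ)
    (κ : Srt × P) (F : AV ln B B' M → R) :
    ∑ d ∈ univ.filter (fun d => col ln B B' M d = κ), F ((gr ln B B' ρ M idx).t d) =
      ∑ i ∈ univ.filter (fun i : Fin (Fintype.card (Ed ln B B' M)) => i.val < cnt ln B B' M κ),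
        F (key B B' ρ κ, i) := by
  refine sum_bij (fun d _ => idx d) ?_ ?_ ?_ ?_
  · intro d hd
    exact mem_filter.2 ⟨mem_univ _, (hsur κ _).1 ⟨d, (mem_filter.1 hd).2, rfl⟩⟩
  · intro d hd d' hd' h
    exact hidx d d' (((mem_filter.1 hd).2).trans ((mem_filter.1 hd').2).symm) h
  · intro i hi
    obtain ⟨d, h1, h2⟩ := (hsur κ i).2 (mem_filter.1 hi).2
    exact ⟨d, mem_filter.2 ⟨mem_univ _, h1⟩, h2⟩
  · intro d hd
    rw [← (mem_filter.1 hd).2]
    rfl

/-- the signed coefficient of a main vertex in the graph `γ` -/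
def cf (k : Type) [Ring k] (γ : Bool × Bool) (u : MV L M) : k :=
  if (srtU M u).1 = γ then (if (srtU M u).2 then 1 else -1) else 0

theorem sum_col_signed {k R : Type} [Ring k] [AddCommGroup R] [Module k R] (γ : Bool × Bool) (h : P)
    (F : MV L M → R) :
    ∑ d ∈ univ.filter (fun d => col ln B B' M d = ((γ, true), h)), F d.1.1 -
      ∑ d ∈ univ.filter (fun d => col ln B B' M d = ((γ, false), h)), F d.1.1 =
      ∑ u, (if h ∈ ty ln B B' M u then cf k γ u else 0) • F u := by
  rw [sum_col_main, sum_col_main, ← sum_sub_distrib]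
  refine sum_congr rfl fun u _ => ?_
  unfold cf
  generalize srtU M u = a
  obtain ⟨γ', ε⟩ := a
  by_cases h1 : h ∈ ty ln B B' M u <;> by_cases h2 : γ' = γ <;> cases ε <;> simp [h1, h2]

theorem handshake {p Q : ℕ} (hP : IsPlane p ln Q B B') (hρ : IsRho B B' ρ)
    (hidx : ∀ d d', col ln B B' M d = col ln B B' M d' → idx d = idx d' → d = d')
    (hsur : ∀ κ (i : Fin (Fintype.card (Ed ln B B' M))),
      (∃ d, col ln B B' M d = κ ∧ idx d = i) ↔ i.val < cnt ln B B' M κ)
    (σ : Equiv.Perm (Ed ln B B' M)) (hσ : ∀ d, col ln B B' M (σ d) = col ln B B' M d)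
    {H : Type} [Group H] (x : MV L M → H) (y : AV ln B B' M → H) (ℓ : P → H)
    (hrel : ∀ d, x d.1.1 * ℓ d.1.2 = y ((gr ln B B' ρ M idx).t (σ d)))
    (k : Type) [CommRing k] (i j : Bool) :
    ∑ u, ∑ v, (cf k (true, i) u * cf k (false, j) v *
        ((ty ln B B' M u ∩ ty ln B B' M v).card : k)) •
      (MonoidAlgebra.of k H (x u) * MonoidAlgebra.of k H (x v)⁻¹) = 0 := by
  classical
  let Y : (H → H) → Srt × P → MonoidAlgebra k H := fun f κ =>
    ∑ d ∈ univ.filter (fun d => col ln B B' M d = κ),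
      MonoidAlgebra.of k H (f (y ((gr ln B B' ρ M idx).t d)))
  have hY : ∀ f κ κ', key B B' ρ κ = key B B' ρ κ' → cnt ln B B' M κ = cnt ln B B' M κ' →
      Y f κ = Y f κ' := by
    intro f κ κ' e1 e2
    simp only [Y]
    rw [sum_col_aux hidx hsur κ fun w => MonoidAlgebra.of k H (f (y w)),
      sum_col_aux hidx hsur κ' fun w => MonoidAlgebra.of k H (f (y w)), e1, e2]
  have hW : ∀ f γ h, Whole B B' γ h → ∀ ε, Y f ((γ, ε), ρ h) = Y f ((γ, ε), h) := by
    intro f γ h hw ε
    refine hY f _ _ (key_whole hρ (γ, ε) h hw) ?_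
    rw [cnt_eq hP, cnt_eq hP, cntSp_whole hρ]
  have hN : ∀ f γ h, ¬ Whole B B' γ h → Y f ((γ, false), ρ h) = Y f ((γ, true), h) := by
    intro f γ h hw
    refine hY f _ _ (key_pair hρ γ h hw) ?_
    rw [cnt_eq hP, cnt_eq hP, cntSp_whole hρ, cntSp_pair hP.disj γ h hw]
  have hc := cancel_sum ρ (Whole B B' (true, i)) (whole_rho hρ _)
    (fun ε h => Y id (((true, i), ε), h)) (fun ε h => Y Inv.inv (((false, j), ε), h))
    (fun h hw => ⟨hW id _ h hw, hN Inv.inv _ h (by simp only [Whole] at hw ⊢; tauto)⟩)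
    (fun h hw => ⟨hW Inv.inv _ h (by simp only [Whole] at hw ⊢; tauto), hN id _ h hw⟩)
  have hre : ∀ (κ : Srt × P) (F : Ed ln B B' M → MonoidAlgebra k H),
      ∑ d ∈ univ.filter (fun d => col ln B B' M d = κ), F d =
        ∑ d ∈ univ.filter (fun d => col ln B B' M d = κ), F (σ d) := by
    intro κ F
    rw [sum_filter, sum_filter, ← Equiv.sum_comp σ]
    simp only [hσ]
  have hX : ∀ κ : Srt × P, Y id κ =
      (∑ d ∈ univ.filter (fun d => col ln B B' M d = κ), MonoidAlgebra.of k H (x d.1.1)) *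
        MonoidAlgebra.of k H (ℓ κ.2) := by
    intro κ
    simp only [Y]
    rw [hre, sum_mul]
    refine sum_congr rfl fun d hd => ?_
    rw [← (mem_filter.1 hd).2, ← map_mul, id, ← hrel]
    rfl
  have hX' : ∀ κ : Srt × P, Y Inv.inv κ = MonoidAlgebra.of k H (ℓ κ.2)⁻¹ *
      ∑ d ∈ univ.filter (fun d => col ln B B' M d = κ), MonoidAlgebra.of k H (x d.1.1)⁻¹ := by
    intro κ
    simp only [Y]
    rw [hre, mul_sum]
    refine sum_congr rfl fun d hd => ?_
    rw [← (mem_filter.1 hd).2, ← map_mul, ← hrel, mul_inv_rev]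
    rfl
  have hone : ∀ h, MonoidAlgebra.of k H (ℓ h) * MonoidAlgebra.of k H (ℓ h)⁻¹ = 1 := fun h => by
    rw [← map_mul, mul_inv_cancel, map_one]
  have e : ∀ h, (Y id (((true, i), true), h) - Y id (((true, i), false), h)) *
      (Y Inv.inv (((false, j), true), h) - Y Inv.inv (((false, j), false), h)) =
      ∑ u, ∑ v, (cf k (true, i) u * cf k (false, j) v *
        (if h ∈ ty ln B B' M u ∩ ty ln B B' M v then 1 else 0)) •
      (MonoidAlgebra.of k H (x u) * MonoidAlgebra.of k H (x v)⁻¹) := by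
    intro h
    rw [hX, hX, hX', hX', ← sub_mul, ← mul_sub, mul_assoc, ← mul_assoc (MonoidAlgebra.of k H (ℓ h)),
      hone, one_mul,
      sum_col_signed (k := k) (true, i) h fun u => MonoidAlgebra.of k H (x u),
      sum_col_signed (k := k) (false, j) h fun u => MonoidAlgebra.of k H (x u)⁻¹, sum_mul_sum]
    refine sum_congr rfl fun u _ => sum_congr rfl fun v _ => ?_
    rw [smul_mul_smul_comm]
    congr 1
    by_cases h1 : h ∈ ty ln B B' M u <;> by_cases h2 : h ∈ ty ln B B' M v <;> simp [h1, h2]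
  simp only [e] at hc
  rw [sum_comm] at hc
  rw [← hc]
  refine sum_congr rfl fun u _ => ?_
  rw [sum_comm]
  refine sum_congr rfl fun v _ => ?_
  rw [← sum_smul, ← mul_sum, sum_boole, filter_mem_eq_inter, univ_inter]

/-- the size of the intersection of the type of a vertex with a line -/
def kap (k : Type) [Ring k] : MV L M → k
  | .inr .xa => -1
  | _ => 1

theorem card_meet {p Q : ℕ} (hP : IsPlane p ln Q B B') (l : L) (u : MV L M) :
    ((ty ln B B' M u ∩ ln l).card : ZMod p) = kap (ZMod p) u := by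
  rcases u with u | s
  · exact hP.meet _ _
  · cases s
    · have h1 : ((B ∪ B')ᶜ ∩ ln l).card + (B ∩ ln l).card + (B' ∩ ln l).card =
          (ln l ∩ ln l).card := by
        rw [← card_union_of_disjoint, ← card_union_of_disjoint]
        · congr 1
          ext h
          simp only [mem_union, mem_inter, mem_compl]
          tauto
        · rw [disjoint_left]
          intro h h1 h2
          have : h ∈ B → h ∉ B' := fun hh => disjoint_left.1 hP.disj hh
          simp only [mem_union, mem_inter, mem_compl] at h1 h2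
          tauto
        · rw [disjoint_left]
          intro h h1 h2
          simp only [mem_union, mem_inter, mem_compl] at h1 h2
          tauto
      have h2 := congrArg (Nat.cast : ℕ → ZMod p) h1
      push_cast at h2
      rw [hP.meetB, hP.meetB', hP.meet] at h2
      show (((B ∪ B')ᶜ ∩ ln l).card : ZMod p) = -1
      linear_combination h2
    · exact hP.meetB l
    · exact hP.meetB' l
    · show ((univ ∩ ln l).card : ZMod p) = 1
      rw [univ_inter, ← hP.meet l l, inter_self]
    · exact hP.meetB l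
    · exact hP.meetB' l

theorem exists_alg {p Q : ℕ} (hP : IsPlane p ln Q B B') (hρ : IsRho B B' ρ)
    (hidx : ∀ d d', col ln B B' M d = col ln B B' M d' → idx d = idx d' → d = d')
    (hsur : ∀ κ (i : Fin (Fintype.card (Ed ln B B' M))),
      (∃ d, col ln B B' M d = κ ∧ idx d = i) ↔ i.val < cnt ln B B' M κ)
    (σ : Equiv.Perm (Ed ln B B' M)) (hσ : ∀ d, col ln B B' M (σ d) = col ln B B' M d)
    {H : Type} [Group H] (x : MV L M → H) (y : AV ln B B' M → H) (ℓ : P → H)
    (hrel : ∀ d, x d.1.1 * ℓ d.1.2 = y ((gr ln B B' ρ M idx).t (σ d))) :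
    ∃ a w b b' : MonoidAlgebra (ZMod p) H, a * b = 1 ∧ a * b' = 1 ∧
      w * b = MonoidAlgebra.of (ZMod p) H ((x (.inr .x1))⁻¹ * x (.inr .x2)) ∧ w * b' = 1 := by
  classical
  let o := MonoidAlgebra.of (ZMod p) H
  let a : Bool → MonoidAlgebra (ZMod p) H := fun i =>
    ∑ u, (cf (ZMod p) (true, i) u * kap (ZMod p) u) • o (x u)
  let b : Bool → MonoidAlgebra (ZMod p) H := fun j => ∑ v, cf (ZMod p) (false, j) v • o (x v)⁻¹
  have hab : ∀ i j, a i * b j = ∑ s : Sp, ∑ s' : Sp,
      (cf (L := L) (M := M) (ZMod p) (true, i) (.inr s) *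
        cf (L := L) (M := M) (ZMod p) (false, j) (.inr s') *
        (kap (L := L) (M := M) (ZMod p) (.inr s) - ((tySp B B' s ∩ tySp B B' s').card : ZMod p))) •
        (o (x (.inr s)) * o (x (.inr s'))⁻¹) := by
    intro i j
    have h0 := handshake hP hρ hidx hsur σ hσ x y ℓ hrel (ZMod p) i j
    have h1 : a i * b j = ∑ u, ∑ v, (cf (ZMod p) (true, i) u * cf (ZMod p) (false, j) v *
        (kap (ZMod p) u - ((ty ln B B' M u ∩ ty ln B B' M v).card : ZMod p))) •
          (o (x u) * o (x v)⁻¹) := by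
      rw [← sub_zero (a i * b j), ← h0]
      simp only [a, b]
      rw [sum_mul_sum, ← sum_sub_distrib]
      refine sum_congr rfl fun u _ => ?_
      rw [← sum_sub_distrib]
      refine sum_congr rfl fun v _ => ?_
      rw [smul_mul_smul_comm, ← sub_smul]
      congr 1
      ring
    rw [h1, Fintype.sum_sum_type, sum_eq_zero, zero_add]
    · refine sum_congr rfl fun s _ => ?_
      rw [Fintype.sum_sum_type, sum_eq_zero, zero_add]
      · rfl
      · intro v _
        have := card_meet hP v.2.1 (.inr s : MV L M)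
        rw [show ty ln B B' M (.inl v) = ln v.2.1 from rfl, this, sub_self, mul_zero, zero_smul]
    · intro u _
      refine sum_eq_zero fun v _ => ?_
      have := card_meet hP u.2.1 v
      rw [show ty ln B B' M (.inl u) = ln u.2.1 from rfl, inter_comm, this]
      rcases v with v | s
      · simp [kap]
      · cases s <;> simp [kap, cf, srtU, srtSp]
  have hu : (univ : Finset Sp) = {Sp.xa, Sp.x1, Sp.x2, Sp.x3, Sp.yb, Sp.yb'} := rfl
  have d1 : B ∩ B' = ∅ := disjoint_iff_inter_eq_empty.1 hP.disj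
  have d2 : B' ∩ B = ∅ := disjoint_iff_inter_eq_empty.1 hP.disj.symm
  have d3 : (B ∪ B')ᶜ ∩ B = ∅ := by ext h; simp only [mem_inter, mem_compl, mem_union]; simp; tauto
  have d4 : (B ∪ B')ᶜ ∩ B' = ∅ := by ext h; simp only [mem_inter, mem_compl, mem_union]; simp
  have t : ∀ i j, a i * b j = _ := fun i j => by
    rw [hab, hu]
  have t00 : a false * b false = -(o (x (.inr .xa)) * o (x (.inr .yb))⁻¹) := by
    rw [t]; simp [cf, kap, srtU, srtSp, tySp, d3, -compl_union]
  have t01 : a false * b true = -(o (x (.inr .xa)) * o (x (.inr .yb'))⁻¹) := by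
    rw [t]; simp [cf, kap, srtU, srtSp, tySp, d4, -compl_union]
  have t10 : a true * b false = o (x (.inr .x2)) * o (x (.inr .yb))⁻¹ := by
    rw [t]; simp [cf, kap, srtU, srtSp, tySp, d2, hP.cardB, -compl_union]
  have t11 : a true * b true = o (x (.inr .x1)) * o (x (.inr .yb'))⁻¹ := by
    rw [t]; simp [cf, kap, srtU, srtSp, tySp, d1, hP.cardB', -compl_union]
  refine ⟨-(o (x (.inr .xa))⁻¹ * a false), o (x (.inr .x1))⁻¹ * a true,
    b false * o (x (.inr .yb)), b true * o (x (.inr .yb')), ?_, ?_, ?_, ?_⟩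
  · rw [neg_mul, mul_assoc, ← mul_assoc (a false), t00, neg_mul, mul_neg, neg_neg, ← map_mul,
      ← map_mul, ← map_mul, ← map_one o]
    congr 1; group
  · rw [neg_mul, mul_assoc, ← mul_assoc (a false), t01, neg_mul, mul_neg, neg_neg, ← map_mul,
      ← map_mul, ← map_mul, ← map_one o]
    congr 1; group
  · rw [mul_assoc, ← mul_assoc (a true), t10, ← map_mul, ← map_mul, ← map_mul]
    congr 1; group
  · rw [mul_assoc, ← mul_assoc (a true), t11, ← map_mul, ← map_mul, ← map_mul, ← map_one o]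
    congr 1; group

end

end Crest.Agent.R177
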