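import Crest.Agent.R177.RMap

/-!
# Averaging the local condition over a partition

Restrict `C` to each fibre `{y // κ y = a}` (`succ`/`gl` become `none` when they leave the fibre).
Summed over the fibres: unglued `= ung + cutGl`, open ends `= opn + cutSucc`, and bends
`≤ bent + 2 cutSucc`: if `y` is straight in `C` (pass `(y,y')` unglued or glued to `(z,z')`) but not in its
fibre, then either `κ y' ≠ κ y` or `κ z' ≠ κ z`, and `y ↦ z` is injective.  Fibres with at most `J` bends
satisfy `LocalOK`; there are at most `(bent + 2 cutSucc)/J` others, each of size `≤ N`.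
-/

set_option autoImplicit false

namespace Crest.Agent.R177

variable {V A E Y K : Type} {Γ : LGraph V A E}

namespace Average

open Finset
open scoped Classical

/-- keep an optional value only if it lies in the fibre over `a` -/
noncomputable def keep (κ : Y → K) (a : K) (o : Option Y) : Option {y // κ y = a} :=
  o.bind fun y => if h : κ y = a then some ⟨y, h⟩ else none

lemma keep_eq_some {κ : Y → K} {a : K} {o : Option Y} {y : {y // κ y = a}} :
    keep κ a o = some y ↔ o = some y.1 := by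
  obtain ⟨y, hy⟩ := y
  cases o with
  | none => simp [keep]
  | some z =>
    by_cases hz : κ z = a
    · simp [keep, hz]
    · simp only [keep, Option.bind_some, dif_neg hz, Option.some.injEq, false_iff, reduceCtorEq]
      rintro rfl
      exact hz hy

lemma keep_eq_none {κ : Y → K} {a : K} {o : Option Y} :
    keep κ a o = none ↔ o = none ∨ ∃ y', o = some y' ∧ κ y' ≠ a := by
  cases o with
  | none => simp [keep]
  | some z => by_cases hz : κ z = a <;> simp [keep, hz]

/-- the restriction of a configuration to a fibre -/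
noncomputable def fibre (C : Γ.Conf Y) (κ : Y → K) (a : K) : Γ.Conf {y // κ y = a} where
  ed y := C.ed y.1
  succ y := keep κ a (C.succ y.1)
  gl y := keep κ a (C.gl y.1)
  succ_inj _ _ _ h₁ h₂ :=
    Subtype.ext (C.succ_inj _ _ _ (keep_eq_some.1 h₁) (keep_eq_some.1 h₂))
  succ_cont _ _ h := C.succ_cont _ _ (keep_eq_some.1 h)
  gl_symm _ _ h := keep_eq_some.2 (C.gl_symm _ _ (keep_eq_some.1 h))
  gl_lab _ _ h := C.gl_lab _ _ (keep_eq_some.1 h)

/-- number of points with property `p` in the fibre over `a` -/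
noncomputable def cnt (κ : Y → K) (p : Y → Prop) (a : K) : ℕ := Nat.card {y // p y ∧ κ y = a}

lemma card_le_cnt [Finite Y] {κ : Y → K} {a : K} {q : {y // κ y = a} → Prop} {p : Y → Prop}
    (h : ∀ y, q y → p y.1) : Nat.card {y // q y} ≤ cnt κ p a :=
  Nat.card_le_card_of_injective
    (fun y : {y // q y} => (⟨y.1.1, h _ y.2, y.1.2⟩ : {y // p y ∧ κ y = a}))
    fun _ _ e => Subtype.ext (Subtype.ext (congrArg (fun w : {y // p y ∧ κ y = a} => w.1) e))

lemma card_eq_filter [Fintype Y] (p : Y → Prop) : Nat.card {y // p y} = (univ.filter p).card := by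
  rw [Nat.card_eq_fintype_card, Fintype.card_subtype]

lemma sum_cnt [Fintype Y] (κ : Y → K) (p : Y → Prop) :
    ∑ a ∈ univ.image κ, cnt κ p a = Nat.card {y // p y} := by
  rw [card_eq_filter, card_eq_sum_card_fiberwise (f := κ) (t := univ.image κ)
    fun y _ => mem_image_of_mem κ (mem_univ y)]
  refine sum_congr rfl fun a _ => ?_
  rw [cnt, card_eq_filter, filter_filter]
  congr

lemma card_or_le [Fintype Y] (p q : Y → Prop) :
    Nat.card {y // p y ∨ q y} ≤ Nat.card {y // p y} + Nat.card {y // q y} := by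
  rw [card_eq_filter, card_eq_filter, card_eq_filter]
  refine le_trans (card_le_card fun y hy => ?_) (card_union_le _ _)
  simpa using hy

/-- the pass at `y` is glued to a pass which is cut -/
def Third (C : Γ.Conf Y) (κ : Y → K) (y : Y) : Prop :=
  ∃ z, (∃ z', C.succ z = some z' ∧ κ z' ≠ κ z) ∧ (C.succ z).bind C.gl = some y

lemma card_third [Finite Y] (C : Γ.Conf Y) (κ : Y → K) :
    Nat.card {y // Third C κ y} ≤ C.cutSucc κ := by
  refine Nat.card_le_card_of_injective
    (fun y : {y // Third C κ y} => (⟨y.2.choose, y.2.choose_spec.1⟩ :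
      {y // ∃ y', C.succ y = some y' ∧ κ y' ≠ κ y})) fun y₁ y₂ e => ?_
  have e' : y₁.2.choose = y₂.2.choose := congrArg Subtype.val e
  have h₁ := y₁.2.choose_spec.2
  rw [e', y₂.2.choose_spec.2] at h₁
  exact Subtype.ext (Option.some.inj h₁).symm

lemma bent_imp (C : Γ.Conf Y) (κ : Y → K) (a : K) (y : {y // κ y = a})
    (h : ¬ (fibre C κ a).Straight y) :
    ¬ C.Straight y.1 ∨ (∃ y', C.succ y.1 = some y' ∧ κ y' ≠ κ y.1) ∨ Third C κ y.1 := by
  by_contra hc
  simp only [not_or, not_not] at hc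
  obtain ⟨⟨y', hy', hs⟩, h1, h2⟩ := hc
  have hy'a : κ y' = a := by
    by_contra hne
    exact h1 ⟨y', hy', by rwa [y.2]⟩
  refine h ⟨⟨y', hy'a⟩, keep_eq_some.2 hy', ?_⟩
  rcases hs with ⟨g1, g2⟩ | ⟨z, z', g1, g2, g3⟩
  · exact Or.inl ⟨keep_eq_none.2 (Or.inl g1), keep_eq_none.2 (Or.inl g2)⟩
  · have hz : κ z' = κ z := by
      by_contra hne
      exact h2 ⟨z, ⟨z', g2, hne⟩, by rw [g2]; exact C.gl_symm _ _ g3⟩
    by_cases hza : κ z = a
    · exact Or.inr ⟨⟨z, hza⟩, ⟨z', hz.trans hza⟩, keep_eq_some.2 g1, keep_eq_some.2 g2,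
        keep_eq_some.2 g3⟩
    · exact Or.inl ⟨keep_eq_none.2 (Or.inr ⟨z', g3, by rwa [hz]⟩),
        keep_eq_none.2 (Or.inr ⟨z, g1, hza⟩)⟩

end Average

open Average in
theorem average [Finite Y] (C : Γ.Conf Y) (κ : Y → K) {N J k Λ : ℕ} (hL : Γ.LocalOK N J k Λ)
    (hκ : ∀ a, Nat.card {y // κ y = a} ≤ N) :
    J * Nat.card Y ≤ J * (k * (C.ung + C.cutGl κ) + Λ * (C.opn + C.cutSucc κ)) +
      N * (C.bent + 2 * C.cutSucc κ) := by
  classical
  have := Fintype.ofFinite Y
  set pU : Y → Prop := fun y => C.gl y = none ∨ ∃ y', C.gl y = some y' ∧ κ y' ≠ κ y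
  set pO : Y → Prop := fun y => C.succ y = none ∨ ∃ y', C.succ y = some y' ∧ κ y' ≠ κ y
  set pB : Y → Prop := fun y =>
    ¬ C.Straight y ∨ (∃ y', C.succ y = some y' ∧ κ y' ≠ κ y) ∨ Third C κ y
  have key : ∀ a, J * cnt κ (fun _ => True) a ≤
      J * (k * cnt κ pU a + Λ * cnt κ pO a) + N * cnt κ pB a := by
    intro a
    have h0 : cnt κ (fun _ => True) a = Nat.card {y // κ y = a} := by simp [cnt]
    have hU : (fibre C κ a).ung ≤ cnt κ pU a :=
      card_le_cnt fun y hy => by simpa only [pU, y.2] using keep_eq_none.1 hy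
    have hO : (fibre C κ a).opn ≤ cnt κ pO a :=
      card_le_cnt fun y hy => by simpa only [pO, y.2] using keep_eq_none.1 hy
    have hB : (fibre C κ a).bent ≤ cnt κ pB a := card_le_cnt (bent_imp C κ a)
    rw [h0]
    by_cases hJ : (fibre C κ a).bent ≤ J
    · refine le_trans (Nat.mul_le_mul_left J ((hL _ _ (hκ a) hJ).trans ?_)) (Nat.le_add_right _ _)
      exact add_le_add (Nat.mul_le_mul_left _ hU) (Nat.mul_le_mul_left _ hO)
    · refine le_trans ?_ (Nat.le_add_left _ _)
      rw [mul_comm]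
      exact Nat.mul_le_mul (hκ a) (by omega)
  have hsum := Finset.sum_le_sum fun a (_ : a ∈ Finset.univ.image κ) => key a
  simp only [Finset.sum_add_distrib, ← Finset.mul_sum, sum_cnt] at hsum
  have h0 : Nat.card {_y : Y // True} = Nat.card Y := by simp
  have hU : Nat.card {y // pU y} ≤ C.ung + C.cutGl κ := card_or_le _ _
  have hO : Nat.card {y // pO y} ≤ C.opn + C.cutSucc κ := card_or_le _ _
  have hB : Nat.card {y // pB y} ≤ C.bent + 2 * C.cutSucc κ := by
    refine (card_or_le _ _).trans (Nat.add_le_add_left ((card_or_le _ _).trans ?_) _)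
    rw [two_mul]
    exact Nat.add_le_add_left (card_third C κ) _
  rw [h0] at hsum
  refine hsum.trans ?_
  gcongr

end Crest.Agent.R177
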