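import Crest.Agent.Lib.CW2.Main

/-! # Central extensions by `ℤ/2` with a prescribed twist of the triangles -/

set_option autoImplicit false

namespace Crest.Agent.R177

open Crest.Agent.Lib.CW2

/-- Recipe.  `A = Multiplicative (ZMod 2)`, `o (g,t) = if ω t then ofAdd 1 else 1`;
`TriPres.exists_cochain` gives `a : G × S → A`.  Let `π s : Equiv.Perm (G × A)` be
`(g, x) ↦ (g * of s, x * a (g, s))` and `ζ : (g, x) ↦ (g, x * ofAdd 1)`.  Then
`π (d12 t) * π (d01 t) = π (d02 t) * ζ^{ω t}`; put `f s = (π s)⁻¹`, `z = ζ` and let `H` be the subgroup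
`Subgroup.closure (insert ζ (range f))` of `Equiv.Perm (G × A)`. -/
theorem exists_centralExt {G : Type} [Group G] {S T : Type} [Finite S] (P : TriPres G S T)
    (hP : Function.Injective P.toTriData.bd) (ω : T → Bool) :
    ∃ (H : Type) (_ : Group H) (f : S → H) (z : H), Group.FG H ∧ z ≠ 1 ∧ z * z = 1 ∧
      (∀ g, z * g = g * z) ∧
      ∀ t, f (P.d01 t) * f (P.d12 t) = f (P.d02 t) * (if ω t then z else 1) := by
  obtain ⟨a, ha⟩ := P.exists_cochain hP _
    (fun p : G × T => if ω p.2 then Multiplicative.ofAdd (1 : ZMod 2) else 1)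
  let u : Multiplicative (ZMod 2) := Multiplicative.ofAdd 1
  have hu : u * u = 1 := by decide
  let π : S → Equiv.Perm (G × Multiplicative (ZMod 2)) := fun s =>
    ⟨fun p => (p.1 * P.of s, p.2 * a (p.1, s)),
      fun p => (p.1 * (P.of s)⁻¹, p.2 * (a (p.1 * (P.of s)⁻¹, s))⁻¹),
      fun p => by simp, fun p => by simp⟩
  let ζ : Equiv.Perm (G × Multiplicative (ZMod 2)) :=
    ⟨fun p => (p.1, p.2 * u), fun p => (p.1, p.2 * u),
      fun p => by simp [mul_assoc, hu], fun p => by simp [mul_assoc, hu]⟩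
  have hζ : ζ * ζ = 1 := Equiv.ext fun p => by simp [ζ, mul_assoc, hu]
  have hc : ∀ s, Commute ζ (π s) := fun s => Equiv.ext fun p => by
    simp [ζ, π, mul_right_comm]
  have hrel : ∀ t, π (P.d12 t) * π (P.d01 t) = (if ω t then ζ else 1) * π (P.d02 t) := by
    intro t
    refine Equiv.ext fun p => ?_
    have := ha p.1 t
    cases h : ω t <;> simp [h] at this <;>
      simp [ζ, π, mul_assoc, P.rel, this, u, mul_comm]
  let H := Subgroup.closure (insert ζ (Set.range fun s => (π s)⁻¹))
  refine ⟨H, inferInstance, fun s => ⟨(π s)⁻¹, Subgroup.subset_closure (Or.inr ⟨s, rfl⟩)⟩,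
    ⟨ζ, Subgroup.subset_closure (Or.inl rfl)⟩, ?_, ?_, Subtype.ext hζ, ?_, fun t => Subtype.ext ?_⟩
  · exact (Group.fg_iff_subgroup_fg H).2 ((Subgroup.fg_iff _).2 ⟨_, rfl, (Set.finite_range _).insert _⟩)
  · intro h
    have h1 := congrArg (fun z : H => (z.1 (1, 1)).2) h
    exact absurd h1 (show (1 : Multiplicative (ZMod 2)) * u ≠ 1 by decide)
  · rintro ⟨g, hg⟩
    refine Subtype.ext ?_
    change Commute ζ g
    induction hg using Subgroup.closure_induction with
    | mem x hx =>
      rcases hx with rfl | ⟨s, rfl⟩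
      · exact Commute.refl _
      · exact (hc s).inv_right
    | one => exact Commute.one_right _
    | mul x y _ _ hx hy => exact hx.mul_right hy
    | inv x _ hx => exact hx.inv_right
  · have h1 := hrel t
    have h2 : ζ⁻¹ = ζ := inv_eq_of_mul_eq_one_right hζ
    cases h : ω t <;> simp only [h, Bool.false_eq_true, if_false, if_true, Subgroup.coe_mul,
      Subgroup.coe_one] at h1 ⊢ <;> rw [← mul_inv_rev, h1]
    · simp
    · rw [mul_inv_rev, h2]

end Crest.Agent.R177
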