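import Crest.Agent.R177.PlaneDefs

/-! # Existence of the plane with two disjoint `F_p`-linear blocking sets -/

set_option autoImplicit false

namespace Crest.Agent.R177

open scoped LinearAlgebra.Projectivization
open Projectivization Matrix

section Count
variable {F V : Type} [Field F] [AddCommGroup V] [Module F V]

open Classical in
/-- the points spanned by the nonzero vectors of an additive subgroup -/
noncomputable def planePts (F : Type) {V : Type} [Field F] [AddCommGroup V] [Module F V]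
    [Fintype (ℙ F V)] (W : AddSubgroup V) : Finset (ℙ F V) :=
  Finset.univ.filter fun x => ∃ w ∈ W, ∃ hw : w ≠ 0, mk F w hw = x

theorem mem_planePts [Fintype (ℙ F V)] {W : AddSubgroup V} {x : ℙ F V} :
    x ∈ planePts F W ↔ ∃ w ∈ W, ∃ hw : w ≠ 0, mk F w hw = x := by
  simp [planePts]

theorem plane_card_zero (p : ℕ) [Fact p.Prime] [CharP F p] [Finite V] (W : AddSubgroup V)
    {w : V} (hw : w ∈ W) (h0 : w ≠ 0) : (Nat.card W : ZMod p) = 0 := by
  rw [ZMod.natCast_eq_zero_iff]
  have h1 : addOrderOf w = p := by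
    refine addOrderOf_eq_prime ?_ h0
    rw [← Nat.cast_smul_eq_nsmul F, CharP.cast_eq_zero, zero_smul]
  rw [← h1]
  exact AddSubgroup.addOrderOf_dvd_natCard W hw

theorem plane_card_erase (p : ℕ) [Fact p.Prime] [CharP F p] [Fintype V] [DecidableEq V]
    (W : AddSubgroup V) [DecidablePred (· ∈ W)] {w : V} (hw : w ∈ W) (h0 : w ≠ 0) :
    (((Finset.univ.filter fun v => v ∈ W).erase 0).card : ZMod p) = -1 := by
  have h1 := plane_card_zero (F := F) p W hw h0
  have h2 : (Finset.univ.filter fun v => v ∈ W).card = Nat.card W := by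
    rw [Nat.card_eq_fintype_card, Fintype.card_subtype]
  have h3 := Finset.card_erase_add_one (s := Finset.univ.filter fun v => v ∈ W) (a := 0)
    (by simp)
  rw [h2] at h3
  rw [← h3] at h1
  push_cast at h1
  exact eq_neg_of_add_eq_zero_left h1

theorem card_planePts (p : ℕ) [Fact p.Prime] [CharP F p] [Finite V] [Fintype (ℙ F V)]
    (W : AddSubgroup V) (hW : W ≠ ⊥) : ((planePts F W).card : ZMod p) = 1 := by
  classical
  have := Fintype.ofFinite V
  obtain ⟨⟨w, hw⟩, h0⟩ := (AddSubgroup.ne_bot_iff_exists_ne_zero).1 hW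
  have h0' : w ≠ 0 := fun h => h0 (Subtype.ext h)
  let f : V → ℙ F V := fun v => if h : v = 0 then mk F w h0' else mk F v h
  have h1 := Finset.card_eq_sum_card_fiberwise (f := f)
    (s := (Finset.univ.filter fun v => v ∈ W).erase 0) (t := planePts F W) (fun v hv => by
      simp only [Finset.coe_erase, Finset.coe_filter, Finset.mem_univ, true_and, Set.mem_sdiff,
        Set.mem_ofPred_eq, Set.mem_singleton_iff] at hv
      exact Finset.mem_coe.2 (mem_planePts.2 ⟨v, hv.1, hv.2, by simp [f, hv.2]⟩))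
  have h2 := congrArg (Nat.cast : ℕ → ZMod p) h1
  rw [plane_card_erase (F := F) p W hw h0', Nat.cast_sum,
    Finset.sum_congr rfl (g := fun _ => (-1 : ZMod p))] at h2
  · simpa using h2.symm
  · intro x hx
    obtain ⟨u, hu, hu0, rfl⟩ := mem_planePts.1 hx
    rw [← plane_card_erase (F := F) p (W ⊓ (F ∙ u).toAddSubgroup)
      ⟨hu, Submodule.mem_span_singleton_self u⟩ hu0]
    congr 2
    ext v
    simp only [Finset.mem_filter, Finset.mem_erase, Finset.mem_univ, true_and, AddSubgroup.mem_inf,
      Submodule.mem_toAddSubgroup, Submodule.mem_span_singleton]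
    constructor
    · rintro ⟨⟨hv0, hv⟩, h⟩
      simp only [f, hv0, dif_neg, not_false_eq_true] at h
      obtain ⟨a, ha⟩ := (mk_eq_mk_iff' F v u hv0 hu0).1 h
      exact ⟨hv0, hv, a, ha⟩
    · rintro ⟨hv0, hv, a, ha⟩
      refine ⟨⟨hv0, hv⟩, ?_⟩
      simp only [f, hv0, dif_neg, not_false_eq_true]
      exact (mk_eq_mk_iff' F v u hv0 hu0).2 ⟨a, ha⟩

theorem plane_inf_ker_ne_bot {G : Type} [AddCommGroup G] [Finite G] (W : AddSubgroup V)
    (f : V →+ G) (h : Nat.card G < Nat.card W) : W ⊓ f.ker ≠ ⊥ := by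
  intro hb
  refine absurd (Nat.card_le_card_of_injective (f.comp W.subtype) ?_) (not_le.2 h)
  rw [injective_iff_map_eq_zero]
  intro a ha
  have : (a : V) ∈ W ⊓ f.ker := ⟨a.2, ha⟩
  rw [hb] at this
  exact Subtype.ext this

end Count

theorem plane_of_subgroups (p : ℕ) [Fact p.Prime] (F : Type) [Field F] [Finite F] [CharP F p]
    (hF : 10 ≤ Nat.card F) (U U' : AddSubgroup (Fin 3 → F)) (hU : Nat.card F < Nat.card U)
    (hU' : Nat.card F < Nat.card U') (hd : ∀ u ∈ U, ∀ a : F, a • u ∈ U' → a • u = 0) :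
    ∃ (P L : Type) (_ : Fintype P) (_ : Fintype L) (_ : DecidableEq P) (ln : L → Finset P) (Q : ℕ)
      (B B' : Finset P), IsPlane p ln Q B B' := by
  classical
  have := Fintype.ofFinite (ℙ F (Fin 3 → F))
  let ln : ℙ F (Fin 3 → F) → Finset (ℙ F (Fin 3 → F)) := fun l => Finset.univ.filter fun x => x ∈ l
  have hln : ∀ l x, x ∈ ln l ↔ x.orthogonal l := fun l x => by
    simp [ln, Configuration.ofField.mem_iff]
  let k : ℙ F (Fin 3 → F) → (Fin 3 → F) →+ F := fun l =>
    { toFun := fun v => v ⬝ᵥ l.rep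
      map_zero' := zero_dotProduct _
      map_add' := fun a b => add_dotProduct a b _ }
  have hk : ∀ l w (hw : w ≠ 0), mk F w hw ∈ ln l ↔ w ∈ (k l).ker := fun l w hw => by
    rw [hln]
    conv_lhs => rw [← mk_rep l]
    rw [orthogonal_mk]; rfl
  have hint : ∀ (W : AddSubgroup (Fin 3 → F)) l,
      planePts F W ∩ ln l = planePts F (W ⊓ (k l).ker) := by
    intro W l
    ext x
    simp only [Finset.mem_inter, mem_planePts]
    constructor
    · rintro ⟨⟨w, hw, h0, rfl⟩, h⟩
      exact ⟨w, ⟨hw, (hk l w h0).1 h⟩, h0, rfl⟩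
    · rintro ⟨w, hw, h0, rfl⟩
      exact ⟨⟨w, hw.1, h0, rfl⟩, (hk l w h0).2 hw.2⟩
  have htop : planePts F (⊤ : AddSubgroup (Fin 3 → F)) = Finset.univ := by
    ext x
    simp only [mem_planePts, Finset.mem_univ, iff_true]
    exact ⟨x.rep, trivial, x.rep_nonzero, mk_rep x⟩
  have hne : ∀ W : AddSubgroup (Fin 3 → F), Nat.card F < Nat.card W → W ≠ ⊥ := by
    rintro W h rfl
    simp at h
    omega
  set n := Configuration.ProjectivePlane.order (ℙ F (Fin 3 → F)) (ℙ F (Fin 3 → F)) with hn
  have hc1 : Fintype.card (ℙ F (Fin 3 → F)) = n ^ 2 + n + 1 :=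
    Configuration.ProjectivePlane.card_points _ _
  have hc2 := Projectivization.card_of_finrank F (Fin 3 → F) (n := 3) (by simp)
  rw [Nat.card_eq_fintype_card, hc1] at hc2
  simp only [Finset.sum_range_succ, Finset.range_zero, Finset.sum_empty] at hc2
  have hn10 : 10 ≤ n := by
    by_contra h
    have : n ≤ 9 := by omega
    nlinarith
  refine ⟨ℙ F (Fin 3 → F), ℙ F (Fin 3 → F), inferInstance, inferInstance, inferInstance, ln, n + 1,
    planePts F U, planePts F U', by omega, by rw [hc1]; nlinarith, fun h => ?_, fun h h' hh => ?_,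
    fun l l' => ?_, fun l => ?_, fun l => ?_, card_planePts p U (hne U hU),
    card_planePts p U' (hne U' hU'), ?_⟩
  · rw [hn, ← Configuration.ProjectivePlane.lineCount_eq (ℙ F (Fin 3 → F)) h,
      Configuration.lineCount, Nat.card_eq_fintype_card, Fintype.card_subtype]
    simp [ln]
  · rw [Finset.card_le_one]
    intro l hl l' hl'
    simp only [Finset.mem_filter, Finset.mem_univ, true_and, hln] at hl hl'
    exact (Configuration.ofField.eq_or_eq_of_orthogonal hl.1 hl.2 hl'.1 hl'.2).resolve_left hh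
  · rw [← Finset.univ_inter (ln l), ← htop, hint, hint, inf_assoc, ← AddMonoidHom.ker_prod]
    refine card_planePts p _ (plane_inf_ker_ne_bot _ _ ?_)
    rw [Nat.card_prod, AddSubgroup.card_top, Nat.card_fun, Nat.card_fin]
    nlinarith
  · rw [hint]
    exact card_planePts p _ (plane_inf_ker_ne_bot _ _ hU)
  · rw [hint]
    exact card_planePts p _ (plane_inf_ker_ne_bot _ _ hU')
  · rw [Finset.disjoint_left]
    intro x hx hx'
    obtain ⟨u, hu, h0, rfl⟩ := mem_planePts.1 hx
    obtain ⟨u', hu', h0', h⟩ := mem_planePts.1 hx'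
    obtain ⟨a, rfl⟩ := (mk_eq_mk_iff' F u' u h0' h0).1 h
    exact h0' (hd u hu a hu')

/-- Recipe.  `F = GaloisField p 4`, `E = GaloisField p 12`, `K = GaloisField p 6`
(`FiniteField.nonempty_algHom_of_finrank_dvd` gives `F →ₐ E`, `K →ₐ E`; make `E` an `F`-algebra,
`finrank F E = 3`, choose `e : E ≃ₗ[F] (Fin 3 → F)`).  Since `(p^4-1)(p^6-1) < p^12-1` there is
`c ≠ 0` in `E` not of the form `λ u` (`λ ∈ F`, `u ∈ K`).  `U = e(K)`, `U' = e(c K)` are additive
subgroups with `p^6 > |F|` elements and `λ • u = u'` forces `u' = 0`.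
`P = L = ℙ F (Fin 3 → F)` (Mathlib `Configuration.ProjectivePlane` instance, `order = p^4` from
`card_points` and `Projectivization.card_of_finrank`), `Q = p^4+1`,
`B = {[u] | u ∈ U, u ≠ 0}`, `B'` likewise.  For a nonzero additive subgroup `W` of `Fin 3 → F` the
number of points `[w]` is `1 mod p`: `|W| - 1 = ∑_{points x} (|W ∩ x| - 1)` and every `|W ∩ x|`,
`|W|` is a nontrivial power of `p`.  Apply to `W = U` and to `W = U ∩ ker (v ⬝ᵥ ·)`, which is nonzero
because `|U| > |F|`. -/
theorem exists_plane (p : ℕ) [Fact p.Prime] :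
    ∃ (P L : Type) (_ : Fintype P) (_ : Fintype L) (_ : DecidableEq P) (ln : L → Finset P) (Q : ℕ)
      (B B' : Finset P), IsPlane p ln Q B B' := by
  classical
  have hp : 2 ≤ p := (Fact.out : p.Prime).two_le
  obtain ⟨φ⟩ := FiniteField.nonempty_algHom_of_finrank_dvd (F := ZMod p) (K := GaloisField p 4)
    (L := GaloisField p 12) (by
      rw [GaloisField.finrank p (by norm_num), GaloisField.finrank p (by norm_num)]; norm_num)
  obtain ⟨ψ⟩ := FiniteField.nonempty_algHom_of_finrank_dvd (F := ZMod p) (K := GaloisField p 6)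
    (L := GaloisField p 12) (by
      rw [GaloisField.finrank p (by norm_num), GaloisField.finrank p (by norm_num)]; norm_num)
  have c4 := GaloisField.card p 4 (by norm_num)
  have c6 := GaloisField.card p 6 (by norm_num)
  have c12 := GaloisField.card p 12 (by norm_num)
  let _ : Algebra (GaloisField p 4) (GaloisField p 12) := φ.toRingHom.toAlgebra
  have hfr : Module.finrank (GaloisField p 4) (GaloisField p 12) = 3 := by
    have := Module.natCard_eq_pow_finrank (K := GaloisField p 4) (V := GaloisField p 12)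
    rw [c4, c12, ← pow_mul] at this
    have := Nat.pow_right_injective hp this
    omega
  let e : GaloisField p 12 ≃ₗ[GaloisField p 4] (Fin 3 → GaloisField p 4) :=
    LinearEquiv.ofFinrankEq _ _ (by simp [hfr])
  obtain ⟨c, hc⟩ : ∃ c : GaloisField p 12, ∀ a u, φ a * ψ u ≠ c := by
    by_contra h
    push Not at h
    have h1 := Nat.card_le_card_of_surjective
      (fun x : GaloisField p 4 × GaloisField p 6 => φ x.1 * ψ x.2) (fun c => by
        obtain ⟨a, u, h⟩ := h c
        exact ⟨(a, u), h⟩)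
    rw [Nat.card_prod, c4, c6, c12, ← pow_add] at h1
    have := (Nat.pow_le_pow_iff_right (by omega)).1 h1
    omega
  have hc0 : c ≠ 0 := fun h => hc 0 0 (by simp [h])
  let g : GaloisField p 12 → GaloisField p 6 →+ (Fin 3 → GaloisField p 4) := fun d =>
    e.toAddEquiv.toAddMonoidHom.comp ((AddMonoidHom.mulLeft d).comp ψ.toRingHom.toAddMonoidHom)
  have hg : ∀ d u, g d u = e (d * ψ u) := fun _ _ => rfl
  have hcard : ∀ d, d ≠ 0 → Nat.card (GaloisField p 4) < Nat.card (g d).range := by
    intro d hd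
    have hi : Function.Injective (g d) := fun u v h => by
      rw [hg, hg] at h
      exact ψ.toRingHom.injective (mul_left_cancel₀ hd (e.injective h))
    rw [← Nat.card_congr (AddMonoidHom.ofInjective hi).toEquiv, c4, c6]
    exact Nat.pow_lt_pow_right (by omega) (by norm_num)
  refine plane_of_subgroups p (GaloisField p 4) ?_ (g 1).range (g c).range (hcard 1 one_ne_zero)
    (hcard c hc0) ?_
  · rw [c4]
    calc 10 ≤ 2 ^ 4 := by norm_num
      _ ≤ p ^ 4 := Nat.pow_le_pow_left hp 4
  · rintro _ ⟨u, rfl⟩ a ⟨v, hv⟩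
    rw [hg, hg, ← map_smul, e.injective.eq_iff, one_mul, Algebra.smul_def] at hv
    by_cases hv0 : v = 0
    · rw [hg, ← map_smul, one_mul, Algebra.smul_def, ← hv, hv0]; simp
    · exfalso
      refine hc a (u / v) ?_
      have : ψ v ≠ 0 := (map_ne_zero ψ).2 hv0
      rw [map_div₀, ← mul_div_assoc, div_eq_iff this]
      exact hv.symm

end Crest.Agent.R177
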