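import Crest.Agent.R177.Alg
import Crest.Agent.R177.Plane
import Crest.Agent.R177.CExt

/-!
# Rows 177/184/199: assembly of the design, the random model and the local-to-global theorem
-/

set_option autoImplicit false

namespace Crest.Agent.R177

open Crest.Agent.Lib.CW2 Finset

section Pull

variable {V A E : Type} {Γ Γ' : LGraph V A E} (π : V → V)

theorem LGraph.Folded.pull (hs : ∀ e, Γ'.src e = π (Γ.src e)) (ht : ∀ e, Γ'.tgt e = π (Γ.tgt e))
    (hl : ∀ e, Γ'.lab e = Γ.lab e) (h : Γ'.Folded) : Γ.Folded :=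
  ⟨fun e e' h1 h2 => h.1 e e' (by rw [hs, hs, h1]) (by rw [hl, hl, h2]),
    fun e e' h1 h2 => h.2 e e' (by rw [ht, ht, h1]) (by rw [hl, hl, h2])⟩

theorem LGraph.head_tail_pull (hs : ∀ e, Γ'.src e = π (Γ.src e))
    (ht : ∀ e, Γ'.tgt e = π (Γ.tgt e)) {o o' : E × Bool} (h : Γ.head o = Γ.tail o') :
    Γ'.head o = Γ'.tail o' := by
  have h1 : Γ'.head o = π (Γ.head o) := by
    unfold LGraph.head; split_ifs <;> simp [hs, ht]
  have h2 : Γ'.tail o' = π (Γ.tail o') := by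
    unfold LGraph.tail; split_ifs <;> simp [hs, ht]
  rw [h1, h2, h]

theorem LGraph.Girth.pull (hs : ∀ e, Γ'.src e = π (Γ.src e)) (ht : ∀ e, Γ'.tgt e = π (Γ.tgt e))
    {g : ℕ} (h : Γ'.Girth g) : Γ.Girth g := fun n f hn h1 h2 =>
  h n f hn (fun i hi => ⟨LGraph.head_tail_pull π hs ht (h1 i hi).1, (h1 i hi).2⟩)
    (LGraph.head_tail_pull π hs ht h2)

theorem LGraph.LocalOK.pull (hs : ∀ e, Γ'.src e = π (Γ.src e)) (ht : ∀ e, Γ'.tgt e = π (Γ.tgt e))
    (hl : ∀ e, Γ'.lab e = Γ.lab e) {N J k Λ : ℕ} (h : Γ'.LocalOK N J k Λ) :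
    Γ.LocalOK N J k Λ := by
  intro Y _ C hN hJ
  let C' : Γ'.Conf Y :=
    { ed := C.ed
      succ := C.succ
      gl := C.gl
      succ_inj := C.succ_inj
      succ_cont := fun y y' e =>
        ⟨LGraph.head_tail_pull π hs ht (C.succ_cont y y' e).1, (C.succ_cont y y' e).2⟩
      gl_symm := C.gl_symm
      gl_lab := fun y y' e => by rw [hl, hl]; exact C.gl_lab y y' e }
  exact h Y C' hN hJ

end Pull

/-- The group `G` of the graph is aspherical with a linear isoperimetric inequality and maps to a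
finitely generated group `H` with a central involution `z`; in both group algebras the identities
hold. -/
theorem exists_pair (hG : GlobalStmt) (hL : GoodLocal) (p : ℕ) [Fact p.Prime] :
    (∃ (G : Type) (_ : Group G) (S T : Type) (_ : Finite S) (_ : Finite T) (P : TriPres G S T)
      (z : G), Function.Injective P.toTriData.bd ∧ (∃ C, LinIso P.toTriData C) ∧ z ≠ 1 ∧
      ∃ a w b b' : MonoidAlgebra (ZMod p) G, a * b = 1 ∧ a * b' = 1 ∧
        w * b = MonoidAlgebra.of (ZMod p) G z ∧ w * b' = 1) ∧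
    ∃ (H : Type) (_ : Group H) (z : H), Group.FG H ∧ z ≠ 1 ∧ z * z = 1 ∧ (∀ g, z * g = g * z) ∧
      ∃ a w b b' : MonoidAlgebra (ZMod p) H, a * b = 1 ∧ a * b' = 1 ∧
        w * b = MonoidAlgebra.of (ZMod p) H z ∧ w * b' = 1 := by
  classical
  obtain ⟨P, L, _, _, _, ln, Q, B, B', hP⟩ := exists_plane p
  obtain ⟨ρ, hρ⟩ := exists_rho hP
  obtain ⟨k, Λ, hk, hΛ, h⟩ := hL P Srt Q 6 (rhoPairs ρ) hP.two_le
    ((card_rhoPairs hρ).trans_lt hP.cardP)
  obtain ⟨g, M, hg, -, -, h⟩ := h (1000 * k * Λ) (100000 * k * Λ) 3 1 one_pos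
  obtain ⟨idx, hidx, hsur⟩ := exists_idx (col ln B B' M)
  obtain ⟨σ, hσ, hF, hGi, hLoc⟩ := h _ _ _ _ _ _ (frame_grG hP hρ idx hidx)
  have hσ' : ∀ d, col ln B B' M (σ d) = col ln B B' M d := fun d => Prod.ext (hσ d).1 (hσ d).2
  let Γ := ((gr ln B B' ρ M idx).rewire σ).toL
  let Γ' := ((grG ln B B' ρ M idx).rewire σ).toL
  let π : MV L M ⊕ AV ln B B' M → MV L M ⊕ AV ln B B' M := Sum.map (glue M) id
  have hs : ∀ e, Γ'.src e = π (Γ.src e) := fun _ => rfl
  have ht : ∀ e, Γ'.tgt e = π (Γ.tgt e) := fun _ => rfl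
  have hl : ∀ e, Γ'.lab e = Γ.lab e := fun _ => rfl
  obtain ⟨hinj', -⟩ := hG _ _ _ Γ' g k Λ hg hk hΛ hF hGi hLoc
  obtain ⟨hinj, hiso⟩ := hG _ _ _ Γ g k Λ hg hk hΛ (hF.pull π hs ht hl) (hGi.pull π hs ht)
    (hLoc.pull π hs ht hl)
  obtain ⟨H, _, f, z, hfg, hz, hzz, hc, hf⟩ := exists_centralExt Γ'.pres hinj'
    fun d => decide (d.1.1 = .inr .x2)
  let f' : (MV L M ⊕ AV ln B B' M) ⊕ P → H := fun s =>
    if s = .inl (.inl (.inr .x2)) then f (.inl (.inl (.inr .x1))) * z else f s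
  have hf' : ∀ t, f' (Γ.pres.d01 t) * f' (Γ.pres.d12 t) = f' (Γ.pres.d02 t) := by
    intro t
    have h1 := hf t
    have e1 : Γ'.pres.d01 t = .inl (.inl (glue M t.1.1)) := rfl
    have e2 : Γ.pres.d01 t = .inl (.inl t.1.1) := rfl
    have e3 : f' (Γ.pres.d12 t) = f (Γ'.pres.d12 t) := if_neg (by simp [LGraph.pres,
      TriPres.presented])
    have e4 : f' (Γ.pres.d02 t) = f (Γ'.pres.d02 t) := if_neg (by simp [LGraph.pres,
      TriPres.presented, Γ, BGraph.toL])
    rw [e3, e4, e2]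
    rw [e1] at h1
    by_cases ht : t.1.1 = .inr .x2
    · simp only [ht, decide_true, if_true, glue] at h1
      simp only [f', ht, if_true]
      rw [mul_assoc, hc, ← mul_assoc, h1, mul_assoc, hzz, mul_one]
    · have e5 : glue M t.1.1 = t.1.1 := by
        generalize t.1.1 = u at ht
        rcases u with u | s
        · rfl
        · cases s <;> first | rfl | exact absurd rfl ht
      simp only [ht, decide_false, Bool.false_eq_true, if_false, mul_one, e5] at h1
      simp only [f', Sum.inl.injEq, ht, if_false]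
      exact h1
  have hz' : (f' (.inl (.inl (.inr .x1))))⁻¹ * f' (.inl (.inl (.inr .x2))) = z := by simp [f']
  obtain ⟨φ, hφ⟩ := Γ.pres.lift H f' hf'
  refine ⟨⟨Γ.Grp, inferInstance, _, _, inferInstance, inferInstance, Γ.pres,
    (Γ.pres.of (.inl (.inl (.inr .x1))))⁻¹ * Γ.pres.of (.inl (.inl (.inr .x2))), hinj, hiso,
    fun e => hz ?_, exists_alg hP hρ hidx hsur σ hσ' (fun u => Γ.pres.of (.inl (.inl u)))
      (fun w => Γ.pres.of (.inl (.inr w))) (fun h => Γ.pres.of (.inr h)) fun d => Γ.pres.rel d⟩,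
    H, inferInstance, z, hfg, hz, hzz, hc, ?_⟩
  · rw [← hz', ← hφ, ← hφ, ← map_inv, ← map_mul, e, map_one]
  · rw [← hz']
    exact exists_alg hP hρ hidx hsur σ hσ' (fun u => f' (.inl (.inl u)))
      (fun w => f' (.inl (.inr w))) (fun h => f' (.inr h)) fun d => hf' d

theorem not_directlyFinite {k G : Type} [CommRing k] [Nontrivial k] [Group G] {z : G} (hz : z ≠ 1)
    {a w b b' : MonoidAlgebra k G} (h2 : a * b' = 1) (h1 : a * b = 1)
    (h3 : w * b = MonoidAlgebra.of k G z) (h4 : w * b' = 1) : b * a ≠ 1 := by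
  intro h
  have e : b' = b := by rw [← one_mul b', ← h, mul_assoc, h2, ← h1, ← mul_assoc, h, one_mul]
  rw [e, h3, ← map_one (MonoidAlgebra.of k G)] at h4
  exact hz (MonoidAlgebra.of_injective h4)

/-- The torsion-free counterexample to direct finiteness in characteristic `p`. -/
theorem exists_core (hG : GlobalStmt) (hL : GoodLocal) (p : ℕ) [Fact p.Prime] :
    ∃ (G : Type) (_ : Group G) (S T : Type) (_ : Finite S) (_ : Finite T) (P : TriPres G S T),
      Function.Injective P.toTriData.bd ∧ (∃ C, LinIso P.toTriData C) ∧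
      ∃ a b : MonoidAlgebra (ZMod p) G, a * b = 1 ∧ b * a ≠ 1 := by
  obtain ⟨⟨G, _, S, T, _, _, P, z, h1, h2, hz, a, w, b, b', e1, e2, e3, e4⟩, -⟩ :=
    exists_pair hG hL p
  exact ⟨G, _, S, T, inferInstance, inferInstance, P, h1, h2, a, b, e1,
    not_directlyFinite hz e2 e1 e3 e4⟩

end Crest.Agent.R177
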