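import Crest.Agent.R177.RMap

/-!
# Derivations: soundness and completeness

* `Der.sound`: induction on the derivation (`pathChain g (L₁ ++ L₂) = pathChain g L₁ + pathChain (g * wordProd L₁) L₂`).
* `Der` is invariant under `FreeGroup.mk L = FreeGroup.mk L'` (`FreeGroup.Red.exact`, `FreeGroup.Red.Step`).
* The pairs `(FreeGroup.mk L, c)` with `Der P L c` form a subgroup `H` of
  `FreeGroup S × Multiplicative (G × T →₀ ℤ)`: it is enough to show that the subgroup generated by the pairs
  `(u r_t u⁻¹, single (ū, t) 1)` consists of derivable pairs (`Subgroup.closure_toSubmonoid`, induction on the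
  right: append `u u⁻¹` by invariance, insert the relator or its inverse in the middle with `pos`/`neg`).
* `exists_der`: the kernel `N` of `φ = FreeGroup.lift of` is the projection of `H` (the projection is normal; use
  `P.lift` with the quotient of the free group by it).
* `der_nil_of_bd`: let `s : G → FreeGroup S` be a section of `φ`, `Φ : (G × S →₀ ℤ) → Additive (Abelianization N)`,
  `(g, x) ↦ [s g * x * (s (g x))⁻¹]`.  Then `Φ (bdT (g,t)) = [s g * r_t * (s g)⁻¹]`.  So for every `c` there is
  `n ∈ N` with `(n, c) ∈ H` and `[n] = Φ (bd c)`; and `(n, 0) ∈ H` for `n ∈ commutator N`.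
-/

set_option autoImplicit false

namespace Crest.Agent.R177

open Crest.Agent.Lib.CW2

variable {G : Type} [Group G] {S T : Type}

theorem der_wordProd_nil (P : TriData G S T) : wordProd P [] = 1 := by simp [wordProd]

theorem der_wordProd_cons (P : TriData G S T) (x : S × Bool) (L : List (S × Bool)) :
    wordProd P (x :: L) = letter P x * wordProd P L := by simp [wordProd]

theorem der_wordProd_append (P : TriData G S T) (L₁ L₂ : List (S × Bool)) :
    wordProd P (L₁ ++ L₂) = wordProd P L₁ * wordProd P L₂ := by simp [wordProd]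

theorem der_pathChain_append (P : TriData G S T) (L₁ L₂ : List (S × Bool)) (g : G) :
    pathChain P g (L₁ ++ L₂) = pathChain P g L₁ + pathChain P (g * wordProd P L₁) L₂ := by
  induction L₁ generalizing g with
  | nil => simp [pathChain, wordProd]
  | cons x L ih =>
    rw [List.cons_append, pathChain, pathChain, ih, der_wordProd_cons, mul_assoc, add_assoc]

theorem der_mid {P : TriData G S T} (L₁ M L₂ : List (S × Bool)) (hM : wordProd P M = 1) :
    wordProd P (L₁ ++ (M ++ L₂)) = wordProd P (L₁ ++ L₂) ∧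
      pathChain P 1 (L₁ ++ (M ++ L₂)) =
        pathChain P 1 (L₁ ++ L₂) + pathChain P (wordProd P L₁) M := by
  refine ⟨?_, ?_⟩
  · simp only [der_wordProd_append, hM, one_mul]
  · simp only [der_pathChain_append, hM, one_mul, mul_one]
    abel

theorem der_cancel (P : TriData G S T) (x : S) (b : Bool) (g : G) :
    wordProd P [(x, b), (x, !b)] = 1 ∧ pathChain P g [(x, b), (x, !b)] = 0 := by
  cases b <;> simp [wordProd, letter, pathChain, stepChain]

theorem der_posw (P : TriData G S T) (t : T) (g : G) :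
    wordProd P [(P.d01 t, true), (P.d12 t, true), (P.d02 t, false)] = 1 ∧
      pathChain P g [(P.d01 t, true), (P.d12 t, true), (P.d02 t, false)] = P.bdT (g, t) := by
  have h := P.rel t
  refine ⟨?_, ?_⟩
  · simp [wordProd, letter, ← h]
  · simp only [pathChain, stepChain, letter, TriData.bdT, ← h, if_true, Bool.false_eq_true,
      if_false, add_zero]
    have : g * P.of (P.d01 t) * P.of (P.d12 t) * (P.of (P.d01 t) * P.of (P.d12 t))⁻¹ = g := by
      group
    rw [this]
    abel

theorem der_negw (P : TriData G S T) (t : T) (g : G) :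
    wordProd P [(P.d02 t, true), (P.d12 t, false), (P.d01 t, false)] = 1 ∧
      pathChain P g [(P.d02 t, true), (P.d12 t, false), (P.d01 t, false)] = -P.bdT (g, t) := by
  have h := P.rel t
  refine ⟨?_, ?_⟩
  · simp [wordProd, letter, ← h]
  · simp only [pathChain, stepChain, letter, TriData.bdT, ← h, if_true, Bool.false_eq_true,
      if_false, add_zero]
    have e1 : g * (P.of (P.d01 t) * P.of (P.d12 t)) * (P.of (P.d12 t))⁻¹ = g * P.of (P.d01 t) := by
      group
    have e2 : g * P.of (P.d01 t) * (P.of (P.d01 t))⁻¹ = g := by group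
    rw [e1, e2]
    abel

theorem Der.sound {P : TriData G S T} {L : List (S × Bool)} {c : G × T →₀ ℤ} (h : Der P L c) :
    wordProd P L = 1 ∧ P.bd c = pathChain P 1 L := by
  induction h with
  | nil => exact ⟨der_wordProd_nil P, by simp [pathChain]⟩
  | ins L₁ L₂ x b c _ ih =>
    have := der_mid L₁ [(x, b), (x, !b)] L₂ (der_cancel P x b 1).1
    rw [(der_cancel P x b _).2, add_zero] at this
    exact ⟨this.1.trans ih.1, ih.2.trans this.2.symm⟩
  | del L₁ L₂ x b c _ ih =>
    have := der_mid L₁ [(x, b), (x, !b)] L₂ (der_cancel P x b 1).1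
    rw [(der_cancel P x b _).2, add_zero] at this
    exact ⟨this.1.symm.trans ih.1, ih.2.trans this.2⟩
  | pos L₁ L₂ t c _ ih =>
    have := der_mid L₁ _ L₂ (der_posw P t 1).1
    rw [(der_posw P t _).2] at this
    refine ⟨this.1.trans ih.1, ?_⟩
    rw [map_add, ih.2, TriData.bd_single, one_smul]
    exact this.2.symm
  | neg L₁ L₂ t c _ ih =>
    have := der_mid L₁ _ L₂ (der_negw P t 1).1
    rw [(der_negw P t _).2] at this
    refine ⟨this.1.trans ih.1, ?_⟩
    rw [map_sub, ih.2, TriData.bd_single, one_smul, sub_eq_add_neg]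
    exact this.2.symm

theorem Der.of_red {P : TriData G S T} {L L' : List (S × Bool)} (h : FreeGroup.Red L L')
    (c : G × T →₀ ℤ) : Der P L c ↔ Der P L' c := by
  induction h with
  | refl => exact Iff.rfl
  | tail _ hs ih =>
    refine ih.trans ?_
    cases hs with
    | not => exact ⟨Der.del _ _ _ _ _, Der.ins _ _ _ _ _⟩

theorem Der.of_mk {P : TriData G S T} {L L' : List (S × Bool)}
    (h : FreeGroup.mk L = FreeGroup.mk L') {c : G × T →₀ ℤ} (hd : Der P L c) : Der P L' c := by
  obtain ⟨M, h₁, h₂⟩ := FreeGroup.Red.exact.1 h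
  exact (Der.of_red h₂ c).2 ((Der.of_red h₁ c).1 hd)

theorem Der.append {P : TriData G S T} {L L' : List (S × Bool)} {c c' : G × T →₀ ℤ}
    (h : Der P L c) (h' : Der P L' c') : Der P (L ++ L') (c + c') := by
  have hL := h.sound.1
  induction h' with
  | nil => simpa using h
  | ins L₁ L₂ x b c' _ ih =>
    rw [← List.append_assoc] at ih ⊢
    exact Der.ins _ _ _ _ _ ih
  | del L₁ L₂ x b c' _ ih =>
    rw [← List.append_assoc] at ih ⊢
    exact Der.del _ _ _ _ _ ih
  | pos L₁ L₂ t c' _ ih =>
    rw [← List.append_assoc] at ih ⊢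
    have := Der.pos _ _ t _ ih
    rwa [der_wordProd_append, hL, one_mul, add_assoc] at this
  | neg L₁ L₂ t c' _ ih =>
    rw [← List.append_assoc] at ih ⊢
    have := Der.neg _ _ t _ ih
    rwa [der_wordProd_append, hL, one_mul, add_sub_assoc] at this

/-- the projection of the free group -/
def derφ (P : TriData G S T) : FreeGroup S →* G := FreeGroup.lift P.of

theorem derφ_mk (P : TriData G S T) (L : List (S × Bool)) :
    derφ P (FreeGroup.mk L) = wordProd P L := by
  rw [derφ, FreeGroup.lift_mk, wordProd]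
  congr 2
  funext x
  rcases x with ⟨x, b⟩
  cases b <;> simp [letter]

theorem derφ_of (P : TriData G S T) (x : S) : derφ P (FreeGroup.of x) = P.of x := by
  simp [derφ]

/-- the relator of a triangle -/
def derRel (P : TriData G S T) (t : T) : FreeGroup S :=
  FreeGroup.of (P.d01 t) * FreeGroup.of (P.d12 t) * (FreeGroup.of (P.d02 t))⁻¹

/-- the subgroup of pairs (trivial word, 2-chain) -/
noncomputable def derH (P : TriData G S T) : Subgroup (FreeGroup S × Multiplicative (G × T →₀ ℤ)) :=
  Subgroup.closure {p | ∃ (u : FreeGroup S) (t : T),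
    p = (u * derRel P t * u⁻¹, Multiplicative.ofAdd (Finsupp.single (derφ P u, t) 1))}

theorem derH_gen (P : TriData G S T) (u : FreeGroup S) (t : T) :
    (u * derRel P t * u⁻¹, Multiplicative.ofAdd (Finsupp.single (derφ P u, t) (1 : ℤ))) ∈
      derH P :=
  Subgroup.subset_closure ⟨u, t, rfl⟩

theorem der_of_mem (P : TriData G S T) {p : FreeGroup S × Multiplicative (G × T →₀ ℤ)}
    (hp : p ∈ derH P) : ∃ L, FreeGroup.mk L = p.1 ∧ Der P L p.2.toAdd := by
  have base : ∀ U : List (S × Bool), Der P (U ++ FreeGroup.invRev U) 0 := by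
    intro U
    refine Der.of_mk (L := []) ?_ Der.nil
    rw [← FreeGroup.mul_mk, ← FreeGroup.inv_mk, mul_inv_cancel]
    rfl
  induction hp using Subgroup.closure_induction'' with
  | mem p hp =>
    obtain ⟨u, t, rfl⟩ := hp
    obtain ⟨U, rfl⟩ := Quot.exists_rep u
    have := Der.pos _ _ t _ (base U)
    rw [zero_add] at this
    refine ⟨_, ?_, by
      change Der P _ (Finsupp.single (derφ P (FreeGroup.mk U), t) 1)
      rw [derφ_mk]; exact this⟩
    change _ = FreeGroup.mk U * derRel P t * (FreeGroup.mk U)⁻¹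
    have : derRel P t = FreeGroup.mk [(P.d01 t, true), (P.d12 t, true), (P.d02 t, false)] := rfl
    rw [this, FreeGroup.inv_mk, FreeGroup.mul_mk, FreeGroup.mul_mk, List.append_assoc]
    rfl
  | inv_mem p hp =>
    obtain ⟨u, t, rfl⟩ := hp
    obtain ⟨U, rfl⟩ := Quot.exists_rep u
    have := Der.neg _ _ t _ (base U)
    rw [zero_sub] at this
    refine ⟨_, ?_, by
      change Der P _ (-Finsupp.single (derφ P (FreeGroup.mk U), t) 1)
      rw [derφ_mk]; exact this⟩
    change _ = (FreeGroup.mk U * derRel P t * (FreeGroup.mk U)⁻¹)⁻¹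
    have : (derRel P t)⁻¹ =
        FreeGroup.mk [(P.d02 t, true), (P.d12 t, false), (P.d01 t, false)] := rfl
    rw [mul_inv_rev, mul_inv_rev, inv_inv, ← mul_assoc, this, FreeGroup.inv_mk, FreeGroup.mul_mk,
      FreeGroup.mul_mk, List.append_assoc]
    rfl
  | one => exact ⟨[], rfl, Der.nil⟩
  | mul p q _ _ ihp ihq =>
    obtain ⟨L, hL, hd⟩ := ihp
    obtain ⟨L', hL', hd'⟩ := ihq
    exact ⟨L ++ L', by rw [← FreeGroup.mul_mk, hL, hL']; rfl, hd.append hd'⟩

theorem der_exists_mem (P : TriPres G S T) {w : FreeGroup S} (h : derφ P.toTriData w = 1) :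
    ∃ c, (w, c) ∈ derH P.toTriData := by
  obtain ⟨ψ, hψ⟩ := P.lift (PresentedGroup (triRels P.d01 P.d12 P.d02)) PresentedGroup.of
    (TriPres.presented P.d01 P.d12 P.d02).rel
  have hc : ψ.comp (derφ P.toTriData) = PresentedGroup.mk (triRels P.d01 P.d12 P.d02) := by
    ext x
    rw [MonoidHom.comp_apply, derφ_of, hψ]
    rfl
  have h1 : PresentedGroup.mk (triRels P.d01 P.d12 P.d02) w = 1 := by
    rw [← hc, MonoidHom.comp_apply, h, map_one]
  rw [PresentedGroup.mk_eq_one_iff] at h1
  have hle : Subgroup.normalClosure (triRels P.d01 P.d12 P.d02) ≤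
      (derH P.toTriData).map (MonoidHom.fst _ _) := by
    rw [Subgroup.normalClosure, Subgroup.closure_le]
    intro x hx
    obtain ⟨r, ⟨t, rfl⟩, hr⟩ := Group.mem_conjugatesOfSet_iff.1 hx
    obtain ⟨u, rfl⟩ := isConj_iff.1 hr
    exact ⟨_, derH_gen P.toTriData u t, rfl⟩
  obtain ⟨⟨w', c⟩, hp, rfl⟩ := hle h1
  exact ⟨c, hp⟩

theorem exists_der (P : TriPres G S T) {L : List (S × Bool)} (h : wordProd P.toTriData L = 1) :
    ∃ c, Der P.toTriData L c := by
  obtain ⟨c, hc⟩ := der_exists_mem P (w := FreeGroup.mk L) (by rw [derφ_mk, h])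
  obtain ⟨L', hL', hd⟩ := der_of_mem _ hc
  exact ⟨_, hd.of_mk hL'⟩

theorem derφ_surjective (P : TriPres G S T) : Function.Surjective (derφ P.toTriData) := by
  rw [← MonoidHom.range_eq_top, derφ, FreeGroup.range_lift_eq_closure, P.gen]

theorem der_nil_of_bd (P : TriPres G S T) {c : G × T →₀ ℤ} (h : P.toTriData.bd c = 0) :
    Der P.toTriData [] c := by
  let N := (derφ P.toTriData).ker
  let s : G → FreeGroup S := Function.surjInv (derφ_surjective P)
  have hs : ∀ g, derφ P.toTriData (s g) = g := Function.surjInv_eq _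
  let e : G × S → N := fun p =>
    ⟨s p.1 * FreeGroup.of p.2 * (s (p.1 * P.of p.2))⁻¹, by
      rw [MonoidHom.mem_ker, map_mul, map_mul, map_inv, hs, hs, derφ_of, mul_inv_cancel]⟩
  let Φ : (G × S →₀ ℤ) →ₗ[ℤ] Additive (Abelianization N) :=
    Finsupp.linearCombination ℤ fun p => Additive.ofMul (Abelianization.of (e p))
  have hrel : ∀ t, derφ P.toTriData (derRel P.toTriData t) = 1 := by
    intro t
    rw [derRel, map_mul, map_mul, map_inv, derφ_of, derφ_of, derφ_of, P.rel, mul_inv_cancel]
  let r : G × T → N := fun p =>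
    ⟨s p.1 * derRel P.toTriData p.2 * (s p.1)⁻¹, by
      rw [MonoidHom.mem_ker, map_mul, map_mul, hrel, map_inv, mul_one, mul_inv_cancel]⟩
  have hΦ : ∀ p : G × T, Φ (P.toTriData.bdT p) = Additive.ofMul (Abelianization.of (r p)) := by
    rintro ⟨g, t⟩
    simp only [TriData.bdT, map_sub, map_add, Φ, Finsupp.linearCombination_single, one_smul]
    rw [← ofMul_mul, ← ofMul_div, ← map_mul, ← map_div]
    congr 2
    apply Subtype.ext
    simp only [e, r, div_eq_mul_inv, Subgroup.coe_mul, Subgroup.coe_inv, derRel]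
    rw [mul_assoc g, P.rel]
    group
  have key : ∀ c : G × T →₀ ℤ, ∃ n : N, ((n : FreeGroup S), Multiplicative.ofAdd c) ∈
      derH P.toTriData ∧ Additive.ofMul (Abelianization.of n) = Φ (P.toTriData.bd c) := by
    intro c
    induction c using Finsupp.induction_linear with
    | zero => exact ⟨1, (derH P.toTriData).one_mem, by simp⟩
    | add c c' ih ih' =>
      obtain ⟨n, hn, hn'⟩ := ih
      obtain ⟨m, hm, hm'⟩ := ih'
      exact ⟨n * m, (derH P.toTriData).mul_mem hn hm, by
        rw [map_mul, ofMul_mul, hn', hm', map_add, map_add]⟩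
    | single p k =>
      refine ⟨r p ^ k, ?_, ?_⟩
      · have h1 := derH_gen P.toTriData (s p.1) p.2
        rw [hs] at h1
        have h2 := (derH P.toTriData).zpow_mem h1 k
        convert h2 using 1
        refine Prod.ext rfl ?_
        change Multiplicative.ofAdd (Finsupp.single p k) =
          Multiplicative.ofAdd (Finsupp.single p (1 : ℤ)) ^ k
        rw [← ofAdd_zsmul, Finsupp.smul_single, smul_eq_mul, mul_one]
      · rw [TriData.bd_single, map_smul, hΦ, map_zpow, ofMul_zpow]
  have comm : commutator N ≤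
      (derH P.toTriData).comap ((MonoidHom.inl _ _).comp N.subtype) := by
    rw [commutator_def, Subgroup.commutator_le]
    intro a _ b _
    obtain ⟨ca, ha⟩ := der_exists_mem P a.2
    obtain ⟨cb, hb⟩ := der_exists_mem P b.2
    have := (derH P.toTriData).mul_mem ((derH P.toTriData).mul_mem
      ((derH P.toTriData).mul_mem ha hb) ((derH P.toTriData).inv_mem ha))
      ((derH P.toTriData).inv_mem hb)
    rw [Subgroup.mem_comap]
    convert this using 1
    refine Prod.ext rfl ?_
    change (1 : Multiplicative (G × T →₀ ℤ)) = ca * cb * ca⁻¹ * cb⁻¹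
    rw [mul_right_comm ca cb, mul_inv_cancel, one_mul, mul_inv_cancel]
  obtain ⟨n, hn, hn'⟩ := key c
  rw [h, map_zero] at hn'
  have hn1 : n ∈ commutator N := by
    rw [← Abelianization.ker_of, MonoidHom.mem_ker]
    exact hn'
  have h3 := (derH P.toTriData).mul_mem ((derH P.toTriData).inv_mem (comm hn1)) hn
  obtain ⟨L, hL, hd⟩ := der_of_mem _ h3
  have hL' : FreeGroup.mk L = FreeGroup.mk [] := by
    rw [hL]
    change (n : FreeGroup S)⁻¹ * n = 1
    exact inv_mul_cancel _
  have hd' := hd.of_mk hL'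
  convert hd' using 1
  simp

end Crest.Agent.R177
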