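import Crest.Agent.R177.PlaneDefs

/-! # The block permutation -/

set_option autoImplicit false

namespace Crest.Agent.R177

variable {P L : Type} [Fintype P] [Fintype L] [DecidableEq P]

omit [Fintype P] in
theorem perm_mem_iff_of_fix {Z : Finset P} {ρ : Equiv.Perm P} (h : ∀ x, x ∉ Z → ρ x = x) (x : P) :
    ρ x ∈ Z ↔ x ∈ Z := by
  constructor
  · intro hx
    by_contra hx'
    rw [h x hx'] at hx
    exact hx' hx
  · intro hx
    by_contra hx'
    have := ρ.injective (h _ hx')
    rw [this] at hx'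
    exact hx' hx

theorem exists_perm_on (n : ℕ) : ∀ Z : Finset P, Z.card = n → n ≠ 1 →
    ∃ ρ : Equiv.Perm P, (∀ x, x ∉ Z → ρ x = x) ∧ (∀ x ∈ Z, ρ x ≠ x) ∧
      (∀ x, ρ (ρ x) = x ∨ ρ (ρ (ρ x)) = x) ∧
      (Finset.univ.filter fun x => ρ (ρ x) ≠ x).card ≤ 3 := by
  induction n using Nat.strong_induction_on with
  | _ n ih =>
    intro Z hZ hn
    by_cases h0 : n = 0
    · refine ⟨1, fun _ _ => rfl, fun x hx => ?_, fun _ => Or.inl rfl, by simp⟩
      rw [Finset.card_eq_zero.mp (hZ.trans h0)] at hx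
      simp at hx
    by_cases h3 : n = 3
    · obtain ⟨a, b, c, hab, hac, hbc, rfl⟩ := Finset.card_eq_three.mp (hZ.trans h3)
      have hfix : ∀ x, x ∉ ({a, b, c} : Finset P) → (Equiv.swap a b * Equiv.swap b c) x = x := by
        intro x hx
        simp only [Finset.mem_insert, Finset.mem_singleton, not_or] at hx
        simp [Equiv.swap_apply_def, hx.1, hx.2.1, hx.2.2]
      have ha : (Equiv.swap a b * Equiv.swap b c) a = b := by
        simp [Equiv.swap_apply_def, hab, hac]
      have hb : (Equiv.swap a b * Equiv.swap b c) b = c := by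
        simp [Equiv.swap_apply_def, hac.symm, hbc.symm]
      have hc : (Equiv.swap a b * Equiv.swap b c) c = a := by
        simp [Equiv.swap_apply_def]
      refine ⟨Equiv.swap a b * Equiv.swap b c, hfix, fun x hx => ?_, fun x => ?_, ?_⟩
      · simp only [Finset.mem_insert, Finset.mem_singleton] at hx
        rcases hx with rfl | rfl | rfl
        · rw [ha]; exact hab.symm
        · rw [hb]; exact hbc.symm
        · rw [hc]; exact hac
      · by_cases hx : x ∈ ({a, b, c} : Finset P)
        · right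
          simp only [Finset.mem_insert, Finset.mem_singleton] at hx
          rcases hx with rfl | rfl | rfl
          · rw [ha, hb, hc]
          · rw [hb, hc, ha]
          · rw [hc, ha, hb]
        · left
          rw [hfix x hx, hfix x hx]
      · refine le_trans (Finset.card_le_card (t := {a, b, c}) fun x hx => ?_) (hZ.trans h3).le
        by_contra hx'
        exact (Finset.mem_filter.mp hx).2 (by rw [hfix x hx', hfix x hx'])
    obtain ⟨a, ha, b, hb, hab⟩ := Finset.one_lt_card.mp (show 1 < Z.card by omega)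
    have hcard : ((Z.erase a).erase b).card = n - 2 := by
      rw [Finset.card_erase_of_mem (Finset.mem_erase.mpr ⟨hab.symm, hb⟩),
        Finset.card_erase_of_mem ha]
      omega
    obtain ⟨ρ, h1, h2, h4, h5⟩ := ih (n - 2) (by omega) _ hcard (by omega)
    have hρa : ρ a = a := h1 a (by simp)
    have hρb : ρ b = b := h1 b (by simp)
    have hoth : ∀ x, x ≠ a → x ≠ b → (Equiv.swap a b * ρ) x = ρ x ∧ ρ x ≠ a ∧ ρ x ≠ b := by
      intro x hxa hxb
      have e1 : ρ x ≠ a := fun h => hxa (ρ.injective (h.trans hρa.symm))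
      have e2 : ρ x ≠ b := fun h => hxb (ρ.injective (h.trans hρb.symm))
      exact ⟨by simp [Equiv.swap_apply_def, e1, e2], e1, e2⟩
    have hσa : (Equiv.swap a b * ρ) a = b := by simp [hρa]
    have hσb : (Equiv.swap a b * ρ) b = a := by simp [hρb]
    refine ⟨Equiv.swap a b * ρ, fun x hx => ?_, fun x hx => ?_, fun x => ?_, ?_⟩
    · have hxa : x ≠ a := fun h => hx (h ▸ ha)
      have hxb : x ≠ b := fun h => hx (h ▸ hb)
      rw [(hoth x hxa hxb).1]
      exact h1 x fun h => hx (Finset.mem_of_mem_erase (Finset.mem_of_mem_erase h))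
    · by_cases hxa : x = a
      · rw [hxa, hσa]; exact hab.symm
      by_cases hxb : x = b
      · rw [hxb, hσb]; exact hab
      rw [(hoth x hxa hxb).1]
      exact h2 x (by simp [hx, hxa, hxb])
    · by_cases hxa : x = a
      · left; rw [hxa, hσa, hσb]
      by_cases hxb : x = b
      · left; rw [hxb, hσb, hσa]
      obtain ⟨e1, e2, e3⟩ := hoth x hxa hxb
      obtain ⟨e4, e5, e6⟩ := hoth _ e2 e3
      rw [e1, e4, (hoth _ e5 e6).1]
      exact h4 x
    · refine le_trans (Finset.card_le_card fun x hx => ?_) h5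
      have hx' := (Finset.mem_filter.mp hx).2
      have hxa : x ≠ a := fun h => hx' (by rw [h, hσa, hσb])
      have hxb : x ≠ b := fun h => hx' (by rw [h, hσb, hσa])
      obtain ⟨e1, e2, e3⟩ := hoth x hxa hxb
      rw [e1, (hoth _ e2 e3).1] at hx'
      exact Finset.mem_filter.mpr ⟨Finset.mem_univ _, hx'⟩

theorem IsPlane.card_ne_one {p : ℕ} [Fact p.Prime] {ln : L → Finset P} {Q : ℕ}
    {B B' : Finset P} (h : IsPlane p ln Q B B') {Z : Finset P}
    (hZ : ∀ l, ((Z ∩ ln l).card : ZMod p) ≠ 0) : Z.card ≠ 1 := by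
  intro h1
  obtain ⟨x, rfl⟩ := Finset.card_eq_one.mp h1
  have hx : ∀ l, x ∈ ln l := by
    intro l
    by_contra hx
    apply hZ l
    rw [Finset.singleton_inter_of_notMem hx]
    simp
  have hne : ∀ Y : Finset P, (Y.card : ZMod p) = 1 → Y.Nonempty := by
    intro Y hY
    rw [Finset.nonempty_iff_ne_empty]
    rintro rfl
    simp at hY
  obtain ⟨y, hy⟩ := hne B h.cardB
  obtain ⟨y', hy'⟩ := hne B' h.cardB'
  have hyy : y ≠ y' := fun e => Finset.disjoint_left.mp h.disj hy (e ▸ hy')
  obtain ⟨z, hz⟩ : ∃ z, z ≠ x := by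
    by_cases e : y = x
    · exact ⟨y', fun e' => hyy (e.trans e'.symm)⟩
    · exact ⟨y, e⟩
  have h2 := h.two z x hz
  have h3 := h.through z
  have h4 := h.two_le
  simp only [hx, and_true] at h2
  omega

/-- Recipe.  (1) A finset `Z` meeting every line has `card ≠ 1` (if `Z = {x}` all lines pass through
`x`; take a point `h ≠ x` (`B`, `B'` are nonempty and disjoint): its `Q ≥ 2` lines all contain `x`,
against `two`).  This applies to `B`, `B'` and `R = (B ∪ B')ᶜ` (`|R ∩ l| = 1 - 1 - 1 ≠ 0 mod p`, with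
`|ln l| = 1 mod p` from `meet l l`).  (2) On a finite type of cardinality `≠ 1` there is a fixed-point
free permutation with cycles of length 2 except at most one of length 3 (induction in steps of 2, or
an explicit permutation of `Fin n`).  (3) Glue the three permutations
(`Equiv.Perm.ofSubtype` / `Equiv.Perm.subtypeCongr`), or do the induction on finsets directly. -/
theorem exists_rho {p : ℕ} [Fact p.Prime] {ln : L → Finset P} {Q : ℕ} {B B' : Finset P}
    (h : IsPlane p ln Q B B') : ∃ ρ : Equiv.Perm P, IsRho B B' ρ := by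
  have hB : B.card ≠ 1 := h.card_ne_one fun l => by rw [h.meetB]; exact one_ne_zero
  have hB' : B'.card ≠ 1 := h.card_ne_one fun l => by rw [h.meetB']; exact one_ne_zero
  have hR : ((B ∪ B')ᶜ).card ≠ 1 := h.card_ne_one fun l => by
    have e1 : ((B ∪ B')ᶜ ∩ ln l).card + ((B ∩ ln l).card + (B' ∩ ln l).card) = (ln l).card := by
      rw [← Finset.card_union_of_disjoint (Finset.disjoint_of_subset_left Finset.inter_subset_left
        (Finset.disjoint_of_subset_right Finset.inter_subset_left h.disj)),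
        ← Finset.card_union_of_disjoint]
      · congr 1
        ext x
        simp only [Finset.mem_union, Finset.mem_inter, Finset.mem_compl]
        tauto
      · rw [Finset.disjoint_left]
        intro x
        simp only [Finset.mem_union, Finset.mem_inter, Finset.mem_compl]
        tauto
    have e2 := congrArg (Nat.cast : ℕ → ZMod p) e1
    have e3 := h.meet l l
    rw [Finset.inter_self] at e3
    push_cast at e2
    rw [h.meetB, h.meetB', e3] at e2
    intro e4
    rw [e4, zero_add] at e2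
    exact one_ne_zero (add_eq_left.mp e2)
  obtain ⟨ρ₁, a1, a2, a3, a4⟩ := exists_perm_on _ B rfl hB
  obtain ⟨ρ₂, b1, b2, b3, b4⟩ := exists_perm_on _ B' rfl hB'
  obtain ⟨ρ₃, c1, c2, c3, c4⟩ := exists_perm_on _ (B ∪ B')ᶜ rfl hR
  have m1 := perm_mem_iff_of_fix a1
  have m2 := perm_mem_iff_of_fix b1
  have m3 := perm_mem_iff_of_fix c1
  have hd := Finset.disjoint_left.mp h.disj
  have e1 : ∀ x ∈ B, (ρ₁ * ρ₂ * ρ₃) x = ρ₁ x := fun x hx => by
    rw [Equiv.Perm.mul_apply, Equiv.Perm.mul_apply, c1 x (by simp [hx]), b1 x (hd hx)]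
  have e2 : ∀ x ∈ B', (ρ₁ * ρ₂ * ρ₃) x = ρ₂ x := fun x hx => by
    rw [Equiv.Perm.mul_apply, Equiv.Perm.mul_apply, c1 x (by simp [hx]),
      a1 _ fun h' => hd h' ((m2 x).mpr hx)]
  have e3 : ∀ x ∈ (B ∪ B')ᶜ, (ρ₁ * ρ₂ * ρ₃) x = ρ₃ x := fun x hx => by
    have := (m3 x).mpr hx
    simp only [Finset.mem_compl, Finset.mem_union, not_or] at this
    rw [Equiv.Perm.mul_apply, Equiv.Perm.mul_apply, b1 _ this.2, a1 _ this.1]
  have tri : ∀ x, x ∈ B ∨ x ∈ B' ∨ x ∈ (B ∪ B')ᶜ := fun x => by
    simp only [Finset.mem_compl, Finset.mem_union]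
    tauto
  refine ⟨ρ₁ * ρ₂ * ρ₃, fun x => ?_, fun x => ?_, fun x => ?_, fun x => ?_, ?_⟩
  · rcases tri x with hx | hx | hx
    · rw [e1 x hx]; exact a2 x hx
    · rw [e2 x hx]; exact b2 x hx
    · rw [e3 x hx]; exact c2 x hx
  · rcases tri x with hx | hx | hx
    · rw [e1 x hx, e1 _ ((m1 x).mpr hx), e1 _ ((m1 _).mpr ((m1 x).mpr hx))]; exact a3 x
    · rw [e2 x hx, e2 _ ((m2 x).mpr hx), e2 _ ((m2 _).mpr ((m2 x).mpr hx))]; exact b3 x
    · rw [e3 x hx, e3 _ ((m3 x).mpr hx), e3 _ ((m3 _).mpr ((m3 x).mpr hx))]; exact c3 x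
  · rcases tri x with hx | hx | hx
    · rw [e1 x hx]; exact m1 x
    · rw [e2 x hx]
      exact iff_of_false (fun h' => hd h' ((m2 x).mpr hx)) fun h' => hd h' hx
    · rw [e3 x hx]
      have := (m3 x).mpr hx
      simp only [Finset.mem_compl, Finset.mem_union, not_or] at this hx
      exact iff_of_false this.1 hx.1
  · rcases tri x with hx | hx | hx
    · rw [e1 x hx]
      exact iff_of_false (hd ((m1 x).mpr hx)) (hd hx)
    · rw [e2 x hx]; exact m2 x
    · rw [e3 x hx]
      have := (m3 x).mpr hx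
      simp only [Finset.mem_compl, Finset.mem_union, not_or] at this hx
      exact iff_of_false this.2 hx.2
  · refine le_trans (Finset.card_le_card (t := (Finset.univ.filter fun x => ρ₁ (ρ₁ x) ≠ x) ∪
      (Finset.univ.filter fun x => ρ₂ (ρ₂ x) ≠ x) ∪ (Finset.univ.filter fun x => ρ₃ (ρ₃ x) ≠ x))
      fun x hx => ?_) ?_
    · have hx' := (Finset.mem_filter.mp hx).2
      simp only [Finset.mem_union, Finset.mem_filter, Finset.mem_univ, true_and]
      rcases tri x with hx | hx | hx
      · rw [e1 x hx, e1 _ ((m1 x).mpr hx)] at hx'; exact Or.inl (Or.inl hx')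
      · rw [e2 x hx, e2 _ ((m2 x).mpr hx)] at hx'; exact Or.inl (Or.inr hx')
      · rw [e3 x hx, e3 _ ((m3 x).mpr hx)] at hx'; exact Or.inr hx'
    · refine (Finset.card_union_le _ _).trans ?_
      have := Finset.card_union_le (Finset.univ.filter fun x => ρ₁ (ρ₁ x) ≠ x)
        (Finset.univ.filter fun x => ρ₂ (ρ₂ x) ≠ x)
      omega

/-- The pairs of labels allowed at an auxiliary vertex. -/
def rhoPairs (ρ : Equiv.Perm P) : Finset (P × P) :=
  Finset.univ.filter fun x => x.2 = ρ x.1 ∨ x.1 = ρ x.2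

/-- Recipe: `rhoPairs ρ ⊆ image (h ↦ (h, ρ h)) univ ∪ image (h ↦ (ρ h, h)) {h | ρ (ρ h) ≠ h}`. -/
theorem card_rhoPairs {B B' : Finset P} {ρ : Equiv.Perm P} (h : IsRho B B' ρ) :
    (rhoPairs ρ).card ≤ Fintype.card P + 9 := by
  refine le_trans (Finset.card_le_card (t := (Finset.univ.image fun x => (x, ρ x)) ∪
    ((Finset.univ.filter fun x => ρ (ρ x) ≠ x).image fun x => (ρ x, x))) fun x hx => ?_) ?_
  · obtain ⟨x, y⟩ := x
    have hx' : y = ρ x ∨ x = ρ y := (Finset.mem_filter.mp hx).2
    simp only [Finset.mem_union, Finset.mem_image, Finset.mem_filter, Finset.mem_univ, true_and,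
      Prod.mk.injEq]
    by_cases e : y = ρ x
    · exact Or.inl ⟨x, rfl, e.symm⟩
    · have e' := hx'.resolve_left e
      exact Or.inr ⟨y, fun h' => e (by rw [e', h']), e'.symm, rfl⟩
  · refine (Finset.card_union_le _ _).trans (add_le_add ?_ (Finset.card_image_le.trans h.few))
    exact Finset.card_image_le.trans (Finset.card_univ (α := P)).le

end Crest.Agent.R177
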