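import Crest.Agent.R177.LCDefs
import Crest.Agent.R177.Rho

/-!
# Rows 177/184/199: the frame built from the plane

Four graphs (`a`, `w` on the left, `b`, `b'` on the right), edges carry a sign.  Main vertices: `M`
copies of every line for each graph and sign, and six special vertices.  Auxiliary vertices are
either a whole cycle of `ρ` with a constant sign, or a pair `(h, +), (ρ h, -)`.
-/

set_option autoImplicit false
set_option linter.unusedSectionVars false

namespace Crest.Agent.R177

open Finset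

/-- special vertices -/
inductive Sp
  | xa | x1 | x2 | x3 | yb | yb'
  deriving DecidableEq

instance : Fintype Sp :=
  ⟨{Sp.xa, Sp.x1, Sp.x2, Sp.x3, Sp.yb, Sp.yb'}, fun x => by cases x <;> simp⟩

theorem card_Sp : Fintype.card Sp = 6 := rfl

/-- sorts: ((left?, index), sign) -/
abbrev Srt : Type := (Bool × Bool) × Bool

/-- main vertices -/
abbrev MV (L : Type) (M : ℕ) : Type := (Srt × L × Fin M) ⊕ Sp

theorem exists_idx {E C : Type} [Fintype E] [DecidableEq C] (col : E → C) :
    ∃ idx : E → Fin (Fintype.card E), (∀ d d', col d = col d' → idx d = idx d' → d = d') ∧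
      ∀ κ (i : Fin (Fintype.card E)), (∃ d, col d = κ ∧ idx d = i) ↔
        i.val < (univ.filter fun d => col d = κ).card := by
  classical
  let F : C → Finset E := fun κ => univ.filter fun d => col d = κ
  let ix : C → E → ℕ := fun κ d => if h : d ∈ F κ then ((F κ).equivFin ⟨d, h⟩ : ℕ) else 0
  have hmem : ∀ d, d ∈ F (col d) := fun d => by simp [F]
  have hlt : ∀ κ d, d ∈ F κ → ix κ d < (F κ).card := fun κ d h => by
    simp only [ix, dif_pos h]; exact Fin.is_lt _
  refine ⟨fun d => ⟨ix (col d) d, (hlt _ _ (hmem d)).trans_le (card_le_univ _)⟩, ?_, ?_⟩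
  · intro d d' h1 h2
    have h3 : ix (col d) d = ix (col d') d' := congrArg Fin.val h2
    have hd : d ∈ F (col d') := h1 ▸ hmem d
    rw [h1] at h3
    simp only [ix, dif_pos hd, dif_pos (hmem d')] at h3
    exact congrArg Subtype.val ((F (col d')).equivFin.injective (Fin.ext h3))
  · intro κ i
    constructor
    · rintro ⟨d, rfl, rfl⟩
      exact hlt _ _ (hmem d)
    · intro hi
      let d := (F κ).equivFin.symm ⟨i, hi⟩
      have hd : col d.1 = κ := (mem_filter.1 d.2).2
      refine ⟨d.1, hd, Fin.ext ?_⟩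
      simp only [hd, ix, dif_pos d.2]
      simp [d]

section Design

variable {P L : Type} [Fintype P] [Fintype L] [DecidableEq P]
variable (ln : L → Finset P) (B B' : Finset P) (ρ : Equiv.Perm P) (M : ℕ)

/-- types of the special vertices -/
def tySp : Sp → Finset P
  | .xa => (B ∪ B')ᶜ
  | .x1 => B
  | .x2 => B'
  | .x3 => univ
  | .yb => B
  | .yb' => B'

/-- sorts of the special vertices -/
def srtSp : Sp → Srt
  | .xa => ((true, false), true)
  | .x1 => ((true, true), true)
  | .x2 => ((true, true), true)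
  | .x3 => ((true, true), false)
  | .yb => ((false, false), true)
  | .yb' => ((false, true), true)

/-- type of a main vertex -/
def ty : MV L M → Finset P
  | .inl x => ln x.2.1
  | .inr s => tySp B B' s

/-- sort of a main vertex -/
def srtU : MV L M → Srt
  | .inl x => x.1
  | .inr s => srtSp s

/-- edges -/
abbrev Ed : Type := {x : MV L M × P // x.2 ∈ ty ln B B' M x.1}

noncomputable instance : Fintype (Ed ln B B' M) := by
  classical exact Subtype.fintype _

/-- colour of an edge -/
def col (d : Ed ln B B' M) : Srt × P := (srtU M d.1.1, d.1.2)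

/-- the auxiliary vertices of the graph `γ` through `h` are whole cycles -/
def Whole (γ : Bool × Bool) (h : P) : Prop := γ.1 = true ↔ h ∉ B ∪ B'

instance (γ : Bool × Bool) (h : P) : Decidable (Whole B B' γ h) := by
  unfold Whole; infer_instance

/-- names of the types of auxiliary vertices -/
abbrev Key (P : Type) : Type := (Srt × Finset P) ⊕ ((Bool × Bool) × P)

/-- the type of the auxiliary end of an edge of a given colour -/
def key (κ : Srt × P) : Key P :=
  if Whole B B' κ.1.1 κ.2 then .inl (κ.1, {κ.2, ρ κ.2, ρ (ρ κ.2)})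
  else .inr (κ.1.1, if κ.1.2 then κ.2 else ρ⁻¹ κ.2)

/-- the sort of a second edge at an auxiliary vertex -/
def nxt (a : Srt) (h _h' : P) : Srt := if Whole B B' a.1 h then a else (a.1, !a.2)

/-- gluing `x2` to `x1` -/
def glue : MV L M → MV L M
  | .inr .x2 => .inr .x1
  | u => u

/-- number of edges of a colour -/
noncomputable def cnt (κ : Srt × P) : ℕ := (univ.filter fun d => col ln B B' M d = κ).card

/-- number of special vertices contributing to a colour -/
def cntSp (κ : Srt × P) : ℕ := (univ.filter fun s => srtSp s = κ.1 ∧ κ.2 ∈ tySp B B' s).card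

variable {ln B B' ρ M}

theorem srtU_glue (u : MV L M) : srtU M (glue M u) = srtU M u := by
  rcases u with u | s
  · rfl
  · cases s <;> rfl

theorem cnt_eq {p Q : ℕ} (hP : IsPlane p ln Q B B') (κ : Srt × P) :
    cnt ln B B' M κ = Q * M + cntSp B B' κ := by
  classical
  have h1 : cnt ln B B' M κ =
      (univ.filter fun u : MV L M => srtU M u = κ.1 ∧ κ.2 ∈ ty ln B B' M u).card := by
    refine card_bij (fun d _ => d.1.1) ?_ ?_ ?_
    · intro d hd
      have := (mem_filter.1 hd).2
      subst this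
      exact mem_filter.2 ⟨mem_univ _, rfl, d.2⟩
    · intro d hd d' hd' h
      have e := ((mem_filter.1 hd).2).trans ((mem_filter.1 hd').2).symm
      exact Subtype.ext (Prod.ext h (congrArg (Prod.snd : Srt × P → P) e))
    · intro u hu
      obtain ⟨h1, h2⟩ := (mem_filter.1 hu).2
      exact ⟨⟨(u, κ.2), h2⟩, mem_filter.2 ⟨mem_univ _, Prod.ext h1 rfl⟩, rfl⟩
  rw [h1, card_filter, Fintype.sum_sum_type, cntSp, card_filter]
  congr 1
  rw [← hP.through κ.2, card_filter, Fintype.sum_prod_type,
    Finset.sum_eq_single κ.1 (fun a _ ha => by simp [srtU, ha]) (by simp), Fintype.sum_prod_type,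
    sum_mul]
  refine sum_congr rfl fun l _ => ?_
  by_cases h : κ.2 ∈ ln l <;> simp [srtU, ty, h]

theorem cntSp_le (κ : Srt × P) : cntSp B B' κ ≤ 6 := card_le_univ _

theorem whole_rho (hρ : IsRho B B' ρ) (γ : Bool × Bool) (h : P) :
    Whole B B' γ (ρ h) ↔ Whole B B' γ h := by
  simp only [Whole, mem_union, hρ.memB, hρ.memB']

theorem cntSp_whole (hρ : IsRho B B' ρ) (a : Srt) (h : P) :
    cntSp B B' (a, ρ h) = cntSp B B' (a, h) := by
  unfold cntSp
  congr 1
  ext s
  cases s <;> simp [tySp, hρ.memB, hρ.memB']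

theorem cntSp_pair (hd : Disjoint B B') (γ : Bool × Bool) (h : P) (hw : ¬ Whole B B' γ h) :
    cntSp B B' ((γ, false), h) = cntSp B B' ((γ, true), h) := by
  have hd' : ¬ (h ∈ B ∧ h ∈ B') := fun h' => disjoint_left.1 hd h'.1 h'.2
  unfold cntSp
  rw [card_filter, card_filter]
  have hu : (univ : Finset Sp) = {Sp.xa, Sp.x1, Sp.x2, Sp.x3, Sp.yb, Sp.yb'} := rfl
  rw [hu]
  simp only [mem_insert, mem_singleton, reduceCtorEq, or_self, not_false_eq_true, sum_insert,
    sum_singleton]
  obtain ⟨γ1, γ2⟩ := γ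
  by_cases h1 : h ∈ B <;> by_cases h2 : h ∈ B' <;> cases γ1 <;> cases γ2 <;>
    simp_all [Whole, tySp, srtSp]

theorem key_whole (hρ : IsRho B B' ρ) (a : Srt) (h : P) (hw : Whole B B' a.1 h) :
    key B B' ρ (a, ρ h) = key B B' ρ (a, h) := by
  have hw' := (whole_rho hρ a.1 h).2 hw
  simp only [key, if_pos hw, if_pos hw']
  congr 2
  rcases hρ.ord h with e | e
  · rw [e]; ext x; simp only [mem_insert, mem_singleton]; tauto
  · rw [e]; ext x; simp only [mem_insert, mem_singleton]; tauto

theorem key_pair (hρ : IsRho B B' ρ) (γ : Bool × Bool) (h : P) (hw : ¬ Whole B B' γ h) :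
    key B B' ρ ((γ, false), ρ h) = key B B' ρ ((γ, true), h) := by
  have hw' := mt (whole_rho hρ γ h).1 hw
  simp [key, hw, hw']

/-- two colours with the same key -/
theorem key_cases (hρ : IsRho B B' ρ) {a a' : Srt} {h h' : P}
    (e : key B B' ρ (a, h) = key B B' ρ (a', h')) :
    (a = a' ∧ h = h') ∨
      (h ≠ h' ∧ a' = nxt B B' a h h' ∧ (h' = ρ h ∨ h = ρ h')) := by
  obtain ⟨γ, ε⟩ := a
  obtain ⟨γ', ε'⟩ := a'
  by_cases hw : Whole B B' γ h <;> by_cases hw' : Whole B B' γ' h' <;>
    simp only [key, hw, hw', if_true, if_false, Sum.inl.injEq, Sum.inr.injEq, Prod.mk.injEq,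
      reduceCtorEq] at e
  · obtain ⟨⟨rfl, rfl⟩, e⟩ := e
    by_cases hh : h = h'
    · exact Or.inl ⟨rfl, hh⟩
    refine Or.inr ⟨hh, by simp [nxt, hw], ?_⟩
    have : h' ∈ ({h, ρ h, ρ (ρ h)} : Finset P) := by rw [e]; simp
    simp only [mem_insert, mem_singleton] at this
    rcases this with e1 | e1 | e1
    · exact absurd e1.symm hh
    · exact Or.inl e1
    · rcases hρ.ord h with e2 | e2
      · exact absurd (e1.trans e2).symm hh
      · exact Or.inr (by rw [e1, e2])
  · obtain ⟨rfl, e⟩ := e
    cases ε <;> cases ε' <;> simp only [Bool.false_eq_true, if_true, if_false] at e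
    · exact Or.inl ⟨rfl, ρ⁻¹.injective e⟩
    · have e1 : h = ρ h' := by rw [← e]; simp
      exact Or.inr ⟨fun e2 => hρ.ne h' (by rw [← e1, e2]), by simp [nxt, hw], Or.inr e1⟩
    · have e1 : h' = ρ h := by rw [e]; simp
      exact Or.inr ⟨fun e2 => hρ.ne h (by rw [← e1, e2]), by simp [nxt, hw], Or.inl e1⟩
    · exact Or.inl ⟨rfl, e⟩

variable (ln B B' ρ M)

/-- auxiliary vertices -/
abbrev AV : Type := Key P × Fin (Fintype.card (Ed ln B B' M))

/-- the graph -/
def gr (idx : Ed ln B B' M → Fin (Fintype.card (Ed ln B B' M))) :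
    BGraph (MV L M) (AV ln B B' M) (Ed ln B B' M) P :=
  ⟨fun d => d.1.1, fun d => (key B B' ρ (col ln B B' M d), idx d), fun d => d.1.2⟩

/-- the graph with `x2` glued to `x1` -/
def grG (idx : Ed ln B B' M → Fin (Fintype.card (Ed ln B B' M))) :
    BGraph (MV L M) (AV ln B B' M) (Ed ln B B' M) P :=
  ⟨fun d => glue M d.1.1, fun d => (key B B' ρ (col ln B B' M d), idx d), fun d => d.1.2⟩

variable {ln B B' ρ M}

theorem glue_inj (hd : Disjoint B B') {u u' : MV L M} {h : P} (h1 : h ∈ ty ln B B' M u)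
    (h2 : h ∈ ty ln B B' M u') (e : glue M u = glue M u') : u = u' := by
  have hd' : ¬ (h ∈ B ∧ h ∈ B') := fun h' => disjoint_left.1 hd h'.1 h'.2
  rcases u with u | s <;> rcases u' with u' | s'
  · exact e
  · cases s' <;> simp [glue] at e
  · cases s <;> simp [glue] at e
  · cases s <;> cases s' <;> simp_all [glue, ty, tySp]

theorem frame_grG {p Q : ℕ} (hP : IsPlane p ln Q B B') (hρ : IsRho B B' ρ)
    (idx : Ed ln B B' M → Fin (Fintype.card (Ed ln B B' M)))
    (hidx : ∀ d d', col ln B B' M d = col ln B B' M d' → idx d = idx d' → d = d') :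
    Frame (grG ln B B' ρ M idx) (fun d => srtU M d.1.1) (nxt B B') Q 6 M (rhoPairs ρ) := by
  classical
  have hcnt : ∀ (d : Ed ln B B' M) (i : DecidablePred fun d' : Ed ln B B' M =>
      srtU M d'.1.1 = srtU M d.1.1 ∧ (grG ln B B' ρ M idx).lab d' = (grG ln B B' ρ M idx).lab d),
      (@Finset.filter _ _ i univ).card = Q * M + cntSp B B' (col ln B B' M d) := fun d i => by
    rw [← cnt_eq hP, cnt]
    congr 1
    ext d'
    rw [@mem_filter _ _ i]
    simp [col, grG]
  have haux : ∀ d d' : Ed ln B B' M, (grG ln B B' ρ M idx).t d = (grG ln B B' ρ M idx).t d' →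
      d ≠ d' → d.1.2 ≠ d'.1.2 ∧ srtU M d'.1.1 = nxt B B' (srtU M d.1.1) d.1.2 d'.1.2 ∧
        (d'.1.2 = ρ d.1.2 ∨ d.1.2 = ρ d'.1.2) := fun d d' e hne => by
    obtain ⟨e1, e2⟩ := Prod.mk.inj e
    rcases key_cases hρ e1 with h | h
    · exact absurd (hidx d d' (Prod.ext h.1 h.2) e2) hne
    · exact h
  refine ⟨⟨fun d d' e1 e2 => ?_, fun d d' e1 e2 => ?_⟩, fun d d' e => ?_,
    fun d d' e hne => (haux d d' e hne).2.1, fun d => ?_, fun d => ?_, fun a h h' hh => ?_,
    fun d d' e hne => mem_filter.2 ⟨mem_univ _, (haux d d' e hne).2.2⟩⟩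
  · have e2' : d.1.2 = d'.1.2 := e2
    exact Subtype.ext (Prod.ext (glue_inj hP.disj d.2 (e2' ▸ d'.2) e1) e2')
  · by_contra hne
    exact (haux d d' e1 hne).1 e2
  · show srtU M d.1.1 = srtU M d'.1.1
    rw [← srtU_glue d.1.1, ← srtU_glue d'.1.1]
    exact congrArg _ e
  · rw [hcnt d]
    omega
  · have h6 := cntSp_le (B := B) (B' := B') (col ln B B' M d)
    rw [hcnt d]
    omega
  · let Ls : Finset L := univ.filter fun l => h ∈ ln l ∧ h' ∈ ln l
    let Z : Finset (MV L M) := ((Ls ×ˢ (univ : Finset (Fin M))).image fun x => Sum.inl (a, x)) ∪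
      (univ : Finset Sp).image Sum.inr
    have hZ : Z.card ≤ M + 6 := by
      refine (card_union_le _ _).trans (add_le_add (card_image_le.trans ?_) (card_image_le.trans ?_))
      · rw [card_product, card_univ, Fintype.card_fin]
        have := hP.two h h' hh
        calc Ls.card * M ≤ 1 * M := Nat.mul_le_mul_right _ this
          _ = M := one_mul _
      · exact card_Sp.le
    refine le_trans (card_le_card fun u hu => ?_) hZ
    obtain ⟨d, d', e1, e2, e3, e4, e5⟩ := (@mem_filter _ _ (_) _ _).1 hu |>.2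
    rcases u with ⟨a', l, i⟩ | s
    · have g : ∀ v : MV L M, glue M v = Sum.inl (a', l, i) → v = Sum.inl (a', l, i) := by
        rintro (v | s) e
        · exact e
        · cases s <;> simp [glue] at e
      have f1 := g _ e1
      have f2 := g _ e2
      have m1 := d.2
      have m2 := d'.2
      rw [f1] at m1
      rw [f2] at m2
      simp only [f1, srtU] at e3
      subst e3
      have e4' : d.1.2 = h := e4
      have e5' : d'.1.2 = h' := e5
      refine mem_union_left _ (mem_image.2 ⟨(l, i), mem_product.2 ⟨mem_filter.2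
        ⟨mem_univ _, e4' ▸ m1, e5' ▸ m2⟩, mem_univ _⟩, rfl⟩)
    · exact mem_union_right _ (mem_image.2 ⟨s, mem_univ _, rfl⟩)

end Design

end Crest.Agent.R177
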