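import Mathlib

/-!
# Combinatorial diagrams with a boundary cycle

Darts live in an ambient type; a diagram has a finite set of active triangles and a list of active outer darts.
`Pot ψ π` says that `π` is a potential of the group-valued cochain `ψ` (the boundary cycle starts at `1`).
Operations: wedge of two diagrams at a boundary point, and removal of a set of darts with re-matching.
-/

set_option autoImplicit false

namespace Crest.Agent.R177

/-- darts: sides of triangles and outer darts -/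
abbrev Dart (TN ON : Type) : Type := (TN × Fin 3) ⊕ ON

/-- a diagram without labels -/
structure Pre (TN ON : Type) where
  tri : Finset TN
  out : List ON
  opp : Dart TN ON → Dart TN ON

variable {TN ON : Type} {H : Type} [Group H]

/-- `π` follows `ψ` along the list of outer darts, from `a` to `b` -/
def Walk (ψ π : Dart TN ON → H) : List ON → H → H → Prop
  | [], a, b => a = b
  | o :: l, a, b => π (.inr o) = a ∧ Walk ψ π l (a * ψ (.inr o)) b

lemma walk_append {ψ π : Dart TN ON → H} {l₁ l₂ : List ON} {a b : H} :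
    Walk ψ π (l₁ ++ l₂) a b ↔ ∃ p, Walk ψ π l₁ a p ∧ Walk ψ π l₂ p b := by
  induction l₁ generalizing a with
  | nil => simp [Walk]
  | cons o l ih => simp only [List.cons_append, Walk, ih, and_assoc, exists_and_left]

lemma Walk.congr {ψ π ψ' π' : Dart TN ON → H} {l : List ON} {a b : H} (h : Walk ψ π l a b)
    (hψ : ∀ o ∈ l, ψ' (.inr o) = ψ (.inr o)) (hπ : ∀ o ∈ l, π' (.inr o) = π (.inr o)) :
    Walk ψ' π' l a b := by
  induction l generalizing a with
  | nil => exact h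
  | cons o l ih =>
    refine ⟨(hπ o (by simp)).trans h.1, ?_⟩
    rw [hψ o (by simp)]
    exact ih h.2 (fun o' ho => hψ o' (by simp [ho])) fun o' ho => hπ o' (by simp [ho])

lemma Walk.mul_left {ψ π : Dart TN ON → H} {l : List ON} {a b : H} (h : Walk ψ π l a b) (p : H) :
    Walk ψ (fun d => p * π d) l (p * a) (p * b) := by
  induction l generalizing a with
  | nil => exact congrArg (p * ·) h
  | cons o l ih => exact ⟨congrArg (p * ·) h.1, by rw [mul_assoc]; exact ih h.2⟩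

lemma Walk.eq_prod {ψ π : Dart TN ON → H} {l : List ON} {a b : H} (h : Walk ψ π l a b) :
    b = a * (l.map fun o => ψ (.inr o)).prod := by
  induction l generalizing a with
  | nil => simpa [Walk] using h.symm
  | cons o l ih => rw [ih h.2, List.map_cons, List.prod_cons, mul_assoc]

lemma Walk.eq_of_one {ψ π : Dart TN ON → H} {l : List ON} {a b : H} (h : Walk ψ π l a b)
    (hψ : ∀ o ∈ l, ψ (.inr o) = 1) : ∀ o ∈ l, π (.inr o) = a := by
  induction l with
  | nil => simp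
  | cons o l ih =>
    have h2 := h.2
    rw [hψ o (by simp), mul_one] at h2
    intro o' ho
    rcases List.mem_cons.1 ho with rfl | ho
    · exact h.1
    · exact ih h2 (fun o' ho => hψ o' (by simp [ho])) o' ho

namespace Pre

/-- active darts -/
def act (D : Pre TN ON) : Dart TN ON → Prop
  | .inl p => p.1 ∈ D.tri
  | .inr o => o ∈ D.out

structure Valid (D : Pre TN ON) : Prop where
  nodup : D.out.Nodup
  act_opp : ∀ d, D.act d → D.act (D.opp d)
  opp_opp : ∀ d, D.act d → D.opp (D.opp d) = d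
  opp_ne : ∀ d, D.act d → D.opp d ≠ d

/-- cocycles -/
structure Coc (D : Pre TN ON) (ψ : Dart TN ON → H) : Prop where
  inv : ∀ d, D.act d → ψ (D.opp d) = (ψ d)⁻¹
  tri : ∀ τ ∈ D.tri, ψ (.inl (τ, 0)) * ψ (.inl (τ, 1)) * ψ (.inl (τ, 2)) = 1

/-- potentials -/
structure Pot (D : Pre TN ON) (ψ π : Dart TN ON → H) : Prop where
  opp : ∀ d, D.act d → π (D.opp d) = π d * ψ d
  nxt : ∀ τ ∈ D.tri, ∀ i, π (.inl (τ, i + 1)) = π (.inl (τ, i)) * ψ (.inl (τ, i))
  walk : Walk ψ π D.out 1 1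

/-- every cocycle mod 2 has a potential -/
def Planar (D : Pre TN ON) : Prop :=
  ∀ ψ : Dart TN ON → Multiplicative (ZMod 2), D.Coc ψ → ∃ π, D.Pot ψ π

lemma Pot.congr {D : Pre TN ON} {ψ ψ' π : Dart TN ON → H} (h : D.Pot ψ π)
    (hψ : ∀ d, D.act d → ψ' d = ψ d) : D.Pot ψ' π :=
  ⟨fun d hd => by rw [hψ d hd, h.opp d hd], fun τ hτ i => by rw [hψ (.inl (τ, i)) hτ, h.nxt τ hτ],
    h.walk.congr (fun o ho => hψ (.inr o) ho) fun _ _ => rfl⟩

/-! ### wedge -/

open Classical in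
/-- `D₀` attached to `D` at a point of the boundary -/
noncomputable def wedge (D D₀ : Pre TN ON) (L₁ L₂ : List ON) : Pre TN ON where
  tri := D.tri ∪ D₀.tri
  out := L₁ ++ (D₀.out ++ L₂)
  opp d := if D.act d then D.opp d else D₀.opp d

section wedge

variable {D D₀ : Pre TN ON} {L₁ L₂ : List ON}

lemma act_wedge (hL : D.out = L₁ ++ L₂) {d : Dart TN ON} :
    (D.wedge D₀ L₁ L₂).act d ↔ D.act d ∨ D₀.act d := by
  rcases d with p | o
  · simp [act, wedge]
  · simp only [act, wedge, hL, List.mem_append]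
    tauto

lemma wedge_opp_left {d : Dart TN ON} (h : D.act d) : (D.wedge D₀ L₁ L₂).opp d = D.opp d :=
  if_pos h

lemma wedge_opp_right (hd : ∀ d, D₀.act d → ¬ D.act d) {d : Dart TN ON} (h : D₀.act d) :
    (D.wedge D₀ L₁ L₂).opp d = D₀.opp d :=
  if_neg (hd d h)

lemma Valid.wedge (h : D.Valid) (h₀ : D₀.Valid) (hL : D.out = L₁ ++ L₂)
    (hd : ∀ d, D₀.act d → ¬ D.act d) : (D.wedge D₀ L₁ L₂).Valid := by
  refine ⟨?_, fun d hd' => ?_, fun d hd' => ?_, fun d hd' => ?_⟩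
  · have : (L₁ ++ (D₀.out ++ L₂)).Perm (D₀.out ++ (L₁ ++ L₂)) := by
      rw [← List.append_assoc, ← List.append_assoc]
      exact List.perm_append_comm.append_right _
    refine this.nodup_iff.2 ?_
    rw [← hL]
    exact h₀.nodup.append h.nodup fun o ho ho' => hd (.inr o) ho ho'
  · rw [act_wedge hL] at hd' ⊢
    rcases hd' with h1 | h1
    · rw [wedge_opp_left h1]
      exact Or.inl (h.act_opp d h1)
    · rw [wedge_opp_right hd h1]
      exact Or.inr (h₀.act_opp d h1)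
  · rcases (act_wedge hL).1 hd' with h1 | h1
    · rw [wedge_opp_left h1, wedge_opp_left (h.act_opp d h1), h.opp_opp d h1]
    · rw [wedge_opp_right hd h1, wedge_opp_right hd (h₀.act_opp d h1), h₀.opp_opp d h1]
  · rcases (act_wedge hL).1 hd' with h1 | h1
    · rw [wedge_opp_left h1]
      exact h.opp_ne d h1
    · rw [wedge_opp_right hd h1]
      exact h₀.opp_ne d h1

lemma Pot.wedge {ψ π π₀ : Dart TN ON → H} (h : D.Valid) (h₀ : D₀.Valid) (hL : D.out = L₁ ++ L₂)
    (hd : ∀ d, D₀.act d → ¬ D.act d) (hπ : D.Pot ψ π) (hπ₀ : D₀.Pot ψ π₀) :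
    ∃ π', (D.wedge D₀ L₁ L₂).Pot ψ π' ∧ (∀ d, D.act d → π' d = π d) ∧
      ∀ d, D₀.act d → π' d = (L₁.map fun o => ψ (.inr o)).prod * π₀ d := by
  classical
  have hw := hπ.walk
  rw [hL, walk_append] at hw
  obtain ⟨p, hw1, hw2⟩ := hw
  have hp := hw1.eq_prod
  rw [one_mul] at hp
  rw [← hp]
  let π' : Dart TN ON → H := fun d => if D.act d then π d else p * π₀ d
  have e1 : ∀ d, D.act d → π' d = π d := fun d h1 => if_pos h1
  have e2 : ∀ d, D₀.act d → π' d = p * π₀ d := fun d h1 => if_neg (hd d h1)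
  refine ⟨π', ⟨fun d hd' => ?_, fun τ hτ i => ?_, ?_⟩, e1, e2⟩
  · rcases (act_wedge hL).1 hd' with h1 | h1
    · rw [wedge_opp_left h1, e1 _ h1, e1 _ (h.act_opp d h1), hπ.opp d h1]
    · rw [wedge_opp_right hd h1, e2 _ h1, e2 _ (h₀.act_opp d h1), hπ₀.opp d h1, mul_assoc]
  · rcases Finset.mem_union.1 hτ with h1 | h1
    · rw [e1 (.inl (τ, i)) h1, e1 (.inl (τ, i + 1)) h1, hπ.nxt τ h1]
    · rw [e2 (.inl (τ, i)) h1, e2 (.inl (τ, i + 1)) h1, hπ₀.nxt τ h1, mul_assoc]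
  · refine walk_append.2 ⟨p, hw1.congr (fun _ _ => rfl) fun o ho => e1 (.inr o) ?_,
      walk_append.2 ⟨p, ?_, hw2.congr (fun _ _ => rfl) fun o ho => e1 (.inr o) ?_⟩⟩
    · simp [act, hL, ho]
    · have := hπ₀.walk.mul_left p
      rw [mul_one] at this
      exact this.congr (fun _ _ => rfl) fun o ho => e2 (.inr o) ho
    · simp [act, hL, ho]

lemma Planar.wedge (h : D.Valid) (h₀ : D₀.Valid) (hL : D.out = L₁ ++ L₂)
    (hd : ∀ d, D₀.act d → ¬ D.act d) (hP : D.Planar) (hP₀ : D₀.Planar) :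
    (D.wedge D₀ L₁ L₂).Planar := by
  classical
  intro ψ hψ
  obtain ⟨π, hπ⟩ := hP ψ ⟨fun d h1 => by
    rw [← hψ.inv d ((act_wedge hL).2 (Or.inl h1)), wedge_opp_left h1],
    fun τ hτ => hψ.tri τ (Finset.mem_union_left _ hτ)⟩
  obtain ⟨π₀, hπ₀⟩ := hP₀ ψ ⟨fun d h1 => by
    rw [← hψ.inv d ((act_wedge hL).2 (Or.inr h1)), wedge_opp_right hd h1],
    fun τ hτ => hψ.tri τ (Finset.mem_union_right _ hτ)⟩
  obtain ⟨π', h1, -⟩ := Pot.wedge h h₀ hL hd hπ hπ₀
  exact ⟨π', h1⟩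

end wedge

/-! ### basic diagrams -/

/-- the empty diagram -/
def empty : Pre TN ON := ⟨∅, [], id⟩

lemma not_act_empty (d : Dart TN ON) : ¬ (empty : Pre TN ON).act d := by
  rcases d with p | o <;> simp [act, empty]

lemma valid_empty : (empty : Pre TN ON).Valid :=
  ⟨List.nodup_nil, fun d h => (not_act_empty d h).elim, fun d h => (not_act_empty d h).elim,
    fun d h => (not_act_empty d h).elim⟩

lemma pot_empty (ψ π : Dart TN ON → H) : (empty : Pre TN ON).Pot ψ π :=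
  ⟨fun d h => (not_act_empty d h).elim, fun τ h => (not_act_empty (ON := ON) (.inl (τ, 0)) h).elim, rfl⟩

open Classical in
/-- one edge -/
noncomputable def pair (a b : ON) : Pre TN ON :=
  ⟨∅, [a, b], fun d => if d = .inr a then .inr b else .inr a⟩

lemma act_pair {a b : ON} {d : Dart TN ON} : (pair a b).act d ↔ d = .inr a ∨ d = .inr b := by
  rcases d with p | o <;> simp [act, pair]

lemma pair_opp_a (a b : ON) : (pair a b : Pre TN ON).opp (.inr a) = .inr b := if_pos rfl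

lemma pair_opp_b {a b : ON} (h : a ≠ b) : (pair a b : Pre TN ON).opp (.inr b) = .inr a :=
  if_neg (by simpa using h.symm)

lemma valid_pair {a b : ON} (h : a ≠ b) : (pair a b : Pre TN ON).Valid := by
  refine ⟨by simp [pair, h], ?_, ?_, ?_⟩ <;> intro d hd <;> rcases act_pair.1 hd with rfl | rfl <;>
    simp [pair_opp_a, pair_opp_b h, act_pair, h, h.symm]

lemma pot_pair {a b : ON} (h : a ≠ b) {ψ : Dart TN ON → H} (hψ : (pair a b).Coc ψ) :
    ∃ π, (pair a b).Pot ψ π := by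
  classical
  have h1 := hψ.inv (.inr a) (act_pair.2 (Or.inl rfl))
  rw [pair_opp_a] at h1
  refine ⟨fun d => if d = .inr a then 1 else ψ (.inr a), fun d hd => ?_, fun τ hτ => ?_, ?_⟩
  · rcases act_pair.1 hd with rfl | rfl <;> simp [pair_opp_a, pair_opp_b h, h.symm, h1]
  · simp [pair] at hτ
  · simp [pair, Walk, h.symm, h1]

open Classical in
/-- one triangle -/
noncomputable def one (τ : TN) (a b c : ON) : Pre TN ON :=
  ⟨{τ}, [a, b, c], fun d => match d with
    | .inl p => .inr (![c, b, a] p.2)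
    | .inr o => .inl (τ, if o = a then 2 else if o = b then 1 else 0)⟩

lemma act_one {τ : TN} {a b c : ON} {d : Dart TN ON} : (one τ a b c).act d ↔
    d = .inl (τ, 0) ∨ d = .inl (τ, 1) ∨ d = .inl (τ, 2) ∨ d = .inr a ∨ d = .inr b ∨ d = .inr c := by
  rcases d with ⟨σ, i⟩ | o
  · fin_cases i <;> simp [act, one]
  · simp [act, one]

lemma valid_one (τ : TN) {a b c : ON} (h₁ : a ≠ b) (h₂ : a ≠ c) (h₃ : b ≠ c) :
    (one τ a b c).Valid := by
  refine ⟨by simp [one, h₁, h₂, h₃], ?_, ?_, ?_⟩ <;> intro d hd <;>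
    rcases act_one.1 hd with rfl | rfl | rfl | rfl | rfl | rfl <;>
    simp [one, act, h₁.symm, h₂.symm, h₃.symm]

lemma pot_one (τ : TN) {a b c : ON} (h₁ : a ≠ b) (h₂ : a ≠ c) (h₃ : b ≠ c) {ψ : Dart TN ON → H}
    (hψ : (one τ a b c).Coc ψ) : ∃ π, (one τ a b c).Pot ψ π ∧ π (.inl (τ, 0)) = 1 := by
  classical
  have e0 : ψ (.inr c) = (ψ (.inl (τ, 0)))⁻¹ := hψ.inv (.inl (τ, 0)) (by simp [act_one])
  have e1 : ψ (.inr b) = (ψ (.inl (τ, 1)))⁻¹ := hψ.inv (.inl (τ, 1)) (by simp [act_one])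
  have e2 : ψ (.inr a) = (ψ (.inl (τ, 2)))⁻¹ := hψ.inv (.inl (τ, 2)) (by simp [act_one])
  have e3 : ψ (.inl (τ, 2)) = (ψ (.inl (τ, 0)) * ψ (.inl (τ, 1)))⁻¹ :=
    eq_inv_of_mul_eq_one_right (hψ.tri τ (by simp [one]))
  refine ⟨fun d => match d with
    | .inl p => ![1, ψ (.inl (τ, 0)), ψ (.inl (τ, 0)) * ψ (.inl (τ, 1))] p.2
    | .inr o => if o = a then 1 else if o = b then ψ (.inl (τ, 0)) * ψ (.inl (τ, 1))
        else ψ (.inl (τ, 0)), ⟨fun d hd => ?_, fun σ hσ i => ?_, ?_⟩, rfl⟩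
  · rcases act_one.1 hd with rfl | rfl | rfl | rfl | rfl | rfl <;>
      simp [one, h₁.symm, h₂.symm, h₃.symm, e0, e1, e2, e3]
  · obtain rfl : σ = τ := by simpa [one] using hσ
    fin_cases i <;> simp [e3]
  · simp [one, Walk, h₁.symm, h₂.symm, h₃.symm, e0, e1, e2, e3]

/-! ### removal with re-matching -/

/-- `D'` arises from `D` by removing darts that are paired by `m` -/
structure Rem (D D' : Pre TN ON) (m : Dart TN ON → Dart TN ON) : Prop where
  sub : ∀ d, D'.act d → D.act d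
  opp_pos : ∀ d, D'.act (D.opp d) → D'.opp d = D.opp d
  opp_neg : ∀ d, ¬ D'.act (D.opp d) → D'.opp d = D.opp (m (D.opp d))
  m_act : ∀ z, D.act z → ¬ D'.act z → D.act (m z) ∧ ¬ D'.act (m z)
  m_m : ∀ z, D.act z → ¬ D'.act z → m (m z) = z
  m_ne : ∀ z, D.act z → ¬ D'.act z → m z ≠ z
  opp_eq : ∀ z, D.act z → ¬ D'.act z → ¬ D'.act (D.opp z) → D.opp z = m z

open Classical in
/-- the diagram with re-matched darts -/
noncomputable def rem (D : Pre TN ON) (tri : Finset TN) (out : List ON)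
    (m : Dart TN ON → Dart TN ON) : Pre TN ON :=
  ⟨tri, out, fun d => if (⟨tri, out, id⟩ : Pre TN ON).act (D.opp d) then D.opp d
    else D.opp (m (D.opp d))⟩

lemma rem_opp_pos {D : Pre TN ON} {tri : Finset TN} {out : List ON} {m : Dart TN ON → Dart TN ON}
    (d : Dart TN ON) (h : (D.rem tri out m).act (D.opp d)) : (D.rem tri out m).opp d = D.opp d :=
  if_pos (by rcases h' : D.opp d with p | o <;> rw [h'] at h <;> exact h)

lemma rem_opp_neg {D : Pre TN ON} {tri : Finset TN} {out : List ON} {m : Dart TN ON → Dart TN ON}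
    (d : Dart TN ON) (h : ¬ (D.rem tri out m).act (D.opp d)) :
    (D.rem tri out m).opp d = D.opp (m (D.opp d)) :=
  if_neg (by rcases h' : D.opp d with p | o <;> rw [h'] at h <;> exact h)

section rem

variable {D D' : Pre TN ON} {m : Dart TN ON → Dart TN ON}

lemma Rem.act_opp_m (hR : Rem D D' m) (h : D.Valid) {z : Dart TN ON} (hz : D.act z)
    (hz' : ¬ D'.act z) (ho : D'.act (D.opp z)) : D'.act (D.opp (m z)) := by
  by_contra hc
  obtain ⟨h1, h2⟩ := hR.m_act z hz hz'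
  have h3 := hR.opp_eq _ h1 h2 hc
  rw [hR.m_m z hz hz'] at h3
  rw [← h3, h.opp_opp _ h1] at ho
  exact h2 ho

lemma Rem.valid (hR : Rem D D' m) (h : D.Valid) (hn : D'.out.Nodup) : D'.Valid := by
  have key : ∀ d, D'.act d → ¬ D'.act (D.opp d) → D'.act (D.opp (m (D.opp d))) := fun d hd h1 =>
    hR.act_opp_m h (h.act_opp d (hR.sub d hd)) h1 (by rwa [h.opp_opp d (hR.sub d hd)])
  refine ⟨hn, fun d hd => ?_, fun d hd => ?_, fun d hd => ?_⟩ <;> have hd' := hR.sub d hd <;>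
    by_cases h1 : D'.act (D.opp d)
  · rwa [hR.opp_pos d h1]
  · rw [hR.opp_neg d h1]
    exact key d hd h1
  · rw [hR.opp_pos d h1, hR.opp_pos _ (by rwa [h.opp_opp d hd']), h.opp_opp d hd']
  · obtain ⟨h2, h3⟩ := hR.m_act _ (h.act_opp d hd') h1
    rw [hR.opp_neg d h1, hR.opp_neg _ (by rwa [h.opp_opp _ h2]), h.opp_opp _ h2,
      hR.m_m _ (h.act_opp d hd') h1, h.opp_opp d hd']
  · rw [hR.opp_pos d h1]
    exact h.opp_ne d hd'
  · obtain ⟨h2, -⟩ := hR.m_act _ (h.act_opp d hd') h1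
    rw [hR.opp_neg d h1]
    intro he
    apply hR.m_ne _ (h.act_opp d hd') h1
    rw [← h.opp_opp _ h2, he]

lemma Rem.pot_opp (hR : Rem D D' m) (h : D.Valid) {ψ π : Dart TN ON → H} (hπ : D.Pot ψ π)
    (hm : ∀ z, D.act z → ¬ D'.act z → π (m z) * ψ (m z) = π z) (d : Dart TN ON) (hd : D'.act d) :
    π (D'.opp d) = π d * ψ d := by
  have hd' := hR.sub d hd
  by_cases h1 : D'.act (D.opp d)
  · rw [hR.opp_pos d h1, hπ.opp d hd']
  · rw [hR.opp_neg d h1, hπ.opp _ (hR.m_act _ (h.act_opp d hd') h1).1, hm _ (h.act_opp d hd') h1,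
      hπ.opp d hd']

/-- an antisymmetric cochain extends over the removed darts; its value on one freely matched pair is arbitrary -/
lemma Rem.extend (hR : Rem D D' m) (h : D.Valid) {ψ' : Dart TN ON → H}
    (hψ : ∀ d, D'.act d → ψ' (D'.opp d) = (ψ' d)⁻¹) (χ : Dart TN ON → H)
    (hχ : ∀ z, D.act z → ¬ D'.act z → χ (m z) = (χ z)⁻¹) :
    ∃ ψ : Dart TN ON → H, (∀ d, D'.act d → ψ d = ψ' d) ∧ (∀ d, D.act d → ψ (D.opp d) = (ψ d)⁻¹) ∧
      (∀ z, D.act z → ¬ D'.act z → ψ (m z) = (ψ z)⁻¹) ∧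
      (∀ z, ¬ D'.act z → D'.act (D.opp z) → ψ z = (ψ' (D.opp z))⁻¹) ∧
      ∀ z, ¬ D'.act z → ¬ D'.act (D.opp z) → ψ z = χ z := by
  classical
  let ψ : Dart TN ON → H := fun d =>
    if D'.act d then ψ' d else if D'.act (D.opp d) then (ψ' (D.opp d))⁻¹ else χ d
  have e1 : ∀ d, D'.act d → ψ d = ψ' d := fun d h1 => if_pos h1
  have e2 : ∀ z, ¬ D'.act z → D'.act (D.opp z) → ψ z = (ψ' (D.opp z))⁻¹ := fun z h1 h2 =>
    (if_neg h1).trans (if_pos h2)
  have e3 : ∀ z, ¬ D'.act z → ¬ D'.act (D.opp z) → ψ z = χ z := fun z h1 h2 =>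
    (if_neg h1).trans (if_neg h2)
  have e4 : ∀ z, D.act z → ¬ D'.act z → ψ (m z) = (ψ z)⁻¹ := by
    intro z hz hz'
    obtain ⟨h1, h2⟩ := hR.m_act z hz hz'
    by_cases h3 : D'.act (D.opp z)
    · have h4 := hψ _ h3
      rw [hR.opp_neg _ (by rwa [h.opp_opp z hz]), h.opp_opp z hz] at h4
      rw [e2 _ h2 (hR.act_opp_m h hz hz' h3), e2 _ hz' h3, h4]
    · have h4 := hR.opp_eq z hz hz' h3
      rw [e3 _ h2 (by rwa [← h4, h.opp_opp z hz]), e3 _ hz' h3, hχ z hz hz']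
  refine ⟨ψ, e1, fun d hd => ?_, e4, e2, e3⟩
  by_cases h1 : D'.act d <;> by_cases h2 : D'.act (D.opp d)
  · rw [e1 _ h1, e1 _ h2, ← hψ d h1, hR.opp_pos d h2]
  · rw [e1 _ h1, e2 _ h2 (by rwa [h.opp_opp d hd]), h.opp_opp d hd]
  · rw [e1 _ h2, e2 _ h1 h2, inv_inv]
  · rw [hR.opp_eq d hd h1 h2, e4 d hd h1]

end rem

end Pre

end Crest.Agent.R177
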