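import Crest.Agent.R177.RMap
import Crest.Agent.R177.Pre

/-!
# From derivations to reduced planar diagrams (van Kampen lemma)
-/

set_option autoImplicit false

namespace Crest.Agent.R177

open Pre

variable {V A E : Type}

/-- names of triangles carry their oriented edge -/
abbrev TNm (E : Type) : Type := ℕ × (E × Bool)

/-- names of outer darts carry their letter -/
abbrev ONm (V A : Type) : Type := ℕ × ((V ⊕ A) × Bool)

/-- inverse letter -/
def flipL {S : Type} (x : S × Bool) : S × Bool := (x.1, !x.2)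

lemma flipL_flipL {S : Type} (x : S × Bool) : flipL (flipL x) = x := by simp [flipL]

namespace LGraph

variable (Γ : LGraph V A E)

/-- the letter read by a dart -/
def dl : Dart (TNm E) (ONm V A) → (V ⊕ A) × Bool
  | .inl p => ![(.inl (Γ.tail p.1.2), true), (.inr (Γ.lab p.1.2.1), p.1.2.2),
      (.inl (Γ.head p.1.2), false)] p.2
  | .inr o => o.2

/-- the group element read by a dart -/
def gl (d : Dart (TNm E) (ONm V A)) : Γ.Grp := letter Γ.pres.toTriData (Γ.dl d)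

/-- the 2-chain of a diagram -/
noncomputable def cls (D : Pre (TNm E) (ONm V A)) (γ : Dart (TNm E) (ONm V A) → Γ.Grp) :
    Γ.Grp × E →₀ ℤ :=
  ∑ τ ∈ D.tri, Finsupp.single (γ (.inl (τ, 0)), τ.2.1) (if τ.2.2 then -1 else 1)

/-- `D` is a planar diagram with boundary word `L` and 2-chain `c` -/
structure Good (D : Pre (TNm E) (ONm V A)) (L : List ((V ⊕ A) × Bool)) (c : Γ.Grp × E →₀ ℤ) :
    Prop where
  valid : D.Valid
  lab : ∀ d, D.act d → Γ.dl (D.opp d) = flipL (Γ.dl d)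
  word : D.out.map Prod.snd = L
  planar : D.Planar
  pos : ∃ γ, D.Pot Γ.gl γ ∧ Γ.cls D γ = c

variable {Γ}

lemma gl_flip {d d' : Dart (TNm E) (ONm V A)} (h : Γ.dl d' = flipL (Γ.dl d)) :
    Γ.gl d' = (Γ.gl d)⁻¹ := by
  unfold gl
  rw [h]
  rcases Γ.dl d with ⟨x, _ | _⟩ <;> simp [letter, flipL]

lemma gl_tri (τ : TNm E) : Γ.gl (.inl (τ, 0)) * Γ.gl (.inl (τ, 1)) * Γ.gl (.inl (τ, 2)) = 1 := by
  have h := Γ.pres.rel τ.2.1
  obtain ⟨n, e, _ | _⟩ := τ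
  · change Γ.pres.of (Γ.pres.d02 e) * (Γ.pres.of (Γ.pres.d12 e))⁻¹ * (Γ.pres.of (Γ.pres.d01 e))⁻¹ = 1
    rw [← h]
    group
  · change Γ.pres.of (Γ.pres.d01 e) * Γ.pres.of (Γ.pres.d12 e) * (Γ.pres.of (Γ.pres.d02 e))⁻¹ = 1
    rw [h, mul_inv_cancel]

lemma coc_gl {D : Pre (TNm E) (ONm V A)} (h : ∀ d, D.act d → Γ.dl (D.opp d) = flipL (Γ.dl d)) :
    D.Coc Γ.gl :=
  ⟨fun d hd => gl_flip (h d hd), fun τ _ => gl_tri τ⟩

lemma exists_fresh (D : Pre (TNm E) (ONm V A)) :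
    ∃ n, (∀ τ ∈ D.tri, τ.1 < n) ∧ ∀ o ∈ D.out, o.1 < n := by
  classical
  refine ⟨D.tri.sup (·.1) + D.out.toFinset.sup (·.1) + 1, fun τ hτ => ?_, fun o ho => ?_⟩
  · have := Finset.le_sup (f := fun τ : TNm E => τ.1) hτ
    omega
  · have := Finset.le_sup (f := fun o : ONm V A => o.1) (List.mem_toFinset.2 ho)
    omega

lemma Good.wedge {D D₀ : Pre (TNm E) (ONm V A)} {L₁ L₂ : List ((V ⊕ A) × Bool)}
    {c : Γ.Grp × E →₀ ℤ} (h : Γ.Good D (L₁ ++ L₂) c) (h₀ : D₀.Valid)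
    (hl : ∀ d, D₀.act d → Γ.dl (D₀.opp d) = flipL (Γ.dl d)) (hP : D₀.Planar)
    {γ₀ : Dart (TNm E) (ONm V A) → Γ.Grp} (hγ₀ : D₀.Pot Γ.gl γ₀) (hd : ∀ d, D₀.act d → ¬ D.act d) :
    ∃ D', Γ.Good D' (L₁ ++ (D₀.out.map Prod.snd ++ L₂))
      (c + Γ.cls D₀ fun d => wordProd Γ.pres.toTriData L₁ * γ₀ d) := by
  classical
  obtain ⟨l₁, l₂, hL, rfl, rfl⟩ := List.map_eq_append_iff.1 h.word
  obtain ⟨γ, hγ, rfl⟩ := h.pos
  obtain ⟨γ', h1, h2, h3⟩ := Pot.wedge h.valid h₀ hL hd hγ hγ₀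
  refine ⟨D.wedge D₀ l₁ l₂, h.valid.wedge h₀ hL hd, fun d hd' => ?_, by simp [Pre.wedge],
    Planar.wedge h.valid h₀ hL hd h.planar hP, γ', h1, ?_⟩
  · rcases (act_wedge hL).1 hd' with h4 | h4
    · rw [wedge_opp_left h4, h.lab d h4]
    · rw [wedge_opp_right hd h4, hl d h4]
  · unfold cls
    have e : (D.wedge D₀ l₁ l₂).tri = D.tri ∪ D₀.tri := by
      ext τ
      simp [Pre.wedge]
    rw [e, Finset.sum_union (Finset.disjoint_left.2 fun τ h4 h5 => hd (.inl (τ, 0)) h5 h4)]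
    congr 1
    · exact Finset.sum_congr rfl fun τ hτ => by rw [h2 (.inl (τ, 0)) hτ]
    · refine Finset.sum_congr rfl fun τ hτ => ?_
      rw [h3 (.inl (τ, 0)) hτ, wordProd, List.map_map]
      rfl

lemma Good.ins {D : Pre (TNm E) (ONm V A)} {L₁ L₂ : List ((V ⊕ A) × Bool)} {c : Γ.Grp × E →₀ ℤ}
    (h : Γ.Good D (L₁ ++ L₂) c) (x : V ⊕ A) (b : Bool) :
    ∃ D', Γ.Good D' (L₁ ++ (x, b) :: (x, !b) :: L₂) c := by
  obtain ⟨n, -, hn⟩ := exists_fresh D
  have hne : ((n, x, b) : ONm V A) ≠ (n, x, !b) := by simp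
  have hl : ∀ d, (pair (n, x, b) (n, x, !b) : Pre (TNm E) (ONm V A)).act d →
      Γ.dl ((pair (n, x, b) (n, x, !b) : Pre (TNm E) (ONm V A)).opp d) = flipL (Γ.dl d) := by
    intro d hd
    rcases act_pair.1 hd with rfl | rfl
    · rw [pair_opp_a]
      rfl
    · rw [pair_opp_b hne]
      simp [dl, flipL]
  obtain ⟨γ₀, hγ₀⟩ := pot_pair hne (coc_gl hl)
  obtain ⟨D', hD'⟩ := h.wedge (valid_pair hne) hl (fun ψ hψ => pot_pair hne hψ) hγ₀ (by
    intro d hd hd'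
    rcases act_pair.1 hd with rfl | rfl <;> exact lt_irrefl _ (hn _ hd'))
  exact ⟨D', by simpa [cls, pair] using hD'⟩

lemma Good.rel {D : Pre (TNm E) (ONm V A)} {L₁ L₂ : List ((V ⊕ A) × Bool)} {c : Γ.Grp × E →₀ ℤ}
    (h : Γ.Good D (L₁ ++ L₂) c) (o : E × Bool) :
    ∃ D', Γ.Good D' (L₁ ++ (.inl (Γ.head o), true) :: (.inr (Γ.lab o.1), !o.2) ::
      (.inl (Γ.tail o), false) :: L₂)
      (c + Finsupp.single (wordProd Γ.pres.toTriData L₁, o.1) (if o.2 then -1 else 1)) := by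
  obtain ⟨n, hn', hn⟩ := exists_fresh D
  let a : ONm V A := (n, .inl (Γ.head o), true)
  let b : ONm V A := (n, .inr (Γ.lab o.1), !o.2)
  let c : ONm V A := (n, .inl (Γ.tail o), false)
  have h₁ : a ≠ b := by simp [a, b]
  have h₂ : a ≠ c := by simp [a, c]
  have h₃ : b ≠ c := by simp [b, c]
  have hl : ∀ d, (one (n, o) a b c).act d → Γ.dl ((one (n, o) a b c).opp d) = flipL (Γ.dl d) := by
    intro d hd
    rcases act_one.1 hd with rfl | rfl | rfl | rfl | rfl | rfl <;>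
      simp [one, h₁.symm, h₂.symm, h₃.symm] <;> simp [dl, flipL, a, b, c]
  obtain ⟨γ₀, hγ₀, h0⟩ := pot_one (n, o) h₁ h₂ h₃ (coc_gl hl)
  obtain ⟨D', hD'⟩ := h.wedge (valid_one _ h₁ h₂ h₃) hl
    (fun ψ hψ => (pot_one _ h₁ h₂ h₃ hψ).imp fun _ h => h.1) hγ₀ (by
    intro d hd hd'
    rcases act_one.1 hd with rfl | rfl | rfl | rfl | rfl | rfl
    iterate 3 exact lt_irrefl _ (hn' _ hd')
    iterate 3 exact lt_irrefl _ (hn _ hd'))
  exact ⟨D', by simpa [cls, one, h0, a, b, c] using hD'⟩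

lemma rem_lab {D D' : Pre (TNm E) (ONm V A)} {m : Dart (TNm E) (ONm V A) → Dart (TNm E) (ONm V A)}
    (hR : Rem D D' m) (h : D.Valid) (hl : ∀ d, D.act d → Γ.dl (D.opp d) = flipL (Γ.dl d))
    (hm : ∀ z, D.act z → ¬ D'.act z → Γ.dl (m z) = flipL (Γ.dl z)) (d : Dart (TNm E) (ONm V A))
    (hd : D'.act d) : Γ.dl (D'.opp d) = flipL (Γ.dl d) := by
  have hd' := hR.sub d hd
  by_cases h1 : D'.act (D.opp d)
  · rw [hR.opp_pos d h1, hl d hd']
  · rw [hR.opp_neg d h1, hl _ (hR.m_act _ (h.act_opp d hd') h1).1, hm _ (h.act_opp d hd') h1,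
      flipL_flipL, hl d hd']

lemma Good.del {D : Pre (TNm E) (ONm V A)} {L₁ L₂ : List ((V ⊕ A) × Bool)} {c : Γ.Grp × E →₀ ℤ}
    {x : V ⊕ A} {β : Bool} (h : Γ.Good D (L₁ ++ (x, β) :: (x, !β) :: L₂) c) :
    ∃ D', Γ.Good D' (L₁ ++ L₂) c := by
  classical
  obtain ⟨l₁, l, hL, rfl, hl⟩ := List.map_eq_append_iff.1 h.word
  obtain ⟨a, l', rfl, ha, hl⟩ := List.map_eq_cons_iff.1 hl
  obtain ⟨b, l₂, rfl, hb, rfl⟩ := List.map_eq_cons_iff.1 hl
  have hn := h.valid.nodup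
  rw [hL] at hn
  have hab : a ≠ b := fun he => by
    have := List.nodup_middle.1 hn
    simp [he] at this
  have hna : a ∉ l₁ ++ l₂ := fun he => by
    have := List.nodup_middle.1 hn
    simp only [List.nodup_cons, List.mem_append, List.mem_cons] at this he
    tauto
  have hn2 : (l₁ ++ b :: l₂).Nodup := (List.nodup_cons.1 (List.nodup_middle.1 hn)).2
  have hn3 := List.nodup_cons.1 (List.nodup_middle.1 hn2)
  let m : Dart (TNm E) (ONm V A) → Dart (TNm E) (ONm V A) := fun d =>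
    if d = .inr a then .inr b else .inr a
  have hma : m (.inr a) = .inr b := if_pos rfl
  have hmb : m (.inr b) = .inr a := if_neg (by simpa using hab.symm)
  let D' := D.rem D.tri (l₁ ++ l₂) m
  have hZ : ∀ z, D.act z → ¬ D'.act z → z = .inr a ∨ z = .inr b := by
    rintro (p | o) h1 h2
    · exact (h2 h1).elim
    · have h3 : o ∉ l₁ ++ l₂ := h2
      have h4 : o ∈ D.out := h1
      simp only [hL, List.mem_append, List.mem_cons, Sum.inr.injEq] at h3 h4 ⊢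
      tauto
  have hA : D.act (.inr a) ∧ ¬ D'.act (.inr a) := ⟨by simp [act, hL], hna⟩
  have hB : D.act (.inr b) ∧ ¬ D'.act (.inr b) := ⟨by simp [act, hL], hn3.1⟩
  have hR : Rem D D' m := by
    refine ⟨?_, rem_opp_pos, rem_opp_neg, fun z h1 h2 => ?_, fun z h1 h2 => ?_, fun z h1 h2 => ?_,
      fun z h1 h2 h3 => ?_⟩
    · rintro (p | o) h1
      · exact h1
      · have h3 : o ∈ l₁ ++ l₂ := h1
        simp only [act, hL, List.mem_append, List.mem_cons] at h3 ⊢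
        tauto
    · rcases hZ z h1 h2 with rfl | rfl
      · rwa [hma]
      · rwa [hmb]
    · rcases hZ z h1 h2 with rfl | rfl
      · rw [hma, hmb]
      · rw [hmb, hma]
    · rcases hZ z h1 h2 with rfl | rfl
      · simpa [hma] using hab.symm
      · simpa [hmb] using hab
    · have h4 := h.valid.opp_ne z h1
      rcases hZ z h1 h2 with rfl | rfl <;> rcases hZ _ (h.valid.act_opp _ h1) h3 with h5 | h5
      · exact (h4 h5).elim
      · rw [h5, hma]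
      · rw [h5, hmb]
      · exact (h4 h5).elim
  have hpot : ∀ {H : Type} [Group H] (ψ π : Dart (TNm E) (ONm V A) → H), D.Pot ψ π →
      ψ (.inr b) = (ψ (.inr a))⁻¹ → D'.Pot ψ π := by
    intro H _ ψ π hπ hψ
    have hw := hπ.walk
    rw [hL, walk_append] at hw
    obtain ⟨p, hw1, h1, h2, hw2⟩ := hw
    rw [hψ, mul_inv_cancel_right] at hw2
    refine ⟨hR.pot_opp h.valid hπ fun z h3 h4 => ?_, hπ.nxt, walk_append.2 ⟨p, hw1, hw2⟩⟩
    rcases hZ z h3 h4 with rfl | rfl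
    · rw [hma, h1, h2, hψ, mul_inv_cancel_right]
    · rw [hmb, h1, h2]
  have hdl : Γ.dl (.inr b) = flipL (Γ.dl (.inr a)) := by simp [dl, ha, hb, flipL]
  obtain ⟨γ, hγ, hc⟩ := h.pos
  refine ⟨D', hR.valid h.valid hn3.2, rem_lab hR h.valid h.lab fun z h1 h2 => ?_, List.map_append,
    fun ψ' hψ' => ?_, γ, hpot _ _ hγ (gl_flip hdl), hc⟩
  · rcases hZ z h1 h2 with rfl | rfl
    · rw [hma, hdl]
    · rw [hmb, hdl, flipL_flipL]
  · obtain ⟨ψ, e1, e2, e3, -⟩ := hR.extend h.valid hψ'.inv (fun _ => 1) fun _ _ _ => inv_one.symm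
    obtain ⟨π, hπ⟩ := h.planar ψ ⟨e2, fun τ hτ => by
      rw [e1 (.inl (τ, 0)) hτ, e1 (.inl (τ, 1)) hτ, e1 (.inl (τ, 2)) hτ, hψ'.tri τ hτ]⟩
    exact ⟨π, (hpot ψ π hπ (by rw [← hma, e3 _ hA.1 hA.2])).congr fun d hd => (e1 d hd).symm⟩

theorem exists_good_of_der {L : List ((V ⊕ A) × Bool)} {c : Γ.Grp × E →₀ ℤ}
    (h : Der Γ.pres.toTriData L c) : ∃ D, Γ.Good D L c := by
  induction h with
  | nil => exact ⟨empty, valid_empty, fun d h => (not_act_empty d h).elim, rfl,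
      fun ψ _ => ⟨1, pot_empty _ _⟩, 1, pot_empty _ _, rfl⟩
  | ins L₁ L₂ x b c _ ih => exact ih.elim fun D hD => hD.ins x b
  | del L₁ L₂ x b c _ ih => exact ih.elim fun D hD => hD.del
  | pos L₁ L₂ t c _ ih => exact ih.elim fun D hD => hD.rel (t, false)
  | neg L₁ L₂ t c _ ih =>
    obtain ⟨D, hD⟩ := ih
    obtain ⟨D', hD'⟩ := hD.rel (t, true)
    refine ⟨D', ?_⟩
    rw [sub_eq_add_neg, ← Finsupp.single_neg]
    exact hD'

lemma idx_of_dl {τ τ' : TNm E} {i i' : Fin 3}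
    (h : Γ.dl (.inl (τ', i')) = flipL (Γ.dl (.inl (τ, i)))) : i' = Fin.rev i := by
  fin_cases i <;> fin_cases i' <;> simp [dl, flipL] at h ⊢

lemma tail_ne_head (hloop : ∀ e, Γ.src e ≠ Γ.tgt e) (o : E × Bool) : Γ.tail o ≠ Γ.head o := by
  obtain ⟨e, _ | _⟩ := o
  · exact (hloop e).symm
  · exact hloop e

lemma Good.mirror (hloop : ∀ e, Γ.src e ≠ Γ.tgt e) {D : Pre (TNm E) (ONm V A)}
    {L : List ((V ⊕ A) × Bool)} {c : Γ.Grp × E →₀ ℤ} (h : Γ.Good D L c) {τ τ' : TNm E} {i₀ : Fin 3}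
    (hτ : τ ∈ D.tri) (ho : D.opp (.inl (τ, i₀)) = .inl (τ', Fin.rev i₀))
    (he : τ'.2 = (τ.2.1, !τ.2.2)) : ∃ D', Γ.Good D' L c ∧ D'.tri.card < D.tri.card := by
  classical
  have hτ' : τ' ∈ D.tri := by
    have := h.valid.act_opp (.inl (τ, i₀)) hτ
    rwa [ho] at this
  have hne : τ' ≠ τ := fun h1 => by
    have := congrArg Prod.snd he
    simp [h1] at this
  let m : Dart (TNm E) (ONm V A) → Dart (TNm E) (ONm V A) := fun d => match d with
    | .inl p => .inl (if p.1 = τ then τ' else τ, Fin.rev p.2)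
    | .inr o => .inr o
  have hm : ∀ i, m (.inl (τ, i)) = .inl (τ', Fin.rev i) := fun i => by simp [m]
  have hm' : ∀ i, m (.inl (τ', i)) = .inl (τ, Fin.rev i) := fun i => by simp [m, hne]
  let D' := D.rem ((D.tri.erase τ).erase τ') D.out m
  have hZ : ∀ z, D.act z → ¬ D'.act z → ∃ i, z = .inl (τ, i) ∨ z = .inl (τ', i) := by
    rintro (⟨σ, i⟩ | o) h1 h2
    · have h3 : σ ∉ (D.tri.erase τ).erase τ' := h2
      have h4 : σ ∈ D.tri := h1
      simp only [Finset.mem_erase, h4, and_true, not_and, not_not] at h3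
      by_cases h5 : σ = τ'
      · exact ⟨i, Or.inr (by rw [h5])⟩
      · exact ⟨i, Or.inl (by rw [h3 h5])⟩
    · exact (h2 h1).elim
  have hA : ∀ i, D.act (.inl (τ, i)) ∧ ¬ D'.act (.inl (τ, i)) := fun i =>
    ⟨hτ, fun h1 => by simpa using (show τ ∈ (D.tri.erase τ).erase τ' from h1)⟩
  have hB : ∀ i, D.act (.inl (τ', i)) ∧ ¬ D'.act (.inl (τ', i)) := fun i =>
    ⟨hτ', fun h1 => by simpa using (show τ' ∈ (D.tri.erase τ).erase τ' from h1)⟩
  have hself : ∀ σ ∈ D.tri, ∀ i j, D.opp (.inl (σ, i)) ≠ .inl (σ, j) := by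
    intro σ hσ i j h1
    have h2 := h.lab (.inl (σ, i)) hσ
    rw [h1] at h2
    obtain rfl := idx_of_dl h2
    have h3 := tail_ne_head hloop σ.2
    fin_cases i
    · exact h3 (by simpa [dl, flipL] using h2.symm)
    · exact h.valid.opp_ne (.inl (σ, 1)) hσ h1
    · exact h3 (by simpa [dl, flipL] using h2)
  have hR : Rem D D' m := by
    refine ⟨?_, rem_opp_pos, rem_opp_neg, fun z h1 h2 => ?_, fun z h1 h2 => ?_, fun z h1 h2 => ?_,
      fun z h1 h2 h3 => ?_⟩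
    · rintro (p | o) h1
      · exact Finset.mem_of_mem_erase (Finset.mem_of_mem_erase h1)
      · exact h1
    · obtain ⟨i, rfl | rfl⟩ := hZ z h1 h2
      · exact hm i ▸ hB _
      · exact hm' i ▸ hA _
    · obtain ⟨i, rfl | rfl⟩ := hZ z h1 h2
      · rw [hm, hm', Fin.rev_rev]
      · rw [hm', hm, Fin.rev_rev]
    · obtain ⟨i, rfl | rfl⟩ := hZ z h1 h2
      · simp [hm, hne]
      · simp [hm', hne.symm]
    · have h4 := h.lab z h1
      obtain ⟨j, h5⟩ := hZ _ (h.valid.act_opp _ h1) h3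
      obtain ⟨i, rfl | rfl⟩ := hZ z h1 h2 <;> rcases h5 with h5 | h5
      · exact (hself _ h1 _ _ h5).elim
      · rw [h5] at h4
        rw [h5, hm, idx_of_dl h4]
      · rw [h5] at h4
        rw [h5, hm', idx_of_dl h4]
      · exact (hself _ h1 _ _ h5).elim
  have hkey : ∀ {H : Type} [Group H] (ψ π : Dart (TNm E) (ONm V A) → H), D.Pot ψ π →
      (∀ i, ψ (.inl (τ', Fin.rev i)) = (ψ (.inl (τ, i)))⁻¹) →
      ∀ i, π (.inl (τ', Fin.rev i + 1)) = π (.inl (τ, i)) := by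
    intro H _ ψ π hπ hψ
    have step : ∀ i, π (.inl (τ', Fin.rev i + 1)) = π (.inl (τ, i)) →
        π (.inl (τ', Fin.rev (i + 1) + 1)) = π (.inl (τ, i + 1)) := by
      intro i hi
      have e : ∀ j : Fin 3, Fin.rev (j + 1) + 1 = Fin.rev j := by decide
      rw [e, hπ.nxt τ hτ, ← hi, hπ.nxt τ' hτ', hψ, inv_mul_cancel_right]
    have h0 : π (.inl (τ', Fin.rev i₀ + 1)) = π (.inl (τ, i₀)) := by
      rw [hπ.nxt τ' hτ', ← ho, hπ.opp (.inl (τ, i₀)) hτ, ho, hψ, mul_inv_cancel_right]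
    intro i
    have e : ∀ j k : Fin 3, j = k ∨ j = k + 1 ∨ j = k + 1 + 1 := by decide
    obtain rfl | rfl | rfl := e i i₀
    · exact h0
    · exact step _ h0
    · exact step _ (step _ h0)
  have hpot : ∀ {H : Type} [Group H] (ψ π : Dart (TNm E) (ONm V A) → H), D.Pot ψ π →
      (∀ i, ψ (.inl (τ', Fin.rev i)) = (ψ (.inl (τ, i)))⁻¹) → D'.Pot ψ π := by
    intro H _ ψ π hπ hψ
    refine ⟨hR.pot_opp h.valid hπ fun z h3 h4 => ?_,
      fun σ hσ => hπ.nxt σ (hR.sub (.inl (σ, 0)) hσ), hπ.walk⟩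
    obtain ⟨i, rfl | rfl⟩ := hZ z h3 h4
    · rw [hm, ← hπ.nxt τ' hτ', hkey ψ π hπ hψ]
    · rw [hm', ← hkey ψ π hπ hψ, Fin.rev_rev, hπ.nxt τ' hτ', ← inv_inv (ψ (.inl (τ, _))), ← hψ,
        Fin.rev_rev, mul_inv_cancel_right]
  have hdl : ∀ i, Γ.dl (.inl (τ', Fin.rev i)) = flipL (Γ.dl (.inl (τ, i))) := by
    intro i
    obtain ⟨n, e, b⟩ := τ
    fin_cases i <;> cases b <;> simp [dl, flipL, he, head, tail]
  obtain ⟨γ, hγ, hc⟩ := h.pos
  refine ⟨D', ⟨hR.valid h.valid h.valid.nodup, rem_lab hR h.valid h.lab fun z h1 h2 => ?_, h.word,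
    fun ψ' hψ' => ?_, γ, hpot _ _ hγ fun i => gl_flip (hdl i), ?_⟩, ?_⟩
  · obtain ⟨i, rfl | rfl⟩ := hZ z h1 h2
    · rw [hm, hdl]
    · rw [hm', ← flipL_flipL (Γ.dl (.inl (τ, _))), ← hdl, Fin.rev_rev]
  · obtain ⟨ψ₁, -, -, -, a4, a5⟩ :=
      hR.extend h.valid hψ'.inv (fun _ => 1) fun _ _ _ => inv_one.symm
    let x := (ψ₁ (.inl (τ, i₀ + 1)) * ψ₁ (.inl (τ, i₀ + 2)))⁻¹
    let χ : Dart (TNm E) (ONm V A) → Multiplicative (ZMod 2) := fun z =>
      if z = .inl (τ, i₀) then x else if z = .inl (τ', Fin.rev i₀) then x⁻¹ else 1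
    obtain ⟨ψ, e1, e2, e3, e4, e5⟩ := hR.extend h.valid hψ'.inv χ (by
      intro z h1 h2
      obtain ⟨i, rfl | rfl⟩ := hZ z h1 h2
      · by_cases hi : i = i₀ <;> simp [hm, χ, hne, hne.symm, hi]
      · by_cases hi : i = Fin.rev i₀
        · simp [hm', χ, hne, hi]
        · simp [hm', χ, hne, hne.symm, hi, Fin.rev_eq_iff])
    have f1 : ∀ i, ψ (.inl (τ', Fin.rev i)) = (ψ (.inl (τ, i)))⁻¹ := fun i => by
      rw [← hm, e3 _ (hA i).1 (hA i).2]
    have f2 : ∀ i, i ≠ i₀ → ψ (.inl (τ, i)) = ψ₁ (.inl (τ, i)) := by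
      intro i hi
      by_cases h1 : D'.act (D.opp (.inl (τ, i)))
      · rw [e4 _ (hA i).2 h1, a4 _ (hA i).2 h1]
      · rw [e5 _ (hA i).2 h1, a5 _ (hA i).2 h1]
        simp [χ, hi, hne.symm]
    have f3 : ψ (.inl (τ, i₀)) * ψ (.inl (τ, i₀ + 1)) * ψ (.inl (τ, i₀ + 2)) = 1 := by
      rw [e5 _ (hA i₀).2 (by rw [ho]; exact (hB _).2), f2 _ (by simp), f2 _ (by simp +decide)]
      simp only [χ, if_true, x]
      group
    have f4 : ψ (.inl (τ, 0)) * ψ (.inl (τ, 1)) * ψ (.inl (τ, 2)) = 1 := by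
      rw [← f3]
      fin_cases i₀
      · rfl
      · exact (mul_rotate _ _ _)
      · exact (mul_rotate _ _ _).symm
    obtain ⟨π, hπ⟩ := h.planar ψ ⟨e2, fun σ hσ => by
      by_cases h1 : D'.act (.inl (σ, 0))
      · rw [e1 (.inl (σ, 0)) h1, e1 (.inl (σ, 1)) h1, e1 (.inl (σ, 2)) h1, hψ'.tri σ h1]
      · obtain ⟨i, h2 | h2⟩ := hZ (.inl (σ, 0)) hσ h1
        · obtain rfl : σ = τ := (Prod.mk.inj (Sum.inl_injective h2)).1
          exact f4
        · obtain rfl : σ = τ' := (Prod.mk.inj (Sum.inl_injective h2)).1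
          rw [show ψ (.inl (σ, 0)) = _ from f1 2, show ψ (.inl (σ, 1)) = _ from f1 1,
            show ψ (.inl (σ, 2)) = _ from f1 0, ← mul_inv_rev, ← mul_inv_rev, ← mul_assoc, f4,
            inv_one]⟩
    exact ⟨π, (hpot ψ π hπ f1).congr fun d hd => (e1 d hd).symm⟩
  · have h1 : γ (.inl (τ', 0)) = γ (.inl (τ, 0)) := hkey _ _ hγ (fun i => gl_flip (hdl i)) 0
    rw [← hc]
    unfold cls
    rw [← Finset.add_sum_erase _ _ hτ,
      ← Finset.add_sum_erase _ _ (Finset.mem_erase.2 ⟨hne, hτ'⟩), ← add_assoc, h1, he,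
      ← Finsupp.single_add]
    have : ((if τ.2.2 then -1 else 1) + if (τ.2.1, !τ.2.2).2 then -1 else 1 : ℤ) = 0 := by
      cases τ.2.2 <;> simp
    rw [this, Finsupp.single_zero, zero_add]
    rfl
  · exact (Finset.card_erase_le).trans_lt (Finset.card_erase_lt_of_mem hτ)

lemma l1_add_le {α : Type} (c c' : α →₀ ℤ) : l1 (c + c') ≤ l1 c + l1 c' := by
  classical
  unfold l1
  rw [Finsupp.sum_of_support_subset _ Finsupp.support_add _ (by simp),
    Finsupp.sum_of_support_subset c Finset.subset_union_left _ (by simp),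
    Finsupp.sum_of_support_subset c' Finset.subset_union_right _ (by simp), ← Finset.sum_add_distrib]
  exact Finset.sum_le_sum fun a _ => Int.natAbs_add_le _ _

lemma l1_cls_le (D : Pre (TNm E) (ONm V A)) (γ : Dart (TNm E) (ONm V A) → Γ.Grp) :
    l1 (Γ.cls D γ) ≤ D.tri.card := by
  classical
  unfold cls
  induction D.tri using Finset.induction_on with
  | empty => simp [l1]
  | insert τ s hτ ih =>
    rw [Finset.sum_insert hτ, Finset.card_insert_of_notMem hτ]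
    refine (l1_add_le _ _).trans ?_
    have : l1 (Finsupp.single (γ (.inl (τ, 0)), τ.2.1) (if τ.2.2 then -1 else 1 : ℤ)) = 1 := by
      unfold l1
      rw [Finsupp.sum_single_index rfl]
      split_ifs <;> rfl
    omega

theorem Good.rmap (hloop : ∀ e, Γ.src e ≠ Γ.tgt e) {D : Pre (TNm E) (ONm V A)}
    {L : List ((V ⊕ A) × Bool)} {c : Γ.Grp × E →₀ ℤ} (h : Γ.Good D L c)
    (hred : ∀ τ ∈ D.tri, ∀ τ' i, D.opp (.inl (τ, i)) = .inl (τ', Fin.rev i) →
      τ'.2 ≠ (τ.2.1, !τ.2.2)) :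
    Nonempty (RMap Γ {τ // τ ∈ D.tri} {o // o ∈ D.out}) := by
  classical
  let emb : ({τ // τ ∈ D.tri} × Fin 3) ⊕ {o // o ∈ D.out} → Dart (TNm E) (ONm V A) :=
    Sum.map (Prod.map Subtype.val id) Subtype.val
  have hinj : Function.Injective emb :=
    Sum.map_injective.2 ⟨Subtype.val_injective.prodMap Function.injective_id, Subtype.val_injective⟩
  have hact : ∀ d, D.act (emb d) := by
    rintro (⟨τ, i⟩ | o)
    · exact τ.2
    · exact o.2
  have hsurj : ∀ d, D.act d → ∃ d', emb d' = d := by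
    rintro (⟨τ, i⟩ | o) hd
    · exact ⟨.inl (⟨τ, hd⟩, i), rfl⟩
    · exact ⟨.inr ⟨o, hd⟩, rfl⟩
  choose opp hopp using fun d => hsurj _ (h.valid.act_opp _ (hact d))
  have hin : ∀ τ i τ' i', opp (.inl (τ, i)) = .inl (τ', i') →
      D.opp (.inl (τ.1, i)) = .inl (τ'.1, i') ∧
        Γ.dl (.inl (τ'.1, i')) = flipL (Γ.dl (.inl (τ.1, i))) := by
    intro τ i τ' i' h1
    have h2 : D.opp (.inl (τ.1, i)) = .inl (τ'.1, i') := (hopp (.inl (τ, i))).symm.trans (by rw [h1]; rfl)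
    exact ⟨h2, by rw [← h2]; exact h.lab _ τ.2⟩
  refine ⟨⟨fun τ => τ.1.2, opp, fun d => hinj ?_, fun d hd => ?_, fun τ i τ' i' h1 => ?_,
    fun τ τ' h1 => ?_, fun τ τ' h1 => ?_, fun ψ h1 h2 h3 => ?_⟩⟩
  · rw [hopp, hopp, h.valid.opp_opp _ (hact d)]
  · exact h.valid.opp_ne _ (hact d) (by rw [← hopp, hd])
  · exact idx_of_dl (hin _ _ _ _ h1).2
  · obtain ⟨h2, h3⟩ := hin _ _ _ _ h1
    have h4 : Γ.head τ.1.2 = Γ.tail τ'.1.2 := by simpa [dl, flipL] using h3.symm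
    refine ⟨h4, fun h5 => hred _ τ.2 _ _ h2 (Prod.ext h5 ?_)⟩
    by_contra h6
    have h7 : τ'.1.2 = τ.1.2 := Prod.ext h5 (by simpa using h6)
    exact tail_ne_head hloop _ (h7 ▸ h4.symm)
  · obtain ⟨h2, h3⟩ := hin _ _ _ _ h1
    have h4 : Γ.lab τ'.1.2.1 = Γ.lab τ.1.2.1 ∧ τ'.1.2.2 = !τ.1.2.2 := by simpa [dl, flipL] using h3
    exact ⟨h4.1, h4.2, fun h5 => hred _ τ.2 _ _ h2 (Prod.ext h5 h4.2)⟩
  · let ψ' : Dart (TNm E) (ONm V A) → Multiplicative (ZMod 2) :=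
      Function.extend emb (fun d => Multiplicative.ofAdd (ψ d)) 1
    have e : ∀ d, ψ' (emb d) = Multiplicative.ofAdd (ψ d) := fun d => hinj.extend_apply _ _ d
    obtain ⟨π, hπ⟩ := h.planar ψ' ⟨fun d hd => by
      obtain ⟨d, rfl⟩ := hsurj d hd
      rw [← hopp, e, e, h1, ← ofAdd_neg, CharTwo.neg_eq], fun τ hτ => by
      rw [show ψ' (.inl (τ, 0)) = _ from e (.inl (⟨τ, hτ⟩, 0)),
        show ψ' (.inl (τ, 1)) = _ from e (.inl (⟨τ, hτ⟩, 1)),
        show ψ' (.inl (τ, 2)) = _ from e (.inl (⟨τ, hτ⟩, 2)), ← ofAdd_add, ← ofAdd_add, h3,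
        ofAdd_zero]⟩
    refine ⟨fun d => (π (emb d)).toAdd, fun o => ?_, fun d => ?_, fun τ i => ?_⟩
    · have := hπ.walk.eq_of_one (fun o ho => by
        rw [show ψ' (.inr o) = _ from e (.inr ⟨o, ho⟩), h2, ofAdd_zero]) o.1 o.2
      exact congrArg Multiplicative.toAdd this
    · simp only [hopp, hπ.opp _ (hact d), e, toAdd_mul, toAdd_ofAdd]
    · have := hπ.nxt τ.1 τ.2 i
      rw [show ψ' (.inl (τ.1, i)) = _ from e (.inl (τ, i))] at this
      exact congrArg Multiplicative.toAdd this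

end LGraph

/-- van Kampen lemma: a derivation gives a reduced planar diagram -/
theorem exists_rmap {Γ : LGraph V A E} (hloop : ∀ e, Γ.src e ≠ Γ.tgt e)
    {L : List ((V ⊕ A) × Bool)} {c : Γ.Grp × E →₀ ℤ} (h : Der Γ.pres.toTriData L c) :
    ∃ (Tri Out : Type) (_ : Finite Tri) (_ : Finite Out) (_ : RMap Γ Tri Out),
      Nat.card Out = L.length ∧ l1 c ≤ Nat.card Tri := by
  classical
  obtain ⟨D, hD⟩ := LGraph.exists_good_of_der h
  induction hn : D.tri.card using Nat.strong_induction_on generalizing D with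
  | _ n ih =>
    by_cases hred : ∀ τ ∈ D.tri, ∀ τ' i, D.opp (.inl (τ, i)) = .inl (τ', Fin.rev i) →
      τ'.2 ≠ (τ.2.1, !τ.2.2)
    · obtain ⟨M⟩ := hD.rmap hloop hred
      refine ⟨_, _, inferInstance, (List.finite_toSet D.out).to_subtype, M, ?_, ?_⟩
      · rw [← hD.word, List.length_map, ← List.toFinset_card_of_nodup hD.valid.nodup,
          ← Nat.card_eq_finsetCard]
        simp only [List.mem_toFinset]
        rfl
      · obtain ⟨γ, -, rfl⟩ := hD.pos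
        rw [Nat.card_eq_finsetCard]
        exact LGraph.l1_cls_le D γ
    · push Not at hred
      obtain ⟨τ, hτ, τ', i, h1, h2⟩ := hred
      obtain ⟨D', hD', hlt⟩ := hD.mirror hloop hτ h1 h2
      exact ih _ (hn ▸ hlt) D' hD' rfl

end Crest.Agent.R177
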