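import Crest.Agent.R177.RMap

/-!
# Euler characteristic count: almost all places of a reduced planar diagram are straight

Let `T = #Tri`, `β = #Out`, `Dii` = inner darts whose opposite is inner, `#Dii ≥ 3T - β`.
`W` = `opp`-invariant functions `Dii → ZMod 2` is the kernel of `χ ↦ χ + χ ∘ opp` and contains its range, so
`2 dim W ≥ #Dii`.  The cocycles `Z ⊆ W` (extend by `0`; triangle sums vanish) have `dim Z ≥ dim W - T`.
Vertices: `Vx = Quot` of darts by `(τ, i+1) ~ opp (τ, i)`; interior vertices are the classes all of whose darts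
`d` are inner with `opp d` inner.  By `planar`, `Z` lies in the range of the coboundary map from
functions on interior vertices (`π` vanishes on outer darts and their opposites), so `2 Vint ≥ T - β`.
An interior class is closed under `ρ d = nxt (opp d)`.  Give the dart `(τ,0)` weight `1/g`, `(τ,2)` weight `0`, and
`(τ,1)` weight `1/2` if `good τ` (`φ (φ τ) = τ` for the partial map `φ = succ ∘ gl`), else `1/3`.  Every interior
class has weight `≥ 1`: if it contains some `(τ,0)`, the `ρ`-orbit gives a closed walk, so `≥ g` darts of index `0`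
(`Girth`); otherwise it contains some `(τ,1)`, and `φ τ ≠ τ` by `Folded`.  Hence
`Vint ≤ T/g + T/3 + #good/6`.  Finally `y` is straight as soon as `succ y = some y'` with `good y'`.
-/

set_option autoImplicit false

namespace Crest.Agent.R177

open Module

/-- functions invariant under a partial map, vanishing where it is undefined -/
def eulInv {X : Type} (f : X → Option X) : Submodule (ZMod 2) (X → ZMod 2) where
  carrier := {a | ∀ x, a x = (f x).elim 0 a}
  add_mem' := by
    intro a b ha hb x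
    have h1 := ha x
    have h2 := hb x
    cases h : f x <;> simp_all
  zero_mem' := by
    intro x
    cases f x <;> simp
  smul_mem' := by
    intro c a ha x
    have h1 := ha x
    cases h : f x <;> simp_all

lemma eul_finrank_inv {X : Type} [Fintype X] (f : X → Option X) (w : X → ℕ) (N : ℕ)
    (h : ∀ c : Finset X, c.Nonempty → (∀ x ∈ c, ∃ y ∈ c, f x = some y) → N ≤ ∑ x ∈ c, w x) :
    N * finrank (ZMod 2) (eulInv f) ≤ ∑ x, w x := by
  classical
  let ev : X → (eulInv f →ₗ[ZMod 2] ZMod 2) := fun x => (LinearMap.proj x).comp (eulInv f).subtype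
  have hev : ∀ x (a : eulInv f), ev x a = a.1 x := fun _ _ => rfl
  let K : Finset (eulInv f →ₗ[ZMod 2] ZMod 2) := (Finset.univ.image ev).erase 0
  have h1 : finrank (ZMod 2) (eulInv f) ≤ K.card := by
    let L : eulInv f →ₗ[ZMod 2] (K → ZMod 2) := LinearMap.pi fun k => k.1
    have hL : Function.Injective L := by
      rw [← LinearMap.ker_eq_bot, LinearMap.ker_eq_bot']
      intro a ha
      ext x
      by_cases hx : ev x = 0
      · exact LinearMap.congr_fun hx a
      · exact congrFun ha ⟨ev x, by simp [K, hx]⟩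
    simpa using LinearMap.finrank_le_finrank_of_injective hL
  have h2 : ∀ k ∈ K, N ≤ ∑ x ∈ Finset.univ.filter (fun x => ev x = k), w x := by
    intro k hk
    obtain ⟨hk0, hk⟩ := Finset.mem_erase.1 hk
    obtain ⟨x₀, -, hx₀⟩ := Finset.mem_image.1 hk
    refine h _ ⟨x₀, by simp [hx₀]⟩ ?_
    intro x hx
    have hx : ev x = k := by simpa using hx
    cases hf : f x with
    | none =>
      refine absurd ?_ hk0
      rw [← hx]
      ext a
      have := a.2 x
      rw [hf] at this
      exact this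
    | some y =>
      refine ⟨y, ?_, rfl⟩
      simp only [Finset.mem_filter, Finset.mem_univ, true_and]
      rw [← hx]
      ext a
      have := a.2 x
      rw [hf] at this
      exact this.symm
  calc N * finrank (ZMod 2) (eulInv f) ≤ N * K.card := Nat.mul_le_mul_left _ h1
    _ = ∑ _k ∈ K, N := by simp [mul_comm]
    _ ≤ ∑ k ∈ K, ∑ x ∈ Finset.univ.filter (fun x => ev x = k), w x := Finset.sum_le_sum h2
    _ ≤ ∑ k ∈ Finset.univ.image ev, ∑ x ∈ Finset.univ.filter (fun x => ev x = k), w x :=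
        Finset.sum_le_sum_of_subset (Finset.erase_subset _ _)
    _ = ∑ x, w x := Finset.sum_fiberwise_of_maps_to (fun x _ => Finset.mem_image_of_mem _ (by simp)) _

variable {V A E Tri Out : Type} {Γ : LGraph V A E}

/-- a nonempty set closed under `succ` contains a closed walk -/
lemma eul_girth {Y : Type} (C : Γ.Conf Y) {g : ℕ} (hg : Γ.Girth g) (c : Finset Y) (hc : c.Nonempty)
    (h : ∀ x ∈ c, ∃ y ∈ c, C.succ x = some y) : g ≤ c.card := by
  classical
  choose s hs hs' using h
  let t : c → c := fun x => ⟨s x.1 x.2, hs x.1 x.2⟩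
  have ht : ∀ x : c, C.succ x.1 = some (t x).1 := fun x => hs' x.1 x.2
  obtain ⟨x₀, hx₀⟩ := hc
  let x : c := ⟨x₀, hx₀⟩
  obtain ⟨i, j, hij, he⟩ : ∃ i j : ℕ, i < j ∧ j ≤ c.card ∧ t^[i] x = t^[j] x := by
    obtain ⟨i, j, hne, he⟩ := Fintype.exists_ne_map_eq_of_card_lt
      (fun i : Fin (c.card + 1) => t^[i] x) (by simp)
    rcases lt_or_gt_of_ne hne with h | h
    · exact ⟨i, j, h, Nat.lt_succ_iff.1 j.2, he⟩
    · exact ⟨j, i, h, Nat.lt_succ_iff.1 i.2, he.symm⟩
  have hstep : ∀ m, Γ.head (C.ed (t^[m] x).1) = Γ.tail (C.ed (t^[m + 1] x).1) ∧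
      (C.ed (t^[m + 1] x).1).1 ≠ (C.ed (t^[m] x).1).1 := by
    intro m
    rw [Function.iterate_succ_apply']
    exact C.succ_cont _ _ (ht _)
  have := hg (j - i) (fun k => C.ed (t^[i + k] x).1) (by omega) (fun k _ => hstep (i + k)) (by
    have := (hstep (i + (j - i - 1))).1
    rw [show i + (j - i - 1) + 1 = j by omega, ← he.2] at this
    exact this)
  omega

/-- `succ ∘ gl` -/
def eulPhi {Y : Type} (C : Γ.Conf Y) (y : Y) : Option Y := (C.gl y).bind C.succ

lemma eulPhi_ne {Y : Type} (C : Γ.Conf Y) (hF : Γ.Folded) (y : Y) : eulPhi C y ≠ some y := by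
  intro h
  obtain ⟨z, hz, hz'⟩ := Option.bind_eq_some_iff.1 h
  obtain ⟨h1, h2, h3⟩ := C.gl_lab _ _ hz
  obtain ⟨h4, -⟩ := C.succ_cont _ _ hz'
  apply h3
  unfold LGraph.head LGraph.tail at h4
  rw [h2] at h4
  cases hb : (C.ed y).2
  · rw [hb] at h4
    exact hF.2 _ _ (by simpa using h4) h1
  · rw [hb] at h4
    exact hF.1 _ _ (by simpa using h4) h1

/-- `φ (φ y) = y` -/
def eulGood {Y : Type} (C : Γ.Conf Y) (y : Y) : Prop := (eulPhi C y).bind (eulPhi C) = some y

open Classical in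
lemma eul_six {Y : Type} (C : Γ.Conf Y) (hF : Γ.Folded) (c : Finset Y) (hc : c.Nonempty)
    (h : ∀ x ∈ c, ∃ y ∈ c, eulPhi C x = some y) :
    6 ≤ ∑ x ∈ c, if eulGood C x then 3 else 2 := by
  obtain ⟨x, hx⟩ := hc
  obtain ⟨y, hy, hxy⟩ := h x hx
  obtain ⟨z, hz, hyz⟩ := h y hy
  have hyx : x ≠ y := fun e => eulPhi_ne C hF x (by rw [hxy, e])
  have hzy : y ≠ z := fun e => eulPhi_ne C hF y (by rw [hyz, e])
  by_cases hzx : x = z
  · subst hzx
    have gx : eulGood C x := by simp [eulGood, hxy, hyz]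
    have gy : eulGood C y := by simp [eulGood, hxy, hyz]
    calc 6 = ∑ u ∈ ({x, y} : Finset Y), if eulGood C u then 3 else 2 := by
          rw [Finset.sum_pair hyx, if_pos gx, if_pos gy]
      _ ≤ _ := Finset.sum_le_sum_of_subset (by simp [Finset.insert_subset_iff, hx, hy])
  · calc 6 = ∑ _u ∈ ({x, y, z} : Finset Y), 2 := by
          rw [Finset.sum_const, Finset.card_eq_three.2 ⟨x, y, z, hyx, hzx, hzy, rfl⟩]
          rfl
      _ ≤ ∑ u ∈ ({x, y, z} : Finset Y), if eulGood C u then 3 else 2 :=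
          Finset.sum_le_sum fun u _ => by split_ifs <;> omega
      _ ≤ _ := Finset.sum_le_sum_of_subset (by simp [Finset.insert_subset_iff, hx, hy, hz])

lemma eul_bent_le {Y : Type} [Finite Y] (C : Γ.Conf Y) :
    C.bent ≤ C.opn + Nat.card {y // ¬ eulGood C y} := by
  classical
  unfold LGraph.Conf.bent LGraph.Conf.opn
  rw [← Nat.card_sum]
  have key : ∀ y y', ¬ C.Straight y → C.succ y = some y' → ¬ eulGood C y' := by
    intro y y' hy hs hgood
    obtain ⟨z', h1, h2⟩ := Option.bind_eq_some_iff.1 hgood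
    obtain ⟨z, h3, h4⟩ := Option.bind_eq_some_iff.1 h1
    obtain ⟨u, h5, h6⟩ := Option.bind_eq_some_iff.1 h2
    obtain rfl : u = y := C.succ_inj _ _ _ h6 hs
    exact hy ⟨y', hs, Or.inr ⟨z, z', h3, h4, C.gl_symm _ _ h5⟩⟩
  have hex : ∀ y : {y // ¬ C.Straight y}, ∃ r : {y // C.succ y = none} ⊕ {y // ¬ eulGood C y},
      (∃ a, r = .inl a ∧ a.1 = y.1) ∨ ∃ b, r = .inr b ∧ C.succ y.1 = some b.1 := by
    intro y
    cases hs : C.succ y.1 with
    | none => exact ⟨.inl ⟨y.1, hs⟩, Or.inl ⟨_, rfl, rfl⟩⟩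
    | some y' => exact ⟨.inr ⟨y', key _ _ y.2 hs⟩, Or.inr ⟨_, rfl, rfl⟩⟩
  choose r hr using hex
  refine Nat.card_le_card_of_injective r fun y₁ y₂ e => Subtype.ext ?_
  rcases hr y₁ with ⟨a, ha, ha'⟩ | ⟨b, hb, hb'⟩ <;> rcases hr y₂ with ⟨a₂, ha₂, ha₂'⟩ | ⟨b₂, hb₂, hb₂'⟩
  · rw [e, ha₂] at ha
    rw [← ha', ← ha₂', Sum.inl.inj ha]
  · rw [e, hb₂] at ha
    cases ha
  · rw [e, ha₂] at hb
    cases hb
  · rw [e, hb₂] at hb
    rw [Sum.inr.inj hb] at hb₂'
    exact C.succ_inj _ _ _ hb' hb₂'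

lemma RMap.eul_none_le [Finite Out] (M : RMap Γ Tri Out) (i : Fin 3) :
    Nat.card {τ // M.nbr τ i = none} ≤ Nat.card Out := by
  have hex : ∀ τ : {τ // M.nbr τ i = none}, ∃ o, M.opp (.inl (τ.1, i)) = .inr o :=
    fun τ => M.nbr_eq_none.1 τ.2
  choose o ho using hex
  refine Nat.card_le_card_of_injective o fun τ₁ τ₂ e => Subtype.ext ?_
  have h : M.opp (.inl (τ₁.1, i)) = M.opp (.inl (τ₂.1, i)) := by rw [ho, ho, e]
  have h' := congrArg M.opp h
  rw [M.opp_opp, M.opp_opp] at h'
  simpa using h'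

lemma RMap.opn_le [Finite Tri] [Finite Out] (M : RMap Γ Tri Out) : M.conf.opn ≤ Nat.card Out :=
  M.eul_none_le 2

lemma RMap.ung_le [Finite Tri] [Finite Out] (M : RMap Γ Tri Out) : M.conf.ung ≤ Nat.card Out :=
  M.eul_none_le 1

/-- `ψ ↦ ψ + ψ ∘ opp` -/
def RMap.eulD (M : RMap Γ Tri Out) :
    ((Tri × Fin 3) ⊕ Out → ZMod 2) →ₗ[ZMod 2] ((Tri × Fin 3) ⊕ Out → ZMod 2) :=
  LinearMap.id + LinearMap.funLeft _ _ M.opp

lemma RMap.eulD_apply (M : RMap Γ Tri Out) (ψ : (Tri × Fin 3) ⊕ Out → ZMod 2)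
    (d : (Tri × Fin 3) ⊕ Out) : M.eulD ψ d = ψ d + ψ (M.opp d) := rfl

/-- boundary values and triangle sums -/
def eulB (Tri Out : Type) :
    ((Tri × Fin 3) ⊕ Out → ZMod 2) →ₗ[ZMod 2] (Tri ⊕ Out → ZMod 2) where
  toFun ψ := Sum.elim (fun τ => ψ (.inl (τ, 0)) + ψ (.inl (τ, 1)) + ψ (.inl (τ, 2)))
    fun o => ψ (.inr o)
  map_add' ψ χ := by
    funext d
    rcases d with τ | o
    · simp only [Sum.elim_inl, Pi.add_apply]
      ring
    · simp
  map_smul' c ψ := by
    funext d
    rcases d with τ | o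
    · simp only [Sum.elim_inl, Pi.smul_apply, smul_eq_mul, RingHom.id_apply]
      ring
    · simp

lemma eul_two (x : ZMod 2) : x + x = 0 := by
  revert x
  decide

lemma eul_eq_of_add {x y : ZMod 2} (h : x + y = 0) : y = x := by
  revert x y
  decide

/-- lower bound for the dimension of the relative cocycles -/
lemma RMap.eul_lower [Finite Tri] [Finite Out] (M : RMap Γ Tri Out) :
    Nat.card Tri ≤ 2 * finrank (ZMod 2) (LinearMap.ker ((eulB Tri Out).domRestrict
      (LinearMap.ker M.eulD))) + Nat.card Out := by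
  classical
  have := Fintype.ofFinite Tri
  have := Fintype.ofFinite Out
  have h1 := LinearMap.finrank_range_add_finrank_ker M.eulD
  have h2 : LinearMap.range M.eulD ≤ LinearMap.ker M.eulD := by
    rintro _ ⟨ψ, rfl⟩
    rw [LinearMap.mem_ker]
    funext d
    rw [M.eulD_apply, M.eulD_apply, M.eulD_apply, M.opp_opp, add_comm (ψ (M.opp d))]
    exact eul_two _
  have h3 := Submodule.finrank_mono h2
  have h4 := LinearMap.finrank_range_add_finrank_ker
    ((eulB Tri Out).domRestrict (LinearMap.ker M.eulD))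
  have h5 := Submodule.finrank_le
    (LinearMap.range ((eulB Tri Out).domRestrict (LinearMap.ker M.eulD)))
  simp only [finrank_fintype_fun_eq_card, Fintype.card_sum, Fintype.card_prod,
    Fintype.card_fin] at h1 h5
  rw [Nat.card_eq_fintype_card, Nat.card_eq_fintype_card]
  omega

/-- upper bound for the dimension of the relative cocycles -/
lemma RMap.eul_upper [Finite Tri] [Finite Out] (M : RMap Γ Tri Out) :
    finrank (ZMod 2) (LinearMap.ker ((eulB Tri Out).domRestrict (LinearMap.ker M.eulD))) ≤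
      finrank (ZMod 2) (eulInv M.conf.succ) + finrank (ZMod 2) (eulInv (eulPhi M.conf)) := by
  classical
  have := Fintype.ofFinite Tri
  have := Fintype.ofFinite Out
  have hex : ∀ ψ : LinearMap.ker ((eulB Tri Out).domRestrict (LinearMap.ker M.eulD)),
      ∃ π : (Tri × Fin 3) ⊕ Out → ZMod 2, (∀ o, π (.inr o) = 0) ∧
        (∀ d, π (M.opp d) = π d + ψ.1.1 d) ∧
        (∀ o, π (M.opp (.inr o)) = 0) ∧ ∀ τ i, π (.inl (τ, i + 1)) = π (M.opp (.inl (τ, i))) := by
    intro ψ
    have hψ : eulB Tri Out ψ.1.1 = 0 := ψ.2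
    have h0 : ∀ o, ψ.1.1 (.inr o) = 0 := fun o => congrFun hψ (.inr o)
    obtain ⟨π, h1, h2, h3⟩ := M.planar ψ.1.1
      (fun d => eul_eq_of_add (congrFun (LinearMap.mem_ker.1 ψ.1.2) d)) h0
      (fun τ => congrFun hψ (.inl τ))
    exact ⟨π, h1, h2, fun o => by rw [h2, h1, h0, add_zero], fun τ i => by rw [h2, h3]⟩
  choose π h1 h2 h3 h4 using hex
  have hval : ∀ ψ τ i, π ψ (.inl (τ, i + 1)) =
      (M.nbr τ i).elim 0 fun σ => π ψ (.inl (σ, Fin.rev i)) := by
    intro ψ τ i
    rw [h4]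
    cases h : M.nbr τ i with
    | none =>
      obtain ⟨o, ho⟩ := M.nbr_eq_none.1 h
      rw [ho, h1]
      rfl
    | some σ =>
      rw [M.nbr_eq_some.1 h]
      rfl
  have hval' : ∀ ψ τ i, π ψ (.inl (τ, i)) =
      (M.nbr τ i).elim 0 fun σ => π ψ (.inl (σ, Fin.rev i + 1)) := by
    intro ψ τ i
    cases h : M.nbr τ i with
    | none =>
      obtain ⟨o, ho⟩ := M.nbr_eq_none.1 h
      have := h3 ψ o
      rw [← ho, M.opp_opp] at this
      exact this
    | some σ =>
      have := h4 ψ σ (Fin.rev i)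
      rw [← M.nbr_eq_some.1 h, M.opp_opp] at this
      exact this.symm
  have ha : ∀ ψ, (fun τ => π ψ (.inl (τ, 0))) ∈ eulInv M.conf.succ := fun ψ τ => hval ψ τ 2
  have hb : ∀ ψ, (fun τ => π ψ (.inl (τ, 1))) ∈ eulInv (eulPhi M.conf) := by
    intro ψ τ
    change π ψ (.inl (τ, 1)) = ((M.nbr τ 1).bind fun σ => M.nbr σ 2).elim 0 _
    rw [hval' ψ τ 1]
    cases h : M.nbr τ 1 with
    | none => rfl
    | some σ => exact hval' ψ σ 2
  let F : LinearMap.ker ((eulB Tri Out).domRestrict (LinearMap.ker M.eulD)) →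
      eulInv M.conf.succ × eulInv (eulPhi M.conf) := fun ψ => (⟨_, ha ψ⟩, ⟨_, hb ψ⟩)
  have hF : Function.Injective F := by
    intro ψ χ e
    have e0 : ∀ τ, π ψ (.inl (τ, 0)) = π χ (.inl (τ, 0)) :=
      fun τ => congrFun (congrArg (fun p => p.1.1) e) τ
    have e1 : ∀ τ, π ψ (.inl (τ, 1)) = π χ (.inl (τ, 1)) :=
      fun τ => congrFun (congrArg (fun p => p.2.1) e) τ
    have e2 : ∀ τ, π ψ (.inl (τ, 2)) = π χ (.inl (τ, 2)) := by
      intro τ
      have k1 := hval ψ τ 1
      have k2 := hval χ τ 1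
      have : (fun σ => π ψ (.inl (σ, Fin.rev 1))) = fun σ => π χ (.inl (σ, Fin.rev 1)) :=
        funext e1
      rw [this] at k1
      exact k1.trans k2.symm
    have hπ : π ψ = π χ := by
      funext d
      rcases d with ⟨τ, i⟩ | o
      · fin_cases i
        · exact e0 τ
        · exact e1 τ
        · exact e2 τ
      · rw [h1, h1]
    refine Subtype.ext (Subtype.ext (funext fun d => ?_))
    have k1 := h2 ψ d
    have k2 := h2 χ d
    rw [hπ] at k1
    exact add_left_cancel (k1.symm.trans k2)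
  have hc := Nat.card_le_card_of_injective F hF
  rw [Nat.card_prod, Module.natCard_eq_pow_finrank (K := ZMod 2),
    Module.natCard_eq_pow_finrank (K := ZMod 2) (V := eulInv M.conf.succ),
    Module.natCard_eq_pow_finrank (K := ZMod 2) (V := eulInv (eulPhi M.conf)), ← pow_add,
    Nat.card_zmod] at hc
  exact (Nat.pow_le_pow_iff_right (by norm_num)).1 hc

theorem RMap.bent_le [Finite Tri] [Finite Out] (M : RMap Γ Tri Out) (hF : Γ.Folded) {g : ℕ}
    (hg : Γ.Girth g) :
    g * M.conf.bent ≤ 6 * Nat.card Tri + 4 * g * Nat.card Out := by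
  classical
  have := Fintype.ofFinite Tri
  have h1 := M.eul_lower
  have h2 := M.eul_upper
  have h3 := eul_finrank_inv M.conf.succ (fun _ => 1) g fun c hc h => by
    simpa using eul_girth M.conf hg c hc h
  have h4 := eul_finrank_inv (eulPhi M.conf) (fun x => if eulGood M.conf x then 3 else 2) 6
    fun c hc h => eul_six M.conf hF c hc h
  have h5 := eul_bent_le M.conf
  have h6 := M.opn_le
  have h7 : (∑ x, if eulGood M.conf x then 3 else 2) + Nat.card {y // ¬ eulGood M.conf y} =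
      3 * Nat.card Tri := by
    rw [Nat.card_eq_fintype_card, Fintype.card_subtype, Finset.card_filter,
      ← Finset.sum_add_distrib, Nat.card_eq_fintype_card,
      Finset.sum_congr rfl (g := fun _ => 3) fun x _ => by split_ifs <;> rfl]
    simp [mul_comm]
  have h3' : g * finrank (ZMod 2) (eulInv M.conf.succ) ≤ Nat.card Tri := by simpa using h3
  have h8 : M.conf.bent ≤ 6 * finrank (ZMod 2) (eulInv M.conf.succ) + 4 * Nat.card Out := by omega
  calc g * M.conf.bent ≤ g * (6 * finrank (ZMod 2) (eulInv M.conf.succ) + 4 * Nat.card Out) :=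
        Nat.mul_le_mul_left _ h8
    _ = 6 * (g * finrank (ZMod 2) (eulInv M.conf.succ)) + 4 * g * Nat.card Out := by ring
    _ ≤ _ := by omega

end Crest.Agent.R177
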