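import Mathlib

/-! # One multiplicative step for the Fuglede–Kadison determinant -/

set_option autoImplicit false

namespace Crest.Agent.R177

open Polynomial

section aux

variable {A : Type*} [CStarAlgebra A] (M : StarSubalgebra ℝ A) (τ : A →L[ℝ] ℝ)

theorem fk_pow_deriv (htr : ∀ u ∈ M, ∀ v ∈ M, τ (u * v) = τ (v * u)) {a : ℝ → A} {a' : A} {t : ℝ}
    (ha : HasDerivAt a a' t) (h1 : a t ∈ M) (h2 : a' ∈ M) (k : ℕ) :
    ∃ D ∈ M, HasDerivAt (fun s => a s ^ k) D t ∧
      ∀ j : ℕ, τ (a t ^ j * D) = k * τ (a t ^ (j + k - 1) * a') := by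
  induction k with
  | zero => exact ⟨0, M.zero_mem, by simpa using hasDerivAt_const t (1 : A), fun j => by simp⟩
  | succ k ih =>
    obtain ⟨D, hD, hd, hτ⟩ := ih
    refine ⟨D * a t + a t ^ k * a', add_mem (mul_mem hD h1) (mul_mem (pow_mem h1 k) h2), ?_,
      fun j => ?_⟩
    · simp only [pow_succ]
      exact hd.mul ha
    · rw [mul_add, map_add, ← mul_assoc, htr _ (mul_mem (pow_mem h1 j) hD) _ h1, ← mul_assoc,
        ← pow_succ', hτ, ← mul_assoc, ← pow_add]
      rw [show j + 1 + k - 1 = j + k by omega, show j + (k + 1) - 1 = j + k by omega]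
      push_cast
      ring

theorem fk_poly_deriv (htr : ∀ u ∈ M, ∀ v ∈ M, τ (u * v) = τ (v * u)) {a : ℝ → A} {a' : A}
    {t : ℝ} (ha : HasDerivAt a a' t) (h1 : a t ∈ M) (h2 : a' ∈ M) (f : ℝ[X]) :
    HasDerivAt (fun s => τ (aeval (a s) f)) (τ (aeval (a t) (derivative f) * a')) t := by
  induction f using Polynomial.induction_on' with
  | add p q hp hq =>
    simp only [map_add, add_mul]
    exact hp.add hq
  | monomial n c =>
    obtain ⟨D, -, hd, hτ⟩ := fk_pow_deriv M τ htr ha h1 h2 n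
    have h3 := (τ.hasFDerivAt.comp_hasDerivAt t hd).const_mul c
    have h4 := hτ 0
    rw [pow_zero, one_mul, zero_add] at h4
    have h5 : (fun s => τ (aeval (a s) (monomial n c))) =
        fun s => c * (τ ∘ fun s => a s ^ n) s := by
      funext s
      simp [aeval_monomial, ← Algebra.smul_def]
    have h6 : τ (aeval (a t) (derivative (monomial n c)) * a') = c * τ D := by
      rw [h4, derivative_monomial, aeval_monomial, mul_assoc, ← Algebra.smul_def, map_smul,
        smul_eq_mul, mul_assoc]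
    rw [h5, h6]
    exact h3

theorem fk_exists_antideriv (g : ℝ[X]) : ∃ f : ℝ[X], derivative f = g := by
  induction g using Polynomial.induction_on' with
  | add p q hp hq =>
    obtain ⟨f, hf⟩ := hp
    obtain ⟨f', hf'⟩ := hq
    exact ⟨f + f', by rw [map_add, hf, hf']⟩
  | monomial n c =>
    refine ⟨monomial (n + 1) (c / (n + 1)), ?_⟩
    rw [derivative_monomial_succ]
    congr 1
    field_simp

theorem fk_exists_poly {m R ε : ℝ} (hm : 0 < m) (hε : 0 < ε) :
    ∃ f : ℝ[X], ∀ s ∈ Set.Icc m R, |f.eval s - Real.log s| ≤ ε * (R - m) ∧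
      |(derivative f).eval s - s⁻¹| ≤ ε := by
  obtain ⟨g, hg⟩ := exists_polynomial_near_of_continuousOn m R (fun s => s⁻¹)
    (continuousOn_inv₀.mono fun s hs => (lt_of_lt_of_le hm hs.1).ne') ε hε
  obtain ⟨f₀, hf₀⟩ := fk_exists_antideriv g
  refine ⟨f₀ - C (f₀.eval m - Real.log m), fun s hs => ⟨?_, ?_⟩⟩
  · have h := norm_image_sub_le_of_norm_deriv_le_segment' (a := m) (b := R) (C := ε)
      (f := fun s => f₀.eval s - Real.log s) (f' := fun s => g.eval s - s⁻¹)
      (fun x hx => (((hf₀ ▸ f₀.hasDerivAt x).sub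
        (Real.hasDerivAt_log (lt_of_lt_of_le hm hx.1).ne'))).hasDerivWithinAt)
      (fun x hx => (hg x (Set.Ico_subset_Icc_self hx)).le) s hs
    rw [Real.norm_eq_abs] at h
    have h2 : ε * (s - m) ≤ ε * (R - m) := by
      have := hs.2
      gcongr
    refine le_trans (le_of_eq ?_) (h.trans h2)
    congr 1
    simp only [eval_sub, eval_C]
    ring
  · rw [map_sub, derivative_C, sub_zero, hf₀]
    exact (hg s hs).le

end aux

/-- Recipe.  `x t = (1 + t • N) * y`, `t ∈ [0,1]`, has inverse `y' * (1 - (t/(1+tκ)) • N)` in `M`;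
`a t = star (x t) * x t` is self-adjoint, a polynomial of degree 2 in `t`, with `spectrum ℝ (a t)` in
a fixed interval `[m, R]`, `0 < m` (`‖a t‖ ≤ R`, `‖(a t)⁻¹‖ ≤ 1/m`, `a t ≥ 0`).  For a real polynomial
`f`, `d/dt τ (aeval (a t) f) = τ (aeval (a t) f' * a' t)` (monomials, trace property on `M`).  Take
polynomials `g` uniformly `ε`-close to `1/s` on `[m,R]` (`exists_polynomial_near_of_continuousOn`) and
`f` with `f' = g`, `f m = log m`; then `f` is `ε (R-m)`-close to `log`; `cfc_aeval`/`cfc_polynomial`,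
`norm_cfc_le`, `cfc_inv_id`.  Finally `τ ((a t)⁻¹ * a' t) = 2 τ ((x t)⁻¹ * x' t) = 2 τ N / (1+tκ)`,
and the mean value inequality gives the claim up to `C ε`. -/
theorem trace_log_step {A : Type*} [CStarAlgebra A] (M : StarSubalgebra ℝ A) (τ : A →L[ℝ] ℝ)
    (htr : ∀ u ∈ M, ∀ v ∈ M, τ (u * v) = τ (v * u)) (hstar : ∀ u, τ (star u) = τ u)
    (y y' N : A) (hy : y ∈ M) (hy' : y' ∈ M) (hN : N ∈ M) (h1 : y * y' = 1) (h2 : y' * y = 1)
    (κ : ℝ) (hκ : -1 < κ) (hNN : N * N = κ • N) (φ : ℝ → ℝ)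
    (hφ : ∀ t ∈ Set.Icc (0 : ℝ) 1, HasDerivAt φ (2 * τ N / (1 + t * κ)) t) :
    τ (cfc Real.log (star ((1 + N) * y) * ((1 + N) * y))) =
      τ (cfc Real.log (star y * y)) + (φ 1 - φ 0) := by
  have hpos : ∀ t ∈ Set.Icc (0 : ℝ) 1, 0 < 1 + t * κ := by
    intro t ht
    rcases le_or_gt 0 κ with h | h
    · have := mul_nonneg ht.1 h
      linarith
    · nlinarith [ht.2]
  let x : ℝ → A := fun t => (1 + t • N) * y
  let xi : ℝ → A := fun t => y' * (1 - (t / (1 + t * κ)) • N)
  have hNi : ∀ t ∈ Set.Icc (0 : ℝ) 1, (1 - (t / (1 + t * κ)) • N) * (1 + t • N) = 1 ∧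
      (1 + t • N) * (1 - (t / (1 + t * κ)) • N) = 1 ∧
      (1 - (t / (1 + t * κ)) • N) * N = (1 / (1 + t * κ)) • N := by
    intro t ht
    have h0 := (hpos t ht).ne'
    have e1 : t - t / (1 + t * κ) - t / (1 + t * κ) * t * κ = 0 := by field_simp; ring
    have e2 : 1 - t / (1 + t * κ) * κ = 1 / (1 + t * κ) := by field_simp; ring
    refine ⟨?_, ?_, ?_⟩
    · have : (1 - (t / (1 + t * κ)) • N) * (1 + t • N) =
          1 + (t - t / (1 + t * κ) - t / (1 + t * κ) * t * κ) • N := by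
        simp only [sub_mul, mul_add, one_mul, mul_one, smul_mul_smul_comm, hNN, smul_smul,
          sub_smul]
        abel
      rw [this, e1, zero_smul, add_zero]
    · have : (1 + t • N) * (1 - (t / (1 + t * κ)) • N) =
          1 + (t - t / (1 + t * κ) - t / (1 + t * κ) * t * κ) • N := by
        simp only [add_mul, mul_sub, one_mul, mul_one, smul_mul_smul_comm, hNN, smul_smul,
          sub_smul, mul_comm t (t / (1 + t * κ))]
        abel
      rw [this, e1, zero_smul, add_zero]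
    · rw [sub_mul, one_mul, smul_mul_assoc, hNN, smul_smul, ← e2, sub_smul, one_smul]
  have hx1 : ∀ t ∈ Set.Icc (0 : ℝ) 1, xi t * x t = 1 := by
    intro t ht
    simp only [x, xi]
    rw [mul_assoc, ← mul_assoc _ _ y, (hNi t ht).1, one_mul, h2]
  have hx2 : ∀ t ∈ Set.Icc (0 : ℝ) 1, x t * xi t = 1 := by
    intro t ht
    simp only [x, xi]
    rw [mul_assoc, ← mul_assoc y, h1, one_mul, (hNi t ht).2.1]
  have hxM : ∀ t, x t ∈ M := fun t => mul_mem (add_mem M.one_mem (M.smul_mem hN t)) hy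
  have hxiM : ∀ t, xi t ∈ M := fun t => mul_mem hy' (sub_mem M.one_mem (M.smul_mem hN _))
  have hxd : ∀ t, HasDerivAt x (N * y) t := by
    intro t
    have := (((hasDerivAt_id t).smul_const N).const_add 1).mul_const y
    rw [one_smul] at this
    exact this
  let a : ℝ → A := fun t => star (x t) * x t
  let a' : ℝ → A := fun t => star (N * y) * x t + star (x t) * (N * y)
  let ai : ℝ → A := fun t => xi t * star (xi t)
  have had : ∀ t, HasDerivAt a (a' t) t := fun t => (hxd t).star.mul (hxd t)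
  have haM : ∀ t, a t ∈ M := fun t => mul_mem (star_mem (hxM t)) (hxM t)
  have hNy : N * y ∈ M := mul_mem hN hy
  have ha'M : ∀ t, a' t ∈ M := fun t =>
    add_mem (mul_mem (star_mem hNy) (hxM t)) (mul_mem (star_mem (hxM t)) hNy)
  have hsa : ∀ t, IsSelfAdjoint (a t) := fun t => IsSelfAdjoint.star_mul_self _
  have hs1 : ∀ t ∈ Set.Icc (0 : ℝ) 1, star (xi t) * star (x t) = 1 := by
    intro t ht
    rw [← star_mul, hx2 t ht, star_one]
  have hs2 : ∀ t ∈ Set.Icc (0 : ℝ) 1, star (x t) * star (xi t) = 1 := by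
    intro t ht
    rw [← star_mul, hx1 t ht, star_one]
  let u : (t : Set.Icc (0 : ℝ) 1) → Aˣ := fun t => ⟨a t, ai t, by
      simp only [a, ai]
      rw [mul_assoc, ← mul_assoc (x t), hx2 t t.2, one_mul, hs2 t t.2], by
      simp only [a, ai]
      rw [mul_assoc, ← mul_assoc (star (xi t)), hs1 t t.2, one_mul, hx1 t t.2]⟩
  have hτ : ∀ t ∈ Set.Icc (0 : ℝ) 1, τ (ai t * a' t) = 2 * τ N / (1 + t * κ) := by
    intro t ht
    have e1 : τ (xi t * (N * y)) = τ N / (1 + t * κ) := by
      rw [← mul_assoc, htr _ (mul_mem (hxiM t) hN) _ hy]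
      simp only [xi]
      rw [mul_assoc y', ← mul_assoc, h1, one_mul, (hNi t ht).2.2, map_smul, smul_eq_mul]
      ring
    have e2 : ai t * (star (x t) * (N * y)) = xi t * (N * y) := by
      simp only [ai]
      rw [mul_assoc, ← mul_assoc (star (xi t)), hs1 t ht, one_mul]
    have e3 : τ (ai t * (star (N * y) * x t)) = τ N / (1 + t * κ) := by
      simp only [ai]
      rw [← mul_assoc, htr _ (mul_mem (mul_mem (hxiM t) (star_mem (hxiM t))) (star_mem hNy)) _
        (hxM t), ← mul_assoc, ← mul_assoc, hx2 t ht, one_mul, ← star_mul, hstar,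
        htr _ hNy _ (hxiM t), e1]
    simp only [a']
    rw [mul_add, map_add, e2, e1, e3]
    ring
  -- uniform bounds
  have hxc : Continuous x := by fun_prop
  have hxic : ContinuousOn xi (Set.Icc 0 1) := by
    have hq : ContinuousOn (fun t : ℝ => t / (1 + t * κ)) (Set.Icc 0 1) :=
      continuousOn_id.div (by fun_prop) fun t ht => (hpos t ht).ne'
    have hq' : ContinuousOn (fun t : ℝ => (t / (1 + t * κ)) • N) (Set.Icc 0 1) :=
      hq.smul continuousOn_const
    exact continuousOn_const.mul (continuousOn_const.sub hq')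
  obtain ⟨R, hR⟩ := isCompact_Icc.exists_bound_of_continuousOn
    (f := fun t => ‖a t‖ * ‖(1 : A)‖) (s := Set.Icc (0 : ℝ) 1) (by fun_prop)
  obtain ⟨R', hR'⟩ := isCompact_Icc.exists_bound_of_continuousOn
    (f := fun t => ‖ai t‖ * ‖(1 : A)‖) (s := Set.Icc (0 : ℝ) 1)
    ((hxic.mul hxic.star).norm.mul continuousOn_const)
  obtain ⟨R'', hR''⟩ := isCompact_Icc.exists_bound_of_continuousOn
    (f := a') (s := Set.Icc (0 : ℝ) 1) (by fun_prop)
  have hR'0 : 0 ≤ R' := le_trans (norm_nonneg _) (hR' 0 (by simp))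
  have hR''0 : 0 ≤ R'' := le_trans (norm_nonneg _) (hR'' 0 (by simp))
  set m : ℝ := (R' + 1)⁻¹ with hm
  have hm0 : 0 < m := by positivity
  have hspec : ∀ t ∈ Set.Icc (0 : ℝ) 1, ∀ s ∈ spectrum ℝ (a t), s ∈ Set.Icc m (max R m) := by
    intro t ht s hs
    have e0 : 0 ≤ s := spectrum_star_mul_self_nonneg s hs
    have e1 : s ≠ 0 := fun h => spectrum.zero_notMem ℝ (u ⟨t, ht⟩).isUnit (h ▸ hs)
    have e2 : 0 < s := lt_of_le_of_ne e0 e1.symm
    have e3 := spectrum.norm_le_norm_mul_of_mem hs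
    have e4 := spectrum.norm_le_norm_mul_of_mem
      ((spectrum.inv₀_mem_inv_iff (r := s) (a := u ⟨t, ht⟩)).mpr hs)
    have e5 := hR t ht
    have e6 := hR' t ht
    rw [Real.norm_eq_abs] at e3 e4 e5 e6
    refine ⟨?_, le_max_of_le_left ((le_abs_self _).trans (e3.trans ((le_abs_self _).trans e5)))⟩
    have e7 : s⁻¹ ≤ R' + 1 := by
      have := (le_abs_self _).trans (e4.trans ((le_abs_self _).trans e6))
      linarith
    rw [hm]
    exact inv_le_of_inv_le₀ e2 e7
  set R₁ := max R m with hR₁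
  have hR₁m : 0 ≤ R₁ - m := sub_nonneg.mpr (le_max_right _ _)
  have key : ∀ ε : ℝ, 0 < ε → |τ (cfc Real.log (a 1)) - τ (cfc Real.log (a 0)) - (φ 1 - φ 0)| ≤
      ε * (‖τ‖ * (R'' + 2 * (R₁ - m))) := by
    intro ε hε
    obtain ⟨f, hf⟩ := fk_exists_poly (R := R₁) hm0 hε
    have e1 : ∀ t ∈ Set.Icc (0 : ℝ) 1,
        |τ (aeval (a t) f) - τ (cfc Real.log (a t))| ≤ ‖τ‖ * (ε * (R₁ - m)) := by
      intro t ht
      have hc : ContinuousOn Real.log (spectrum ℝ (a t)) :=
        Real.continuousOn_log.mono fun s hs => (lt_of_lt_of_le hm0 (hspec t ht s hs).1).ne'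
      rw [← map_sub, ← cfc_polynomial f (a t) (hsa t), ← cfc_sub _ _ (a t) (by fun_prop) hc]
      refine (τ.le_opNorm _).trans (mul_le_mul_of_nonneg_left ?_ (norm_nonneg _))
      exact norm_cfc_le (by positivity) fun s hs => (hf s (hspec t ht s hs)).1
    have e2 : ∀ t ∈ Set.Icc (0 : ℝ) 1,
        ‖τ (aeval (a t) (derivative f) * a' t) - 2 * τ N / (1 + t * κ)‖ ≤ ‖τ‖ * (ε * R'') := by
      intro t ht
      have hc : ContinuousOn (fun s : ℝ => s⁻¹) (spectrum ℝ (a t)) :=
        continuousOn_inv₀.mono fun s hs => (lt_of_lt_of_le hm0 (hspec t ht s hs).1).ne'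
      have hi : cfc (fun s : ℝ => s⁻¹) (a t) = ai t := cfc_inv_id (u ⟨t, ht⟩) (hsa t)
      rw [← hτ t ht, ← map_sub, ← sub_mul, ← cfc_polynomial (derivative f) (a t) (hsa t), ← hi,
        ← cfc_sub _ _ (a t) (by fun_prop) hc]
      refine (τ.le_opNorm _).trans (mul_le_mul_of_nonneg_left ?_ (norm_nonneg _))
      refine (norm_mul_le _ _).trans (mul_le_mul ?_ (hR'' t ht) (norm_nonneg _) hε.le)
      exact norm_cfc_le hε.le fun s hs => (hf s (hspec t ht s hs)).2
    have e3 := norm_image_sub_le_of_norm_deriv_le_segment_01'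
      (f := fun t => τ (aeval (a t) f) - φ t)
      (fun t ht => ((fk_poly_deriv M τ htr (had t) (haM t) (ha'M t) f).sub
        (hφ t ht)).hasDerivWithinAt)
      (fun t ht => e2 t (Set.Ico_subset_Icc_self ht))
    rw [Real.norm_eq_abs] at e3
    have e4 := abs_le.mp (e1 0 (by simp))
    have e5 := abs_le.mp (e1 1 (by simp))
    have e6 := abs_le.mp e3
    rw [abs_le]
    constructor <;> nlinarith [e4.1, e4.2, e5.1, e5.2, e6.1, e6.2]
  have hzero : |τ (cfc Real.log (a 1)) - τ (cfc Real.log (a 0)) - (φ 1 - φ 0)| ≤ 0 := by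
    refine le_of_forall_pos_le_add fun δ hδ => ?_
    set Cc := ‖τ‖ * (R'' + 2 * (R₁ - m)) with hCc
    have hC0 : 0 ≤ Cc := by positivity
    refine (key (δ / (Cc + 1)) (by positivity)).trans ?_
    rw [zero_add, div_mul_eq_mul_div, div_le_iff₀ (by positivity)]
    nlinarith
  have := abs_nonpos_iff.mp hzero
  simp only [a, x, one_smul, zero_smul, add_zero, one_mul] at this
  linarith

end Crest.Agent.R177
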