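import Mathlib
import Crest.Prelude.Def_GroupRingDet

/-! # The regular representation of matrices over the real group ring -/

set_option autoImplicit false

namespace Crest.Agent.R177

open Crest.AlgebraR.GroupRingDet

namespace FK2

section basis
variable {ι E : Type} [NormedAddCommGroup E] [InnerProductSpace ℂ E] [CompleteSpace E]

/-- A signed permutation of a Hilbert basis extends to a bounded operator. -/
theorem exists_signedPerm (b : HilbertBasis ι ℂ E) (σ : Equiv.Perm ι) (ε : ι → ℂ)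
    (hε : ∀ x, ε x = 1 ∨ ε x = -1) : ∃ U : E →L[ℂ] E, ∀ x, U (b x) = ε x • b (σ x) := by
  classical
  have hsq : ∀ x, ε x * ε x = 1 := fun x => by rcases hε x with h | h <;> simp [h]
  have hst : ∀ x, (starRingEnd ℂ) (ε x) = ε x := fun x => by rcases hε x with h | h <;> simp [h]
  have hon : Orthonormal ℂ (fun x => ε x • b (σ x)) := by
    rw [orthonormal_iff_ite]
    intro x y
    rw [inner_smul_left, inner_smul_right, orthonormal_iff_ite.mp b.orthonormal, hst]
    by_cases h : x = y
    · subst h; simp [hsq]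
    · simp [h]
  have hsp : ⊤ ≤ (Submodule.span ℂ (Set.range fun x => ε x • b (σ x))).topologicalClosure := by
    rw [← b.dense_span]
    apply Submodule.topologicalClosure_mono
    rw [Submodule.span_le]
    rintro _ ⟨y, rfl⟩
    have h1 : b y = ε (σ.symm y) • (ε (σ.symm y) • b (σ (σ.symm y))) := by
      rw [smul_smul, hsq]; simp
    rw [h1]
    exact Submodule.smul_mem _ _ (Submodule.subset_span ⟨σ.symm y, rfl⟩)
  let b' : HilbertBasis ι ℂ E := HilbertBasis.mk hon hsp
  refine ⟨(b.repr.trans b'.repr.symm).toContinuousLinearEquiv.toContinuousLinearMap, fun x => ?_⟩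
  have h1 : b' x = ε x • b (σ x) := by
    have := HilbertBasis.coe_mk hon hsp
    exact congrFun this x
  simp only [ContinuousLinearEquiv.coe_coe, LinearIsometryEquiv.coe_toContinuousLinearEquiv,
    LinearIsometryEquiv.trans_apply, HilbertBasis.repr_self]
  rw [← h1, ← HilbertBasis.repr_self b' x, LinearIsometryEquiv.symm_apply_apply]

theorem exists_partialPerm (b : HilbertBasis ι ℂ E) (σ : Equiv.Perm ι) (p : ι → Prop)
    [DecidablePred p] : ∃ U : E →L[ℂ] E, ∀ x, U (b x) = if p x then b (σ x) else 0 := by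
  obtain ⟨U, hU⟩ := exists_signedPerm b σ (fun _ => 1) (fun _ => Or.inl rfl)
  obtain ⟨V, hV⟩ := exists_signedPerm b σ (fun x => if p x then 1 else -1)
    (fun x => by by_cases h : p x <;> simp [h])
  refine ⟨(1 / 2 : ℂ) • (U + V), fun x => ?_⟩
  rw [ContinuousLinearMap.smul_apply, ContinuousLinearMap.add_apply, hU, hV, ← add_smul, smul_smul]
  by_cases h : p x
  · simp only [h, if_true]; norm_num
  · simp [h]

omit [CompleteSpace E] in
theorem ext_coeff (b : HilbertBasis ι ℂ E) {S T : E →L[ℂ] E}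
    (h : ∀ x y, inner ℂ (b x) (S (b y)) = inner ℂ (b x) (T (b y))) : S = T := by
  refine ContinuousLinearMap.ext_on (s := Set.range b) ?_ ?_
  · rw [Submodule.dense_iff_topologicalClosure_eq_top]; exact b.dense_span
  · rintro _ ⟨y, rfl⟩
    apply b.repr.injective
    ext x
    rw [HilbertBasis.repr_apply_apply, HilbertBasis.repr_apply_apply, h]

end basis

section rep
variable {G : Type} [Group G] {n : ℕ} {E : Type} [NormedAddCommGroup E] [InnerProductSpace ℂ E]
  [CompleteSpace E]

theorem exists_op (b : HilbertBasis (Fin n × G) ℂ E)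
    (A : Matrix (Fin n) (Fin n) (MonoidAlgebra ℝ G)) :
    ∃ T : E →L[ℂ] E, ∀ j g, T (b (j, g)) =
      ∑ i, (A i j).coeff.sum fun k c => ((c : ℝ) : ℂ) • b (i, k * g) := by
  classical
  have h : ∀ (i j : Fin n) (k : G), ∃ U : E →L[ℂ] E, ∀ j' g, U (b (j', g)) =
      if j' = j then b (i, k * g) else 0 := by
    intro i j k
    obtain ⟨U, hU⟩ := exists_partialPerm b ((Equiv.swap j i).prodCongr (Equiv.mulLeft k))
      (fun x => x.1 = j)
    refine ⟨U, fun j' g => ?_⟩
    rw [hU]
    by_cases hj : j' = j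
    · subst hj; simp
    · simp [hj]
  choose e he using h
  refine ⟨∑ i, ∑ j, (A i j).coeff.sum fun k c => ((c : ℝ) : ℂ) • e i j k, fun j g => ?_⟩
  rw [ContinuousLinearMap.sum_apply]
  refine Finset.sum_congr rfl fun i _ => ?_
  rw [ContinuousLinearMap.sum_apply, Finset.sum_eq_single j]
  · simp only [Finsupp.sum, ContinuousLinearMap.sum_apply, ContinuousLinearMap.smul_apply, he,
      if_true]
  · intro j' _ hj
    simp only [Finsupp.sum, ContinuousLinearMap.sum_apply, ContinuousLinearMap.smul_apply, he,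
      if_neg hj.symm, smul_zero, Finset.sum_const_zero]
  · simp

/-- The operator of a matrix over the real group ring. -/
noncomputable def op (b : HilbertBasis (Fin n × G) ℂ E)
    (A : Matrix (Fin n) (Fin n) (MonoidAlgebra ℝ G)) : E →L[ℂ] E := (exists_op b A).choose

theorem op_apply (b : HilbertBasis (Fin n × G) ℂ E)
    (A : Matrix (Fin n) (Fin n) (MonoidAlgebra ℝ G)) (j : Fin n) (g : G) :
    op b A (b (j, g)) = ∑ i, (A i j).coeff.sum fun k c => ((c : ℝ) : ℂ) • b (i, k * g) :=
  (exists_op b A).choose_spec j g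

theorem op_coeff (b : HilbertBasis (Fin n × G) ℂ E)
    (A : Matrix (Fin n) (Fin n) (MonoidAlgebra ℝ G)) (i j : Fin n) (g h : G) :
    inner ℂ (b (i, h)) (op b A (b (j, g))) = (((A i j).coeff (h * g⁻¹) : ℝ) : ℂ) := by
  classical
  rw [op_apply, inner_sum, Finset.sum_eq_single i]
  · rw [Finsupp.sum, inner_sum, Finset.sum_eq_single (h * g⁻¹)]
    · rw [inner_smul_right, orthonormal_iff_ite.mp b.orthonormal]; simp
    · intro k _ hk
      rw [inner_smul_right, orthonormal_iff_ite.mp b.orthonormal, if_neg, mul_zero]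
      intro he
      apply hk
      have : h = k * g := (Prod.ext_iff.mp he).2
      rw [this]; simp
    · intro hk
      rw [Finsupp.notMem_support_iff.mp hk]; simp
  · intro i' _ hi
    rw [Finsupp.sum, inner_sum]
    refine Finset.sum_eq_zero fun k _ => ?_
    rw [inner_smul_right, orthonormal_iff_ite.mp b.orthonormal, if_neg, mul_zero]
    intro he
    exact hi (Prod.ext_iff.mp he).1.symm
  · simp

theorem op_ext (b : HilbertBasis (Fin n × G) ℂ E)
    (A : Matrix (Fin n) (Fin n) (MonoidAlgebra ℝ G)) (T : E →L[ℂ] E)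
    (h : ∀ i j g h, inner ℂ (b (i, h)) (T (b (j, g))) = (((A i j).coeff (h * g⁻¹) : ℝ) : ℂ)) :
    op b A = T :=
  ext_coeff b fun x y => by
    obtain ⟨i, h'⟩ := x
    obtain ⟨j, g⟩ := y
    rw [op_coeff, h]

theorem op_mul (b : HilbertBasis (Fin n × G) ℂ E)
    (A B : Matrix (Fin n) (Fin n) (MonoidAlgebra ℝ G)) : op b (A * B) = op b A * op b B := by
  classical
  refine op_ext b _ _ fun i j g h => ?_
  rw [ContinuousLinearMap.mul_apply, op_apply, map_sum, inner_sum, Matrix.mul_apply,
    MonoidAlgebra.coeff_sum, Finsupp.finset_sum_apply, Complex.ofReal_sum]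
  refine Finset.sum_congr rfl fun l _ => ?_
  rw [MonoidAlgebra.coeff_mul_apply_right, Finsupp.sum, Finsupp.sum, map_sum, inner_sum,
    Complex.ofReal_sum]
  refine Finset.sum_congr rfl fun k _ => ?_
  rw [map_smul, inner_smul_right, op_coeff, mul_inv_rev, ← mul_assoc]
  push_cast
  ring

theorem op_one (b : HilbertBasis (Fin n × G) ℂ E) :
    op b (1 : Matrix (Fin n) (Fin n) (MonoidAlgebra ℝ G)) = 1 := by
  classical
  refine op_ext b _ _ fun i j g h => ?_
  rw [ContinuousLinearMap.one_apply, orthonormal_iff_ite.mp b.orthonormal, Matrix.one_apply]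
  by_cases hij : i = j
  · subst hij
    rw [if_pos rfl, MonoidAlgebra.one_def, MonoidAlgebra.coeff_single, Finsupp.single_apply]
    by_cases hg : h = g
    · subst hg; simp
    · rw [if_neg (fun he => hg (Prod.ext_iff.mp he).2), if_neg]
      · simp
      · intro he
        exact hg (mul_inv_eq_one.mp he.symm)
  · rw [if_neg hij, if_neg (fun he => hij (Prod.ext_iff.mp he).1)]
    simp

theorem op_add (b : HilbertBasis (Fin n × G) ℂ E)
    (A B : Matrix (Fin n) (Fin n) (MonoidAlgebra ℝ G)) : op b (A + B) = op b A + op b B := by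
  refine op_ext b _ _ fun i j g h => ?_
  rw [ContinuousLinearMap.add_apply, inner_add_right, op_coeff, op_coeff, Matrix.add_apply,
    MonoidAlgebra.coeff_add, Finsupp.add_apply, Complex.ofReal_add]

theorem op_smul (b : HilbertBasis (Fin n × G) ℂ E) (r : ℝ)
    (A : Matrix (Fin n) (Fin n) (MonoidAlgebra ℝ G)) : op b (r • A) = r • op b A := by
  refine op_ext b _ _ fun i j g h => ?_
  rw [ContinuousLinearMap.smul_apply, ← Complex.coe_smul, inner_smul_right, op_coeff,
    Matrix.smul_apply, MonoidAlgebra.coeff_smul_apply, smul_eq_mul, Complex.ofReal_mul]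

/-- The regular representation as an algebra homomorphism. -/
noncomputable def lam (b : HilbertBasis (Fin n × G) ℂ E) :
    Matrix (Fin n) (Fin n) (MonoidAlgebra ℝ G) →ₐ[ℝ] (E →L[ℂ] E) :=
  AlgHom.ofLinearMap
    { toFun := op b
      map_add' := op_add b
      map_smul' := op_smul b } (op_one b) (op_mul b)

theorem lam_apply (b : HilbertBasis (Fin n × G) ℂ E)
    (A : Matrix (Fin n) (Fin n) (MonoidAlgebra ℝ G)) : lam b A = op b A := rfl

theorem star_op (b : HilbertBasis (Fin n × G) ℂ E)
    (A : Matrix (Fin n) (Fin n) (MonoidAlgebra ℝ G)) :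
    ∃ B : Matrix (Fin n) (Fin n) (MonoidAlgebra ℝ G), op b B = star (op b A) := by
  refine ⟨Matrix.of fun i j =>
    MonoidAlgebra.ofCoeff (Finsupp.equivMapDomain (Equiv.inv G) (A j i).coeff), ?_⟩
  refine op_ext b _ _ fun i j g h => ?_
  rw [ContinuousLinearMap.star_eq_adjoint, ContinuousLinearMap.adjoint_inner_right,
    ← inner_conj_symm, op_coeff, Complex.conj_ofReal, Matrix.of_apply,
    MonoidAlgebra.coeff_ofCoeff, Finsupp.equivMapDomain_apply]
  simp

/-- The trace as a continuous real-linear functional. -/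
noncomputable def tr (b : HilbertBasis (Fin n × G) ℂ E) : (E →L[ℂ] E) →L[ℝ] ℝ :=
  ∑ i : Fin n, Complex.reCLM ∘L (((innerSL ℂ (b (i, 1))).restrictScalars ℝ) ∘L
    ((ContinuousLinearMap.apply ℂ E (b (i, 1))).restrictScalars ℝ))

omit [CompleteSpace E] in
theorem tr_apply (b : HilbertBasis (Fin n × G) ℂ E) (S : E →L[ℂ] E) : tr b S = opTrace b S := by
  simp [tr, opTrace, ContinuousLinearMap.sum_apply]

theorem tr_star (b : HilbertBasis (Fin n × G) ℂ E) (S : E →L[ℂ] E) : tr b (star S) = tr b S := by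
  rw [tr_apply, tr_apply, opTrace, opTrace]
  refine Finset.sum_congr rfl fun i _ => ?_
  rw [ContinuousLinearMap.star_eq_adjoint, ContinuousLinearMap.adjoint_inner_right,
    ← inner_conj_symm, Complex.conj_re]

theorem tr_op (b : HilbertBasis (Fin n × G) ℂ E)
    (A : Matrix (Fin n) (Fin n) (MonoidAlgebra ℝ G)) : tr b (op b A) = ∑ i, (A i i).coeff 1 := by
  rw [tr_apply, opTrace]
  refine Finset.sum_congr rfl fun i _ => ?_
  rw [op_coeff]; simp

theorem coeff_one_comm (a c : MonoidAlgebra ℝ G) : (a * c).coeff 1 = (c * a).coeff 1 := by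
  classical
  rw [MonoidAlgebra.coeff_mul_apply_right, MonoidAlgebra.coeff_mul_apply_left]
  simp [mul_comm]

theorem tr_comm (b : HilbertBasis (Fin n × G) ℂ E)
    (A B : Matrix (Fin n) (Fin n) (MonoidAlgebra ℝ G)) :
    tr b (op b A * op b B) = tr b (op b B * op b A) := by
  rw [← op_mul, ← op_mul, tr_op, tr_op]
  simp only [Matrix.mul_apply, MonoidAlgebra.coeff_sum, Finsupp.finset_sum_apply]
  rw [Finset.sum_comm]
  exact Finset.sum_congr rfl fun i _ => Finset.sum_congr rfl fun j _ => coeff_one_comm _ _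

end rep

end FK2

/-- The left regular representation of `Matrix (Fin n) (Fin n) ℝ[G]` on `ℓ²(Fin n × G)`, its trace
and its range. -/
theorem exists_regularRep (G : Type) [Group G] (n : ℕ) :
    ∃ (E : Type) (_ : NormedAddCommGroup E) (_ : InnerProductSpace ℂ E) (_ : CompleteSpace E)
      (b : HilbertBasis (Fin n × G) ℂ E)
      (lam : Matrix (Fin n) (Fin n) (MonoidAlgebra ℝ G) →ₐ[ℝ] (E →L[ℂ] E))
      (τ : (E →L[ℂ] E) →L[ℝ] ℝ) (M : StarSubalgebra ℝ (E →L[ℂ] E)),
      (∀ A i j g h, inner ℂ (b (i, h)) (lam A (b (j, g))) = (((A i j).coeff (h * g⁻¹) : ℝ) : ℂ)) ∧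
      (∀ S, τ S = opTrace b S) ∧ (∀ S, τ (star S) = τ S) ∧
      (∀ A, τ (lam A) = ∑ i, (A i i).coeff 1) ∧ (∀ A, lam A ∈ M) ∧
      (∀ u ∈ M, ∀ v ∈ M, τ (u * v) = τ (v * u)) := by
  let b : HilbertBasis (Fin n × G) ℂ (lp (fun _ : Fin n × G => ℂ) 2) := default
  refine ⟨lp (fun _ : Fin n × G => ℂ) 2, inferInstance, inferInstance, inferInstance, b,
    FK2.lam b, FK2.tr b,
    { (FK2.lam b).range with
      star_mem' := fun {u} hu => by
        obtain ⟨A, rfl⟩ := hu
        obtain ⟨B, hB⟩ := FK2.star_op b A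
        exact ⟨B, hB⟩ },
    fun A i j g h => FK2.op_coeff b A i j g h, FK2.tr_apply b, FK2.tr_star b,
    fun A => FK2.tr_op b A, fun A => ⟨A, rfl⟩, ?_⟩
  rintro _ ⟨A, rfl⟩ _ ⟨B, rfl⟩
  exact FK2.tr_comm b A B

end Crest.Agent.R177
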