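import Crest.Agent.R177.FK1
import Crest.Agent.R177.FK2

/-! # An integral matrix with Fuglede–Kadison determinant `3^(-1/2)` -/

set_option autoImplicit false

namespace Crest.Agent.R177

open Crest.AlgebraR.GroupRingDet

namespace FK3

section alg
variable {k R : Type*} [Field k] [CharZero k] [Ring R] [Algebra k R]

omit [CharZero k] in
theorem inv_of_sq (N : R) (κ : k) (hκ : 1 + κ ≠ 0) (hN : N * N = κ • N) :
    (1 + N) * (1 - (1 / (1 + κ)) • N) = 1 ∧ (1 - (1 / (1 + κ)) • N) * (1 + N) = 1 := by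
  have h : N - (1 / (1 + κ)) • N - (1 / (1 + κ)) • κ • N = 0 := by
    have : N - (1 / (1 + κ)) • N - (1 / (1 + κ)) • κ • N =
        (1 - 1 / (1 + κ) - 1 / (1 + κ) * κ) • N := by
      rw [sub_smul, sub_smul, one_smul, mul_smul]
    rw [this]
    have : (1 - 1 / (1 + κ) - 1 / (1 + κ) * κ) = 0 := by field_simp; ring
    rw [this, zero_smul]
  constructor
  · rw [mul_sub, mul_one, add_mul, one_mul, mul_smul_comm, hN]
    linear_combination (norm := abel1) h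
  · rw [sub_mul, one_mul, mul_add, mul_one, smul_mul_assoc, hN]
    linear_combination (norm := abel1) h

omit [CharZero k] in
theorem isUnit_of_sq (N : R) (κ : k) (hκ : 1 + κ ≠ 0) (hN : N * N = κ • N) : IsUnit (1 + N) :=
  ⟨⟨1 + N, 1 - (1 / (1 + κ)) • N, (inv_of_sq N κ hκ hN).1, (inv_of_sq N κ hκ hN).2⟩, rfl⟩

variable (k) in
/-- The central idempotent. -/
def f (z : R) : R := (1 / 2 : k) • (1 - z)

theorem f_mul_f (z : R) (hzz : z * z = 1) : f k z * f k z = f k z := by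
  have h : (1 - z) * (1 - z) = (2 : k) • (1 - z) := by
    rw [two_smul]
    linear_combination (norm := noncomm_ring) hzz
  rw [f, smul_mul_smul_comm, h, smul_smul]
  norm_num

variable (k) in
/-- First factor. -/
def N₁ (z : R) : Matrix (Fin 3) (Fin 3) R :=
  !![0, 0, 0; 0, (-2 / 3 : k) • f k z, 0; 0, 0, (-2 / 3 : k) • f k z]

/-- Second factor. -/
def N₂ (β₁ β₂ : R) : Matrix (Fin 3) (Fin 3) R := !![0, -β₁, -β₂; 0, 0, 0; 0, 0, 0]

/-- Third factor. -/
def N₃ (α₁ α₂ : R) : Matrix (Fin 3) (Fin 3) R := !![0, 0, 0; α₁, 0, 0; α₂, 0, 0]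

variable (k) in
/-- Fourth factor. -/
def N₄ (z : R) : Matrix (Fin 3) (Fin 3) R := !![(2 : k) • f k z, 0, 0; 0, 0, 0; 0, 0, 0]

theorem N₁_sq (z : R) (hzz : z * z = 1) : N₁ k z * N₁ k z = (-2 / 3 : k) • N₁ k z := by
  have h : ((-2 / 3 : k) • f k z) * ((-2 / 3 : k) • f k z) =
      (-2 / 3 : k) • (-2 / 3 : k) • f k z := by
    rw [smul_mul_smul_comm, f_mul_f z hzz, smul_smul]
  rw [N₁, Matrix.mul_fin_three]
  ext i j
  fin_cases i <;> fin_cases j <;> simp [-Algebra.mul_smul_comm,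
    -Algebra.smul_mul_assoc, h]

omit [CharZero k] in
theorem N₂_sq (β₁ β₂ : R) : N₂ β₁ β₂ * N₂ β₁ β₂ = (0 : k) • N₂ β₁ β₂ := by
  rw [N₂, Matrix.mul_fin_three]
  ext i j
  fin_cases i <;> fin_cases j <;> simp

omit [CharZero k] in
theorem N₃_sq (α₁ α₂ : R) : N₃ α₁ α₂ * N₃ α₁ α₂ = (0 : k) • N₃ α₁ α₂ := by
  rw [N₃, Matrix.mul_fin_three]
  ext i j
  fin_cases i <;> fin_cases j <;> simp

theorem N₄_sq (z : R) (hzz : z * z = 1) : N₄ k z * N₄ k z = (2 : k) • N₄ k z := by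
  have h : ((2 : k) • f k z) * ((2 : k) • f k z) = (2 : k) • (2 : k) • f k z := by
    rw [smul_mul_smul_comm, f_mul_f z hzz, smul_smul]
  rw [N₄, Matrix.mul_fin_three]
  ext i j
  fin_cases i <;> fin_cases j <;> simp [-Algebra.mul_smul_comm,
    -Algebra.smul_mul_assoc, h]

theorem factor (z α₁ α₂ β₁ β₂ Y₁₁ Y₁₂ Y₂₁ Y₂₂ : R) (hzz : z * z = 1) (hc : ∀ x, z * x = x * z)
    (h11 : Y₁₁ * (2 - z) = 1 - α₁ * β₁) (h12 : Y₁₂ * (2 - z) = - (α₁ * β₂))
    (h21 : Y₂₁ * (2 - z) = - (α₂ * β₁)) (h22 : Y₂₂ * (2 - z) = 1 - α₂ * β₂) :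
    !![2 - z, -β₁, -β₂; α₁, Y₁₁, Y₁₂; α₂, Y₂₁, Y₂₂] =
      (1 + N₄ k z) * ((1 + N₃ α₁ α₂) * ((1 + N₂ β₁ β₂) * ((1 + N₁ k z) * 1))) := by
  set p : R := 2 - z with hp
  set q : R := 1 + (-2 / 3 : k) • f k z with hq
  have hpf : p = 1 + (2 : k) • f k z := by
    rw [hp, f, smul_smul, ← one_add_one_eq_two (R := R), show (2 * (1 / 2) : k) = 1 by norm_num,
      one_smul]
    abel
  have hpq : p * q = 1 := by
    have h := (inv_of_sq ((2 : k) • f k z) (2 : k) (by norm_num)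
      (by rw [smul_mul_smul_comm, f_mul_f z hzz, smul_smul])).1
    rw [smul_smul, sub_eq_add_neg, ← neg_smul] at h
    rw [hpf, hq]
    convert h using 4
    norm_num
  have hpc : ∀ x, p * x = x * p := fun x => by
    rw [hp, ← one_add_one_eq_two (R := R)]
    linear_combination (norm := noncomm_ring) - hc x
  have e1 : 1 + N₁ k z = !![1, 0, 0; 0, q, 0; 0, 0, q] := by
    ext i j
    fin_cases i <;> fin_cases j <;> simp [N₁, hq]
  have e2 : 1 + N₂ β₁ β₂ = !![1, -β₁, -β₂; 0, 1, 0; 0, 0, 1] := by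
    ext i j
    fin_cases i <;> fin_cases j <;> simp [N₂]
  have e3 : 1 + N₃ α₁ α₂ = !![1, 0, 0; α₁, 1, 0; α₂, 0, 1] := by
    ext i j
    fin_cases i <;> fin_cases j <;> simp [N₃]
  have e4 : 1 + N₄ k z = !![p, 0, 0; 0, 1, 0; 0, 0, 1] := by
    ext i j
    fin_cases i <;> fin_cases j <;> simp [N₄, hpf]
  have hY : ∀ Y X : R, Y * p = X → Y = X * q := fun Y X h => by
    rw [← h, mul_assoc, hpq, mul_one]
  have hβ : ∀ β : R, p * (β * q) = β := fun β => by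
    rw [← mul_assoc, hpc, mul_assoc, hpq, mul_one]
  rw [mul_one, e1, e2, e3, e4, Matrix.mul_fin_three, Matrix.mul_fin_three, Matrix.mul_fin_three,
    hY _ _ h11, hY _ _ h12, hY _ _ h21, hY _ _ h22]
  ext i j
  fin_cases i <;> fin_cases j <;> simp [hβ, mul_assoc, sub_eq_neg_add, add_mul]

end alg

theorem exists_Y {R : Type*} [Ring R] (z X s : R) (hzz : z * z = 1)
    (h : X * (1 - z) = 3 • (s * (1 - z))) : ∃ Y, Y * (2 - z) = X := by
  refine ⟨X - s * (1 - z), ?_⟩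
  have h2 : s * ((1 - z) * (1 + z)) = 0 := by
    have : (1 - z) * (1 + z) = 0 := by
      linear_combination (norm := noncomm_ring) - hzz
    rw [this, mul_zero]
  rw [← one_add_one_eq_two (R := R)]
  linear_combination (norm := noncomm_ring) h + h2

end FK3

/-- Recipe (write `z` for `of z`, central, `z * z = 1`).  `α₁ = a`, `α₂ = w + a`, `β₁ = b`,
`β₂ = b - b'`; `X = 1 - α β` (2×2, `X i j = δ i j - α i * β j`) satisfies `X i j * (1 - z) = 3 • r i j`
(use `z * (1 - z) = -(1 - z)`), and `r i j * (1 + z) = 0` (`3 •` is injective on `ℤ[G]`).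
`π = 2 - z`, `Y = X - r`, so `Y * π = X`.  `A = !![π, -β₁, -β₂; α₁, Y₁₁, Y₁₂; α₂, Y₂₁, Y₂₂]`.
Over a field `k` of characteristic zero (`ℚ` for `IsUnit`, `ℝ` for the determinant), with
`f = (1/2) • (1 - z)` (central idempotent, `π = 1 + 2 • f`, `π⁻¹ = 1 - (2/3) • f`):
`A = (1 + N₄) * ((1 + N₃) * ((1 + N₂) * ((1 + N₁) * 1)))`, `N₁ = diag(0, -(2/3) f, -(2/3) f)`
(`κ = -2/3`, trace `-2/3`), `N₂ = !![0,-β₁,-β₂;0,0,0;0,0,0]`, `N₃ = !![0,0,0;α₁,0,0;α₂,0,0]` (`κ = 0`,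
trace `0`), `N₄ = diag(2 f, 0, 0)` (`κ = 2`, trace `1`).  Each `1 + N` has inverse
`1 - (1/(1+κ)) • N`.  Apply `trace_log_step` four times through `exists_regularRep G 3`, with
`φ t = 2 log (1 - 2t/3)`, `0`, `0`, `log (1 + 2t)`: `τ (log (T⋆T)) = -2 log 3 + log 3 < 0`
(`cfc_apply_one`, `Real.log_one` for the start). -/
theorem exists_logDet_neg {G : Type} [Group G] (z : G) (hz : z ≠ 1) (hzz : z * z = 1)
    (hc : ∀ g, z * g = g * z) (a w b b' : MonoidAlgebra ℤ G)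
    (h11 : ∃ r, a * b = 1 + 3 • r) (h12 : ∃ r, a * b' = 1 + 3 • r)
    (h21 : ∃ r, w * b = MonoidAlgebra.of ℤ G z + 3 • r) (h22 : ∃ r, w * b' = 1 + 3 • r) :
    ∃ (A : Matrix (Fin 3) (Fin 3) (MonoidAlgebra ℤ G))
      (H : Type) (_ : NormedAddCommGroup H) (_ : InnerProductSpace ℂ H) (_ : CompleteSpace H)
      (e : HilbertBasis (Fin 3 × G) ℂ H) (T : H →L[ℂ] H),
      IsUnit (A.map (MonoidAlgebra.mapRingHom G (Int.castRingHom ℚ))) ∧
      IsRegularRepOperator e A T ∧ logDet e T < 0 := by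
  classical
  obtain ⟨r11, h11⟩ := h11
  obtain ⟨r12, h12⟩ := h12
  obtain ⟨r21, h21⟩ := h21
  obtain ⟨r22, h22⟩ := h22
  set Z : MonoidAlgebra ℤ G := MonoidAlgebra.of ℤ G z with hZ
  have hZZ : Z * Z = 1 := by rw [hZ, ← map_mul, hzz, map_one]
  obtain ⟨Y₁₁, hY₁₁⟩ := FK3.exists_Y Z (1 - a * b) (-r11) hZZ (by
    rw [h11]; noncomm_ring)
  obtain ⟨Y₁₂, hY₁₂⟩ := FK3.exists_Y Z (-(a * (b - b'))) (r12 - r11) hZZ (by
    rw [mul_sub a, h11, h12]; noncomm_ring)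
  obtain ⟨Y₂₁, hY₂₁⟩ := FK3.exists_Y Z (-((w + a) * b)) (-(r21 + r11)) hZZ (by
    rw [add_mul w, h11, h21]
    linear_combination (norm := noncomm_ring) hZZ)
  obtain ⟨Y₂₂, hY₂₂⟩ := FK3.exists_Y Z (1 - (w + a) * (b - b')) (1 - r21 + r22 - r11 + r12) hZZ (by
    rw [add_mul w, mul_sub w, mul_sub a, h11, h12, h21, h22]
    linear_combination (norm := noncomm_ring) hZZ)
  let A : Matrix (Fin 3) (Fin 3) (MonoidAlgebra ℤ G) :=
    !![2 - Z, -b, -(b - b'); a, Y₁₁, Y₁₂; w + a, Y₂₁, Y₂₂]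
  have key : ∀ (k : Type) [Field k] [CharZero k],
      ∃ α₁ α₂ β₁ β₂ : MonoidAlgebra k G,
        A.map (MonoidAlgebra.mapRingHom G (Int.castRingHom k)) =
          (1 + FK3.N₄ k (MonoidAlgebra.of k G z)) * ((1 + FK3.N₃ α₁ α₂) * ((1 + FK3.N₂ β₁ β₂) *
            ((1 + FK3.N₁ k (MonoidAlgebra.of k G z)) * 1))) := by
    intro k _ _
    set ψ := MonoidAlgebra.mapRingHom G (Int.castRingHom k) with hψ
    have hψZ : ψ Z = MonoidAlgebra.of k G z := by simp [hψ, hZ]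
    have hψ2 : ψ (2 - Z) = 2 - MonoidAlgebra.of k G z := by rw [map_sub, hψZ, map_ofNat]
    refine ⟨ψ a, ψ (w + a), ψ b, ψ (b - b'), ?_⟩
    rw [← FK3.factor (k := k) (MonoidAlgebra.of k G z) (ψ a) (ψ (w + a)) (ψ b) (ψ (b - b'))
      (ψ Y₁₁) (ψ Y₁₂) (ψ Y₂₁) (ψ Y₂₂) (by rw [← map_mul, hzz, map_one]) ?_
      (by rw [← hψ2, ← map_mul, hY₁₁, map_sub, map_one, map_mul])
      (by rw [← hψ2, ← map_mul, hY₁₂, map_neg, map_mul])
      (by rw [← hψ2, ← map_mul, hY₂₁, map_neg, map_mul])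
      (by rw [← hψ2, ← map_mul, hY₂₂, map_sub, map_one, map_mul])]
    · rw [← hψ2, ← map_neg, ← map_neg]
      ext1 i j
      fin_cases i <;> fin_cases j <;> rfl
    · intro x
      induction x using MonoidAlgebra.induction_on with
      | of g => rw [← map_mul, ← map_mul, hc]
      | add x y hx hy => rw [mul_add, add_mul, hx, hy]
      | smul r x hx => rw [mul_smul_comm, smul_mul_assoc, hx]
  have hzk : ∀ (k : Type) [Field k], MonoidAlgebra.of k G z * MonoidAlgebra.of k G z = 1 := by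
    intro k _
    rw [← map_mul, hzz, map_one]
  obtain ⟨E, i1, i2, i3, e, lam, τ, M, hco, hτ, hstar, htr, hM, hcomm⟩ := exists_regularRep G 3
  refine ⟨A, E, i1, i2, i3, e, lam (A.map (MonoidAlgebra.mapRingHom G (Int.castRingHom ℝ))),
    ?_, ?_, ?_⟩
  · obtain ⟨α₁, α₂, β₁, β₂, h⟩ := key ℚ
    rw [h]
    exact (FK3.isUnit_of_sq _ (2 : ℚ) (by norm_num) (FK3.N₄_sq _ (hzk ℚ))).mul
      ((FK3.isUnit_of_sq _ (0 : ℚ) (by norm_num) (FK3.N₃_sq _ _)).mul
      ((FK3.isUnit_of_sq _ (0 : ℚ) (by norm_num) (FK3.N₂_sq _ _)).mul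
      ((FK3.isUnit_of_sq _ (-2 / 3 : ℚ) (by norm_num) (FK3.N₁_sq _ (hzk ℚ))).mul isUnit_one)))
  · intro i j g h
    rw [hco]
    simp
  · obtain ⟨α₁, α₂, β₁, β₂, h⟩ := key ℝ
    have step : ∀ (y N : Matrix (Fin 3) (Fin 3) (MonoidAlgebra ℝ G)) (κ : ℝ) (φ : ℝ → ℝ),
        IsUnit y → -1 < κ → N * N = κ • N →
        (∀ t ∈ Set.Icc (0 : ℝ) 1, HasDerivAt φ (2 * (∑ i, (N i i).coeff 1) / (1 + t * κ)) t) →
        τ (cfc Real.log (star (lam ((1 + N) * y)) * lam ((1 + N) * y))) =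
          τ (cfc Real.log (star (lam y) * lam y)) + (φ 1 - φ 0) := by
      intro y N κ φ hy hκ hN hφ
      obtain ⟨u, rfl⟩ := hy
      rw [map_mul, map_add, map_one]
      refine trace_log_step M τ hcomm hstar (lam u) (lam (u⁻¹ : _ˣ)) (lam N) (hM _) (hM _) (hM _)
        (by rw [← map_mul, Units.mul_inv, map_one]) (by rw [← map_mul, Units.inv_mul, map_one])
        κ hκ (by rw [← map_mul, hN, map_smul]) φ ?_
      rw [htr]
      exact hφ
    have u1 := (FK3.isUnit_of_sq _ (-2 / 3 : ℝ) (by norm_num) (FK3.N₁_sq _ (hzk ℝ))).mul isUnit_one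
    have u2 := (FK3.isUnit_of_sq _ (0 : ℝ) (by norm_num) (FK3.N₂_sq β₁ β₂)).mul u1
    have u3 := (FK3.isUnit_of_sq _ (0 : ℝ) (by norm_num) (FK3.N₃_sq α₁ α₂)).mul u2
    have hf : (FK3.f ℝ (MonoidAlgebra.of ℝ G z)).coeff 1 = 1 / 2 := by
      simp [FK3.f, MonoidAlgebra.one_def, hz]
    have s1 := step 1 (FK3.N₁ ℝ (MonoidAlgebra.of ℝ G z)) (-2 / 3)
      (fun t => 2 * Real.log (1 + t * (-2 / 3))) isUnit_one (by norm_num)
      (FK3.N₁_sq _ (hzk ℝ)) (by
        intro t ht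
        have hpos : 1 + t * (-2 / 3) ≠ 0 := by linarith [ht.2] |> fun h : 0 < 1 + t * (-2 / 3) => h.ne'
        have hd := ((((hasDerivAt_id t).mul_const (-2 / 3 : ℝ)).const_add 1).log hpos).const_mul 2
        refine hd.congr_deriv ?_
        have : ∑ i, (FK3.N₁ ℝ (MonoidAlgebra.of ℝ G z) i i).coeff 1 = -2 / 3 := by
          rw [Fin.sum_univ_three]
          simp only [FK3.N₁, Matrix.of_apply, Matrix.cons_val', Matrix.cons_val_zero,
            Matrix.cons_val_one, Matrix.cons_val, MonoidAlgebra.coeff_smul_apply, hf]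
          simp
          norm_num
        rw [this]
        simp only [id]
        ring)
    have s2 := step _ (FK3.N₂ β₁ β₂) 0 (fun _ => 0) u1 (by norm_num) (FK3.N₂_sq _ _) (by
        intro t _
        refine (hasDerivAt_const t (0 : ℝ)).congr_deriv ?_
        simp [Fin.sum_univ_three, FK3.N₂])
    have s3 := step _ (FK3.N₃ α₁ α₂) 0 (fun _ => 0) u2 (by norm_num) (FK3.N₃_sq _ _) (by
        intro t _
        refine (hasDerivAt_const t (0 : ℝ)).congr_deriv ?_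
        simp [Fin.sum_univ_three, FK3.N₃])
    have s4 := step _ (FK3.N₄ ℝ (MonoidAlgebra.of ℝ G z)) 2
      (fun t => Real.log (1 + t * 2)) u3 (by norm_num) (FK3.N₄_sq _ (hzk ℝ)) (by
        intro t ht
        have hpos : 1 + t * 2 ≠ 0 := by linarith [ht.1] |> fun h : 0 < 1 + t * 2 => h.ne'
        have hd := (((hasDerivAt_id t).mul_const (2 : ℝ)).const_add 1).log hpos
        refine hd.congr_deriv ?_
        have : ∑ i, (FK3.N₄ ℝ (MonoidAlgebra.of ℝ G z) i i).coeff 1 = 1 := by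
          rw [Fin.sum_univ_three]
          simp only [FK3.N₄, Matrix.of_apply, Matrix.cons_val', Matrix.cons_val_zero,
            Matrix.cons_val_one, Matrix.cons_val, MonoidAlgebra.coeff_smul_apply, hf]
          simp
        rw [this]
        simp only [id]
        ring)
    have s0 : τ (cfc Real.log (star (lam 1) * lam 1)) = 0 := by
      rw [map_one, star_one, mul_one, cfc_apply_one, Real.log_one, map_zero, map_zero]
    rw [logDet, ← hτ, h, s4, s3, s2, s1, s0]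
    have l1 : Real.log (1 + 1 * (-2 / 3)) = - Real.log 3 := by
      rw [← Real.log_inv]; norm_num
    have l2 : Real.log (1 + 1 * 2) = Real.log 3 := by norm_num
    have l3 : 0 < Real.log 3 := Real.log_pos (by norm_num)
    simp only [l1, l2, zero_mul, add_zero, Real.log_one]
    linarith

end Crest.Agent.R177
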