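import Crest.Agent.R177.Core
import Crest.Agent.R177.FK3
import Crest.Prelude.Def_ClassifyingComplex

/-!
# Rows 177/184: the final statements from `GlobalStmt` and `GoodLocal`
-/

set_option autoImplicit false

namespace Crest.Agent.R177

open Crest.Agent.Lib.CW2 Crest.Topology Crest.AlgebraR.GroupRingDet

theorem final_notDF (hG : GlobalStmt) (hL : GoodLocal) :
    ∃ (G : Type) (_ : Group G), Group.IsFinitelyPresented G ∧ (∀ g : G, IsOfFinOrder g → g = 1) ∧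
      HasFiniteClassifyingComplex G 2 ∧
      ∃ a b : MonoidAlgebra (ZMod 2) G, a * b = 1 ∧ b * a ≠ 1 := by
  obtain ⟨G, _, S, T, _, _, P, h1, -, h2⟩ := exists_core hG hL 2
  exact ⟨G, _, P.isFinitelyPresented, P.torsionFree h1, P.hasFiniteClassifyingComplex h1, h2⟩

theorem final_zeroDiv (hG : GlobalStmt) (hL : GoodLocal) :
    ∃ (G : Type) (_ : Group G), Group.IsFinitelyPresented G ∧ (∀ g : G, IsOfFinOrder g → g = 1) ∧
      HasFiniteClassifyingComplex G 2 ∧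
      ∃ a b : MonoidAlgebra (ZMod 2) G, a ≠ 0 ∧ b ≠ 0 ∧ a * b = 0 := by
  obtain ⟨G, _, h1, h2, h3, a, b, e1, e2⟩ := final_notDF hG hL
  refine ⟨G, _, h1, h2, h3, 1 - b * a, b, fun e => e2 (sub_eq_zero.1 e).symm, ?_, ?_⟩
  · rintro rfl
    rw [mul_zero] at e1
    exact zero_ne_one e1
  · rw [sub_mul, one_mul, mul_assoc, e1, mul_one, sub_self]

theorem final_odd_aux (hG : GlobalStmt) (hL : GoodLocal) (p : ℕ) (hp : p.Prime) :
    ∃ (K : Type) (_ : Field K) (G : Type) (_ : Group G), Nat.card K = p ^ 4 ∧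
      Group.FG G ∧ (∃ g : G, g ≠ 1 ∧ IsOfFinOrder g) ∧
      ∃ a b : MonoidAlgebra K G, a * b = 1 ∧ b * a ≠ 1 := by
  have : Fact p.Prime := ⟨hp⟩
  obtain ⟨-, H, _, z, hfg, hz, hzz, -, a, w, b, b', e1, e2, e3, e4⟩ := exists_pair hG hL p
  let φ := MonoidAlgebra.mapRingHom H (algebraMap (ZMod p) (GaloisField p 4))
  refine ⟨GaloisField p 4, inferInstance, H, inferInstance, GaloisField.card p 4 (by norm_num), hfg,
    ⟨z, hz, isOfFinOrder_iff_pow_eq_one.2 ⟨2, two_pos, by rw [pow_two, hzz]⟩⟩, φ a, φ b,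
    by rw [← map_mul, e1, map_one],
    not_directlyFinite hz (w := φ w) (b' := φ b') (by rw [← map_mul, e2, map_one])
      (by rw [← map_mul, e1, map_one]) ?_ (by rw [← map_mul, e4, map_one])⟩
  rw [← map_mul, e3]
  simp [φ]

theorem minFac_odd (m : ℕ) (hm : 2 ≤ m) :
    Nat.Prime (Nat.minFac (m.factorial ^ 2 + 1)) ∧ Odd (Nat.minFac (m.factorial ^ 2 + 1)) := by
  have h0 : m.factorial ^ 2 + 1 ≠ 1 := by
    have := pow_pos (Nat.factorial_pos m) 2
    omega
  have hp := Nat.minFac_prime h0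
  refine ⟨hp, hp.odd_of_ne_two fun h => ?_⟩
  have h1 := Nat.minFac_dvd (m.factorial ^ 2 + 1)
  rw [h] at h1
  have h2 : 2 ∣ m.factorial ^ 2 := dvd_pow (Nat.dvd_factorial two_pos hm) two_ne_zero
  omega

theorem two_le_choose (a b : ℕ) (h : a = 2 * b) (hb : 0 < b) : 2 ≤ Nat.choose a b := by
  rw [h, ← Nat.centralBinom_eq_two_mul_choose]
  exact Nat.two_le_centralBinom b hb

theorem final_odd (hG : GlobalStmt) (hL : GoodLocal) (m : ℕ) (hm : 2 ≤ m) :
    Nat.Prime (Nat.minFac (m.factorial ^ 2 + 1)) ∧ Odd (Nat.minFac (m.factorial ^ 2 + 1)) ∧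
    ∃ (K : Type) (_ : Field K) (G : Type) (_ : Group G),
      Nat.card K = Nat.minFac (m.factorial ^ 2 + 1) ^ 4 ∧
      Group.FG G ∧ (∃ g : G, g ≠ 1 ∧ IsOfFinOrder g) ∧
      ∃ a b : MonoidAlgebra K G, a * b = 1 ∧ b * a ≠ 1 :=
  ⟨(minFac_odd m hm).1, (minFac_odd m hm).2, final_odd_aux hG hL _ (minFac_odd m hm).1⟩

theorem exists_lift {G : Type} [Group G] (n : ℕ) {u v : MonoidAlgebra ℤ G}
    (h : MonoidAlgebra.mapRingHom G (Int.castRingHom (ZMod n)) u =
      MonoidAlgebra.mapRingHom G (Int.castRingHom (ZMod n)) v) : ∃ r, u = v + n • r := by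
  refine ⟨.ofCoeff ((u - v).coeff.mapRange (fun c => c / n) (by simp)), ?_⟩
  ext g
  have h1 := congrArg (fun x => x.coeff g) h
  simp only [MonoidAlgebra.coeff_mapRingHom, eq_intCast] at h1
  have h2 : (n : ℤ) ∣ u.coeff g - v.coeff g := (ZMod.intCast_eq_intCast_iff_dvd_sub _ _ _).1 h1.symm
  have h3 := Int.mul_ediv_cancel' h2
  simp only [MonoidAlgebra.coeff_add, MonoidAlgebra.coeff_smul, Finsupp.add_apply,
    Finsupp.smul_apply, Finsupp.mapRange_apply, MonoidAlgebra.coeff_sub, Finsupp.sub_apply]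
  rw [nsmul_eq_mul, h3]
  ring

theorem final_det (hG : GlobalStmt) (hL : GoodLocal) :
    ∃ (G : Type) (_ : Group G) (n : ℕ) (A : Matrix (Fin n) (Fin n) (MonoidAlgebra ℤ G))
      (H : Type) (_ : NormedAddCommGroup H) (_ : InnerProductSpace ℂ H) (_ : CompleteSpace H)
      (b : HilbertBasis (Fin n × G) ℂ H) (T : H →L[ℂ] H),
      Group.FG G ∧ 1 ≤ n ∧ IsUnit (A.map (MonoidAlgebra.mapRingHom G (Int.castRingHom ℚ))) ∧
      IsRegularRepOperator b A T ∧ logDet b T < 0 := by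
  have : Fact (Nat.Prime 3) := ⟨Nat.prime_three⟩
  obtain ⟨-, G, _, z, hfg, hz, hzz, hc, a, w, b, b', e1, e2, e3, e4⟩ := exists_pair hG hL 3
  let φ := MonoidAlgebra.mapRingHom G (Int.castRingHom (ZMod 3))
  have hφ : Function.Surjective φ :=
    MonoidAlgebra.map_surjective (M := G) (Int.castRingHom (ZMod 3)).toAddMonoidHom
      (ZMod.ringHom_surjective (Int.castRingHom (ZMod 3)))
  obtain ⟨a, rfl⟩ := hφ a
  obtain ⟨w, rfl⟩ := hφ w
  obtain ⟨b, rfl⟩ := hφ b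
  obtain ⟨b', rfl⟩ := hφ b'
  obtain ⟨A, H, _, _, _, e, T, h⟩ := exists_logDet_neg z hz hzz hc a w b b'
    (exists_lift 3 (by rw [map_mul, map_one]; exact e1))
    (exists_lift 3 (by rw [map_mul, map_one]; exact e2))
    (exists_lift 3 (by rw [map_mul]; refine e3.trans ?_; simp))
    (exists_lift 3 (by rw [map_mul, map_one]; exact e4))
  exact ⟨G, _, 3, A, H, _, _, _, e, T, hfg, by norm_num, h⟩

end Crest.Agent.R177
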