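import Mathlib

/-!
# Breadth-first forests and their partition into pieces of bounded weight
-/

set_option autoImplicit false

namespace Crest.Agent.R177

/-- paths of `ok` darts of a given length -/
def ForestPath {A D : Type} (src tgt : D → A) (ok : D → Prop) : ℕ → A → A → Prop
  | 0, a, b => a = b
  | n + 1, a, b => ∃ d, ok d ∧ src d = a ∧ ForestPath src tgt ok n (tgt d) b

theorem ForestPath.trans {A D : Type} {src tgt : D → A} {ok : D → Prop} :
    ∀ (n k : ℕ) (a b c : A), ForestPath src tgt ok n a b → ForestPath src tgt ok k b c →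
      ForestPath src tgt ok (k + n) a c
  | 0, k, a, b, c, h, h' => by cases h; exact h'
  | n + 1, k, a, b, c, ⟨d, h1, h2, h3⟩, h' => ⟨d, h1, h2, ForestPath.trans n k _ b c h3 h'⟩

theorem ForestPath.symm {A D : Type} {src tgt : D → A} {ok : D → Prop}
    (hrev : ∀ d, ok d → ∃ d', ok d' ∧ src d' = tgt d ∧ tgt d' = src d) :
    ∀ (n : ℕ) (a b : A), ForestPath src tgt ok n a b → ∃ k, ForestPath src tgt ok k b a
  | 0, a, b, h => ⟨0, Eq.symm h⟩
  | n + 1, a, b, ⟨d, h1, h2, h3⟩ => by
      obtain ⟨k, hk⟩ := ForestPath.symm hrev n _ _ h3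
      obtain ⟨d', g1, g2, g3⟩ := hrev d h1
      exact ⟨_, ForestPath.trans k 1 _ _ a hk ⟨d', g1, g2, g3.trans h2⟩⟩

/-- Breadth-first spanning forest of a graph given by darts.  `ok` singles out the darts that may be
used; it is symmetric through `rev`.  The vertices of the subsingleton `R` are roots.
Take as root of a connected component its element of `R` if there is one, else a chosen representative, and
`lev a` = least length of a path of `ok` darts from `a` to its root. -/
theorem exists_bfs {A D : Type} (src tgt : D → A) (ok : D → Prop)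
    (hrev : ∀ d, ok d → ∃ d', ok d' ∧ src d' = tgt d ∧ tgt d' = src d) (R : Set A)
    (hR : R.Subsingleton) :
    ∃ (lev : A → ℕ) (root : A → A) (par : A → Option D),
      (∀ a ∈ R, lev a = 0) ∧ (∀ a, lev a = 0 → root a = a ∧ par a = none) ∧
      (∀ a, lev a ≠ 0 → ∃ d, par a = some d ∧ ok d ∧ src d = a ∧ lev (tgt d) + 1 = lev a) ∧
      ∀ d, ok d → root (src d) = root (tgt d) ∧ lev (src d) ≤ lev (tgt d) + 1 := by
  classical
  let st : Setoid A :=
    { r := fun a b => ∃ n, ForestPath src tgt ok n a b
      iseqv := ⟨fun a => ⟨0, rfl⟩, fun ⟨n, h⟩ => ForestPath.symm hrev n _ _ h,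
        fun ⟨n, h⟩ ⟨k, h'⟩ => ⟨_, ForestPath.trans n k _ _ _ h h'⟩⟩ }
  obtain ⟨root, hr1, hr2, hr3⟩ : ∃ root : A → A, (∀ a, st.r a (root a)) ∧
      (∀ a b, st.r a b → root a = root b) ∧ ∀ a ∈ R, root a = a := by
    refine ⟨fun a => if h : ∃ r ∈ R, st.r a r then h.choose else (Quotient.mk st a).out,
      fun a => ?_, fun a b hab => ?_, fun a ha => ?_⟩
    · by_cases h : ∃ r ∈ R, st.r a r
      · simp only [dif_pos h]; exact h.choose_spec.2
      · simp only [dif_neg h]; exact st.symm (Quotient.mk_out a)
    · by_cases h : ∃ r ∈ R, st.r a r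
      · have h' : ∃ r ∈ R, st.r b r :=
          ⟨_, h.choose_spec.1, st.trans (st.symm hab) h.choose_spec.2⟩
        simp only [dif_pos h, dif_pos h']
        exact hR h.choose_spec.1 h'.choose_spec.1
      · have h' : ¬ ∃ r ∈ R, st.r b r := fun ⟨r, h1, h2⟩ => h ⟨r, h1, st.trans hab h2⟩
        simp only [dif_neg h, dif_neg h']
        rw [Quotient.sound hab]
    · have h : ∃ r ∈ R, st.r a r := ⟨a, ha, st.refl a⟩
      simp only [dif_pos h]
      exact hR h.choose_spec.1 ha
  have hex : ∀ a, ∃ n, ForestPath src tgt ok n a (root a) := hr1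
  have hlast : ∀ d, ok d → root (src d) = root (tgt d) ∧
      Nat.find (hex (src d)) ≤ Nat.find (hex (tgt d)) + 1 := by
    intro d hd
    have e : root (src d) = root (tgt d) := hr2 _ _ ⟨1, d, hd, rfl, rfl⟩
    refine ⟨e, Nat.find_min' _ ⟨d, hd, rfl, ?_⟩⟩
    rw [e]
    exact Nat.find_spec (hex (tgt d))
  have hpar : ∀ a, Nat.find (hex a) ≠ 0 → ∃ d, ok d ∧ src d = a ∧
      Nat.find (hex (tgt d)) + 1 = Nat.find (hex a) := by
    intro a ha
    obtain ⟨n, hn⟩ := Nat.exists_eq_succ_of_ne_zero ha
    have h := Nat.find_spec (hex a)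
    rw [hn] at h
    obtain ⟨d, h1, h2, h3⟩ := h
    obtain ⟨e, hle⟩ := hlast d h1
    subst h2
    rw [e] at h3
    have := Nat.find_min' (hex (tgt d)) h3
    exact ⟨d, h1, rfl, by omega⟩
  refine ⟨fun a => Nat.find (hex a), root,
    fun a => if h : Nat.find (hex a) = 0 then none else some (hpar a h).choose,
    fun a ha => ?_, fun a ha => ?_, fun a ha => ?_, hlast⟩
  · exact (Nat.find_eq_zero _).2 (hr3 a ha).symm
  · exact ⟨Eq.symm ((Nat.find_eq_zero _).1 ha), dif_pos ha⟩
  · exact ⟨_, dif_neg ha, (hpar a ha).choose_spec⟩

open Classical in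
theorem forest_cut_aux {A : Type} (lev : A → ℕ) (up : A → A)
    (hup : ∀ a, lev a ≠ 0 → lev (up a) + 1 = lev a) {W : ℕ} (hW : 1 ≤ W) :
    ∀ (n : ℕ) (S : Finset A) (ω : A → ℕ), S.card = n → (∀ a ∈ S, lev a ≠ 0 → up a ∈ S) →
      (∀ a ∈ S, ω a + (W - 1) * (S.filter fun b => lev b ≠ 0 ∧ up b = a).card ≤ 3 * W) →
      ∃ (X : Finset A) (κ : A → A), X ⊆ S ∧ (∀ a ∈ S, κ a ∈ S) ∧
        (∀ a ∈ S, lev a ≠ 0 → a ∉ X → κ (up a) = κ a) ∧
        (∀ c, ∑ a ∈ S, (if κ a = c then ω a else 0) ≤ 3 * W) ∧
        X.card * W ≤ ∑ a ∈ S, ω a := by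
  intro n
  induction n with
  | zero =>
    intro S ω hS _ _
    obtain rfl := Finset.card_eq_zero.1 hS
    exact ⟨∅, id, by simp, by simp, by simp, by simp, by simp⟩
  | succ n ih =>
    intro S ω hS hcl hinv
    obtain ⟨a, ha, hmax⟩ := S.exists_max_image lev (Finset.card_pos.1 (by omega))
    have hne : ∀ b ∈ S, lev b ≠ 0 → up b ≠ a := by
      intro b hb h0 e
      have h1 := hup b h0
      have h2 := hmax b hb
      rw [e] at h1
      omega
    have hcard : (S.erase a).card = n := by rw [Finset.card_erase_of_mem ha]; omega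
    have hcl' : ∀ b ∈ S.erase a, lev b ≠ 0 → up b ∈ S.erase a := fun b hb h0 =>
      Finset.mem_erase.2 ⟨hne b (Finset.mem_of_mem_erase hb) h0,
        hcl b (Finset.mem_of_mem_erase hb) h0⟩
    have hmono : ∀ b, ((S.erase a).filter fun x => lev x ≠ 0 ∧ up x = b).card ≤
        (S.filter fun x => lev x ≠ 0 ∧ up x = b).card := fun b =>
      Finset.card_le_card (Finset.filter_subset_filter _ (Finset.erase_subset _ _))
    by_cases hc : lev a ≠ 0 ∧ ω a < W
    · -- merge `a` into its parent
      have hp : up a ∈ S.erase a := Finset.mem_erase.2 ⟨hne a ha hc.1, hcl a ha hc.1⟩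
      obtain ⟨X, κ, h1, h2, h3, h4, h5⟩ := ih (S.erase a)
        (fun b => ω b + if b = up a then ω a else 0) hcard hcl' (by
          intro b hb
          have h := hinv b (Finset.mem_of_mem_erase hb)
          by_cases e : b = up a
          · have hlt : ((S.erase a).filter fun x => lev x ≠ 0 ∧ up x = b).card + 1 ≤
                (S.filter fun x => lev x ≠ 0 ∧ up x = b).card := by
              apply Finset.card_lt_card
              refine ⟨Finset.filter_subset_filter _ (Finset.erase_subset _ _), fun hs => ?_⟩
              have : a ∈ (S.erase a).filter fun x => lev x ≠ 0 ∧ up x = b :=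
                hs (Finset.mem_filter.2 ⟨ha, hc.1, e.symm⟩)
              simp at this
            have := Nat.mul_le_mul_left (W - 1) hlt
            simp only [if_pos e]
            have h6 := hc.2
            rw [Nat.mul_add] at this
            omega
          · simp only [if_neg e]
            have := Nat.mul_le_mul_left (W - 1) (hmono b)
            omega)
      have hupd : ∀ b ∈ S.erase a, Function.update κ a (κ (up a)) b = κ b := fun b hb =>
        Function.update_of_ne (Finset.ne_of_mem_erase hb) _ _
      refine ⟨X, Function.update κ a (κ (up a)), h1.trans (Finset.erase_subset _ _),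
        fun b hb => ?_, fun b hb h0 hX => ?_, fun c => ?_, ?_⟩
      · by_cases e : b = a
        · subst e
          rw [Function.update_self]
          exact Finset.mem_of_mem_erase (h2 _ hp)
        · rw [hupd b (Finset.mem_erase.2 ⟨e, hb⟩)]
          exact Finset.mem_of_mem_erase (h2 _ (Finset.mem_erase.2 ⟨e, hb⟩))
      · by_cases e : b = a
        · subst e
          rw [Function.update_self, hupd _ hp]
        · have hb' := Finset.mem_erase.2 ⟨e, hb⟩
          rw [hupd b hb', hupd _ (hcl' b hb' h0)]
          exact h3 b hb' h0 hX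
      · rw [← Finset.add_sum_erase S _ ha, Function.update_self]
        refine le_trans (le_of_eq ?_) (h4 c)
        have e1 : ∀ b, (if κ b = c then ω b + (if b = up a then ω a else 0) else 0) =
            (if κ b = c then ω b else 0) +
              (if b = up a then (if κ (up a) = c then ω a else 0) else 0) := by
          intro b
          by_cases e : b = up a
          · subst e; split_ifs <;> simp_all
          · simp [e]
        simp only [e1, Finset.sum_add_distrib, Finset.sum_ite_eq', if_pos hp]
        rw [add_comm]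
        congr 1
        exact Finset.sum_congr rfl fun b hb => by rw [hupd b hb]
      · rw [← Finset.add_sum_erase S _ ha]
        simp only [Finset.sum_add_distrib, Finset.sum_ite_eq', if_pos hp] at h5
        omega
    · -- cut `a` off
      obtain ⟨X, κ, h1, h2, h3, h4, h5⟩ := ih (S.erase a) ω hcard hcl' (by
        intro b hb
        have h := hinv b (Finset.mem_of_mem_erase hb)
        have := Nat.mul_le_mul_left (W - 1) (hmono b)
        omega)
      have hupd : ∀ b ∈ S.erase a, Function.update κ a a b = κ b := fun b hb =>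
        Function.update_of_ne (Finset.ne_of_mem_erase hb) _ _
      refine ⟨if W ≤ ω a then insert a X else X, Function.update κ a a, ?_,
        fun b hb => ?_, fun b hb h0 hX => ?_, fun c => ?_, ?_⟩
      · split_ifs
        · exact Finset.insert_subset ha (h1.trans (Finset.erase_subset _ _))
        · exact h1.trans (Finset.erase_subset _ _)
      · by_cases e : b = a
        · subst e
          rw [Function.update_self]
          exact ha
        · rw [hupd b (Finset.mem_erase.2 ⟨e, hb⟩)]
          exact Finset.mem_of_mem_erase (h2 _ (Finset.mem_erase.2 ⟨e, hb⟩))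
      · by_cases e : b = a
        · subst e
          have : W ≤ ω b := by
            by_contra hh
            exact hc ⟨h0, by omega⟩
          rw [if_pos this] at hX
          exact absurd (Finset.mem_insert_self _ _) hX
        · have hb' := Finset.mem_erase.2 ⟨e, hb⟩
          rw [hupd b hb', hupd _ (hcl' b hb' h0)]
          refine h3 b hb' h0 fun hh => hX ?_
          split_ifs
          · exact Finset.mem_insert_of_mem hh
          · exact hh
      · rw [← Finset.add_sum_erase S _ ha, Function.update_self,
          Finset.sum_congr rfl fun b hb => by rw [hupd b hb]]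
        by_cases e : a = c
        · subst e
          rw [if_pos rfl, Finset.sum_eq_zero fun b hb =>
            if_neg (Finset.ne_of_mem_erase (h2 b hb))]
          have := hinv a ha
          omega
        · rw [if_neg e, zero_add]
          exact h4 c
      · rw [← Finset.add_sum_erase S _ ha]
        split_ifs with hh
        · have := Nat.mul_le_mul_right W (Finset.card_insert_le a X)
          rw [Nat.add_mul] at this
          omega
        · omega

/-- A rooted forest (`up a` is the parent of `a` when `lev a ≠ 0`) with at most three children per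
node is cut along a set `X` of parent edges into pieces (fibres of `κ`) containing at most `3 W` marked
nodes, with `#X * W ≤ #marked`.
Strong induction on a parent-closed finset of nodes: take a node `a` of maximal level whose subtree has `≥ W` marked
nodes (then it has at most `1 + 3 (W-1)`), remove its subtree; if there is none, `κ` = root of the tree. -/
theorem exists_cut {A : Type} [Finite A] (lev : A → ℕ) (up : A → A)
    (hup : ∀ a, lev a ≠ 0 → lev (up a) + 1 = lev a)
    (hch : ∀ a, Nat.card {b // lev b ≠ 0 ∧ up b = a} ≤ 3) (m : A → Prop) {W : ℕ} (hW : 1 ≤ W) :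
    ∃ (X : Set A) (κ : A → A), (∀ a, lev a ≠ 0 → a ∉ X → κ (up a) = κ a) ∧
      (∀ c, Nat.card {a // m a ∧ κ a = c} ≤ 3 * W) ∧
      Nat.card X * W ≤ Nat.card {a // m a} := by
  classical
  have := Fintype.ofFinite A
  obtain ⟨X, κ, -, -, h3, h4, h5⟩ := forest_cut_aux lev up hup hW _ Finset.univ
    (fun a => if m a then 1 else 0) rfl (fun a _ _ => Finset.mem_univ _) (by
      intro a _
      have h := hch a
      rw [Nat.card_eq_fintype_card, Fintype.card_subtype] at h
      have h2 := Nat.mul_le_mul_left (W - 1) h
      have h3 : (if m a then 1 else 0) ≤ 1 := by split_ifs <;> omega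
      refine le_trans (Nat.add_le_add h3 (le_trans (le_of_eq ?_) h2)) (by omega)
      congr)
  refine ⟨X, κ, fun a h0 hX => h3 a (Finset.mem_univ _) h0 hX, fun c => ?_, ?_⟩
  · refine le_trans (le_of_eq ?_) (h4 c)
    rw [Nat.card_eq_fintype_card, Fintype.card_subtype, Finset.card_filter]
    refine Finset.sum_congr rfl fun a _ => ?_
    by_cases h1 : m a <;> by_cases h2 : κ a = c <;> simp [h1, h2]
  · rw [Nat.card_eq_fintype_card (α := {a // m a}), Fintype.card_subtype, Finset.card_filter]
    simpa using h5

end Crest.Agent.R177
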