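import Crest.Agent.R177.TC

/-!
# Partition of a reduced planar diagram into bounded pieces

The triangles are sorted into strips of height `h` by the level of their apex; for each strip the dual forest is
cut into pieces with boundedly many triangles of the strip.
-/

set_option autoImplicit false

namespace Crest.Agent.R177

open Finset

variable {V A E Tri Out : Type} {Γ : LGraph V A E}

namespace TC

variable {M : RMap Γ Tri Out} {Vx : Type} (t : TC M Vx)

/-- parent in the primal forest -/
def pu (a : Vx) : Vx :=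
  match t.par a with
  | some p => t.vx (M.opp (.inl p))
  | none => a

lemma pu_eq {a : Vx} {p : Tri × Fin 3} (h : t.par a = some p) : t.pu a = t.vx (M.opp (.inl p)) := by
  simp [pu, h]

lemma of_par {a : Vx} {p : Tri × Fin 3} (h : t.par a = some p) :
    t.lev a ≠ 0 ∧ p.2 ≠ 1 ∧ t.vx (.inl p) = a ∧ t.lev (t.vx (M.opp (.inl p))) + 1 = t.lev a := by
  have h0 : t.lev a ≠ 0 := fun h0 => by simp [t.par_zero a h0] at h
  obtain ⟨q, h1, h2⟩ := t.par_spec a h0
  obtain rfl : q = p := by simpa [h1] using h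
  exact ⟨h0, h2⟩

lemma lev_pu {a : Vx} (h : t.lev a ≠ 0) : t.lev (t.pu a) + 1 = t.lev a := by
  obtain ⟨p, h1, -, -, h2⟩ := t.par_spec a h
  rw [t.pu_eq h1, h2]

/-- `u` is a descendant of `v` -/
def Desc (v u : Vx) : Prop := t.lev v ≤ t.lev u ∧ t.pu^[t.lev u - t.lev v] u = v

lemma desc_self (v : Vx) : t.Desc v v := ⟨le_rfl, by simp⟩

lemma desc_iff {v u : Vx} (hu : t.lev u ≠ 0) (huv : u ≠ v) : t.Desc v u ↔ t.Desc v (t.pu u) := by
  have h := t.lev_pu hu
  constructor
  · rintro ⟨h1, h2⟩
    have h3 : t.lev v ≠ t.lev u := fun h3 => huv (by simpa [h3] using h2)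
    refine ⟨by omega, ?_⟩
    rwa [show t.lev u - t.lev v = (t.lev (t.pu u) - t.lev v) + 1 by omega,
      Function.iterate_succ_apply] at h2
  · rintro ⟨h1, h2⟩
    refine ⟨by omega, ?_⟩
    rwa [show t.lev u - t.lev v = (t.lev (t.pu u) - t.lev v) + 1 by omega,
      Function.iterate_succ_apply]

/-- If the two sides of a primal tree edge lie in different pieces of the cut dual forest, some cut edge has an
endpoint below it. -/
theorem cut [Finite Tri] {K : Type} (κ : Tri → K) (X : Set Tri)
    (hX : ∀ a, t.lev₂ a ≠ 0 → a ∉ X → κ (t.up a) = κ a) {p q : Tri × Fin 3}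
    (hpq : M.opp (.inl p) = .inl q) (hκ : κ q.1 ≠ κ p.1) {v : Vx} (hv : t.par v = some p) :
    ∃ x ∈ X, t.Desc v (t.vx (.inl (x, t.pi x))) ∨ t.Desc v (t.vx (M.opp (.inl (x, t.pi x)))) := by
  classical
  have := Fintype.ofFinite Tri
  by_contra hcon
  simp only [not_exists, not_and, not_or] at hcon
  let χ : Vx → ZMod 2 := fun u => if t.Desc v u then 1 else 0
  have hχ2 : ∀ u, χ u + χ u = 0 := fun u => CharTwo.add_self_eq_zero _
  let f : Tri × Fin 3 → ZMod 2 := fun d => χ (t.vx (.inl d)) + χ (t.vx (M.opp (.inl d)))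
  let Y : Finset (Tri × Fin 3) := univ.filter fun d => κ d.1 = κ p.1
  let Q : Tri × Fin 3 → Prop := fun d => ∃ d', M.opp (.inl d) = .inl d' ∧ κ d'.1 = κ p.1
  have h1 : ∑ d ∈ Y, f d = 0 := by
    rw [sum_filter, Fintype.sum_prod_type]
    refine sum_eq_zero fun τ _ => ?_
    by_cases hτ : κ τ = κ p.1
    · simp only [hτ, if_true, Fin.sum_univ_three, f, ← t.vx_nxt]
      have e : (2 + 1 : Fin 3) = 0 := rfl
      have e' : (1 + 1 : Fin 3) = 2 := rfl
      rw [e, e', zero_add]
      linear_combination hχ2 (t.vx (.inl (τ, 0))) + hχ2 (t.vx (.inl (τ, 1))) +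
        hχ2 (t.vx (.inl (τ, 2)))
    · simp [hτ]
  let σ : Tri × Fin 3 → Tri × Fin 3 := fun d => ((M.opp (.inl d)).getLeft?).getD d
  have hσ : ∀ d d', M.opp (.inl d) = .inl d' → σ d = d' := fun d d' h => by simp [σ, h]
  have hopp : ∀ d d' : Tri × Fin 3, M.opp (.inl d) = .inl d' → M.opp (.inl d') = .inl d :=
    fun d d' h => by rw [← h, M.opp_opp]
  have h2 : ∑ d ∈ Y.filter Q, f d = 0 := by
    refine sum_involution (fun d _ => σ d) ?_ ?_ ?_ ?_
    · intro d hd
      obtain ⟨-, d', h, -⟩ := mem_filter.1 hd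
      simp only [hσ d d' h, f, h, hopp d d' h]
      linear_combination hχ2 (t.vx (.inl d)) + hχ2 (t.vx (.inl d'))
    · intro d hd _ he
      obtain ⟨-, d', h, -⟩ := mem_filter.1 hd
      rw [hσ d d' h] at he
      exact M.opp_ne (.inl d) (by rw [h, he])
    · intro d hd
      obtain ⟨hY, d', h, h'⟩ := mem_filter.1 hd
      rw [hσ d d' h]
      exact mem_filter.2 ⟨mem_filter.2 ⟨mem_univ _, h'⟩, d, hopp d d' h, (mem_filter.1 hY).2⟩
    · intro d hd
      obtain ⟨-, d', h, -⟩ := mem_filter.1 hd
      rw [hσ d d' h, hσ d' d (hopp d d' h)]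
  obtain ⟨hv0, -, hv1, hv2⟩ := t.of_par hv
  have h3 : ∑ d ∈ Y.filter (fun d => ¬ Q d), f d = 1 := by
    rw [sum_eq_single p]
    · have hn : ¬ t.Desc v (t.vx (M.opp (.inl p))) := fun h => by
        have := h.1
        omega
      simp only [f, χ, hv1, t.desc_self, hn, if_true, if_false, add_zero]
    · intro d hd hdp
      obtain ⟨hY, hQ⟩ := mem_filter.1 hd
      have hY' : κ d.1 = κ p.1 := (mem_filter.1 hY).2
      have htree : ∀ e : Tri × Fin 3, e ≠ p → t.par (t.vx (.inl e)) = some e →
          χ (t.vx (.inl e)) = χ (t.vx (M.opp (.inl e))) := by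
        intro e hep he
        have hne : t.vx (.inl e) ≠ v := fun h => hep (by simpa [h, hv] using he.symm)
        simp only [χ, t.desc_iff (t.of_par he).1 hne, t.pu_eq he]
      obtain ⟨τ, i⟩ := d
      rcases h : M.opp (.inl (τ, i)) with ⟨τ', i'⟩ | o
      · obtain rfl := M.idx _ _ _ _ h
        have hκ' : κ τ' ≠ κ p.1 := fun h' => hQ ⟨_, h, h'⟩
        have h' := hopp _ _ h
        rcases t.cotree τ i τ' h with h4 | h4 | ⟨h4, h5⟩ | ⟨h4, h5⟩
        · simp only [f, ← htree _ hdp h4, hχ2]
        · have := htree _ (fun he => hκ' (by rw [← he])) h4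
          simp only [f, h, this, h', hχ2]
        · have h6 := (t.up_spec τ h4).1
          rw [h5, h] at h6
          have h7 : τ' = t.up τ := (Prod.mk.inj (Sum.inl_injective h6)).1
          have hx : τ ∈ X := by
            by_contra hx
            exact hκ' (by rw [h7, hX τ h4 hx, hY'])
          have := hcon τ hx
          rw [h5] at this
          simp only [f, χ, this.1, this.2, if_false, add_zero]
        · have h6 := (t.up_spec τ' h4).1
          rw [h5, h'] at h6
          have h7 : τ = t.up τ' := (Prod.mk.inj (Sum.inl_injective h6)).1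
          have hx : τ' ∈ X := by
            by_contra hx
            exact hκ' (by rw [← hX τ' h4 hx, ← h7, hY'])
          have := hcon τ' hx
          rw [h5, h'] at this
          simp only [f, χ, h, this.1, this.2, if_false, add_zero]
      · have := (t.lev_out o).2
        rw [← h, M.opp_opp] at this
        simp only [f, ← this, hχ2]
    · intro hp
      have hpY : p ∈ Y := mem_filter.2 ⟨mem_univ _, rfl⟩
      refine (hp (mem_filter.2 ⟨hpY, ?_⟩)).elim
      rintro ⟨d', h, h'⟩
      obtain rfl : q = d' := Sum.inl_injective (hpq.symm.trans h)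
      exact hκ h'
  rw [← sum_filter_add_sum_filter_not Y Q, h2, h3, zero_add] at h1
  exact one_ne_zero h1

/-- level of the apex of a triangle -/
def al (τ : Tri) : ℕ := t.lev (t.vx (.inl (τ, 0)))

lemma al_succ {τ τ' : Tri} (h : M.opp (.inl (τ, 2)) = .inl (τ', 0)) : t.al τ' = t.al τ := by
  unfold al
  rw [← h, ← t.vx_nxt]
  rfl

lemma al_gl {τ τ' : Tri} (h : M.opp (.inl (τ, 1)) = .inl (τ', 1)) : t.al τ' ≤ t.al τ + 2 := by
  have h' : M.opp (.inl (τ', 1)) = .inl (τ, 1) := by rw [← h, M.opp_opp]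
  have h1 := (t.lev_le (τ, 0) (by simp)).2
  have h2 := (t.lev_le (τ', 2) (by simp)).2
  have h3 := t.vx_nxt τ' 1
  rw [← t.vx_nxt] at h1 h2
  rw [h'] at h3
  change t.lev (t.vx (.inl (τ, 1))) ≤ t.al τ + 1 at h1
  change t.al τ' ≤ t.lev (t.vx (.inl (τ', 1 + 1))) + 1 at h2
  rw [h3] at h2
  omega

lemma children [Finite Tri] (a : Tri) : Nat.card {b // t.lev₂ b ≠ 0 ∧ t.up b = a} ≤ 3 := by
  have : Nat.card {b // t.lev₂ b ≠ 0 ∧ t.up b = a} ≤ Nat.card (Fin 3) := by
    refine Nat.card_le_card_of_injective (fun b => t.pi b.1) ?_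
    rintro ⟨b, hb, rfl⟩ ⟨b', hb', h⟩ he
    have h1 := (t.up_spec b hb).1
    have h2 := (t.up_spec b' hb').1
    simp only at he
    rw [h, ← he, ← h1] at h2
    exact Subtype.ext (Prod.mk.inj (Sum.inl_injective (M.opp_inj h2))).1.symm
  simpa using this

end TC

lemma card_div_ne (h a a' : ℕ) (h1 : a' ≤ a + 2) (h2 : a ≤ a' + 2) :
    #{r ∈ range h | (a' + r) / h ≠ (a + r) / h} ≤ 2 := by
  have key : ∀ c, #{r ∈ range h | h ∣ c + r} ≤ 1 := by
    intro c
    refine card_le_one.2 fun r hr r' hr' => ?_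
    simp only [mem_filter, mem_range] at hr hr'
    have h3 : c + r ≡ c + r' [MOD h] :=
      ((Nat.modEq_zero_iff_dvd).2 hr.2).trans ((Nat.modEq_zero_iff_dvd).2 hr'.2).symm
    exact (Nat.ModEq.add_left_cancel' c h3).eq_of_lt_of_lt hr.1 hr'.1
  have main : ∀ b b', b ≤ b' → b' ≤ b + 2 →
      #{r ∈ range h | (b' + r) / h ≠ (b + r) / h} ≤ 2 := by
    intro b b' h3 h4
    calc _ ≤ #({r ∈ range h | h ∣ b + 1 + r} ∪ {r ∈ range h | h ∣ b + 2 + r}) := by
          refine card_le_card fun r hr => ?_
          simp only [mem_filter, mem_union] at hr ⊢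
          by_contra hc
          simp only [hr.1, true_and, not_or] at hc
          have e1 : (b + 1 + r) / h = (b + r) / h := by
            rw [show b + 1 + r = b + r + 1 by ring] at hc ⊢
            rw [Nat.succ_div, if_neg hc.1, add_zero]
          have e2 : (b + 2 + r) / h = (b + 1 + r) / h := by
            rw [show b + 2 + r = b + 1 + r + 1 by ring] at hc ⊢
            rw [Nat.succ_div, if_neg hc.2, add_zero]
          apply hr.2
          obtain rfl | rfl | rfl : b' = b ∨ b' = b + 1 ∨ b' = b + 2 := by omega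
          · rfl
          · exact e1
          · exact e2.trans e1
      _ ≤ 2 := (card_union_le _ _).trans (add_le_add (key _) (key _))
  rcases le_total a a' with h3 | h3
  · exact main a a' h3 h1
  · simpa only [ne_comm] using main a' a h3 h2

theorem RMap.exists_partition [Finite Tri] (M : RMap Γ Tri Out) {h W : ℕ} (hh : 1 ≤ h) (hW : 1 ≤ W) :
    ∃ κ : Tri → ℕ × Tri, (∀ c, Nat.card {τ // κ τ = c} ≤ 3 * W) ∧
      h * W * M.conf.cutGl κ ≤ 2 * (W + h) * Nat.card Tri ∧
      W * M.conf.cutSucc κ ≤ (2 * h + 4) * Nat.card Tri := by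
  classical
  have := Fintype.ofFinite Tri
  obtain ⟨Vx, ⟨t⟩⟩ := M.exists_tc
  -- choice of the strips
  let C : ℕ → Finset Tri := fun r =>
    univ.filter fun y => ∃ y', M.nbr y 1 = some y' ∧ (t.al y' + r) / h ≠ (t.al y + r) / h
  have hsum : ∑ r ∈ range h, h * #(C r) ≤ ∑ _r ∈ range h, 2 * Fintype.card Tri := by
    rw [← mul_sum, sum_const, card_range, smul_eq_mul]
    refine Nat.mul_le_mul_left _ ?_
    simp only [C, card_filter]
    rw [sum_comm, ← card_univ, mul_comm, ← smul_eq_mul, ← sum_const]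
    refine sum_le_sum fun y _ => ?_
    rw [← card_filter]
    rcases hy : M.nbr y 1 with _ | y'
    · simp
    · have h1 := t.al_gl (M.nbr_eq_some.1 hy)
      have h2 := t.al_gl (M.nbr_eq_some.1 (M.nbr_symm hy))
      simpa using card_div_ne h _ _ h1 h2
  obtain ⟨r, -, hr⟩ := exists_le_of_sum_le (nonempty_range_iff.2 (by omega)) hsum
  let s : Tri → ℕ := fun τ => (t.al τ + r) / h
  choose X κ hX hfib hcard using fun j : ℕ =>
    exists_cut t.lev₂ t.up (fun a ha => (t.up_spec a ha).2) t.children (fun τ => s τ = j) hW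
  let XF : Finset (ℕ × Tri) := (univ.image s ×ˢ univ).filter fun z => z.2 ∈ X z.1
  have hXF : #XF * W ≤ Fintype.card Tri := by
    have e1 : #XF = ∑ j ∈ univ.image s, Nat.card (X j) := by
      simp only [XF, card_filter, sum_product]
      refine sum_congr rfl fun j _ => ?_
      rw [← card_filter, Nat.card_eq_fintype_card, ← Fintype.card_subtype]
    rw [e1, sum_mul, ← card_univ, card_eq_sum_card_image s univ]
    refine sum_le_sum fun j _ => (hcard j).trans ?_
    rw [Nat.card_eq_fintype_card, Fintype.card_subtype]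
  have hmem : ∀ y x, x ∈ X (s y) → (s y, x) ∈ XF := fun y x hx =>
    mem_filter.2 ⟨mem_product.2 ⟨mem_image_of_mem _ (mem_univ _), mem_univ _⟩, hx⟩
  let B : Finset Tri := XF.image (fun z => z.2) ∪ XF.image fun z => t.up z.2
  have hB : #B ≤ 2 * #XF := by
    have := card_union_le (XF.image fun z => z.2) (XF.image fun z => t.up z.2)
    have h1 : #(XF.image fun z => z.2) ≤ #XF := card_image_le
    have h2 : #(XF.image fun z => t.up z.2) ≤ #XF := card_image_le
    simp only [B]
    omega
  have hdual : ∀ y i y', M.opp (.inl (y, i)) = .inl (y', Fin.rev i) → κ (s y) y' ≠ κ (s y) y →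
      (t.lev₂ y ≠ 0 ∧ t.pi y = i) ∨ (t.lev₂ y' ≠ 0 ∧ t.pi y' = Fin.rev i) → y ∈ B := by
    rintro y i y' ho hk (⟨h4, h5⟩ | ⟨h4, h5⟩)
    · have h6 := (t.up_spec y h4).1
      rw [h5, ho] at h6
      have h7 : y' = t.up y := (Prod.mk.inj (Sum.inl_injective h6)).1
      have hx : y ∈ X (s y) := by
        by_contra hx
        exact hk (by rw [h7, hX _ y h4 hx])
      exact mem_union_left _ (mem_image.2 ⟨_, hmem y y hx, rfl⟩)
    · have h' : M.opp (.inl (y', Fin.rev i)) = .inl (y, i) := by rw [← ho, M.opp_opp]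
      have h6 := (t.up_spec y' h4).1
      rw [h5, h'] at h6
      have h7 : y = t.up y' := (Prod.mk.inj (Sum.inl_injective h6)).1
      have hx : y' ∈ X (s y) := by
        by_contra hx
        exact hk (by rw [← hX _ y' h4 hx, ← h7])
      exact mem_union_right _ (mem_image.2 ⟨_, hmem y y' hx, h7.symm⟩)
  refine ⟨fun τ => (s τ, κ (s τ) τ), fun c => ?_, ?_, ?_⟩
  · refine le_trans (Nat.card_le_card_of_injective
      (fun τ => (⟨τ.1, ?_⟩ : {a // s a = c.1 ∧ κ c.1 a = c.2})) ?_) (hfib c.1 c.2)
    · obtain ⟨τ, rfl⟩ := τ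
      exact ⟨rfl, rfl⟩
    · intro a b hab
      exact Subtype.ext (congrArg (·.1) hab)
  · have h1 : M.conf.cutGl (fun τ => (s τ, κ (s τ) τ)) ≤ #(C r ∪ B) := by
      unfold LGraph.Conf.cutGl
      rw [Nat.card_eq_fintype_card, Fintype.card_subtype]
      refine card_le_card fun y hy => ?_
      obtain ⟨-, y', h1, h2⟩ := mem_filter.1 hy
      have h1' : M.nbr y 1 = some y' := h1
      by_cases hs : s y' = s y
      · have ho := M.nbr_eq_some.1 h1'
        refine mem_union_right _ (hdual y 1 y' ho (fun hk => h2 (by simp only [hs, hk])) ?_)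
        rcases t.cotree y 1 y' ho with h4 | h4 | h4
        · exact absurd rfl (t.of_par h4).2.1
        · exact absurd rfl (t.of_par h4).2.1
        · exact h4
      · exact mem_union_left _ (mem_filter.2 ⟨mem_univ _, y', h1', hs⟩)
    have h2 := card_union_le (C r) B
    rw [Nat.card_eq_fintype_card]
    calc _ ≤ h * W * (#(C r) + 2 * #XF) := Nat.mul_le_mul_left _ (by omega)
      _ = W * (h * #(C r)) + 2 * h * (#XF * W) := by ring
      _ ≤ W * (2 * Fintype.card Tri) + 2 * h * Fintype.card Tri := by gcongr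
      _ = _ := by ring
  · let u : Tri → Bool → Vx := fun x b =>
      if b then t.vx (.inl (x, t.pi x)) else t.vx (M.opp (.inl (x, t.pi x)))
    let tri : Option (Tri × Fin 3) → Tri → Tri := fun o x =>
      (o.map fun p => if p.2 = 2 then p.1 else (M.nbr p.1 0).getD p.1).getD x
    let G : (ℕ × Tri) × Bool × ℕ → Tri := fun z =>
      tri (t.par (t.pu^[t.lev (u z.1.2 z.2.1) - (z.1.1 * h + z.2.2 - r)] (u z.1.2 z.2.1))) z.1.2
    let B' : Finset Tri := (XF ×ˢ univ ×ˢ range (h + 1)).image G
    have hB' : #B' ≤ #XF * (2 * (h + 1)) := by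
      refine card_image_le.trans ?_
      simp
    have htree : ∀ y v p q, M.opp (.inl p) = .inl q → κ (s y) q.1 ≠ κ (s y) p.1 → t.par v = some p →
        t.al y ≤ t.lev v → t.lev v ≤ t.al y + 1 → (∀ x, tri (some p) x = y) → y ∈ B' := by
      intro y v p q hpq hk hv l1 l2 hy
      obtain ⟨x, hx, hd⟩ := t.cut (κ (s y)) (X (s y)) (hX _) hpq hk hv
      obtain ⟨b, hb⟩ : ∃ b, t.Desc v (u x b) := by
        rcases hd with hd | hd
        · exact ⟨true, hd⟩
        · exact ⟨false, hd⟩
      have e1 := Nat.div_add_mod (t.al y + r) h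
      have e2 := Nat.mod_lt (t.al y + r) (show 0 < h by omega)
      have e3 : s y * h = h * ((t.al y + r) / h) := mul_comm _ _
      refine mem_image.2 ⟨((s y, x), b, t.lev v + r - s y * h), ?_, ?_⟩
      · simp only [mem_product, hmem y x hx, mem_univ, mem_range, true_and]
        omega
      · simp only [G]
        rw [show s y * h + (t.lev v + r - s y * h) - r = t.lev v by omega, hb.2, hv, hy]
    have h1 : M.conf.cutSucc (fun τ => (s τ, κ (s τ) τ)) ≤ #(B ∪ B') := by
      unfold LGraph.Conf.cutSucc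
      rw [Nat.card_eq_fintype_card, Fintype.card_subtype]
      refine card_le_card fun y hy => ?_
      obtain ⟨-, y', h1, h2⟩ := mem_filter.1 hy
      have h1' : M.nbr y 2 = some y' := h1
      have ho := M.nbr_eq_some.1 h1'
      have ho' : M.opp (.inl (y', 0)) = .inl (y, 2) := by
        rw [← M.opp_opp (.inl (y, 2)), ho]
        rfl
      have hal := t.al_succ ho
      have hs : s y' = s y := by simp only [s, hal]
      have hk : κ (s y) y' ≠ κ (s y) y := fun hk => h2 (by simp only [hs, hk])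
      rcases t.cotree y 2 y' ho with h4 | h4 | h4
      · have h5 := (t.of_par h4).2.2.2
        rw [ho] at h5
        change t.al y' + 1 = _ at h5
        exact mem_union_right _ (htree y _ _ _ ho hk h4 (by omega) (by omega) fun x => by simp [tri])
      · refine mem_union_right _ (htree y _ _ _ ho' hk.symm h4 hal.ge (hal.le.trans (by omega))
          fun x => ?_)
        have : M.nbr y' 0 = some y := M.nbr_symm h1'
        simp [tri, this]
      · exact mem_union_left _ (hdual y 2 y' ho hk h4)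
    have h2 := card_union_le B B'
    rw [Nat.card_eq_fintype_card]
    calc _ ≤ W * (2 * #XF + #XF * (2 * (h + 1))) := Nat.mul_le_mul_left _ (by omega)
      _ = (2 * h + 4) * (#XF * W) := by ring
      _ ≤ _ := by gcongr

end Crest.Agent.R177
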