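import Crest.Agent.R177.Diag
import Crest.Agent.R177.Planar
import Crest.Agent.R177.Der
import Crest.Agent.R177.Average
import Crest.Agent.R177.Euler

/-!
# Local-to-global: the local condition gives asphericity and a linear isoperimetric inequality
-/

set_option autoImplicit false

namespace Crest.Agent.R177

variable {V A E : Type} {Γ : LGraph V A E}

lemma LGraph.Girth.no_loop {g : ℕ} (h : Γ.Girth g) (hg : 2 ≤ g) (e : E) : Γ.src e ≠ Γ.tgt e := by
  intro he
  have := h 1 (fun _ => (e, true)) one_pos (fun i hi => by omega) he.symm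
  omega

theorem RMap.area_le {Tri Out : Type} [Finite Tri] [Finite Out] (M : RMap Γ Tri Out) {g k Λ : ℕ}
    (hg : 1 ≤ g) (hk : 1 ≤ k) (hΛ : 1 ≤ Λ) (hF : Γ.Folded) (hG : Γ.Girth g)
    (hL : Γ.LocalOK (1000 * k * Λ * g) (100000 * k * Λ) k (Λ * g)) :
    Nat.card Tri ≤ 2 * (k + Λ * g + g) * Nat.card Out := by
  have hkΛ : 1 ≤ k * Λ := Nat.mul_pos hk hΛ
  have hΛg : 1 ≤ Λ * g := Nat.mul_pos hΛ hg
  have hW : 1 ≤ 300 * k * (Λ * g) := Nat.mul_pos (by omega) hΛg
  obtain ⟨κ, h1, h2, h3⟩ := M.exists_partition (h := 16 * k) (by omega) hW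
  have h4 := average M.conf κ hL fun a => (h1 a).trans (by nlinarith)
  have h5 := M.opn_le
  have h6 := M.ung_le
  have h7 := M.bent_le hF hG
  generalize Nat.card Tri = T at *
  generalize Nat.card Out = β at *
  generalize M.conf.cutGl κ = cG at *
  generalize M.conf.cutSucc κ = cS at *
  generalize M.conf.opn = op at *
  generalize M.conf.ung = un at *
  generalize M.conf.bent = be at *
  have a1 : 300 * (Λ * g * cS) ≤ 36 * T := by
    refine Nat.le_of_mul_le_mul_left ?_ hk
    calc k * (300 * (Λ * g * cS)) = 300 * k * (Λ * g) * cS := by ring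
      _ ≤ (2 * (16 * k) + 4) * T := h3
      _ ≤ (36 * k) * T := Nat.mul_le_mul_right _ (by omega)
      _ = _ := by ring
  have a2 : 16 * (k * cG) ≤ 3 * T := by
    refine Nat.le_of_mul_le_mul_left ?_ hW
    calc 300 * k * (Λ * g) * (16 * (k * cG)) = 16 * k * (300 * k * (Λ * g)) * cG := by ring
      _ ≤ _ := h2
      _ ≤ (3 * (300 * k * (Λ * g))) * T := Nat.mul_le_mul_right _ (by nlinarith)
      _ = _ := by ring
  have a3 : 100 * T ≤ 100 * (k * un + k * cG + (Λ * g * op + Λ * g * cS)) + (g * be + 2 * (g * cS)) := by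
    refine Nat.le_of_mul_le_mul_left ?_ (show 0 < 1000 * (k * Λ) by omega)
    calc _ = 100000 * k * Λ * T := by ring
      _ ≤ _ := h4
      _ = _ := by ring
  have a4 : g * cS ≤ Λ * g * cS := by
    rw [mul_assoc]
    exact Nat.le_mul_of_pos_left _ hΛ
  have a5 : k * un ≤ k * β := Nat.mul_le_mul_left _ h6
  have a6 : Λ * g * op ≤ Λ * g * β := Nat.mul_le_mul_left _ h5
  have a7 : 2 * (k + Λ * g + g) * β = 2 * (k * β) + 2 * (Λ * g * β) + 2 * (g * β) := by ring
  have a8 : 4 * g * β = 4 * (g * β) := by ring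
  omega

lemma eq_zero_of_l1 {α : Type} {c : α →₀ ℤ} (h : l1 c = 0) : c = 0 := by
  ext a
  by_contra ha
  have := (Finset.sum_eq_zero_iff.1 h) a (Finsupp.mem_support_iff.2 ha)
  exact ha (Int.natAbs_eq_zero.1 this)

theorem global : GlobalStmt := by
  intro V A E Γ g k Λ hg hk hΛ hF hG hL
  have key : ∀ L c, Der Γ.pres.toTriData L c → l1 c ≤ 2 * (k + Λ * g + g) * L.length := by
    intro L c h
    obtain ⟨Tri, Out, _, _, M, h1, h2⟩ := exists_rmap (hG.no_loop (by omega)) h
    exact h2.trans (h1 ▸ M.area_le (by omega) hk hΛ hF hG hL)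
  refine ⟨(injective_iff_map_eq_zero _).2 fun c hc => eq_zero_of_l1 ?_,
    2 * (k + Λ * g + g), fun L hL' => ?_⟩
  · simpa using key _ _ (der_nil_of_bd Γ.pres hc)
  · obtain ⟨c, hc⟩ := exists_der Γ.pres hL'
    exact ⟨c, hc.sound.2, key _ _ hc⟩

end Crest.Agent.R177
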