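import Crest.Agent.R177.Local
import Crest.Prelude.Def_WordHyperbolic

/-!
# A linear (homological) isoperimetric inequality implies word-hyperbolicity

For 1-Lipschitz `f h : G → ℤ` the 1-cochain `(f x + f y) (h y - h x)` has coboundary bounded by `2`
on triangles, so its integral over a loop of length `n` is at most `2 C n`.  Applied to
`f = min k (dist to A ∪ B)` and `h = d w`, this shows that nearest-point projections to geodesics
are coarse corners, and this gives the four-point condition.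
-/

set_option autoImplicit false

namespace Crest.Agent.R177

open Crest.Agent.Lib.CW2 Crest.GroupTheory

namespace Hyp

section Abstract

variable {X : Type} (d : X → X → ℕ)

/-- walks together with the integral of the cochain of `f`, `h` -/
inductive Wk (f h : X → ℤ) : X → X → ℕ → ℤ → Prop
  | nil (x : X) : Wk f h x x 0 0
  | cons {x y z : X} {n : ℕ} {w : ℤ} : d x y ≤ 1 → Wk f h y z n w →
      Wk f h x z (n + 1) ((f x + f y) * (h y - h x) + w)

variable {d}

theorem Wk.trans {f h : X → ℤ} {x y z : X} {n m : ℕ} {v w : ℤ} (h1 : Wk d f h x y n v)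
    (h2 : Wk d f h y z m w) : Wk d f h x z (n + m) (v + w) := by
  induction h1 with
  | nil x => simpa using h2
  | @cons x y' y n v hxy _ ih =>
    have := Wk.cons hxy (ih h2)
    rw [show n + 1 + m = n + m + 1 by omega, add_assoc ((f x + f y') * (h y' - h x))]
    exact this

theorem Wk.seq {f h : X → ℤ} (c : ℕ → X) (b : ℤ) (t : ℕ) :
    ∀ i : ℕ, (∀ s, i ≤ s → s < i + t → d (c s) (c (s + 1)) ≤ 1 ∧
      b ≤ (f (c s) + f (c (s + 1))) * (h (c (s + 1)) - h (c s))) →
    ∃ w, Wk d f h (c i) (c (i + t)) t w ∧ b * t ≤ w := by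
  induction t with
  | zero => intro i _; exact ⟨0, Wk.nil _, by simp⟩
  | succ t ih =>
    intro i hc
    obtain ⟨w, hw, hb⟩ := ih (i + 1) fun s h1 h2 => hc s (by omega) (by omega)
    obtain ⟨h1, h2⟩ := hc i le_rfl (by omega)
    rw [show i + 1 + t = i + (t + 1) by omega] at hw
    refine ⟨_, Wk.cons h1 hw, ?_⟩
    push_cast
    linarith

variable (d)

/-- `γ` is a geodesic on `[0, n]` -/
def Geo (γ : ℕ → X) (n : ℕ) : Prop := ∀ s t, s ≤ t → t ≤ n → d (γ s) (γ t) = t - s

/-- 1-Lipschitz -/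
def Lip (f : X → ℤ) : Prop := ∀ x y, f x ≤ f y + d x y

/-- a geodesic graph metric in which the cochains have linearly bounded integrals on loops -/
structure Good (K : ℕ) : Prop where
  self : ∀ x, d x x = 0
  symm : ∀ x y, d x y = d y x
  tri : ∀ x y z, d x z ≤ d x y + d y z
  geo : ∀ x y, ∃ γ : ℕ → X, γ 0 = x ∧ γ (d x y) = y ∧ Geo d γ (d x y)
  loop : ∀ f h : X → ℤ, Lip d f → Lip d h → ∀ x n w, Wk d f h x x n w → w ≤ K * n

variable {d}

/-- a short geodesic costs at most `2 k` per edge -/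
theorem Good.short {K : ℕ} (H : Good d K) {f h : X → ℤ} (hh : Lip d h) {k : ℕ}
    (h0 : ∀ x, 0 ≤ f x) (hk : ∀ x, f x ≤ k) (x y : X) :
    ∃ w, Wk d f h x y (d x y) w ∧ -(2 * k) * (d x y : ℤ) ≤ w := by
  obtain ⟨γ, g0, g1, hγ⟩ := H.geo x y
  obtain ⟨w, hw, hb⟩ := Wk.seq (d := d) (f := f) (h := h) γ (-(2 * k)) (d x y) 0 (by
    intro s _ hs
    have e : d (γ s) (γ (s + 1)) = 1 := by rw [hγ s (s + 1) (by omega) (by omega)]; omega
    refine ⟨e.le, ?_⟩
    have a := hh (γ s) (γ (s + 1))
    rw [e] at a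
    have a1 := h0 (γ s)
    have a2 := h0 (γ (s + 1))
    have a3 := hk (γ s)
    have a4 := hk (γ (s + 1))
    push_cast at a
    nlinarith)
  rw [zero_add, g0, g1] at hw
  exact ⟨w, hw, hb⟩

/-- nearest points of geodesics are coarse corners -/
theorem Good.corner {K : ℕ} (H : Good d K) : ∃ c : ℕ, ∀ (w : X) (β : ℕ → X) (j : ℕ), Geo d β j →
    (∀ s, s ≤ j → d w (β j) ≤ d w (β s)) → d w (β j) + j ≤ d w (β 0) + c := by
  classical
  obtain ⟨k, hk⟩ : ∃ k : ℕ, k = 4 * K + 1 := ⟨_, rfl⟩
  refine ⟨2 * ((4 * k + 4 * k * k + 8 * K * k) + 3 * k), fun w β j hβ hmin => ?_⟩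
  obtain ⟨α, α0, α1, hα⟩ := H.geo (β j) w
  obtain ⟨σ, σ0, σ1, hσ⟩ := H.geo w (β 0)
  set n := d w (β 0) with hn
  set m := d (β j) w with hm
  -- distance to the union of the two sides
  let Z : Set X := {u | (∃ t, t ≤ m ∧ u = α t) ∨ ∃ s, s ≤ j ∧ u = β s}
  let D : X → ℕ := fun x => sInf {r | ∃ u ∈ Z, d x u = r}
  have hDle : ∀ x, ∀ u ∈ Z, D x ≤ d x u := fun x u hu => Nat.sInf_le ⟨u, hu, rfl⟩
  have hDex : ∀ x, ∃ u ∈ Z, d x u = D x := fun x =>
    Nat.sInf_mem (s := {r | ∃ u ∈ Z, d x u = r}) ⟨_, β 0, Or.inr ⟨0, Nat.zero_le _, rfl⟩, rfl⟩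
  let f : X → ℤ := fun x => ((min k (D x) : ℕ) : ℤ)
  let h : X → ℤ := fun x => (d w x : ℤ)
  have hf : Lip d f := by
    intro x y
    obtain ⟨u, hu, e⟩ := hDex y
    have h1 := hDle x u hu
    have h2 := H.tri x y u
    simp only [f]
    omega
  have hh : Lip d h := by
    intro x y
    have h2 := H.tri w y x
    have h3 := H.symm x y
    simp only [h]
    omega
  have hf0 : ∀ x, 0 ≤ f x := fun x => Int.natCast_nonneg _
  have hfk : ∀ x, f x ≤ k := fun x => by simp only [f]; omega
  have hfZ : ∀ u ∈ Z, f u = 0 := fun u hu => by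
    have := hDle u u hu
    rw [H.self] at this
    simp only [f]
    omega
  -- last point near `α`
  let PA : ℕ → Prop := fun i => ∃ t, t ≤ m ∧ d (σ i) (α t) ≤ k
  have hPA0 : PA 0 := ⟨m, le_rfl, by rw [σ0, α1, H.self]; omega⟩
  set a := Nat.findGreatest PA n with ha
  have han : a ≤ n := Nat.findGreatest_le n
  have hPa : PA a := Nat.findGreatest_spec (Nat.zero_le n) hPA0
  have hna : ∀ i, a < i → i ≤ n → ¬ PA i := fun i h1 h2 => Nat.findGreatest_is_greatest h1 h2
  -- first point after it near `β`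
  have hex : ∃ r, a + r ≤ n ∧ ∃ s, s ≤ j ∧ d (σ (a + r)) (β s) ≤ k :=
    ⟨n - a, by omega, 0, Nat.zero_le _, by
      rw [show a + (n - a) = n by omega, σ1, H.self]; omega⟩
  set r := Nat.find hex with hr
  obtain ⟨harn, s, hsj, hs⟩ := Nat.find_spec hex
  rw [← hr] at harn hs
  have hnb : ∀ i, a ≤ i → i < a + r → ∀ s, s ≤ j → k < d (σ i) (β s) := by
    intro i h1 h2 s hs
    by_contra hc
    have := Nat.find_min hex (m := i - a) (by omega)
    apply this
    rw [show a + (i - a) = i by omega]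
    exact ⟨by omega, s, hs, by omega⟩
  have hfin : ∀ i, a < i → i < a + r → f (σ i) = k := by
    intro i h1 h2
    obtain ⟨u, hu, e⟩ := hDex (σ i)
    have : k < d (σ i) u := by
      rcases hu with ⟨t, ht, rfl⟩ | ⟨s, hs, rfl⟩
      · by_contra hc
        exact hna i h1 (by omega) ⟨t, ht, by omega⟩
      · exact hnb i h1.le h2 s hs
    simp only [f]
    omega
  obtain ⟨t, htm, ht⟩ := hPa
  have hσw : ∀ i, i ≤ n → d w (σ i) = i := fun i hi => by
    have := hσ 0 i (Nat.zero_le _) hi
    rwa [σ0] at this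
  -- geometry of the loop
  have e1 : d (σ a) (σ (a + r)) = r := by rw [hσ a (a + r) (by omega) harn]; omega
  have e2 : d (α t) (β s) ≤ r + 2 * k := by
    have h1 := H.tri (α t) (σ a) (β s)
    have h2 := H.tri (σ a) (σ (a + r)) (β s)
    have h3 := H.symm (α t) (σ a)
    omega
  have e3 : d (β j) (α t) = t := by
    have := hα 0 t (Nat.zero_le _) htm
    rwa [α0] at this
  have e4 : d (α t) w = m - t := by
    have := hα t m htm le_rfl
    rwa [α1] at this
  have e5 : t ≤ r + 2 * k := by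
    have h1 := hmin s hsj
    have h2 := H.tri w (α t) (β s)
    have h3 := H.symm w (α t)
    have h4 := H.symm w (β j)
    omega
  have e6 : j - s ≤ 2 * (r + 2 * k) := by
    have h1 := hβ s j hsj le_rfl
    have h2 := H.tri (β s) (α t) (β j)
    have h3 := H.symm (β s) (α t)
    have h4 := H.symm (α t) (β j)
    omega
  have hstep : ∀ i, i < n → d (σ i) (σ (i + 1)) = 1 ∧ h (σ (i + 1)) - h (σ i) = 1 := by
    intro i hi
    refine ⟨by rw [hσ i (i + 1) (by omega) (by omega)]; omega, ?_⟩
    simp only [h]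
    rw [hσw i (by omega), hσw (i + 1) (by omega)]
    push_cast
    ring
  -- the main side
  have W1 : ∃ w1, Wk d f h (σ a) (σ (a + r)) r w1 ∧ (k : ℤ) * (r - 1) ≤ w1 := by
    rcases Nat.eq_zero_or_pos r with h0 | h0
    · rw [h0]
      refine ⟨0, Wk.nil _, ?_⟩
      simp
    · obtain ⟨w1, hw1, hb1⟩ := Wk.seq (d := d) (f := f) (h := h) σ k (r - 1) (a + 1) (by
        intro i h1 h2
        obtain ⟨q1, q2⟩ := hstep i (by omega)
        refine ⟨q1.le, ?_⟩
        rw [q2, hfin i (by omega) (by omega)]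
        have := hf0 (σ (i + 1))
        linarith)
      obtain ⟨q1, q2⟩ := hstep a (by omega)
      have := Wk.cons q1.le hw1
      rw [show a + 1 + (r - 1) = a + r by omega, show r - 1 + 1 = r by omega] at this
      refine ⟨_, this, ?_⟩
      rw [q2]
      have a1 := hf0 (σ a)
      have a2 := hf0 (σ (a + 1))
      rw [Nat.cast_sub h0] at hb1
      push_cast at hb1
      linarith
  obtain ⟨w1, hw1, hb1⟩ := W1
  obtain ⟨w2, hw2, hb2⟩ := H.short hh hf0 hfk (σ (a + r)) (β s)
  obtain ⟨w3, hw3, hb3⟩ := Wk.seq (d := d) (f := f) (h := h) β 0 (j - s) s (by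
    intro i h1 h2
    refine ⟨by rw [hβ i (i + 1) (by omega) (by omega)]; omega, ?_⟩
    rw [hfZ _ (Or.inr ⟨i, by omega, rfl⟩), hfZ _ (Or.inr ⟨i + 1, by omega, rfl⟩)]
    simp)
  rw [show s + (j - s) = j by omega] at hw3
  obtain ⟨w4, hw4, hb4⟩ := Wk.seq (d := d) (f := f) (h := h) α 0 t 0 (by
    intro i h1 h2
    refine ⟨by rw [hα i (i + 1) (by omega) (by omega)]; omega, ?_⟩
    rw [hfZ _ (Or.inl ⟨i, by omega, rfl⟩), hfZ _ (Or.inl ⟨i + 1, by omega, rfl⟩)]
    simp)
  rw [zero_add, α0] at hw4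
  obtain ⟨w5, hw5, hb5⟩ := H.short hh hf0 hfk (α t) (σ a)
  have hL := H.loop f h hf hh _ _ _ ((((hw1.trans hw2).trans hw3).trans hw4).trans hw5)
  have e7 : d (α t) (σ a) ≤ k := by rw [H.symm]; exact ht
  have hlen : r + d (σ (a + r)) (β s) + (j - s) + t + d (α t) (σ a) ≤ 4 * r + 8 * k := by omega
  have hr2 : r ≤ 4 * k + 4 * k * k + 8 * K * k := by
    have q1 : (K : ℤ) * ((r + d (σ (a + r)) (β s) + (j - s) + t + d (α t) (σ a) : ℕ) : ℤ) ≤
        K * ((4 * r + 8 * k : ℕ) : ℤ) :=
      mul_le_mul_of_nonneg_left (by exact_mod_cast hlen) (Int.natCast_nonneg _)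
    have q2 : (d (σ (a + r)) (β s) : ℤ) ≤ k := by exact_mod_cast hs
    have q3 : (d (α t) (σ a) : ℤ) ≤ k := by exact_mod_cast e7
    have q4 : (k : ℤ) = 4 * K + 1 := by exact_mod_cast hk
    have q5 : (0 : ℤ) ≤ k := Int.natCast_nonneg _
    have q6 : (k : ℤ) * (r - 1) - 4 * k * k ≤ K * (4 * r + 8 * k) := by
      push_cast at q1 hL
      nlinarith
    have q7 : (k : ℤ) * r = 4 * K * r + r := by rw [q4]; ring
    have : (r : ℤ) ≤ 4 * k + 4 * k * k + 8 * K * k := by nlinarith
    exact_mod_cast this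
  have f1 := H.tri w (σ a) (β j)
  have f2 := H.tri (σ a) (α t) (β j)
  have f3 := H.symm (α t) (β j)
  have f4 := hσw a han
  have f5 : d (σ a) (β 0) = n - a := by
    have := hσ a n han le_rfl
    rwa [σ1] at this
  have f6 := hβ 0 j (Nat.zero_le _) le_rfl
  have f7 := H.tri (β 0) (σ a) (β j)
  have f8 := H.symm (β 0) (σ a)
  omega

/-- the four-point condition -/
theorem Good.four {K : ℕ} (H : Good d K) : ∃ c : ℕ, ∀ w x y z : X,
    d x w + d y w + d x z ≤ d x w + d z w + d x y + c ∨
      d y w + d z w + d x z ≤ d x w + d z w + d y z + c := by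
  classical
  obtain ⟨c, hc⟩ := H.corner
  refine ⟨3 * c, fun w x y z => ?_⟩
  obtain ⟨γ, g0, g1, hγ⟩ := H.geo x z
  set n := d x z with hn
  have key : ∀ p : X, ∃ j, j ≤ n ∧ d p (γ j) + j ≤ d p x + c ∧
      d p (γ j) + (n - j) ≤ d p z + c := by
    intro p
    obtain ⟨j, hj, hmin⟩ := (Finset.range (n + 1)).exists_min_image (fun j => d p (γ j))
      ⟨0, by simp⟩
    have hjn : j ≤ n := by simpa [Nat.lt_succ_iff] using hj
    have hmin' : ∀ s, s ≤ n → d p (γ j) ≤ d p (γ s) := fun s hs =>
      hmin s (by simpa [Nat.lt_succ_iff] using hs)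
    refine ⟨j, hjn, ?_, ?_⟩
    · have := hc p γ j (fun s t h1 h2 => hγ s t h1 (by omega)) fun s hs => hmin' s (by omega)
      rwa [g0] at this
    · have := hc p (fun i => γ (n - i)) (n - j) (fun s t h1 h2 => by
        rw [H.symm, hγ (n - t) (n - s) (by omega) (by omega)]; omega) (fun s hs => by
        show d p (γ (n - (n - j))) ≤ d p (γ (n - s))
        rw [show n - (n - j) = j by omega]
        exact hmin' _ (by omega))
      simp only [Nat.sub_zero, show n - (n - j) = j by omega, g1] at this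
      exact this
  obtain ⟨j, hj, a1, a2⟩ := key w
  obtain ⟨i, hi, b1, b2⟩ := key y
  have c1 : d x (γ j) = j := by
    have := hγ 0 j (Nat.zero_le _) hj
    rwa [g0] at this
  have c2 : d (γ j) z = n - j := by
    have := hγ j n hj le_rfl
    rwa [g1] at this
  have s1 := H.symm x w
  have s2 := H.symm z w
  have s3 := H.symm x y
  have s4 := H.symm w (γ j)
  have s5 := H.symm z (γ j)
  have t1 := H.tri x (γ j) w
  have t2 := H.tri y (γ j) w
  have t3 := H.tri z (γ j) w
  have t4 := H.tri y (γ i) (γ j)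
  rcases le_total j i with h | h
  · left
    have := hγ j i h hi
    have s6 := H.symm (γ i) (γ j)
    omega
  · right
    have := hγ i j h hj
    omega

end Abstract

section Group

variable {G : Type} [Group G] {S T : Type} (P : TriData G S T)

theorem wordProd_cons (x : S × Bool) (L : List (S × Bool)) :
    wordProd P (x :: L) = letter P x * wordProd P L := by simp [wordProd]

theorem wordProd_nil : wordProd P [] = 1 := by simp [wordProd]

/-- word distance -/
noncomputable def dist (x y : G) : ℕ := wordLength (Set.range P.of) (x⁻¹ * y)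

theorem wl_le (l : List G) (hl : ∀ x ∈ l, x ∈ Set.range P.of ∨ x⁻¹ ∈ Set.range P.of) :
    wordLength (Set.range P.of) l.prod ≤ l.length := Nat.sInf_le ⟨l, rfl, hl, rfl⟩

theorem wl_ex (hg : Subgroup.closure (Set.range P.of) = ⊤) (g : G) :
    ∃ l : List G, l.length = wordLength (Set.range P.of) g ∧
      (∀ x ∈ l, x ∈ Set.range P.of ∨ x⁻¹ ∈ Set.range P.of) ∧ l.prod = g := by
  apply Nat.sInf_mem (s := {n : ℕ | ∃ l : List G, l.length = n ∧
    (∀ x ∈ l, x ∈ Set.range P.of ∨ x⁻¹ ∈ Set.range P.of) ∧ l.prod = g})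
  have hm : g ∈ Subgroup.closure (Set.range P.of) := by rw [hg]; trivial
  rw [← Subgroup.mem_toSubmonoid, Subgroup.closure_toSubmonoid] at hm
  obtain ⟨l, h1, h2⟩ := Submonoid.exists_list_of_mem_closure hm
  exact ⟨_, l, rfl, h1, h2⟩

theorem wl_inv_le (hg : Subgroup.closure (Set.range P.of) = ⊤) (g : G) :
    wordLength (Set.range P.of) g⁻¹ ≤ wordLength (Set.range P.of) g := by
  obtain ⟨l, h1, h2, h3⟩ := wl_ex P hg g
  have := wl_le P (l.map fun x => x⁻¹).reverse (by
    intro x hx
    simp only [List.mem_reverse, List.mem_map] at hx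
    obtain ⟨y, hy, rfl⟩ := hx
    rw [inv_inv]
    exact (h2 y hy).symm)
  rw [← List.prod_inv_reverse, h3] at this
  simpa [h1] using this

theorem dist_self (x : G) : dist P x x = 0 := by
  have := wl_le P [] (by simp)
  simpa [dist] using this

theorem dist_symm (hg : Subgroup.closure (Set.range P.of) = ⊤) (x y : G) :
    dist P x y = dist P y x := by
  have h : ∀ x y : G, dist P x y ≤ dist P y x := fun x y => by
    have := wl_inv_le P hg (y⁻¹ * x)
    simpa [dist] using this
  exact le_antisymm (h x y) (h y x)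

theorem dist_tri (hg : Subgroup.closure (Set.range P.of) = ⊤) (x y z : G) :
    dist P x z ≤ dist P x y + dist P y z := by
  obtain ⟨l, h1, h2, h3⟩ := wl_ex P hg (x⁻¹ * y)
  obtain ⟨l', h1', h2', h3'⟩ := wl_ex P hg (y⁻¹ * z)
  have := wl_le P (l ++ l') (by
    intro a ha
    rcases List.mem_append.1 ha with ha | ha
    · exact h2 a ha
    · exact h2' a ha)
  rw [List.prod_append, h3, h3', List.length_append, h1, h1'] at this
  simpa [dist, mul_assoc] using this

theorem dist_one (x a : G) (ha : a ∈ Set.range P.of ∨ a⁻¹ ∈ Set.range P.of) :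
    dist P x (x * a) ≤ 1 := by
  have := wl_le P [a] (by simpa using ha)
  simpa [dist] using this

theorem dist_geo (hg : Subgroup.closure (Set.range P.of) = ⊤) (x y : G) :
    ∃ γ : ℕ → G, γ 0 = x ∧ γ (dist P x y) = y ∧ Geo (dist P) γ (dist P x y) := by
  obtain ⟨l, h1, h2, h3⟩ := wl_ex P hg (x⁻¹ * y)
  have hl : l.length = dist P x y := h1
  let γ : ℕ → G := fun i => x * (l.take i).prod
  have g0 : γ 0 = x := by simp [γ]
  have g1 : γ (dist P x y) = y := by simp [γ, ← hl, h3]
  have hstep : ∀ i, dist P (γ i) (γ (i + 1)) ≤ 1 := by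
    intro i
    by_cases hi : i < l.length
    · have : γ (i + 1) = γ i * l[i] := by
        simp only [γ]
        rw [List.prod_take_succ _ _ hi, mul_assoc]
      rw [this]
      exact dist_one P _ _ (h2 _ (List.getElem_mem hi))
    · have : γ (i + 1) = γ i := by
        simp only [γ]
        rw [List.take_of_length_le (by omega), List.take_of_length_le (by omega)]
      rw [this, dist_self]
      omega
  have hle : ∀ t s, dist P (γ s) (γ (s + t)) ≤ t := by
    intro t
    induction t with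
    | zero => intro s; simp [dist_self]
    | succ t ih =>
      intro s
      have a := dist_tri P hg (γ s) (γ (s + t)) (γ (s + t + 1))
      have b := ih s
      have c := hstep (s + t)
      rw [← add_assoc]
      omega
  refine ⟨γ, g0, g1, fun s t h1 h2 => ?_⟩
  have a1 := hle s 0
  have a2 := hle (t - s) s
  have a3 := hle (dist P x y - t) t
  rw [zero_add, g0] at a1
  rw [show s + (t - s) = t by omega] at a2
  rw [show t + (dist P x y - t) = dist P x y by omega, g1] at a3
  have b1 := dist_tri P hg x (γ s) y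
  have b2 := dist_tri P hg (γ s) (γ t) y
  omega

theorem dist_le_one (hg : Subgroup.closure (Set.range P.of) = ⊤) {x y : G}
    (h : dist P x y ≤ 1) : y = x ∨ ∃ a : S × Bool, y = x * letter P a := by
  obtain ⟨l, h1, h2, h3⟩ := wl_ex P hg (x⁻¹ * y)
  have hl : l.length ≤ 1 := by rw [h1]; exact h
  match l, hl, h2, h3 with
  | [], _, _, h3 =>
    left
    simp only [List.prod_nil] at h3
    exact (inv_mul_eq_one.1 h3.symm).symm
  | [a], _, h2, h3 =>
    right
    simp only [List.prod_cons, List.prod_nil, mul_one] at h3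
    have e : y = x * a := by rw [h3]; simp
    rcases h2 a (by simp) with ⟨s, hs⟩ | ⟨s, hs⟩
    · exact ⟨(s, true), by simp [letter, hs, e]⟩
    · exact ⟨(s, false), by simp [letter, hs, e]⟩

/-- the 1-cochain of `f`, `h` -/
noncomputable def om (f h : G → ℤ) : (G × S →₀ ℤ) →ₗ[ℤ] ℤ :=
  Finsupp.linearCombination ℤ fun p : G × S =>
    (f p.1 + f (p.1 * P.of p.2)) * (h (p.1 * P.of p.2) - h p.1)

theorem om_step (f h : G → ℤ) (g : G) (a : S × Bool) :
    om P f h (stepChain P g a) = (f g + f (g * letter P a)) * (h (g * letter P a) - h g) := by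
  obtain ⟨s, b⟩ := a
  cases b
  · simp [om, stepChain, letter]
    ring
  · simp [om, stepChain, letter]

theorem abs_le_one {f : G → ℤ} (hg : Subgroup.closure (Set.range P.of) = ⊤)
    (hf : Lip (dist P) f) {x y : G} (h : dist P x y ≤ 1) : |f x - f y| ≤ 1 := by
  have a := hf x y
  have b := hf y x
  rw [dist_symm P hg y x] at b
  rw [abs_le]
  omega

theorem om_bdT {f h : G → ℤ} (hg : Subgroup.closure (Set.range P.of) = ⊤)
    (hf : Lip (dist P) f) (hh : Lip (dist P) h) (p : G × T) : |om P f h (P.bdT p)| ≤ 2 := by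
  obtain ⟨g, t⟩ := p
  have e : g * P.of (P.d01 t) * P.of (P.d12 t) = g * P.of (P.d02 t) := by rw [mul_assoc, P.rel]
  have d1 : dist P g (g * P.of (P.d02 t)) ≤ 1 := dist_one P _ _ (Or.inl ⟨_, rfl⟩)
  have d2 : dist P (g * P.of (P.d01 t)) (g * P.of (P.d02 t)) ≤ 1 := by
    rw [← e]; exact dist_one P _ _ (Or.inl ⟨_, rfl⟩)
  have : om P f h (P.bdT (g, t)) =
      (f g - f (g * P.of (P.d02 t))) * (h (g * P.of (P.d01 t)) - h (g * P.of (P.d02 t))) -
        (f (g * P.of (P.d01 t)) - f (g * P.of (P.d02 t))) * (h g - h (g * P.of (P.d02 t))) := by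
    simp only [om, TriData.bdT, map_add, map_sub, Finsupp.linearCombination_single, one_smul, e]
    ring
  rw [this]
  refine (abs_sub _ _).trans ?_
  rw [abs_mul, abs_mul]
  have a1 := mul_le_one₀ (abs_le_one P hg hf d1) (abs_nonneg _) (abs_le_one P hg hh d2)
  have a2 := mul_le_one₀ (abs_le_one P hg hf d2) (abs_nonneg _) (abs_le_one P hg hh d1)
  linarith

theorem om_bd {f h : G → ℤ} (hg : Subgroup.closure (Set.range P.of) = ⊤)
    (hf : Lip (dist P) f) (hh : Lip (dist P) h) (c : G × T →₀ ℤ) :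
    om P f h (P.bd c) ≤ 2 * (l1 c : ℤ) := by
  rw [TriData.bd, Finsupp.linearCombination_apply, Finsupp.sum, map_sum, l1, Finsupp.sum]
  push_cast
  rw [Finset.mul_sum]
  refine Finset.sum_le_sum fun p _ => ?_
  rw [map_smul, smul_eq_mul]
  refine (le_abs_self _).trans ?_
  rw [abs_mul, mul_comm]
  exact mul_le_mul_of_nonneg_right (om_bdT P hg hf hh p) (abs_nonneg _)

theorem wk_word {f h : G → ℤ} (hg : Subgroup.closure (Set.range P.of) = ⊤) (b : G) {x y : G}
    {n : ℕ} {w : ℤ} (H : Wk (dist P) f h x y n w) :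
    ∃ L : List (S × Bool), x * wordProd P L = y ∧ L.length ≤ n ∧
      om P (fun g => f (b * g)) (fun g => h (b * g)) (pathChain P (b⁻¹ * x) L) = w := by
  induction H with
  | nil x => exact ⟨[], by simp [wordProd_nil], le_rfl, by simp [pathChain]⟩
  | @cons x y z n w hxy _ ih =>
    obtain ⟨L, h1, h2, h3⟩ := ih
    rcases dist_le_one P hg hxy with rfl | ⟨a, rfl⟩
    · exact ⟨L, h1, by omega, by simp [h3]⟩
    · refine ⟨a :: L, by rw [wordProd_cons, ← mul_assoc, h1], by simpa using h2, ?_⟩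
      rw [pathChain, map_add, om_step, mul_assoc b⁻¹, h3]
      simp

theorem good (hg : Subgroup.closure (Set.range P.of) = ⊤) {C : ℕ} (hC : LinIso P C) :
    Good (dist P) (2 * C) where
  self := dist_self P
  symm := dist_symm P hg
  tri := dist_tri P hg
  geo := dist_geo P hg
  loop f h hf hh x n w H := by
    obtain ⟨L, h1, h2, h3⟩ := wk_word P hg x H
    obtain ⟨c, hc, hl⟩ := hC L (by simpa using h1)
    have hl' : ∀ {f : G → ℤ}, Lip (dist P) f → Lip (dist P) fun g => f (x * g) := by
      intro f hf u v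
      have := hf (x * u) (x * v)
      simpa [dist, mul_assoc] using this
    have := om_bd P hg (hl' hf) (hl' hh) c
    rw [hc] at this
    rw [inv_mul_cancel] at h3
    rw [h3] at this
    have q : l1 c ≤ C * n := hl.trans (Nat.mul_le_mul_left _ h2)
    have q' : (l1 c : ℤ) ≤ C * n := by exact_mod_cast q
    push_cast
    linarith

end Group

end Hyp

/-- A finitely generated group with a triangular complex satisfying a linear homological
isoperimetric inequality is word-hyperbolic. -/
theorem isHyperbolicGroup_of_linIso' {G : Type} [Group G] {S T : Type} [Finite S]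
    (P : TriData G S T) (hg : Subgroup.closure (Set.range P.of) = ⊤) {C : ℕ} (hC : LinIso P C) :
    IsHyperbolicGroup G := by
  obtain ⟨c, hc⟩ := (Hyp.good P hg hC).four
  refine ⟨(Set.finite_range P.of).toFinset, by simpa using hg, (c : ℝ) / 2, by positivity,
    fun w x y z => ?_⟩
  simp only [Set.Finite.coe_toFinset, gromovProduct, wordDist]
  rcases hc w x y z with h | h
  · refine (sub_le_sub_right (min_le_left _ _) _).trans ?_
    have : ((Hyp.dist P x w + Hyp.dist P y w + Hyp.dist P x z : ℕ) : ℝ) ≤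
      (Hyp.dist P x w + Hyp.dist P z w + Hyp.dist P x y + c : ℕ) := by exact_mod_cast h
    simp only [Hyp.dist] at this
    push_cast at this
    linarith
  · refine (sub_le_sub_right (min_le_right _ _) _).trans ?_
    have : ((Hyp.dist P y w + Hyp.dist P z w + Hyp.dist P x z : ℕ) : ℝ) ≤
      (Hyp.dist P x w + Hyp.dist P z w + Hyp.dist P y z + c : ℕ) := by exact_mod_cast h
    simp only [Hyp.dist] at this
    push_cast at this
    linarith

theorem isHyperbolicGroup_of_linIso {G : Type} [Group G] {S T : Type} [Finite S]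
    (P : TriPres G S T) {C : ℕ} (hC : LinIso P.toTriData C) : IsHyperbolicGroup G :=
  isHyperbolicGroup_of_linIso' P.toTriData P.gen hC

end Crest.Agent.R177
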