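import Mathlib

/-! Group algebras of residually finite groups are directly finite. -/

set_option autoImplicit false

namespace Crest.Agent.R177

theorem exists_finiteIndex_avoid {G : Type} [Group G] [Group.ResiduallyFinite G] (F : Finset G) :
    ∃ H : FiniteIndexNormalSubgroup G, ∀ g ∈ F, g ∈ H → g = 1 := by
  classical
  induction F using Finset.induction_on with
  | empty => exact ⟨FiniteIndexNormalSubgroup.ofSubgroup ⊤, by simp⟩
  | insert a F _ ih =>
    obtain ⟨H, hH⟩ := ih
    by_cases ha : a = 1
    · refine ⟨H, fun g hg => ?_⟩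
      rcases Finset.mem_insert.1 hg with rfl | hg
      · exact fun _ => ha
      · exact hH g hg
    · obtain ⟨H', hH'⟩ := Group.exists_finiteIndexNormalSubgroup_notMem a ha
      refine ⟨H ⊓ H', fun g hg h => ?_⟩
      rcases Finset.mem_insert.1 hg with rfl | hg
      · exact absurd h.2 hH'
      · exact hH g hg h.1

theorem mul_eq_one_symm_of_residuallyFinite {K G : Type} [Field K] [Group G]
    [Group.ResiduallyFinite G] {a b : MonoidAlgebra K G} (hab : a * b = 1) : b * a = 1 := by
  classical
  set c := b * a - 1 with hcdef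
  obtain ⟨H, hH⟩ := exists_finiteIndex_avoid
    ((c.coeff.support ×ˢ c.coeff.support).image fun p => p.1⁻¹ * p.2)
  let π : G →* G ⧸ H.toSubgroup := QuotientGroup.mk' _
  have hinj : Set.InjOn π c.coeff.support := by
    intro x hx y hy hxy
    have h1 : x⁻¹ * y ∈ H.toSubgroup := QuotientGroup.eq.1 hxy
    have := hH (x⁻¹ * y) (Finset.mem_image.2 ⟨(x, y), Finset.mem_product.2 ⟨hx, hy⟩, rfl⟩) h1
    exact inv_mul_eq_one.1 this
  let φ := MonoidAlgebra.mapDomainRingHom K π
  have : IsArtinianRing (MonoidAlgebra K (G ⧸ H.toSubgroup)) :=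
    IsArtinianRing.of_finite K _
  have h1 : φ a * φ b = 1 := by rw [← map_mul, hab, map_one]
  have h2 : φ c = 0 := by rw [hcdef, map_sub, map_mul, mul_eq_one_symm h1, map_one, sub_self]
  have h3 : Finsupp.mapDomain π c.coeff = 0 := congrArg MonoidAlgebra.coeff h2
  have h4 : c = 0 := by
    ext x
    by_cases hx : x ∈ c.coeff.support
    · have := Finsupp.mapDomain_apply' (c.coeff.support : Set G) c.coeff subset_rfl hinj hx
      rw [h3] at this
      simpa using this.symm
    · simpa using hx
  exact sub_eq_zero.1 h4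

theorem not_residuallyFinite_of_mul_eq_one {K G : Type} [Field K] [Group G]
    {a b : MonoidAlgebra K G} (hab : a * b = 1) (hba : b * a ≠ 1) :
    ¬ Group.ResiduallyFinite G := fun _ => hba (mul_eq_one_symm_of_residuallyFinite hab)

end Crest.Agent.R177
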