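import Crest.Agent.R177.Hyp
import Crest.Agent.R177.RF
import Crest.Agent.Lib.CW2.Main

/-! The statement S0303 from an aspherical triangular presentation with a linear isoperimetric
inequality whose group algebra is not directly finite. -/

set_option autoImplicit false

namespace Crest.Agent.R177

open Crest.Agent.Lib.CW2

theorem s0303_of {G : Type} [Group G] {S T : Type} [Finite S] (P : TriPres G S T)
    (hbd : Function.Injective P.toTriData.bd) {C : ℕ} (hC : LinIso P.toTriData C)
    {K : Type} [Field K] {a b : MonoidAlgebra K G} (hab : a * b = 1) (hba : b * a ≠ 1) :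
    ∃ (G : Type) (_ : Group G),
      (∀ g : G, IsOfFinOrder g → g = 1) ∧ Crest.GroupTheory.IsHyperbolicGroup G ∧
        ¬ Group.ResiduallyFinite G :=
  ⟨G, inferInstance, P.torsionFree hbd, isHyperbolicGroup_of_linIso P hC,
    not_residuallyFinite_of_mul_eq_one hab hba⟩

end Crest.Agent.R177
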