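import Crest.Agent.R177.LCBasic

/-!
# Cutting a cluster into bricks
-/

set_option autoImplicit false

namespace Crest.Agent.R177

open Classical

variable {U W E P : Type} {Γ : BGraph U W E P} {D : Type}

/-- Cancelling iterates of `φ` along real steps. -/
theorem Cluster.iter_cancel (C : Cluster Γ D) : ∀ (j : ℕ) (a b : D),
    (∀ k, k < j → C.φ^[k] a ∈ C.St) → (∀ k, k < j → C.φ^[k] b ∈ C.St) →
    C.φ^[j] a = C.φ^[j] b → a = b := by
  intro j
  induction j with
  | zero => intro a b _ _ h; simpa using h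
  | succ j ih =>
    intro a b ha hb h
    rw [Function.iterate_succ_apply', Function.iterate_succ_apply'] at h
    exact ih a b (fun k hk => ha k (by omega)) (fun k hk => hb k (by omega))
      (C.φ_inj _ (ha j (by omega)) _ (hb j (by omega)) h)

/-- By the girth a short run of real steps visits distinct positions. -/
theorem Cluster.iter_ne {ℓ : ℕ} (hg : Γ.Girth ℓ) (C : Cluster Γ D) (x : D) {i j : ℕ}
    (hij : i < j) (hj : j < i + ℓ) (hx : ∀ k, k < j → C.φ^[k] x ∈ C.St) :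
    C.φ^[i] x ≠ C.φ^[j] x := by
  intro h
  have key := hg (j - i) (fun k => C.e (C.φ^[i + k] x)) (fun k => C.o (C.φ^[i + k] x))
    (by omega) (by
      intro k hk
      have h1 := C.step _ (hx (i + k) (by omega))
      have h2 : C.φ^[i + (k + 1)] x = C.φ (C.φ^[i + k] x) := by
        rw [← Nat.add_assoc, Function.iterate_succ_apply']
      simp only [h2]
      exact h1) (by
      have h1 := C.step _ (hx (i + (j - i - 1)) (by omega))
      have h2 : C.φ (C.φ^[i + (j - i - 1)] x) = C.φ^[i] x := by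
        rw [h, ← Function.iterate_succ_apply' C.φ]
        congr 1
        omega
      simp only [Nat.add_zero]
      rw [← h2]
      exact h1.1)
  omega

/-- `x ↦ ι (φ x)` preserves the regular positions. -/
theorem Cluster.Regular.mate {C : Cluster Γ D} {x : D} (h : C.Regular x) :
    C.Regular (C.ι (C.φ x)) ∧ C.ι (C.φ (C.ι (C.φ x))) = x := by
  obtain ⟨h1, h2, h3, h4, h5⟩ := h
  have h6 : C.ι (C.φ (C.ι (C.φ x))) = x := by rw [h5, C.ι_ι _ h2]
  refine ⟨⟨h4, C.ι_mem _ h3, ?_, ?_, ?_⟩, h6⟩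
  · rw [h5]; exact C.ι_mem _ h2
  · rw [h6]; exact h1
  · rw [h6, C.ι_ι _ h3]

/-- A small set of positions met by every long run. -/
theorem Cluster.exists_net {ρ K : ℕ} (hg : Γ.Girth (5 * ρ)) (hρ : 0 < ρ) (C : Cluster Γ D)
    (h1 : C.X.card ≤ K * (5 * ρ)) :
    ∃ G : Finset D, G ⊆ C.X ∧ G.card ≤ 5 * K ∧
      ∀ x ∈ C.X, ∃ k, k < 2 * ρ ∧ (C.φ^[k] x ∈ C.ends ∨ C.φ^[k] x ∈ G) := by
  let I : D → Finset D := fun x => (Finset.range ρ).image fun k => C.φ^[k] x
  let good : Finset D → Prop := fun G => (∀ g ∈ G, ∀ k, k < ρ → C.φ^[k] g ∈ C.St) ∧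
    ∀ g ∈ G, ∀ g' ∈ G, g ≠ g' → Disjoint (I g) (I g')
  obtain ⟨G, hG, hmax⟩ := Finset.exists_max_image (C.X.powerset.filter good) Finset.card
    ⟨∅, by simp [good]⟩
  rw [Finset.mem_filter, Finset.mem_powerset] at hG
  obtain ⟨hGX, hlong, hdisj⟩ := hG
  refine ⟨G, hGX, ?_, ?_⟩
  · have hI : ∀ g ∈ G, (I g).card = ρ := by
      intro g hgG
      rw [Finset.card_image_of_injOn, Finset.card_range]
      intro i hi j hj hij
      simp only [Finset.coe_range, Set.mem_Iio] at hi hj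
      by_contra hne
      rcases Nat.lt_or_gt_of_ne hne with h | h
      · exact C.iter_ne hg g h (by omega) (fun k hk => hlong g hgG k (by omega)) hij
      · exact C.iter_ne hg g h (by omega) (fun k hk => hlong g hgG k (by omega)) hij.symm
    have hU : (G.biUnion I).card = G.card * ρ := by
      rw [Finset.card_biUnion (fun g hg g' hg' hne => hdisj g hg g' hg' hne)]
      rw [Finset.sum_congr rfl hI]
      simp
    have hsub : G.biUnion I ⊆ C.X := by
      intro y hy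
      simp only [Finset.mem_biUnion, I, Finset.mem_image, Finset.mem_range] at hy
      obtain ⟨g, hgG, k, hk, rfl⟩ := hy
      exact C.St_sub (hlong g hgG k hk)
    have h2 := Finset.card_le_card hsub
    rw [hU] at h2
    have h3 : G.card * ρ ≤ (5 * K) * ρ := by nlinarith
    exact Nat.le_of_mul_le_mul_right h3 hρ
  · intro x hx
    by_contra hcon
    push Not at hcon
    have hX : ∀ k, k ≤ 2 * ρ → C.φ^[k] x ∈ C.X := by
      intro k
      induction k with
      | zero => intro _; simpa using hx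
      | succ k ih =>
        intro hk
        have h2 := ih (by omega)
        have h3 := (hcon k (by omega)).1
        rw [Function.iterate_succ_apply']
        apply C.φ_mem
        by_contra h4
        exact h3 (Finset.mem_sdiff.2 ⟨h2, h4⟩)
    have hSt : ∀ k, k < 2 * ρ → C.φ^[k] x ∈ C.St := by
      intro k hk
      by_contra h4
      exact (hcon k hk).1 (Finset.mem_sdiff.2 ⟨hX k hk.le, h4⟩)
    have hyG : C.φ^[ρ] x ∉ G := (hcon ρ (by omega)).2
    have hd : ∀ g ∈ G, Disjoint (I (C.φ^[ρ] x)) (I g) := by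
      intro g hgG
      rw [Finset.disjoint_left]
      intro y hy hy'
      simp only [I, Finset.mem_image, Finset.mem_range] at hy hy'
      obtain ⟨i, hi, rfl⟩ := hy
      obtain ⟨j, hj, hji⟩ := hy'
      have h5 : C.φ^[j] (C.φ^[ρ + i - j] x) = C.φ^[j] g := by
        rw [hji, ← Function.iterate_add_apply, ← Function.iterate_add_apply]
        congr 1
        omega
      have h6 := C.iter_cancel j _ _ (by
        intro k hk
        rw [← Function.iterate_add_apply]
        exact hSt _ (by omega)) (fun k hk => hlong g hgG k (by omega)) h5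
      exact (hcon (ρ + i - j) (by omega)).2 (h6 ▸ hgG)
    have hgood : insert (C.φ^[ρ] x) G ∈ C.X.powerset.filter good := by
      rw [Finset.mem_filter, Finset.mem_powerset]
      refine ⟨Finset.insert_subset (hX ρ (by omega)) hGX, ?_, ?_⟩
      · intro g hgG k hk
        rcases Finset.mem_insert.1 hgG with rfl | hgG
        · rw [← Function.iterate_add_apply]
          exact hSt _ (by omega)
        · exact hlong g hgG k hk
      · intro g hgG g' hg' hne
        rcases Finset.mem_insert.1 hgG with rfl | hgG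
        · rcases Finset.mem_insert.1 hg' with rfl | hg'
          · exact absurd rfl hne
          · exact hd g' hg'
        · rcases Finset.mem_insert.1 hg' with rfl | hg'
          · exact (hd g hgG).symm
          · exact hdisj g hgG g' hg' hne
    have h7 := hmax _ hgood
    rw [Finset.card_insert_of_notMem hyG] at h7
    omega

/-- The cut set.  Call `x ∈ X` long if `φ^[k] x ∈ St` for all `k < ρ`; by the girth the `ρ` positions
`I x = {φ^[k] x | k < ρ}` are then distinct.  Take a family `G` of long positions with pairwise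
disjoint `I g` of largest cardinality: `|G| ρ ≤ |X|`, so `|G| ≤ 5 K`.  If no `φ^[k] x`, `k < 2ρ`, lies in
`ends ∪ G`, then `y = φ^[ρ] x` is long, `I y` meets some `I g`, and cancelling `φ` (injective on `St`)
gives `g = φ^[ρ+i-j] x`, a contradiction.
`Cut = ends ∪ irregular ∪ {x ∈ St | x ∉ Mt, φ x ∈ Mt} ∪ G ∪ (G.filter Regular).image (ι ∘ φ)`;
the third set injects into `irregular` by `x ↦ ι (φ x)`, and `x ↦ ι (φ x)` is an involution of the
regular positions. -/
theorem Cluster.exists_cut {ρ K : ℕ} (hg : Γ.Girth (5 * ρ)) (hρ : 0 < ρ) (C : Cluster Γ D)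
    (h1 : C.X.card ≤ K * (5 * ρ)) (h2 : C.ends.card ≤ K) (h3 : C.irregular.card ≤ K) :
    ∃ Cut : Finset D, Cut ⊆ C.X ∧ Cut.card ≤ 13 * K ∧ (∀ x ∈ C.X, x ∉ Cut → x ∈ C.St) ∧
      (∀ x ∈ C.X, x ∉ Cut →
        (x ∉ C.Mt ∧ C.φ x ∉ C.Mt) ∨ (C.Regular x ∧ C.ι (C.φ x) ∉ Cut)) ∧
      ∀ x ∈ C.X, ∃ k, k < 2 * ρ ∧ C.φ^[k] x ∈ Cut := by
  obtain ⟨G, hGX, hGc, hhit⟩ := C.exists_net hg hρ h1
  let A : Finset D := C.St.filter fun x => x ∉ C.Mt ∧ C.φ x ∈ C.Mt
  let G' : Finset D := (G.filter C.Regular).image fun x => C.ι (C.φ x)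
  have hA : A.card ≤ C.irregular.card := by
    apply Finset.card_le_card_of_injOn (fun x => C.ι (C.φ x))
    · intro x hx
      simp only [A, Finset.coe_filter, Set.mem_ofPred_eq] at hx
      obtain ⟨hx1, hx2, hx3⟩ := hx
      simp only [Cluster.irregular, Finset.coe_filter, Set.mem_ofPred_eq]
      refine ⟨C.ι_mem _ hx3, ?_⟩
      rintro ⟨-, -, r3, r4, r5⟩
      rw [C.ι_ι _ hx3] at r5
      have := C.φ_inj _ r4 _ hx1 r5
      exact hx2 (this ▸ C.ι_mem _ r3)
    · intro x hx y hy hxy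
      simp only [A, Finset.coe_filter, Set.mem_ofPred_eq] at hx hy
      apply C.φ_inj _ hx.1 _ hy.1
      have : C.ι (C.ι (C.φ x)) = C.ι (C.ι (C.φ y)) := congrArg C.ι hxy
      rwa [C.ι_ι _ hx.2.2, C.ι_ι _ hy.2.2] at this
  have hG' : G'.card ≤ G.card :=
    Finset.card_image_le.trans (Finset.card_filter_le _ _)
  refine ⟨C.ends ∪ C.irregular ∪ A ∪ G ∪ G', ?_, ?_, ?_, ?_, ?_⟩
  · intro x hx
    simp only [Finset.mem_union] at hx
    rcases hx with (((hx | hx) | hx) | hx) | hx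
    · exact (Finset.mem_sdiff.1 hx).1
    · exact C.Mt_sub (Finset.mem_filter.1 hx).1
    · exact C.St_sub (Finset.mem_filter.1 hx).1
    · exact hGX hx
    · obtain ⟨g, hg1, rfl⟩ := Finset.mem_image.1 hx
      exact C.St_sub (Finset.mem_filter.1 hg1).2.2.2.2.1
  · have e1 := Finset.card_union_le (C.ends ∪ C.irregular ∪ A ∪ G) G'
    have e2 := Finset.card_union_le (C.ends ∪ C.irregular ∪ A) G
    have e3 := Finset.card_union_le (C.ends ∪ C.irregular) A
    have e4 := Finset.card_union_le C.ends C.irregular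
    omega
  · intro x hx hn
    simp only [Finset.mem_union, not_or] at hn
    by_contra h4
    exact hn.1.1.1.1 (Finset.mem_sdiff.2 ⟨hx, h4⟩)
  · intro x hx hn
    simp only [Finset.mem_union, not_or] at hn
    obtain ⟨⟨⟨⟨n1, n2⟩, n3⟩, n4⟩, n5⟩ := hn
    have hSt : x ∈ C.St := by
      by_contra h4
      exact n1 (Finset.mem_sdiff.2 ⟨hx, h4⟩)
    by_cases hM : x ∈ C.Mt
    · right
      have hR : C.Regular x := by
        by_contra h4
        exact n2 (Finset.mem_filter.2 ⟨hM, h4⟩)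
      refine ⟨hR, ?_⟩
      obtain ⟨hR', hinv⟩ := hR.mate
      simp only [Finset.mem_union, not_or]
      refine ⟨⟨⟨⟨?_, ?_⟩, ?_⟩, ?_⟩, ?_⟩
      · intro h
        exact (Finset.mem_sdiff.1 h).2 hR'.1
      · intro h
        exact (Finset.mem_filter.1 h).2 hR'
      · intro h
        exact (Finset.mem_filter.1 h).2.1 hR'.2.1
      · intro h
        exact n5 (Finset.mem_image.2 ⟨_, Finset.mem_filter.2 ⟨h, hR'⟩, hinv⟩)
      · intro h
        obtain ⟨g, hg1, hg2⟩ := Finset.mem_image.1 h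
        obtain ⟨hg1, hg3⟩ := Finset.mem_filter.1 hg1
        have h5 := hg3.mate.2
        rw [hg2, hinv] at h5
        exact n4 (h5 ▸ hg1)
    · left
      refine ⟨hM, fun h => n3 (Finset.mem_filter.2 ⟨hSt, hM, h⟩)⟩
  · intro x hx
    obtain ⟨k, hk, h⟩ := hhit x hx
    refine ⟨k, hk, ?_⟩
    simp only [Finset.mem_union]
    tauto

/-- Enumeration of a small finite set by a part of `Fin B`. -/
theorem exists_enum {B : ℕ} (d₀ : D) (Z : Finset D) (h : Z.card ≤ B) :
    ∃ (used : Fin B → Prop) (z : Fin B → D), (∀ b, used b → z b ∈ Z) ∧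
      (∀ x ∈ Z, ∃ b, used b ∧ z b = x) ∧ ∀ b b', used b → used b' → z b = z b' → b = b' := by
  obtain ⟨j⟩ : Nonempty (Z ↪ Fin B) := Function.Embedding.nonempty_of_card_le (by simpa using h)
  refine ⟨fun b => ∃ x, j x = b, fun b => if hb : ∃ x, j x = b then (hb.choose : D) else d₀,
    ?_, ?_, ?_⟩
  · intro b hb
    simp only [dif_pos hb]
    exact hb.choose.2
  · intro x hx
    have hb : ∃ y, j y = j ⟨x, hx⟩ := ⟨_, rfl⟩
    refine ⟨j ⟨x, hx⟩, hb, ?_⟩
    simp only [dif_pos hb]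
    rw [j.injective hb.choose_spec]
  · intro b b' hb hb' hz
    simp only [dif_pos hb, dif_pos hb'] at hz
    rw [← hb.choose_spec, ← hb'.choose_spec, Subtype.ext hz]

/-- Parametrisation by bricks.  `Z = X \ (X \ Cut).image φ` has `|Cut|` elements; enumerate it by an
initial part of `Fin B` (`len b = 0` for the unused `b`), `len z = 1 + ` least `k` with
`φ^[k] z ∈ Cut`, `f (b, k) = φ^[k] (z b)`.  Surjective: go backwards at most `r` times; injective:
cancel `φ`.  If `z ∈ Mt` the whole brick is in `Mt` and its mate starts at `ι (φ^[len z - 1] z) ∈ Z`;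
`φ^[i] z' = ι (φ^[len z - 1 - i] z)`, which is not in `Cut` for `i < len z - 1`. -/
theorem Cluster.exists_param {r B : ℕ} (C : Cluster Γ D) (d₀ : D) (Cut : Finset D)
    (hsub : Cut ⊆ C.X) (hcard : Cut.card ≤ B) (hSt : ∀ x ∈ C.X, x ∉ Cut → x ∈ C.St)
    (hreg : ∀ x ∈ C.X, x ∉ Cut →
      (x ∉ C.Mt ∧ C.φ x ∉ C.Mt) ∨ (C.Regular x ∧ C.ι (C.φ x) ∉ Cut))
    (hhit : ∀ x ∈ C.X, ∃ k, k < r ∧ C.φ^[k] x ∈ Cut) :
    ∃ (len : Fin B → ℕ) (mate : Fin B → Option (Fin B)) (f : Fin B × ℕ → D),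
      (∀ b, len b ≤ r) ∧ (∀ b k, k < len b → f (b, k) ∈ C.X) ∧
      (∀ x ∈ C.X, ∃ b k, k < len b ∧ f (b, k) = x) ∧
      (∀ b k b' k', k < len b → k' < len b' → f (b, k) = f (b', k') → b = b' ∧ k = k') ∧
      (∀ b k, k + 1 < len b → f (b, k) ∈ C.St ∧ C.φ (f (b, k)) = f (b, k + 1)) ∧
      (∀ b k, k < len b → (f (b, k) ∈ C.Mt ↔ mate b ≠ none)) ∧
      ∀ b b' k, mate b = some b' → k < len b →
        len b - 1 - k < len b' ∧ C.ι (f (b, k)) = f (b', len b - 1 - k) := by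
  let L : D → ℕ := fun x => sInf {k | C.φ^[k] x ∈ Cut}
  have hL1 : ∀ x ∈ C.X, C.φ^[L x] x ∈ Cut := by
    intro x hx
    obtain ⟨k, -, hk⟩ := hhit x hx
    exact Nat.sInf_mem (s := {k | C.φ^[k] x ∈ Cut}) ⟨k, hk⟩
  have hL2 : ∀ x k, C.φ^[k] x ∈ Cut → L x ≤ k := fun x k hk =>
    Nat.sInf_le (s := {k | C.φ^[k] x ∈ Cut}) hk
  have hL3 : ∀ x ∈ C.X, L x < r := by
    intro x hx
    obtain ⟨k, hk1, hk⟩ := hhit x hx
    exact (hL2 x k hk).trans_lt hk1
  have hL4 : ∀ x k, k < L x → C.φ^[k] x ∉ Cut := fun x k hk h => absurd (hL2 x k h) (by omega)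
  have hX : ∀ x ∈ C.X, ∀ k, k ≤ L x → C.φ^[k] x ∈ C.X := by
    intro x hx k
    induction k with
    | zero => intro _; simpa using hx
    | succ k ih =>
      intro hk
      rw [Function.iterate_succ_apply']
      exact C.φ_mem _ (hSt _ (ih (by omega)) (hL4 x k (by omega)))
  have hS : ∀ x ∈ C.X, ∀ k, k < L x → C.φ^[k] x ∈ C.St := fun x hx k hk =>
    hSt _ (hX x hx k hk.le) (hL4 x k hk)
  have hM : ∀ x ∈ C.X, ∀ k, k ≤ L x → (C.φ^[k] x ∈ C.Mt ↔ x ∈ C.Mt) := by
    intro x hx k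
    induction k with
    | zero => intro _; simp
    | succ k ih =>
      intro hk
      rw [Function.iterate_succ_apply', ← ih (by omega)]
      rcases hreg _ (hX x hx k (by omega)) (hL4 x k (by omega)) with h | h
      · exact iff_of_false h.2 h.1
      · exact iff_of_true h.1.2.2.1 h.1.2.1
  let Z : Finset D := C.X \ (C.X \ Cut).image C.φ
  have hZ : ∀ x, x ∈ Z ↔ x ∈ C.X ∧ ∀ y ∈ C.X, y ∉ Cut → C.φ y ≠ x := by
    intro x
    simp only [Z, Finset.mem_sdiff, Finset.mem_image, not_exists, not_and, and_imp]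
  have hZc : Z.card ≤ B := by
    have e1 : ((C.X \ Cut).image C.φ).card = (C.X \ Cut).card := by
      apply Finset.card_image_of_injOn
      intro x hx y hy hxy
      have hx' := Finset.mem_sdiff.1 (Finset.mem_coe.1 hx)
      have hy' := Finset.mem_sdiff.1 (Finset.mem_coe.1 hy)
      exact C.φ_inj _ (hSt _ hx'.1 hx'.2) _ (hSt _ hy'.1 hy'.2) hxy
    have e2 : (C.X \ Cut).image C.φ ⊆ C.X := by
      intro y hy
      obtain ⟨x, hx, rfl⟩ := Finset.mem_image.1 hy
      have hx' := Finset.mem_sdiff.1 hx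
      exact C.φ_mem _ (hSt _ hx'.1 hx'.2)
    have e3 : Z.card = C.X.card - ((C.X \ Cut).image C.φ).card := Finset.card_sdiff_of_subset e2
    have e4 : (C.X \ Cut).card = C.X.card - Cut.card := Finset.card_sdiff_of_subset hsub
    have e5 := Finset.card_le_card hsub
    omega
  have hsurj : ∀ n, ∀ x ∈ C.X, r - L x ≤ n → ∃ z ∈ Z, ∃ k, k ≤ L z ∧ C.φ^[k] z = x := by
    intro n
    induction n with
    | zero =>
      intro x hx h
      have := hL3 x hx
      omega
    | succ n ih =>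
      intro x hx h
      by_cases hxZ : x ∈ Z
      · exact ⟨x, hxZ, 0, Nat.zero_le _, rfl⟩
      · rw [hZ] at hxZ
        push Not at hxZ
        obtain ⟨y, hy, hyC, hyx⟩ := hxZ hx
        have h1 := hL1 y hy
        have h2 : L y ≠ 0 := by
          intro h0
          rw [h0] at h1
          exact hyC h1
        obtain ⟨m, hm⟩ := Nat.exists_eq_succ_of_ne_zero h2
        rw [hm, Function.iterate_succ_apply, hyx] at h1
        have h3 := hL2 x m h1
        obtain ⟨z, hz, k, hk, hkz⟩ := ih y hy (by omega)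
        have h4 : k ≠ L z := by
          intro h0
          have h5 := hL1 z ((hZ z).1 hz).1
          rw [← h0, hkz] at h5
          exact hyC h5
        exact ⟨z, hz, k + 1, by omega, by rw [Function.iterate_succ_apply', hkz, hyx]⟩
  have hinj0 : ∀ z ∈ Z, ∀ z' ∈ Z, ∀ k k', k ≤ k' → k ≤ L z → k' ≤ L z' →
      C.φ^[k] z = C.φ^[k'] z' → z = z' ∧ k = k' := by
    intro z hz z' hz' k k' hkk hk hk' h
    have hzX := ((hZ z).1 hz).1
    have hzX' := ((hZ z').1 hz').1
    have h5 : C.φ^[k] z = C.φ^[k] (C.φ^[k' - k] z') := by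
      rw [h, ← Function.iterate_add_apply]
      congr 1
      omega
    have h6 := C.iter_cancel k _ _ (fun i hi => hS z hzX i (by omega)) (by
      intro i hi
      rw [← Function.iterate_add_apply]
      exact hS z' hzX' _ (by omega)) h5
    by_cases h0 : k' - k = 0
    · rw [h0] at h6
      exact ⟨h6, by omega⟩
    · exfalso
      obtain ⟨m, hm⟩ := Nat.exists_eq_succ_of_ne_zero h0
      rw [hm, Function.iterate_succ_apply'] at h6
      exact ((hZ z).1 hz).2 _ (hX z' hzX' m (by omega)) (hL4 z' m (by omega)) h6.symm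
  have hw : ∀ z ∈ C.X, z ∈ C.Mt → C.ι (C.φ^[L z] z) ∈ Z := by
    intro z hz hzM
    have h1 := (hM z hz (L z) le_rfl).2 hzM
    rw [hZ]
    refine ⟨C.Mt_sub (C.ι_mem _ h1), ?_⟩
    intro y hy hyC hyw
    rcases hreg y hy hyC with h | h
    · exact h.2 (hyw ▸ C.ι_mem _ h1)
    · apply h.2
      rw [hyw, C.ι_ι _ h1]
      exact hL1 z hz
  have hstep : ∀ z ∈ C.X, z ∈ C.Mt → ∀ k, k < L z →
      C.φ (C.ι (C.φ^[k + 1] z)) = C.ι (C.φ^[k] z) ∧ C.ι (C.φ^[k + 1] z) ∉ Cut := by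
    intro z hz hzM k hk
    rw [Function.iterate_succ_apply']
    rcases hreg _ (hX z hz k hk.le) (hL4 z k hk) with h | h
    · exact absurd ((hM z hz k hk.le).2 hzM) h.1
    · exact ⟨h.1.2.2.2.2, h.2⟩
  have hrev : ∀ z ∈ C.X, z ∈ C.Mt → ∀ i, i ≤ L z →
      C.φ^[i] (C.ι (C.φ^[L z] z)) = C.ι (C.φ^[L z - i] z) := by
    intro z hz hzM i
    induction i with
    | zero => intro _; rfl
    | succ i ih =>
      intro hi
      rw [Function.iterate_succ_apply', ih (by omega)]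
      have e : L z - i = (L z - (i + 1)) + 1 := by omega
      rw [e]
      exact (hstep z hz hzM _ (by omega)).1
  have hLw : ∀ z ∈ C.X, z ∈ C.Mt → L z ≤ L (C.ι (C.φ^[L z] z)) := by
    intro z hz hzM
    by_contra hlt
    push Not at hlt
    have h1 := hL1 _ ((hZ _).1 (hw z hz hzM)).1
    rw [hrev z hz hzM _ hlt.le] at h1
    have e : L z - L (C.ι (C.φ^[L z] z)) = (L z - L (C.ι (C.φ^[L z] z)) - 1) + 1 := by omega
    rw [e] at h1
    exact (hstep z hz hzM _ (by omega)).2 h1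
  obtain ⟨used, z, hz1, hz2, hz3⟩ := exists_enum (B := B) d₀ Z hZc
  have hzX : ∀ b, used b → z b ∈ C.X := fun b hb => ((hZ _).1 (hz1 b hb)).1
  have hmate : ∀ b, ∃ m : Option (Fin B), (used b → (z b ∈ C.Mt ↔ m ≠ none)) ∧
      ∀ b', m = some b' → used b → z b ∈ C.Mt ∧ used b' ∧
        z b' = C.ι (C.φ^[L (z b)] (z b)) := by
    intro b
    by_cases hb : used b ∧ z b ∈ C.Mt
    · obtain ⟨b', hb1, hb2⟩ := hz2 _ (hw _ (hzX b hb.1) hb.2)
      refine ⟨some b', fun _ => iff_of_true hb.2 (by simp), ?_⟩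
      intro b'' h _
      obtain rfl : b' = b'' := by simpa using h
      exact ⟨hb.2, hb1, hb2⟩
    · refine ⟨none, fun h => iff_of_false (fun h' => hb ⟨h, h'⟩) (by simp), ?_⟩
      intro b' h
      simp at h
  choose mate hm1 hm2 using hmate
  have hlen : ∃ len : Fin B → ℕ, (∀ b, used b → len b = L (z b) + 1) ∧
      ∀ b, ¬ used b → len b = 0 :=
    ⟨fun b => if used b then L (z b) + 1 else 0, fun b hb => if_pos hb, fun b hb => if_neg hb⟩
  obtain ⟨len, hl1, hl0⟩ := hlen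
  have hused : ∀ b k, k < len b → used b ∧ k ≤ L (z b) := by
    intro b k hk
    by_cases hb : used b
    · have := hl1 b hb
      exact ⟨hb, by omega⟩
    · have := hl0 b hb
      omega
  refine ⟨len, mate, fun p => C.φ^[p.2] (z p.1), ?_, ?_, ?_, ?_, ?_, ?_, ?_⟩
  · intro b
    by_cases hb : used b
    · have := hl1 b hb
      have := hL3 _ (hzX b hb)
      omega
    · have := hl0 b hb
      omega
  · intro b k hk
    obtain ⟨hb, hk⟩ := hused b k hk
    exact hX _ (hzX b hb) k hk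
  · intro x hx
    obtain ⟨y, hy, k, hk, hkx⟩ := hsurj _ x hx le_rfl
    obtain ⟨b, hb, rfl⟩ := hz2 y hy
    have := hl1 b hb
    exact ⟨b, k, by omega, hkx⟩
  · intro b k b' k' hk hk' h
    obtain ⟨hb, hk⟩ := hused b k hk
    obtain ⟨hb', hk'⟩ := hused b' k' hk'
    rcases le_total k k' with hkk | hkk
    · obtain ⟨e1, e2⟩ := hinj0 _ (hz1 b hb) _ (hz1 b' hb') k k' hkk hk hk' h
      exact ⟨hz3 b b' hb hb' e1, e2⟩
    · obtain ⟨e1, e2⟩ := hinj0 _ (hz1 b' hb') _ (hz1 b hb) k' k hkk hk' hk h.symm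
      exact ⟨hz3 b b' hb hb' e1.symm, e2.symm⟩
  · intro b k hk
    obtain ⟨hb, hk⟩ := hused b (k + 1) hk
    exact ⟨hS _ (hzX b hb) k (by omega), (Function.iterate_succ_apply' _ _ _).symm⟩
  · intro b k hk
    obtain ⟨hb, hk⟩ := hused b k hk
    rw [← hm1 b hb]
    exact hM _ (hzX b hb) k hk
  · intro b b' k hmb hk
    obtain ⟨hb, hk⟩ := hused b k hk
    obtain ⟨h1, hb', h2⟩ := hm2 b b' hmb hb
    have e1 := hl1 b hb
    have e2 := hl1 b' hb'
    have e3 := hLw _ (hzX b hb) h1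
    rw [← h2] at e3
    refine ⟨by omega, ?_⟩
    have e4 : len b - 1 - k = L (z b) - k := by omega
    have e5 : L (z b) - (L (z b) - k) = k := by omega
    show C.ι (C.φ^[k] (z b)) = C.φ^[len b - 1 - k] (z b')
    rw [e4, h2, hrev _ (hzX b hb) h1 _ (Nat.sub_le _ _), e5]

/-- Transport of a cluster along a bijection `f : X' → X` (`g` = inverse of `f` on `X`, e.g.
`Function.invFunOn`; `e' = e ∘ f`, `o' = o ∘ f`, `φ' = g ∘ φ ∘ f`, `ι' = g ∘ ι ∘ f`,
`St' = X'.filter (f · ∈ St)`, `Mt' = X'.filter (f · ∈ Mt)`). -/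
theorem Cluster.exists_comap {D' : Type} (C : Cluster Γ D) (X' : Finset D') (d₀ : D')
    (f : D' → D) (hmap : ∀ x ∈ X', f x ∈ C.X) (hsurj : ∀ y ∈ C.X, ∃ x ∈ X', f x = y)
    (hinj : ∀ x ∈ X', ∀ y ∈ X', f x = f y → x = y) :
    ∃ C' : Cluster Γ D', C'.X = X' ∧ (∀ x, x ∈ C'.St ↔ x ∈ X' ∧ f x ∈ C.St) ∧
      (∀ x, x ∈ C'.Mt ↔ x ∈ X' ∧ f x ∈ C.Mt) ∧
      (∀ x ∈ C'.St, f (C'.φ x) = C.φ (f x)) ∧ (∀ x ∈ C'.Mt, f (C'.ι x) = C.ι (f x)) ∧
      C'.X.card = C.X.card ∧ C'.ends.card = C.ends.card ∧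
      C'.irregular.card = C.irregular.card ∧
      (C'.X \ C'.Mt).card = (C.X \ C.Mt).card := by
  have hg : ∃ g : D → D', ∀ y ∈ C.X, g y ∈ X' ∧ f (g y) = y := by
    refine ⟨fun y => if h : ∃ x ∈ X', f x = y then h.choose else d₀, ?_⟩
    intro y hy
    have h := hsurj y hy
    simp only [dif_pos h]
    exact h.choose_spec
  obtain ⟨g, hg⟩ := hg
  have hcount : ∀ (S' : Finset D') (S : Finset D), S' ⊆ X' → S ⊆ C.X →
      (∀ x ∈ X', x ∈ S' ↔ f x ∈ S) → S'.card = S.card := by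
    intro S' S h1 h2 h3
    apply Finset.card_nbij f
    · intro x hx
      exact (h3 x (h1 hx)).1 hx
    · intro x hx y hy hxy
      exact hinj x (h1 hx) y (h1 hy) hxy
    · intro y hy
      obtain ⟨x, hx, rfl⟩ := hsurj y (h2 hy)
      exact ⟨x, (h3 x hx).2 hy, rfl⟩
  let C' : Cluster Γ D' :=
    { X := X'
      e := fun x => C.e (f x)
      o := fun x => C.o (f x)
      φ := fun x => g (C.φ (f x))
      ι := fun x => g (C.ι (f x))
      St := X'.filter fun x => f x ∈ C.St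
      Mt := X'.filter fun x => f x ∈ C.Mt
      St_sub := Finset.filter_subset _ _
      φ_mem := fun x hx => (hg _ (C.φ_mem _ (Finset.mem_filter.1 hx).2)).1
      φ_inj := by
        intro x hx y hy hxy
        obtain ⟨hx1, hx2⟩ := Finset.mem_filter.1 hx
        obtain ⟨hy1, hy2⟩ := Finset.mem_filter.1 hy
        apply hinj x hx1 y hy1
        apply C.φ_inj _ hx2 _ hy2
        rw [← (hg _ (C.φ_mem _ hx2)).2, ← (hg _ (C.φ_mem _ hy2)).2]
        exact congrArg f hxy
      step := by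
        intro x hx
        obtain ⟨hx1, hx2⟩ := Finset.mem_filter.1 hx
        rw [(hg _ (C.φ_mem _ hx2)).2]
        exact C.step _ hx2
      Mt_sub := Finset.filter_subset _ _
      ι_mem := by
        intro x hx
        obtain ⟨hx1, hx2⟩ := Finset.mem_filter.1 hx
        have h := hg _ (C.Mt_sub (C.ι_mem _ hx2))
        exact Finset.mem_filter.2 ⟨h.1, by rw [h.2]; exact C.ι_mem _ hx2⟩
      ι_ι := by
        intro x hx
        obtain ⟨hx1, hx2⟩ := Finset.mem_filter.1 hx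
        have h := hg _ (C.Mt_sub (C.ι_mem _ hx2))
        rw [h.2, C.ι_ι _ hx2]
        have h' := hg _ (hmap x hx1)
        exact hinj _ h'.1 _ hx1 h'.2
      ι_lab := by
        intro x hx
        obtain ⟨hx1, hx2⟩ := Finset.mem_filter.1 hx
        rw [(hg _ (C.Mt_sub (C.ι_mem _ hx2))).2]
        exact C.ι_lab _ hx2
      ι_o := by
        intro x hx
        obtain ⟨hx1, hx2⟩ := Finset.mem_filter.1 hx
        rw [(hg _ (C.Mt_sub (C.ι_mem _ hx2))).2]
        exact C.ι_o _ hx2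
      ι_ne := by
        intro x hx
        obtain ⟨hx1, hx2⟩ := Finset.mem_filter.1 hx
        rw [(hg _ (C.Mt_sub (C.ι_mem _ hx2))).2]
        exact C.ι_ne _ hx2 }
  have hSt : ∀ x, x ∈ C'.St ↔ x ∈ X' ∧ f x ∈ C.St := fun x => Finset.mem_filter
  have hMt : ∀ x, x ∈ C'.Mt ↔ x ∈ X' ∧ f x ∈ C.Mt := fun x => Finset.mem_filter
  have hφ : ∀ x, f x ∈ C.St → C'.φ x ∈ X' ∧ f (C'.φ x) = C.φ (f x) := fun x hx =>
    hg _ (C.φ_mem _ hx)
  have hι : ∀ x, f x ∈ C.Mt → C'.ι x ∈ X' ∧ f (C'.ι x) = C.ι (f x) := fun x hx =>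
    hg _ (C.Mt_sub (C.ι_mem _ hx))
  have hReg : ∀ x ∈ X', C'.Regular x ↔ C.Regular (f x) := by
    intro x hx
    constructor
    · rintro ⟨r1, r2, r3, r4, r5⟩
      rw [hSt] at r1 r4
      rw [hMt] at r2 r3
      have a1 := (hφ x r1.2).2
      have a2 := (hι _ r3.2).2
      have a3 := (hφ _ r4.2).2
      have a4 := (hι x r2.2).2
      refine ⟨r1.2, r2.2, a1 ▸ r3.2, ?_, ?_⟩
      · rw [← a1, ← a2]; exact r4.2
      · rw [← a1, ← a2, ← a3, r5, a4]
    · rintro ⟨r1, r2, r3, r4, r5⟩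
      have a1 := hφ x r1
      have b3 : f (C'.φ x) ∈ C.Mt := by rw [a1.2]; exact r3
      have a2 := hι _ b3
      have b4 : f (C'.ι (C'.φ x)) ∈ C.St := by rw [a2.2, a1.2]; exact r4
      have a3 := hφ _ b4
      have a4 := hι x r2
      refine ⟨(hSt _).2 ⟨hx, r1⟩, (hMt _).2 ⟨hx, r2⟩, (hMt _).2 ⟨a1.1, b3⟩,
        (hSt _).2 ⟨a2.1, b4⟩, ?_⟩
      apply hinj _ a3.1 _ a4.1
      rw [a3.2, a2.2, a1.2, a4.2, r5]
  refine ⟨C', rfl, hSt, hMt, fun x hx => (hφ x ((hSt x).1 hx).2).2,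
    fun x hx => (hι x ((hMt x).1 hx).2).2, ?_, ?_, ?_, ?_⟩
  · exact hcount X' C.X subset_rfl subset_rfl fun x hx => iff_of_true hx (hmap x hx)
  · apply hcount _ _ Finset.sdiff_subset Finset.sdiff_subset
    intro x hx
    simp only [Finset.mem_sdiff, hSt]
    have := hmap x hx
    tauto
  · apply hcount _ _ ((Finset.filter_subset _ _).trans C'.Mt_sub)
      ((Finset.filter_subset _ _).trans C.Mt_sub)
    intro x hx
    simp only [Finset.mem_filter, hMt, hReg x hx]
    tauto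
  · apply hcount _ _ Finset.sdiff_subset Finset.sdiff_subset
    intro x hx
    simp only [Finset.mem_sdiff, hMt]
    have := hmap x hx
    tauto

/-- Brick normal form of a cluster (assembly of the three lemmas above). -/
theorem Cluster.exists_brick {ρ K : ℕ} (hg : Γ.Girth (5 * ρ)) (hρ : 0 < ρ) (hK : 0 < K)
    (C : Cluster Γ D) (hne : C.X.Nonempty)
    (h1 : C.X.card ≤ K * (5 * ρ)) (h2 : C.ends.card ≤ K) (h3 : C.irregular.card ≤ K) :
    ∃ (C' : Cluster Γ (Fin (13 * K) × ℕ)) (len : Fin (13 * K) → ℕ)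
      (mate : Fin (13 * K) → Option (Fin (13 * K))), IsBrick C' (2 * ρ) len mate ∧
      C'.X.card = C.X.card ∧ C'.ends.card = C.ends.card ∧
      C'.irregular.card = C.irregular.card ∧
      (C'.X \ C'.Mt).card = (C.X \ C.Mt).card := by
  obtain ⟨Cut, c1, c2, c3, c4, c5⟩ := C.exists_cut hg hρ h1 h2 h3
  obtain ⟨d₀, -⟩ := hne
  obtain ⟨len, mate, f, p1, p2, p3, p4, p5, p6, p7⟩ :=
    C.exists_param (B := 13 * K) d₀ Cut c1 c2 c3 c4 c5
  let X' : Finset (Fin (13 * K) × ℕ) :=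
    (Finset.univ ×ˢ Finset.range (2 * ρ)).filter fun p => p.2 < len p.1
  have hX' : ∀ b k, (b, k) ∈ X' ↔ k < len b := by
    intro b k
    simp only [X', Finset.mem_filter, Finset.mem_product, Finset.mem_univ, Finset.mem_range,
      true_and]
    have := p1 b
    omega
  have hinj : ∀ x ∈ X', ∀ y ∈ X', f x = f y → x = y := by
    rintro ⟨b, k⟩ hx ⟨b', k'⟩ hy h
    obtain ⟨rfl, rfl⟩ := p4 b k b' k' ((hX' _ _).1 hx) ((hX' _ _).1 hy) h
    rfl
  obtain ⟨C', q1, q2, q3, q4, q5, q6, q7, q8, q9⟩ :=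
    C.exists_comap X' (⟨0, by omega⟩, 0) f
      (fun x hx => p2 x.1 x.2 ((hX' _ _).1 hx))
      (fun y hy => by
        obtain ⟨b, k, hk, h⟩ := p3 y hy
        exact ⟨(b, k), (hX' _ _).2 hk, h⟩) hinj
  refine ⟨C', len, mate, ⟨p1, ?_, ?_, ?_, ?_⟩, q6, q7, q8, by convert q9⟩
  · intro b k
    rw [q1, hX']
  · intro b k hk
    have a1 : (b, k) ∈ C'.St := (q2 _).2 ⟨(hX' _ _).2 (by omega), (p5 b k hk).1⟩
    refine ⟨a1, hinj _ (q1 ▸ C'.φ_mem _ a1) _ ((hX' _ _).2 hk) ?_⟩
    rw [q4 _ a1, (p5 b k hk).2]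
  · intro b k
    rw [q3, hX']
    exact and_congr_right fun hk => p6 b k hk
  · intro b b' k hm hk
    have a1 : (b, k) ∈ C'.Mt :=
      (q3 _).2 ⟨(hX' _ _).2 hk, (p6 b k hk).2 (by rw [hm]; simp)⟩
    obtain ⟨a2, a3⟩ := p7 b b' k hm hk
    refine hinj _ (q1 ▸ C'.Mt_sub (C'.ι_mem _ a1)) _ ((hX' _ _).2 a2) ?_
    rw [q5 _ a1, a3]

end Crest.Agent.R177
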