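import Crest.Agent.R177.LCGeo

/-!
# Polynomially many combinatorial types of brick clusters

Recipe.  `T := (Fin B → ℕ) × (Fin B → Option (Fin B)) × (Fin B → Bool) ×
(Fin B → Fin B → Finset (ℕ × ℕ))` and `code = (len, mate, b ↦ C.o (b,0), RV)` where
`RV b b' = {(k,k') ∈ range (r+1) ×ˢ range (r+1) | k ≤ len b, k' ≤ len b',
brickV b k = brickV b' k'}`.
By `NBPath.inj` and `NBPath.geo` (applied to the least and the largest first coordinate), `RV b b'` is
a segment `image (fun i => (a + i, if sg then a' + i else a' - i)) (range n)` with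
`a, a' ≤ r`, `n ≤ r + 1`, `sg : Bool` (at most `2 (r+2)^3` choices).
`Cd` is a product of `Fintype.piFinset`s.
Equal codes give the same type: directions alternate along a brick (`head = tail` of the next
position), so `o` agrees on `X`; `inl (s (e (b,k))) = brickV b (if o (b,k) then k else k+1)` and
`inr (t (e (b,k))) = brickV b (if o (b,k) then k+1 else k)`; two edges with the same two ends are
equal (girth `≥ 3`: otherwise a closed non-backtracking walk of length `2`).
-/

set_option autoImplicit false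

namespace Crest.Agent.R177

open Classical

namespace LCCodeAux

variable {U W E P : Type}

/-- the meeting pairs of two paths -/
noncomputable def meet {V : Type} (r m m' : ℕ) (v v' : ℕ → V) : Finset (ℕ × ℕ) :=
  (Finset.range (r + 1) ×ˢ Finset.range (r + 1)).filter fun p =>
    p.1 ≤ m ∧ p.2 ≤ m' ∧ v p.1 = v' p.2

theorem mem_meet {V : Type} {r m m' : ℕ} {v v' : ℕ → V} (hm : m ≤ r) (hm' : m' ≤ r) {k k' : ℕ} :
    (k, k') ∈ meet r m m' v v' ↔ k ≤ m ∧ k' ≤ m' ∧ v k = v' k' := by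
  simp only [meet, Finset.mem_filter, Finset.mem_product, Finset.mem_range]
  constructor
  · exact fun h => h.2
  · exact fun h => ⟨⟨by omega, by omega⟩, h⟩

/-- a segment -/
def seg (q : (ℕ × ℕ × ℕ) × Bool) : Finset (ℕ × ℕ) :=
  (Finset.range q.1.2.2).image fun i => (q.1.1 + i, if q.2 then q.1.2.1 + i else q.1.2.1 - i)

/-- all segments -/
def segs (r : ℕ) : Finset (Finset (ℕ × ℕ)) :=
  ((Finset.range (r + 2) ×ˢ Finset.range (r + 2) ×ˢ Finset.range (r + 2)) ×ˢ
    (Finset.univ : Finset Bool)).image seg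

theorem card_segs (r : ℕ) : (segs r).card ≤ 2 * (r + 2) ^ 3 := by
  refine Finset.card_image_le.trans ?_
  simp only [Finset.card_product, Finset.card_range, Finset.card_univ, Fintype.card_bool]
  exact le_of_eq (by ring)

theorem seg_mem_segs {r a a' n : ℕ} (sg : Bool) (ha : a < r + 2) (ha' : a' < r + 2)
    (hn : n < r + 2) : seg ((a, a', n), sg) ∈ segs r :=
  Finset.mem_image_of_mem _ (by simp [ha, ha', hn])

theorem meet_mem_segs {Γ : BGraph U W E P} {ℓ r m m' : ℕ} {v v' : ℕ → U ⊕ W} {e e' : ℕ → E}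
    {o o' : ℕ → Bool} (hg : Γ.Girth ℓ) (hr : 2 * r < ℓ) (h : NBPath Γ m v e o)
    (h' : NBPath Γ m' v' e' o') (hm : m ≤ r) (hm' : m' ≤ r) : meet r m m' v v' ∈ segs r := by
  rcases (meet r m m' v v').eq_empty_or_nonempty with h0 | hne
  · have : meet r m m' v v' = seg ((0, 0, 0), true) := by rw [h0]; simp [seg]
    rw [this]
    exact seg_mem_segs _ (by omega) (by omega) (by omega)
  obtain ⟨⟨a, a'⟩, ha, hmin⟩ := Finset.exists_min_image _ Prod.fst hne
  obtain ⟨⟨c, c'⟩, hc, hmax⟩ := Finset.exists_max_image _ Prod.fst hne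
  have hac : a ≤ c := hmin _ hc
  rw [mem_meet hm hm'] at ha hc
  rcases NBPath.geo hg h h' (by omega) hac hc.1 ha.2.1 hc.2.1 ha.2.2 hc.2.2 with
    ⟨h1, -, h3⟩ | ⟨h1, -, h3⟩
  · have : meet r m m' v v' = seg ((a, a', c - a + 1), true) := by
      ext ⟨k, k'⟩
      simp only [seg, Finset.mem_image, Finset.mem_range, if_true, Prod.mk.injEq]
      constructor
      · intro hk
        have h4 : a ≤ k := hmin _ hk
        have h5 : k ≤ c := hmax _ hk
        rw [mem_meet hm hm'] at hk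
        refine ⟨k - a, by omega, by omega, ?_⟩
        have h6 := h3 (k - a) (by omega)
        rw [show a + (k - a) = k by omega, hk.2.2] at h6
        exact (NBPath.inj hg h' (by omega) hk.2.1 (by omega) h6).symm
      · rintro ⟨i, hi, rfl, rfl⟩
        rw [mem_meet hm hm']
        exact ⟨by omega, by omega, h3 i (by omega)⟩
    rw [this]
    exact seg_mem_segs _ (by omega) (by omega) (by omega)
  · have : meet r m m' v v' = seg ((a, a', c - a + 1), false) := by
      ext ⟨k, k'⟩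
      simp only [seg, Finset.mem_image, Finset.mem_range, Bool.false_eq_true, if_false,
        Prod.mk.injEq]
      constructor
      · intro hk
        have h4 : a ≤ k := hmin _ hk
        have h5 : k ≤ c := hmax _ hk
        rw [mem_meet hm hm'] at hk
        refine ⟨k - a, by omega, by omega, ?_⟩
        have h6 := h3 (k - a) (by omega)
        rw [show a + (k - a) = k by omega, hk.2.2] at h6
        exact (NBPath.inj hg h' (by omega) hk.2.1 (by omega) h6).symm
      · rintro ⟨i, hi, rfl, rfl⟩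
        rw [mem_meet hm hm']
        exact ⟨by omega, by omega, h3 i (by omega)⟩
    rw [this]
    exact seg_mem_segs _ (by omega) (by omega) (by omega)

theorem o_succ {Γ : BGraph U W E P} {m : ℕ} {v : ℕ → U ⊕ W} {e : ℕ → E} {o : ℕ → Bool}
    (h : NBPath Γ m v e o) {k : ℕ} (hk : k + 1 < m) : o (k + 1) = !o k := by
  have h1 := (h.hd k (by omega)).trans (h.tl (k + 1) hk).symm
  cases h2 : o k <;> cases h3 : o (k + 1) <;> simp_all [BGraph.head, BGraph.tail]

theorem o_eq {Γ Γ' : BGraph U W E P} {m : ℕ} {v v' : ℕ → U ⊕ W} {e e' : ℕ → E} {o o' : ℕ → Bool}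
    (h : NBPath Γ m v e o) (h' : NBPath Γ' m v' e' o') (h0 : o 0 = o' 0) {k : ℕ} (hk : k < m) :
    o k = o' k := by
  induction k with
  | zero => exact h0
  | succ k ih => rw [o_succ h hk, o_succ h' hk, ih (by omega)]

theorem inl_s {Γ : BGraph U W E P} {m : ℕ} {v : ℕ → U ⊕ W} {e : ℕ → E} {o : ℕ → Bool}
    (h : NBPath Γ m v e o) {k : ℕ} (hk : k < m) :
    Sum.inl (Γ.s (e k)) = v (if o k then k else k + 1) := by
  have h1 := h.hd k hk
  have h2 := h.tl k hk
  cases h3 : o k <;> simp_all [BGraph.head, BGraph.tail]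

theorem inr_t {Γ : BGraph U W E P} {m : ℕ} {v : ℕ → U ⊕ W} {e : ℕ → E} {o : ℕ → Bool}
    (h : NBPath Γ m v e o) {k : ℕ} (hk : k < m) :
    Sum.inr (Γ.t (e k)) = v (if o k then k + 1 else k) := by
  have h1 := h.hd k hk
  have h2 := h.tl k hk
  cases h3 : o k <;> simp_all [BGraph.head, BGraph.tail]

theorem s_iff_meet {Γ : BGraph U W E P} {r m m' : ℕ} {v v' : ℕ → U ⊕ W} {e e' : ℕ → E}
    {o o' : ℕ → Bool} (h : NBPath Γ m v e o) (h' : NBPath Γ m' v' e' o') (hm : m ≤ r)
    (hm' : m' ≤ r) {k k' : ℕ} (hk : k < m) (hk' : k' < m') :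
    Γ.s (e k) = Γ.s (e' k') ↔
      (if o k then k else k + 1, if o' k' then k' else k' + 1) ∈ meet r m m' v v' := by
  rw [mem_meet hm hm', ← inl_s h hk, ← inl_s h' hk', Sum.inl.injEq]
  constructor
  · exact fun h1 => ⟨by split_ifs <;> omega, by split_ifs <;> omega, h1⟩
  · exact fun h1 => h1.2.2

theorem t_iff_meet {Γ : BGraph U W E P} {r m m' : ℕ} {v v' : ℕ → U ⊕ W} {e e' : ℕ → E}
    {o o' : ℕ → Bool} (h : NBPath Γ m v e o) (h' : NBPath Γ m' v' e' o') (hm : m ≤ r)
    (hm' : m' ≤ r) {k k' : ℕ} (hk : k < m) (hk' : k' < m') :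
    Γ.t (e k) = Γ.t (e' k') ↔
      (if o k then k + 1 else k, if o' k' then k' + 1 else k') ∈ meet r m m' v v' := by
  rw [mem_meet hm hm', ← inr_t h hk, ← inr_t h' hk', Sum.inr.injEq]
  constructor
  · exact fun h1 => ⟨by split_ifs <;> omega, by split_ifs <;> omega, h1⟩
  · exact fun h1 => h1.2.2

theorem eq_iff_ends {Γ : BGraph U W E P} {ℓ : ℕ} (hg : Γ.Girth ℓ) (h3 : 3 ≤ ℓ) (d d' : E) :
    d = d' ↔ Γ.s d = Γ.s d' ∧ Γ.t d = Γ.t d' := by
  constructor
  · rintro rfl; exact ⟨rfl, rfl⟩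
  · rintro ⟨hs, ht⟩
    by_contra hne
    have := hg 2 (fun k => if k = 0 then d else d') (fun k => decide (k = 0)) (by omega)
      (fun k hk => by
        have hk0 : k = 0 := by omega
        subst hk0
        simp [BGraph.head, BGraph.tail, ht, Ne.symm hne])
      (by simp [BGraph.head, BGraph.tail, hs])
    omega

end LCCodeAux

open LCCodeAux in
theorem exists_code {U W E P : Type} (B r ℓ : ℕ) (hr : 2 * r < ℓ) (h3 : 3 ≤ ℓ) :
    ∃ (T : Type) (Cd : Finset T)
      (code : (Γ : BGraph U W E P) → Cluster Γ (Fin B × ℕ) → (Fin B → ℕ) →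
        (Fin B → Option (Fin B)) → T),
      Cd.card ≤ (2 * (B + 1) * (r + 2)) ^ (3 * B + 4 * B * B) ∧
      (∀ (Γ : BGraph U W E P) (C : Cluster Γ (Fin B × ℕ)) (len : Fin B → ℕ)
        (mate : Fin B → Option (Fin B)), Γ.Girth ℓ → IsBrick C r len mate →
        code Γ C len mate ∈ Cd) ∧
      ∀ (Γ Γ' : BGraph U W E P) (C : Cluster Γ (Fin B × ℕ)) (C' : Cluster Γ' (Fin B × ℕ))
        (len len' : Fin B → ℕ) (mate mate' : Fin B → Option (Fin B)),
        Γ.Girth ℓ → Γ'.Girth ℓ → IsBrick C r len mate → IsBrick C' r len' mate' →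
        code Γ C len mate = code Γ' C' len' mate' → SameType C C' := by
  refine ⟨(Fin B → ℕ) × (Fin B → Option (Fin B)) × (Fin B → Bool) ×
      (Fin B → Fin B → Finset (ℕ × ℕ)),
    (Fintype.piFinset fun _ : Fin B => Finset.range (r + 1)) ×ˢ
      (Finset.univ : Finset (Fin B → Option (Fin B))) ×ˢ (Finset.univ : Finset (Fin B → Bool)) ×ˢ
      (Fintype.piFinset fun _ : Fin B => Fintype.piFinset fun _ : Fin B => segs r),
    fun Γ C len mate => (len, mate, fun b => C.o (b, 0),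
      fun b b' => meet r (len b) (len b') (brickV C len b) (brickV C len b')), ?_, ?_, ?_⟩
  · simp only [Finset.card_product, Fintype.card_piFinset, Finset.card_range, Finset.prod_const,
      Finset.card_univ, Fintype.card_fin, Fintype.card_fun, Fintype.card_option,
      Fintype.card_bool]
    set Z := 2 * (B + 1) * (r + 2) with hZ
    have h1 : r + 1 ≤ Z := by nlinarith
    have h2 : B + 1 ≤ Z := by nlinarith
    have h3' : 2 ≤ Z := by nlinarith
    have h4 : (segs r).card ≤ Z ^ 4 := by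
      refine (card_segs r).trans ?_
      have h5 : r + 2 ≤ Z := by nlinarith
      calc 2 * (r + 2) ^ 3 ≤ Z * Z ^ 3 := Nat.mul_le_mul h3' (Nat.pow_le_pow_left h5 3)
        _ = Z ^ 4 := by ring
    calc (r + 1) ^ B * ((B + 1) ^ B * (2 ^ B * ((segs r).card ^ B) ^ B))
        ≤ Z ^ B * (Z ^ B * (Z ^ B * ((Z ^ 4) ^ B) ^ B)) := by gcongr
      _ = Z ^ (3 * B + 4 * B * B) := by
        rw [← pow_mul, ← pow_mul, ← pow_add, ← pow_add, ← pow_add]; congr 1; ring
  · intro Γ C len mate hg h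
    simp only [Finset.mem_product, Fintype.mem_piFinset, Finset.mem_range, Finset.mem_univ,
      true_and]
    exact ⟨fun b => Nat.lt_succ_of_le (h.len_le b), fun b b' =>
      meet_mem_segs hg hr (h.nbPath b) (h.nbPath b') (h.len_le b) (h.len_le b')⟩
  · intro Γ Γ' C C' len len' mate mate' hg hg' h h' hcode
    simp only [Prod.mk.injEq] at hcode
    obtain ⟨rfl, rfl, ho, hmeet⟩ := hcode
    have ho' : ∀ b k, k < len b → C.o (b, k) = C'.o (b, k) := fun b k hk =>
      o_eq (h.nbPath b) (h'.nbPath b) (congrFun ho b) hk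
    have hs : ∀ x ∈ C.X, ∀ y ∈ C.X,
        Γ'.s (C'.e x) = Γ'.s (C'.e y) ↔ Γ.s (C.e x) = Γ.s (C.e y) := by
      rintro ⟨b, k⟩ hx ⟨b', k'⟩ hy
      rw [h.mem_X] at hx hy
      rw [s_iff_meet (h.nbPath b) (h.nbPath b') (h.len_le b) (h.len_le b') hx hy,
        s_iff_meet (h'.nbPath b) (h'.nbPath b') (h.len_le b) (h.len_le b') hx hy,
        congrFun (congrFun hmeet b) b', ho' b k hx, ho' b' k' hy]
    have ht : ∀ x ∈ C.X, ∀ y ∈ C.X,
        Γ'.t (C'.e x) = Γ'.t (C'.e y) ↔ Γ.t (C.e x) = Γ.t (C.e y) := by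
      rintro ⟨b, k⟩ hx ⟨b', k'⟩ hy
      rw [h.mem_X] at hx hy
      rw [t_iff_meet (h.nbPath b) (h.nbPath b') (h.len_le b) (h.len_le b') hx hy,
        t_iff_meet (h'.nbPath b) (h'.nbPath b') (h.len_le b) (h.len_le b') hx hy,
        congrFun (congrFun hmeet b) b', ho' b k hx, ho' b' k' hy]
    refine ⟨?_, ?_, ?_, ?_, hs, ht⟩
    · ext ⟨b, k⟩
      rw [h.mem_X, h'.mem_X]
    · ext ⟨b, k⟩
      rw [h.mem_Mt, h'.mem_Mt]
    · rintro ⟨b, k⟩ hx
      rw [h.mem_Mt] at hx
      obtain ⟨b', hb'⟩ := Option.ne_none_iff_exists'.1 hx.2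
      rw [h.mate_ι b b' k hb' hx.1, h'.mate_ι b b' k hb' hx.1]
    · intro x hx y hy
      rw [eq_iff_ends hg' h3 (C'.e x), eq_iff_ends hg h3 (C.e x), hs x hx y hy, ht x hx y hy]

end Crest.Agent.R177
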