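import Crest.Agent.R177.LCBasic

/-!
# First moment for a fixed combinatorial type

Recipe.  Write `Y = C₀.Y j`.  For `σ ∈ Ω` and `C` of the type of `C₀` let
`g : {x // x ∈ Y} → E × E`, `g x = (C.e x, σ (C.e x))`; let `𝒢` be the finite set of all such `g`.
* For `g ∈ 𝒢`, `{σ ∈ Ω | ∀ x, σ (g x).1 = (g x).2}` has at most `|Ω| / n₁ ^ |EE j|` elements: use `hsw`
  with the finset `univ.image (fun x => (g x).1)` (same cardinality as `C₀.EE j` by `e_iff`) and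
  `f = σ_g` for one witness `σ_g` of `g ∈ 𝒢`.
* `|𝒢| ≤ nCol * …`: send `g` to `(col, α, β)`, `col x = (srt (g x).1, lab (g x).1)` (valid by
  `SameType`, `ι_lab`, `Frame.pairs` and `Frame.srt_t` applied to `σ (C.e x)`, `σ (C.e y)`,
  `Frame.srt_s` and `Frame.folded`), `α : U → U` with `α (Γ₀.s (C₀.e x)) = Γ.s (g x).1` and `α u = u`
  off `UU j`, `β : W → W` with `β (Γ₀.t (C₀.e x)) = Γ.t (g x).2` and `β w = w` off `WW j`.
  Injective by `Frame.folded`.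
  For fixed valid `col`, `α ∈ Fintype.piFinset A`, where `A u = {u}` off `UU j`, and otherwise
  `A u = {u' | ∀ x, Γ₀.s (C₀.e x) = u → ∃ d, s d = u' ∧ (srt d, lab d) = col x}`
  has at most `M + c₀` elements for `u ∈ U2 j` (`Frame.two`, fourth clause of `ValidLab`) and at most
  `Q M + c₀` elements in general (`Frame.upper`; it is contained in the image under `s` of a colour
  class, possibly empty); likewise for `β` with `t`.
-/

set_option autoImplicit false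

namespace Crest.Agent.R177

open Classical

lemma lcc_cover {ι κ : Type} (A : Finset ι) (T : Finset κ) (R : ι → κ → Prop) (n N : ℕ)
    (h1 : ∀ a ∈ A, ∃ t ∈ T, R a t) (h2 : ∀ t ∈ T, (A.filter fun a => R a t).card * n ≤ N) :
    A.card * n ≤ N * T.card := by
  have h : A ⊆ T.biUnion fun t => A.filter fun a => R a t := by
    intro a ha
    obtain ⟨t, ht, hr⟩ := h1 a ha
    exact Finset.mem_biUnion.2 ⟨t, ht, Finset.mem_filter.2 ⟨ha, hr⟩⟩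
  calc A.card * n ≤ (∑ t ∈ T, (A.filter fun a => R a t).card) * n :=
        Nat.mul_le_mul_right _ ((Finset.card_le_card h).trans Finset.card_biUnion_le)
    _ = ∑ t ∈ T, (A.filter fun a => R a t).card * n := Finset.sum_mul _ _ _
    _ ≤ ∑ _t ∈ T, N := Finset.sum_le_sum h2
    _ = N * T.card := by simp [mul_comm]

section

variable {U W E P S D : Type} [Fintype U] [Fintype W] [Fintype E]
  {Γ : BGraph U W E P} {srt : E → S} {nx : S → P → P → S} {Q c₀ M : ℕ} {Pr : Finset (P × P)}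

omit [Fintype W] in
lemma lcc_class_le (hF : Frame Γ srt nx Q c₀ M Pr) (c : S × P) :
    (Finset.univ.filter fun d => (srt d, Γ.lab d) = c).card ≤ Q * M + c₀ := by
  rcases (Finset.univ.filter fun d => (srt d, Γ.lab d) = c).eq_empty_or_nonempty with h | ⟨d, hd⟩
  · rw [h]
    simp
  · obtain rfl : (srt d, Γ.lab d) = c := by simpa using hd
    refine le_trans (Finset.card_le_card ?_) (hF.upper d)
    intro d' hd'
    simpa using hd'

variable (Γ srt) in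
/-- possible images of a main vertex -/
noncomputable def lccA {Γ₀ : BGraph U W E P} (C₀ : Cluster Γ₀ D) (j : ℕ)
    (col : {x // x ∈ C₀.Y j} → S × P) (u : U) : Finset U :=
  Finset.univ.filter fun u' => ∀ x : {x // x ∈ C₀.Y j}, Γ₀.s (C₀.e x.1) = u →
    ∃ d, Γ.s d = u' ∧ (srt d, Γ.lab d) = col x

variable (Γ srt) in
/-- possible images of an auxiliary vertex -/
noncomputable def lccB {Γ₀ : BGraph U W E P} (C₀ : Cluster Γ₀ D) (j : ℕ)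
    (col : {x // x ∈ C₀.Y j} → S × P) (w : W) : Finset W :=
  Finset.univ.filter fun w' => ∀ x : {x // x ∈ C₀.Y j}, Γ₀.t (C₀.e x.1) = w →
    ∃ d, Γ.t d = w' ∧ (srt d, Γ.lab d) = col x

omit [Fintype W] in
lemma lccA_le (hF : Frame Γ srt nx Q c₀ M Pr) {Γ₀ : BGraph U W E P} (C₀ : Cluster Γ₀ D) (j : ℕ)
    (col : {x // x ∈ C₀.Y j} → S × P) {u : U} (hu : u ∈ C₀.UU j) :
    (lccA Γ srt C₀ j col u).card ≤ Q * M + c₀ := by
  obtain ⟨x, hx, hxu⟩ := Finset.mem_image.1 hu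
  refine le_trans (Finset.card_le_card ?_) ((Finset.card_image_le (f := Γ.s)).trans
    (lcc_class_le hF (col ⟨x, hx⟩)))
  intro u' hu'
  obtain ⟨d, hd, hd'⟩ := (Finset.mem_filter.1 hu').2 ⟨x, hx⟩ hxu
  exact Finset.mem_image.2 ⟨d, by simpa using hd', hd⟩

lemma lccB_le (hF : Frame Γ srt nx Q c₀ M Pr) {Γ₀ : BGraph U W E P} (C₀ : Cluster Γ₀ D) (j : ℕ)
    (col : {x // x ∈ C₀.Y j} → S × P) {w : W} (hw : w ∈ C₀.WW j) :
    (lccB Γ srt C₀ j col w).card ≤ Q * M + c₀ := by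
  obtain ⟨x, hx, hxw⟩ := Finset.mem_image.1 hw
  refine le_trans (Finset.card_le_card ?_) ((Finset.card_image_le (f := Γ.t)).trans
    (lcc_class_le hF (col ⟨x, hx⟩)))
  intro w' hw'
  obtain ⟨d, hd, hd'⟩ := (Finset.mem_filter.1 hw').2 ⟨x, hx⟩ hxw
  exact Finset.mem_image.2 ⟨d, by simpa using hd', hd⟩

omit [Fintype W] in
lemma lccA_le_two (hF : Frame Γ srt nx Q c₀ M Pr) {Γ₀ : BGraph U W E P} (C₀ : Cluster Γ₀ D)
    (j : ℕ) (col : {x // x ∈ C₀.Y j} → S × P) (hc : C₀.ValidCol nx Pr j col) {u : U}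
    (hu : u ∈ C₀.U2 j) : (lccA Γ srt C₀ j col u).card ≤ M + c₀ := by
  obtain ⟨-, x, hx, y, hy, hxu, hyu, hne⟩ := Finset.mem_filter.1 hu
  have hlab : (col ⟨x, hx⟩).2 ≠ (col ⟨y, hy⟩).2 :=
    hc.1.2.2.2 ⟨x, hx⟩ ⟨y, hy⟩ (hxu.trans hyu.symm) hne
  refine le_trans (Finset.card_le_card ?_) (hF.two (col ⟨x, hx⟩).1 _ _ hlab)
  intro u' hu'
  obtain ⟨d, hd, hd'⟩ := (Finset.mem_filter.1 hu').2 ⟨x, hx⟩ hxu
  obtain ⟨d₂, hd₂, hd₂'⟩ := (Finset.mem_filter.1 hu').2 ⟨y, hy⟩ hyu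
  simp only [Finset.mem_filter, Finset.mem_univ, true_and]
  exact ⟨d, d₂, hd, hd₂, congrArg Prod.fst hd', congrArg Prod.snd hd', congrArg Prod.snd hd₂'⟩

omit [Fintype W] in
lemma lccA_prod_le (hF : Frame Γ srt nx Q c₀ M Pr) {Γ₀ : BGraph U W E P} (C₀ : Cluster Γ₀ D)
    (j : ℕ) (col : {x // x ∈ C₀.Y j} → S × P) (hc : C₀.ValidCol nx Pr j col) :
    (Fintype.piFinset fun u : {u // u ∈ C₀.UU j} => lccA Γ srt C₀ j col u.1).card ≤
      (M + c₀) ^ (C₀.U2 j).card * (Q * M + c₀) ^ ((C₀.UU j).card - (C₀.U2 j).card) := by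
  have hsub : C₀.U2 j ⊆ C₀.UU j := Finset.filter_subset _ _
  rw [Fintype.card_piFinset, Finset.prod_coe_sort (C₀.UU j) fun u => (lccA Γ srt C₀ j col u).card,
    ← Finset.prod_sdiff hsub, mul_comm, ← Finset.card_sdiff_of_subset hsub]
  exact Nat.mul_le_mul (Finset.prod_le_pow_card _ _ _ fun u hu => lccA_le_two hF C₀ j col hc hu)
    (Finset.prod_le_pow_card _ _ _ fun u hu => lccA_le hF C₀ j col (Finset.mem_sdiff.1 hu).1)

lemma lccB_prod_le (hF : Frame Γ srt nx Q c₀ M Pr) {Γ₀ : BGraph U W E P} (C₀ : Cluster Γ₀ D)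
    (j : ℕ) (col : {x // x ∈ C₀.Y j} → S × P) :
    (Fintype.piFinset fun w : {w // w ∈ C₀.WW j} => lccB Γ srt C₀ j col w.1).card ≤
      (Q * M + c₀) ^ (C₀.WW j).card := by
  rw [Fintype.card_piFinset, Finset.prod_coe_sort (C₀.WW j) fun w => (lccB Γ srt C₀ j col w).card]
  exact Finset.prod_le_pow_card _ _ _ fun w hw => lccB_le hF C₀ j col hw

omit [Fintype U] [Fintype W] [Fintype E] in
lemma lcc_mem_X {Γ₀ : BGraph U W E P} (C₀ : Cluster Γ₀ D) {j : ℕ} (x : {x // x ∈ C₀.Y j}) :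
    x.1 ∈ C₀.X := (Finset.mem_filter.1 x.2).1

omit [Fintype W] in
lemma lcc_valid (hF : Frame Γ srt nx Q c₀ M Pr) {σ : Equiv.Perm E}
    (hσ : ∀ d, srt (σ d) = srt d ∧ Γ.lab (σ d) = Γ.lab d) {Γ₀ : BGraph U W E P}
    {C₀ : Cluster Γ₀ D} {C : Cluster (Γ.rewire σ) D} (h : SameType C₀ C) (j : ℕ) :
    C₀.ValidCol nx Pr j fun x => (srt (C.e x.1), Γ.lab (C.e x.1)) := by
  have he := fun x y : {x // x ∈ C₀.Y j} => h.e_iff x.1 (lcc_mem_X C₀ x) y.1 (lcc_mem_X C₀ y)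
  have hs : ∀ x y : {x // x ∈ C₀.Y j}, Γ₀.s (C₀.e x.1) = Γ₀.s (C₀.e y.1) →
      Γ.s (C.e x.1) = Γ.s (C.e y.1) :=
    fun x y => (h.s_iff x.1 (lcc_mem_X C₀ x) y.1 (lcc_mem_X C₀ y)).2
  have ht : ∀ x y : {x // x ∈ C₀.Y j}, Γ₀.t (C₀.e x.1) = Γ₀.t (C₀.e y.1) →
      Γ.t (σ (C.e x.1)) = Γ.t (σ (C.e y.1)) :=
    fun x y => (h.t_iff x.1 (lcc_mem_X C₀ x) y.1 (lcc_mem_X C₀ y)).2
  have hne : ∀ x y : {x // x ∈ C₀.Y j}, C₀.e x.1 ≠ C₀.e y.1 → σ (C.e x.1) ≠ σ (C.e y.1) :=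
    fun x y hxy e => hxy ((he x y).1 (σ.injective e))
  refine ⟨⟨fun x y hxy => ?_, fun x y hx hxy => ?_, fun x y h1 h2 => ?_, fun x y h1 h2 e => ?_⟩,
    fun x y hxy => ?_, fun x y h1 h2 => ?_⟩
  · exact congrArg Γ.lab ((he x y).2 hxy)
  · have := C.ι_lab x.1 (h.Mt_eq ▸ hx)
    rw [h.ι_eq _ hx, hxy] at this
    exact this.symm
  · have := hF.pairs _ _ (ht x y h1) (hne x y h2)
    rwa [(hσ _).2, (hσ _).2] at this
  · exact h2 ((he x y).1 (hF.folded.1 _ _ (hs x y h1) e))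
  · exact hF.srt_s _ _ (hs x y hxy)
  · have := hF.srt_t _ _ (ht x y h1) (hne x y h2)
    rwa [(hσ _).1, (hσ _).1, (hσ _).2, (hσ _).2] at this

omit [Fintype U] [Fintype W] [Fintype E] in
lemma lcc_card_image {Γ₀ Γ' : BGraph U W E P} {C₀ : Cluster Γ₀ D} {C : Cluster Γ' D}
    (h : SameType C₀ C) (j : ℕ) : ((C₀.Y j).image C.e).card = (C₀.EE j).card := by
  have hX : ∀ x ∈ C₀.Y j, x ∈ C₀.X := fun x hx => (Finset.mem_filter.1 hx).1
  have hex : ∀ d ∈ (C₀.Y j).image C.e, ∃ x ∈ C₀.Y j, C.e x = d := fun d hd => Finset.mem_image.1 hd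
  choose p hp hp' using hex
  refine Finset.card_bij (fun d hd => C₀.e (p d hd))
    (fun d hd => Finset.mem_image_of_mem _ (hp d hd)) (fun d hd d' hd' e => ?_) fun d hd => ?_
  · rw [← hp' d hd, ← hp' d' hd']
    exact (h.e_iff _ (hX _ (hp _ _)) _ (hX _ (hp _ _))).2 e
  · obtain ⟨x, hx, rfl⟩ := Finset.mem_image.1 hd
    exact ⟨C.e x, Finset.mem_image_of_mem _ hx,
      (h.e_iff _ (hX _ (hp _ _)) _ (hX _ hx)).1 (hp' _ _)⟩

end

theorem count_sameType {U W E P S D : Type} [Fintype U] [Fintype W] [Fintype E] [Fintype P]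
    [Fintype S] {Γ : BGraph U W E P} {srt : E → S} {nx : S → P → P → S} {Q c₀ M : ℕ}
    {Pr : Finset (P × P)} (hF : Frame Γ srt nx Q c₀ M Pr) (Ω : Finset (Equiv.Perm E))
    (hΩ : ∀ σ ∈ Ω, ∀ d, srt (σ d) = srt d ∧ Γ.lab (σ d) = Γ.lab d) (n₁ k : ℕ)
    (hsw : ∀ (Y : Finset E) (f : E → E), Y.card ≤ k →
      (Ω.filter fun σ => ∀ d ∈ Y, σ d = f d).card * n₁ ^ Y.card ≤ Ω.card)
    {Γ₀ : BGraph U W E P} (C₀ : Cluster Γ₀ D) (hk : C₀.X.card ≤ k) (j : ℕ) :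
    (Ω.filter fun σ => ∃ C : Cluster (Γ.rewire σ) D, SameType C₀ C).card *
        n₁ ^ (C₀.EE j).card ≤
      Ω.card * (C₀.nCol nx Pr j * ((M + c₀) ^ (C₀.U2 j).card *
        (Q * M + c₀) ^ (((C₀.UU j).card - (C₀.U2 j).card) + (C₀.WW j).card))) := by
  let T : Finset (Σ _ : {x // x ∈ C₀.Y j} → S × P,
      ({u // u ∈ C₀.UU j} → U) × ({w // w ∈ C₀.WW j} → W)) :=
    (Finset.univ.filter fun col => C₀.ValidCol nx Pr j col).sigma fun col =>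
      (Fintype.piFinset fun u : {u // u ∈ C₀.UU j} => lccA Γ srt C₀ j col u.1) ×ˢ
        Fintype.piFinset fun w : {w // w ∈ C₀.WW j} => lccB Γ srt C₀ j col w.1
  have hT : T.card ≤ C₀.nCol nx Pr j * ((M + c₀) ^ (C₀.U2 j).card *
      (Q * M + c₀) ^ (((C₀.UU j).card - (C₀.U2 j).card) + (C₀.WW j).card)) := by
    rw [Finset.card_sigma, Cluster.nCol, ← smul_eq_mul]
    refine Finset.sum_le_card_nsmul _ _ _ fun col hc => ?_
    rw [Finset.card_product, pow_add, ← mul_assoc]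
    exact Nat.mul_le_mul (lccA_prod_le hF C₀ j col (Finset.mem_filter.1 hc).2)
      (lccB_prod_le hF C₀ j col)
  have hU : ∀ x : {x // x ∈ C₀.Y j}, Γ₀.s (C₀.e x.1) ∈ C₀.UU j :=
    fun x => Finset.mem_image_of_mem (fun x => Γ₀.s (C₀.e x)) x.2
  have hW : ∀ x : {x // x ∈ C₀.Y j}, Γ₀.t (C₀.e x.1) ∈ C₀.WW j :=
    fun x => Finset.mem_image_of_mem (fun x => Γ₀.t (C₀.e x)) x.2
  refine le_trans (lcc_cover _ T (fun σ τ => ∃ C : Cluster (Γ.rewire σ) D, SameType C₀ C ∧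
    ∀ x : {x // x ∈ C₀.Y j}, τ.1 x = (srt (C.e x.1), Γ.lab (C.e x.1)) ∧
      τ.2.1 ⟨_, hU x⟩ = Γ.s (C.e x.1) ∧ τ.2.2 ⟨_, hW x⟩ = Γ.t (σ (C.e x.1))) _ Ω.card ?_ ?_)
    (Nat.mul_le_mul_left _ hT)
  · intro σ hσ
    obtain ⟨hσ, C, hC⟩ := Finset.mem_filter.1 hσ
    have hexU : ∀ u : {u // u ∈ C₀.UU j}, ∃ x : {x // x ∈ C₀.Y j}, Γ₀.s (C₀.e x.1) = u.1 := by
      intro u
      obtain ⟨x, hx, hxu⟩ := Finset.mem_image.1 u.2
      exact ⟨⟨x, hx⟩, hxu⟩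
    have hexW : ∀ w : {w // w ∈ C₀.WW j}, ∃ x : {x // x ∈ C₀.Y j}, Γ₀.t (C₀.e x.1) = w.1 := by
      intro w
      obtain ⟨x, hx, hxw⟩ := Finset.mem_image.1 w.2
      exact ⟨⟨x, hx⟩, hxw⟩
    choose p hp using hexU
    choose q hq using hexW
    have hs : ∀ (u : {u // u ∈ C₀.UU j}) (x : {x // x ∈ C₀.Y j}), Γ₀.s (C₀.e x.1) = u.1 →
        Γ.s (C.e x.1) = Γ.s (C.e (p u).1) := fun u x hx =>
      (hC.s_iff _ (lcc_mem_X C₀ x) _ (lcc_mem_X C₀ (p u))).2 (hx.trans (hp u).symm)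
    have ht : ∀ (w : {w // w ∈ C₀.WW j}) (x : {x // x ∈ C₀.Y j}), Γ₀.t (C₀.e x.1) = w.1 →
        Γ.t (σ (C.e x.1)) = Γ.t (σ (C.e (q w).1)) := fun w x hx =>
      (hC.t_iff _ (lcc_mem_X C₀ x) _ (lcc_mem_X C₀ (q w))).2 (hx.trans (hq w).symm)
    refine ⟨⟨fun x => (srt (C.e x.1), Γ.lab (C.e x.1)), fun u => Γ.s (C.e (p u).1),
      fun w => Γ.t (σ (C.e (q w).1))⟩, ?_, C, hC, fun x => ⟨rfl, (hs ⟨_, hU x⟩ x rfl).symm,
        (ht ⟨_, hW x⟩ x rfl).symm⟩⟩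
    refine Finset.mem_sigma.2 ⟨Finset.mem_filter.2 ⟨Finset.mem_univ _,
      lcc_valid hF (hΩ σ hσ) hC j⟩, Finset.mem_product.2 ⟨Fintype.mem_piFinset.2 fun u => ?_,
        Fintype.mem_piFinset.2 fun w => ?_⟩⟩
    · exact Finset.mem_filter.2 ⟨Finset.mem_univ _, fun x hx => ⟨C.e x.1, hs u x hx, rfl⟩⟩
    · refine Finset.mem_filter.2 ⟨Finset.mem_univ _, fun x hx => ⟨σ (C.e x.1), ht w x hx, ?_⟩⟩
      rw [(hΩ σ hσ _).1, (hΩ σ hσ _).2]
  · intro τ _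
    rcases Finset.eq_empty_or_nonempty (Finset.filter (fun σ => ∃ C : Cluster (Γ.rewire σ) D,
      SameType C₀ C ∧ ∀ x : {x // x ∈ C₀.Y j}, τ.1 x = (srt (C.e x.1), Γ.lab (C.e x.1)) ∧
        τ.2.1 ⟨_, hU x⟩ = Γ.s (C.e x.1) ∧ τ.2.2 ⟨_, hW x⟩ = Γ.t (σ (C.e x.1)))
      (Ω.filter fun σ => ∃ C : Cluster (Γ.rewire σ) D, SameType C₀ C)) with h | ⟨σ₀, hσ₀⟩
    · rw [h]
      simp
    · obtain ⟨hσ₀, C', hC', h'⟩ := Finset.mem_filter.1 hσ₀
      have hσ₀ := hΩ _ (Finset.mem_filter.1 hσ₀).1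
      have hcard := lcc_card_image hC' j
      have hle : ((C₀.Y j).image C'.e).card ≤ k :=
        Finset.card_image_le.trans ((Finset.card_filter_le _ _).trans hk)
      refine le_trans ?_ (hsw _ σ₀ hle)
      rw [hcard]
      refine Nat.mul_le_mul_right _ (Finset.card_le_card fun σ hσ => ?_)
      obtain ⟨hσ, C, -, h⟩ := Finset.mem_filter.1 hσ
      have hσ := (Finset.mem_filter.1 hσ).1
      refine Finset.mem_filter.2 ⟨hσ, fun d hd => ?_⟩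
      obtain ⟨x, hx, rfl⟩ := Finset.mem_image.1 hd
      obtain ⟨a1, a2, a3⟩ := h ⟨x, hx⟩
      obtain ⟨b1, b2, b3⟩ := h' ⟨x, hx⟩
      have e : C.e x = C'.e x :=
        hF.folded.1 _ _ (a2.symm.trans b2) (congrArg Prod.snd (a1.symm.trans b1))
      refine hF.folded.2 _ _ ?_ (((hΩ σ hσ _).2).trans (hσ₀ _).2.symm)
      rw [← b3, a3, e]

end Crest.Agent.R177
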