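import Crest.Agent.R177.LCMult

/-!
# Counting valid labellings (Ollivier's ordering trick)

Recipe.  Call `w : W` good if `inr w ∉ Bad`.  `pass w = {x ∈ X | o x = true, t (e x) = w}`.  For good `w`
every `x ∈ pass w` is in `St`, `o (φ x) = false`, `t (e (φ x)) = w`, `φ` maps `pass w` bijectively onto
the positions leaving `w`; every edge of the image at `w` is `e x` or `e (φ x)` (`two_t`), and has
multiplicity `μ w := |pass w| ≤ B` (`Cluster.mult_eq`).  Every position at a good `w` forces `pass w ≠ ∅`.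
Let `rk w = (B - μ w) * card W + idx w` (`idx = Fintype.equivFin W`): injective, and
`rk w' < rk w → μ w ≤ μ w'`.  A good `w` is constrained if some regular `x ∈ pass w` has
`w' = t (e (ι x))` good with `rk w' < rk w`.  `f j` = number of good unconstrained `w ∈ WW j`.
* Bound on `nLab`: `lam ↦ (values on the positions of Y j at bad aux vertices (at most B * B of them),
  w ↦ (lam (x w), lam (φ (x w))) ∈ Pr for good unconstrained w ∈ WW j, x w ∈ pass w chosen)` is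
  injective on valid labellings, by strong induction on `rk (t (e x))`; for a constrained `w` with
  witness `x₀`, the positions `x₀, φ x₀, ι x₀, ι (φ x₀)` are in `Y j`, the last two lie at `w'`.
* `∑ j, f j = ∑ (good unconstrained w) μ w`.  Let `R` be the set of regular `x` with `o x = true` and
  `t (e x)`, `t (e (ι x))` good; `x ↦ ι (φ x)` is an involution of `R` exchanging the two aux vertices,
  which differ (`Folded`, `ι_lab`, `ι_ne`); so at least half of `R` lies in passes of constrained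
  vertices.  With `Pg = #{x ∈ X | o x = true, t (e x) good}`: `2 Pg ≤ |X|` and
  `Pg ≤ |R| + |X \ Mt| + |irregular| + B * B`.
-/

set_option autoImplicit false

namespace Crest.Agent.R177

open Classical

variable {U W E P : Type} {Γ : BGraph U W E P} {D : Type}

namespace LCLabels

open Finset

theorem exists_rank [Fintype W] (μ : W → ℕ) (B : ℕ) (hB : ∀ w, μ w ≤ B) :
    ∃ rk : W → ℕ, Function.Injective rk ∧ ∀ w w', rk w' < rk w → μ w ≤ μ w' := by
  set n := Fintype.card W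
  set idx := Fintype.equivFin W
  refine ⟨fun w => (idx w : ℕ) + n * (B - μ w), fun w w' h => ?_, fun w w' h => ?_⟩
  · have := congrArg (· % n) h
    have h1 : ∀ v, (idx v : ℕ) % n = idx v := fun v => Nat.mod_eq_of_lt (idx v).2
    simp only [Nat.add_mul_mod_self_left, h1] at this
    exact idx.injective (Fin.ext this)
  · by_contra hlt
    have h1 : B - μ w + 1 ≤ B - μ w' := by have := hB w; omega
    have h2 := Nat.mul_le_mul_left n h1
    have h3 : (idx w : ℕ) < n := (idx w).2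
    rw [mul_add, mul_one] at h2
    simp only at h
    omega

theorem head_eq_inr {d : E} {b : Bool} {w : W} :
    Γ.head d b = Sum.inr w ↔ b = true ∧ Γ.t d = w := by
  cases b <;> simp [BGraph.head]

theorem tail_eq_inr {d : E} {b : Bool} {w : W} :
    Γ.tail d b = Sum.inr w ↔ b = false ∧ Γ.t d = w := by
  cases b <;> simp [BGraph.tail]

variable (C : Cluster Γ D)

/-- positions arriving at the auxiliary vertex `w` -/
noncomputable def pass (w : W) : Finset D :=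
  C.X.filter fun z => Γ.head (C.e z) (C.o z) = Sum.inr w

theorem mem_pass {w : W} {z : D} :
    z ∈ pass C w ↔ z ∈ C.X ∧ C.o z = true ∧ Γ.t (C.e z) = w := by
  rw [pass, mem_filter, head_eq_inr]

variable {C} {B : ℕ} {Bad : Finset (U ⊕ W)}

theorem pass_St (hS : C.Sparse B Bad) {w : W} (hw : Sum.inr w ∉ Bad) {z : D} (hz : z ∈ pass C w) :
    z ∈ C.St := by
  rw [pass, mem_filter] at hz
  exact hS.head_St z hz.1 (hz.2 ▸ hw)

theorem St_next {z : D} (hz : z ∈ C.St) (ho : C.o z = true) :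
    C.o (C.φ z) = false ∧ Γ.t (C.e (C.φ z)) = Γ.t (C.e z) :=
  tail_eq_inr.1 ((C.step z hz).1.symm.trans (head_eq_inr.2 ⟨ho, rfl⟩))

theorem exists_pass (hS : C.Sparse B Bad) {x : D} (hx : x ∈ C.X)
    (hw : Sum.inr (Γ.t (C.e x)) ∉ Bad) :
    ∃ z ∈ pass C (Γ.t (C.e x)), x = z ∨ x = C.φ z := by
  cases ho : C.o x with
  | true => exact ⟨x, (mem_pass C).2 ⟨hx, ho, rfl⟩, Or.inl rfl⟩
  | false =>
    have ht : Γ.tail (C.e x) (C.o x) = Sum.inr (Γ.t (C.e x)) := tail_eq_inr.2 ⟨ho, rfl⟩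
    obtain ⟨y, hy, rfl⟩ := hS.tail_St x hx (ht ▸ hw)
    exact ⟨y, mem_filter.2 ⟨C.St_sub hy, (C.step y hy).1.trans ht⟩, Or.inr rfl⟩

theorem mult_eq_pass (hS : C.Sparse B Bad) {x : D} (hx : x ∈ C.X)
    (hw : Sum.inr (Γ.t (C.e x)) ∉ Bad) : C.mult (C.e x) = (pass C (Γ.t (C.e x))).card := by
  obtain ⟨z, hz, h⟩ := exists_pass hS hx hw
  have hz' := mem_filter.1 hz
  have := C.mult_eq hS hz'.1 (hz'.2 ▸ hw)
  rw [hz'.2] at this
  rcases h with h | h
  · exact h ▸ this.1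
  · exact h ▸ this.2

theorem card_pass_le (hS : C.Sparse B Bad) (w : W) : (pass C w).card ≤ B := by
  refine le_trans (card_le_card fun z hz => ?_) (hS.inc_t w)
  rw [mem_pass] at hz
  exact mem_filter.2 ⟨hz.1, hz.2.2⟩

theorem two_edges (hS : C.Sparse B Bad) {w : W} (hw : Sum.inr w ∉ Bad) {z : D}
    (hz : z ∈ pass C w) {y : D} (hy : y ∈ C.X) (hyw : Γ.t (C.e y) = w) :
    C.e y = C.e z ∨ C.e y = C.e (C.φ z) := by
  have h1 := pass_St hS hw hz
  obtain ⟨h2, h3, rfl⟩ := (mem_pass C).1 hz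
  rcases hS.two_t z h2 (C.φ z) (C.φ_mem z h1) y hy (St_next h1 h3).2 hyw hw with h | h | h
  · exact absurd h.symm (C.step z h1).2
  · exact Or.inl h.symm
  · exact Or.inr h.symm

theorem mem_Y (hS : C.Sparse B Bad) {x : D} (hx : x ∈ C.X) {w : W} (hxw : Γ.t (C.e x) = w)
    (hw : Sum.inr w ∉ Bad) {j : ℕ} : x ∈ C.Y j ↔ j ≤ (pass C w).card := by
  subst hxw
  rw [Cluster.Y, mem_filter, mult_eq_pass hS hx hw]
  exact and_iff_right hx

theorem card_bad (hS : C.Sparse B Bad) :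
    (C.X.filter fun x => Sum.inr (Γ.t (C.e x)) ∈ Bad).card ≤ B * B := by
  refine (card_le_mul_card_image_of_maps_to (f := fun x => (Sum.inr (Γ.t (C.e x)) : U ⊕ W))
    (t := Bad) (fun x hx => (mem_filter.1 hx).2) B fun v _ => ?_).trans
    (Nat.mul_le_mul_left _ hS.card_le)
  rcases v with u | w
  · simp
  · refine le_trans (card_le_card fun x hx => ?_) (hS.inc_t w)
    simp only [mem_filter, Sum.inr.injEq] at hx ⊢
    exact ⟨hx.1.1, hx.2⟩

theorem regular_facts {x : D} (hx : C.Regular x) (ho : C.o x = true) :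
    C.o (C.ι (C.φ x)) = true ∧ Γ.t (C.e (C.ι (C.φ x))) = Γ.t (C.e (C.ι x)) ∧
      C.Regular (C.ι (C.φ x)) ∧ Γ.t (C.e (C.ι (C.ι (C.φ x)))) = Γ.t (C.e x) := by
  obtain ⟨h1, h2, h3, h4, h5⟩ := hx
  obtain ⟨h6, h7⟩ := St_next h1 ho
  have h8 : C.o (C.ι (C.φ x)) = true := by rw [C.ι_o _ h3, h6]; rfl
  refine ⟨h8, ?_, ⟨h4, C.ι_mem _ h3, ?_, ?_, ?_⟩, ?_⟩
  · rw [← (St_next h4 h8).2, h5]
  · rw [h5]; exact C.ι_mem _ h2
  · rw [h5, C.ι_ι _ h2]; exact h1
  · rw [h5, C.ι_ι _ h2, C.ι_ι _ h3]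
  · rw [C.ι_ι _ h3, h7]

variable (C Bad)

/-- constrained auxiliary vertices -/
def Con (rk : W → ℕ) (w : W) : Prop :=
  ∃ x ∈ pass C w, C.Regular x ∧ Sum.inr (Γ.t (C.e (C.ι x))) ∉ Bad ∧
    rk (Γ.t (C.e (C.ι x))) < rk w

/-- good unconstrained auxiliary vertices of level `j` -/
noncomputable def free [Fintype W] (rk : W → ℕ) (j : ℕ) : Finset W :=
  univ.filter fun w => Sum.inr w ∉ Bad ∧ ¬ Con C Bad rk w ∧ j ≤ (pass C w).card ∧
    (pass C w).Nonempty

variable {C Bad}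

theorem nLab_le_free [Fintype W] [Fintype P] (hS : C.Sparse B Bad) (Pr : Finset (P × P))
    {rk : W → ℕ} (hrk : ∀ w w', rk w' < rk w → (pass C w).card ≤ (pass C w').card) (j : ℕ) :
    C.nLab Pr j ≤ Pr.card ^ (free C Bad rk j).card * (Fintype.card P + 1) ^ (B * B) := by
  have hch : ∀ w : {w // w ∈ free C Bad rk j}, ∃ z z' : {x // x ∈ C.Y j},
      Γ.t (C.e z.1) = Γ.t (C.e z'.1) ∧ C.e z.1 ≠ C.e z'.1 ∧
        ∀ y ∈ C.X, Γ.t (C.e y) = w.1 → C.e y = C.e z.1 ∨ C.e y = C.e z'.1 := by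
    rintro ⟨w, hw⟩
    obtain ⟨-, h1, -, h2, z, hz⟩ := mem_filter.1 hw
    have h3 := pass_St hS h1 hz
    obtain ⟨h4, h5, h6⟩ := (mem_pass C).1 hz
    have h7 := (St_next h3 h5).2
    exact ⟨⟨z, (mem_Y hS h4 h6 h1).2 h2⟩,
      ⟨C.φ z, (mem_Y hS (C.φ_mem z h3) (h7.trans h6) h1).2 h2⟩, h7.symm, (C.step z h3).2.symm,
      fun y hy hyw => two_edges hS h1 hz hy hyw⟩
  choose cz cz' hc1 hc2 hc3 using hch
  set BY : Finset {x // x ∈ C.Y j} := univ.filter fun x => Sum.inr (Γ.t (C.e x.1)) ∈ Bad with hBY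
  have hBYc : BY.card ≤ B * B := by
    refine le_trans (card_le_card_of_injOn Subtype.val (fun x hx => ?_)
      Subtype.val_injective.injOn) (card_bad hS)
    exact mem_filter.2 ⟨(mem_filter.1 x.2).1, (mem_filter.1 hx).2⟩
  have hcard := card_le_card_of_injOn
    (s := univ.filter fun lam : {x // x ∈ C.Y j} → P => C.ValidLab Pr j lam)
    (t := Fintype.piFinset (fun _ : {w // w ∈ free C Bad rk j} => Pr) ×ˢ
      (univ : Finset ({x // x ∈ BY} → P)))
    (fun lam => (fun w => (lam (cz w), lam (cz' w)), fun x => lam x.1)) ?_ ?_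
  · refine hcard.trans ?_
    rw [card_product, Fintype.card_piFinset, prod_const, card_univ, card_univ, Fintype.card_fun,
      Fintype.card_coe, Fintype.card_coe]
    refine Nat.mul_le_mul_left _ ?_
    exact (Nat.pow_le_pow_left (Nat.le_succ _) _).trans
      (Nat.pow_le_pow_right (Nat.succ_pos _) hBYc)
  · intro lam hlam
    have hv := (mem_filter.1 (mem_coe.1 hlam)).2
    refine mem_coe.2 (mem_product.2 ⟨Fintype.mem_piFinset.2 fun w => ?_, mem_univ _⟩)
    exact hv.2.2.1 _ _ (hc1 w) (hc2 w)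
  · intro lam hlam lam' hlam' heq
    have hv := (mem_filter.1 (mem_coe.1 hlam)).2
    have hv' := (mem_filter.1 (mem_coe.1 hlam')).2
    have e1 := congrArg Prod.fst heq
    have e2 := congrArg Prod.snd heq
    have key : ∀ (n : ℕ) (y : {x // x ∈ C.Y j}), rk (Γ.t (C.e y.1)) = n → lam y = lam' y := by
      intro n
      induction n using Nat.strong_induction_on with
      | _ n ih =>
        intro y hn
        have hyX : y.1 ∈ C.X := (mem_filter.1 y.2).1
        by_cases hb : Sum.inr (Γ.t (C.e y.1)) ∈ Bad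
        · exact congrFun e2 ⟨y, mem_filter.2 ⟨mem_univ _, hb⟩⟩
        have hj := (mem_Y hS hyX rfl hb).1 y.2
        have fin : ∀ z z' : {x // x ∈ C.Y j}, lam z = lam' z → lam z' = lam' z' →
            (C.e y.1 = C.e z.1 ∨ C.e y.1 = C.e z'.1) → lam y = lam' y := by
          rintro z z' h1 h2 (h | h)
          · rw [hv.1 _ _ h, hv'.1 _ _ h, h1]
          · rw [hv.1 _ _ h, hv'.1 _ _ h, h2]
        by_cases hc : Con C Bad rk (Γ.t (C.e y.1))
        · obtain ⟨x, hx, hr, hg, hlt⟩ := hc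
          obtain ⟨h4, h5, h6⟩ := (mem_pass C).1 hx
          obtain ⟨-, h8, -, -⟩ := regular_facts hr h5
          have hj' := hj.trans (hrk _ _ hlt)
          have m1 : x ∈ C.Y j := (mem_Y hS h4 h6 hb).2 hj
          have m2 : C.φ x ∈ C.Y j :=
            (mem_Y hS (C.φ_mem x hr.1) ((St_next hr.1 h5).2.trans h6) hb).2 hj
          have m3 : C.ι x ∈ C.Y j := (mem_Y hS (C.Mt_sub (C.ι_mem _ hr.2.1)) rfl hg).2 hj'
          have m4 : C.ι (C.φ x) ∈ C.Y j :=
            (mem_Y hS (C.Mt_sub (C.ι_mem _ hr.2.2.1)) h8 hg).2 hj'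
          refine fin ⟨x, m1⟩ ⟨C.φ x, m2⟩ ?_ ?_ (two_edges hS hb hx hyX rfl)
          · rw [hv.2.1 ⟨x, m1⟩ ⟨C.ι x, m3⟩ hr.2.1 rfl, hv'.2.1 ⟨x, m1⟩ ⟨C.ι x, m3⟩ hr.2.1 rfl]
            exact ih _ (hn ▸ hlt) ⟨C.ι x, m3⟩ rfl
          · rw [hv.2.1 ⟨C.φ x, m2⟩ ⟨C.ι (C.φ x), m4⟩ hr.2.2.1 rfl,
              hv'.2.1 ⟨C.φ x, m2⟩ ⟨C.ι (C.φ x), m4⟩ hr.2.2.1 rfl]
            exact ih _ (hn ▸ hlt) ⟨C.ι (C.φ x), m4⟩ (congrArg rk h8)
        · obtain ⟨z, hz, -⟩ := exists_pass hS hyX hb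
          have hw : Γ.t (C.e y.1) ∈ free C Bad rk j :=
            mem_filter.2 ⟨mem_univ _, hb, hc, hj, z, hz⟩
          have e3 := congrFun e1 ⟨_, hw⟩
          exact fin (cz ⟨_, hw⟩) (cz' ⟨_, hw⟩) (congrArg Prod.fst e3) (congrArg Prod.snd e3)
            (hc3 ⟨_, hw⟩ _ hyX rfl)
    exact funext fun y => key _ y rfl

theorem sum_free [Fintype W] (rk : W → ℕ) :
    ∑ j ∈ Icc 1 B, (free C Bad rk j).card ≤ (C.X.filter fun x => C.o x = true ∧
      Sum.inr (Γ.t (C.e x)) ∉ Bad ∧ ¬ Con C Bad rk (Γ.t (C.e x))).card := by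
  set G : Finset W := univ.filter fun w => Sum.inr w ∉ Bad ∧ ¬ Con C Bad rk w with hG
  have h1 : ∑ j ∈ Icc 1 B, (free C Bad rk j).card ≤
      ∑ j ∈ Icc 1 B, ∑ w ∈ G, if j ≤ (pass C w).card then 1 else 0 := by
    refine sum_le_sum fun j _ => ?_
    rw [← card_filter]
    refine card_le_card fun w hw => ?_
    obtain ⟨-, a, b, c, -⟩ := mem_filter.1 hw
    exact mem_filter.2 ⟨mem_filter.2 ⟨mem_univ _, a, b⟩, c⟩
  refine h1.trans ?_
  rw [sum_comm, card_eq_sum_card_fiberwise (f := fun x => Γ.t (C.e x)) (t := G)]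
  · refine sum_le_sum fun w hw => ?_
    rw [← card_filter]
    refine le_trans (b := (Icc 1 (pass C w).card).card) (card_le_card fun j hj => ?_) ?_
    · simp only [mem_filter, mem_Icc] at hj ⊢
      exact ⟨hj.1.1, hj.2⟩
    · rw [Nat.card_Icc, Nat.add_sub_cancel]
      refine card_le_card fun z hz => ?_
      obtain ⟨a, b, rfl⟩ := (mem_pass C).1 hz
      exact mem_filter.2 ⟨mem_filter.2 ⟨a, b, (mem_filter.1 hw).2⟩, rfl⟩
  · intro x hx
    exact mem_coe.2 (mem_filter.2 ⟨mem_univ _, (mem_filter.1 (mem_coe.1 hx)).2.2⟩)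

theorem count_free (hΓ : Γ.Folded) (hS : C.Sparse B Bad) {rk : W → ℕ}
    (hrk : Function.Injective rk) :
    4 * (C.X.filter fun x => C.o x = true ∧
      Sum.inr (Γ.t (C.e x)) ∉ Bad ∧ ¬ Con C Bad rk (Γ.t (C.e x))).card ≤
      C.X.card + 2 * (C.X \ C.Mt).card + 2 * C.irregular.card + 2 * (B * B) := by
  set PA := C.X.filter fun x => C.o x = true ∧
      Sum.inr (Γ.t (C.e x)) ∉ Bad ∧ ¬ Con C Bad rk (Γ.t (C.e x)) with hPA
  set PC := C.X.filter fun x => C.o x = true ∧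
      Sum.inr (Γ.t (C.e x)) ∉ Bad ∧ Con C Bad rk (Γ.t (C.e x)) with hPC
  set Pg := C.X.filter fun x => C.o x = true ∧ Sum.inr (Γ.t (C.e x)) ∉ Bad with hPg
  set R := Pg.filter fun x => C.Regular x ∧ Sum.inr (Γ.t (C.e (C.ι x))) ∉ Bad with hR
  have h0 : PC.card + PA.card = Pg.card := by
    rw [← card_filter_add_card_filter_not (s := Pg) fun x => Con C Bad rk (Γ.t (C.e x)), hPA, hPC,
      hPg, filter_filter, filter_filter]
    simp only [and_assoc]
  have hSt : ∀ x ∈ Pg, x ∈ C.St := fun x hx => by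
    obtain ⟨a, b, c⟩ := mem_filter.1 hx
    exact pass_St hS c ((mem_pass C).2 ⟨a, b, rfl⟩)
  have h1 : 2 * Pg.card ≤ C.X.card := by
    rw [← card_filter_add_card_filter_not (s := C.X) fun x => C.o x = true, two_mul]
    refine add_le_add (card_le_card fun x hx => ?_)
      (card_le_card_of_injOn C.φ (fun x hx => ?_) fun x hx y hy h => C.φ_inj x (hSt x hx) y
        (hSt y hy) h)
    · obtain ⟨a, b, -⟩ := mem_filter.1 hx
      exact mem_filter.2 ⟨a, b⟩
    · have hx' := hSt x hx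
      obtain ⟨-, b, -⟩ := mem_filter.1 (mem_coe.1 hx)
      exact mem_coe.2 (mem_filter.2 ⟨C.φ_mem x hx', by simp [(St_next hx' b).1]⟩)
  set Z := C.Mt.filter fun x => Sum.inr (Γ.t (C.e (C.ι x))) ∈ Bad with hZ
  have h2 : Z.card ≤ B * B := by
    refine le_trans (card_le_card_of_injOn C.ι (fun x hx => ?_) fun x hx y hy h => ?_)
      (card_bad hS)
    · obtain ⟨a, b⟩ := mem_filter.1 (mem_coe.1 hx)
      exact mem_coe.2 (mem_filter.2 ⟨C.Mt_sub (C.ι_mem x a), b⟩)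
    · rw [← C.ι_ι x (mem_filter.1 (mem_coe.1 hx)).1, h, C.ι_ι y (mem_filter.1 (mem_coe.1 hy)).1]
  have h3 : Pg.card ≤ R.card + (C.X \ C.Mt).card + C.irregular.card + Z.card := by
    refine le_trans (card_le_card (t := R ∪ (C.X \ C.Mt) ∪ C.irregular ∪ Z) fun x hx => ?_)
      ((card_union_le _ _).trans (Nat.add_le_add_right ((card_union_le _ _).trans
        (Nat.add_le_add_right (card_union_le _ _) _)) _))
    simp only [mem_union]
    by_cases a : x ∈ C.Mt
    · by_cases b : C.Regular x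
      · by_cases c : Sum.inr (Γ.t (C.e (C.ι x))) ∈ Bad
        · exact Or.inr (mem_filter.2 ⟨a, c⟩)
        · exact Or.inl (Or.inl (Or.inl (mem_filter.2 ⟨hx, b, c⟩)))
      · exact Or.inl (Or.inr (mem_filter.2 ⟨a, b⟩))
    · exact Or.inl (Or.inl (Or.inr (mem_sdiff.2 ⟨(mem_filter.1 hx).1, a⟩)))
  have h4 : R.card ≤ 2 * PC.card := by
    rw [← card_filter_add_card_filter_not (s := R)
      fun x => rk (Γ.t (C.e (C.ι x))) < rk (Γ.t (C.e x)), two_mul]
    refine add_le_add (card_le_card fun x hx => ?_)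
      (card_le_card_of_injOn (fun x => C.ι (C.φ x)) (fun x hx => ?_) fun x hx y hy h => ?_)
    · obtain ⟨hxR, hlt⟩ := mem_filter.1 hx
      obtain ⟨hxP, hr, hg⟩ := mem_filter.1 hxR
      obtain ⟨a, b, c⟩ := mem_filter.1 hxP
      exact mem_filter.2 ⟨a, b, c, x, (mem_pass C).2 ⟨a, b, rfl⟩, hr, hg, hlt⟩
    · obtain ⟨hxR, hlt⟩ := mem_filter.1 (mem_coe.1 hx)
      obtain ⟨hxP, hr, hg⟩ := mem_filter.1 hxR
      obtain ⟨a, b, c⟩ := mem_filter.1 hxP
      obtain ⟨f1, f2, f3, f4⟩ := regular_facts hr b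
      have hne : rk (Γ.t (C.e x)) ≠ rk (Γ.t (C.e (C.ι x))) := fun h =>
        C.ι_ne x hr.2.1 (hΓ.2 _ _ (hrk h).symm (C.ι_lab x hr.2.1))
      have hX : C.ι (C.φ x) ∈ C.X := C.Mt_sub (C.ι_mem _ hr.2.2.1)
      refine mem_coe.2 (mem_filter.2 ⟨hX, f1, f2 ▸ hg, C.ι (C.φ x),
        (mem_pass C).2 ⟨hX, f1, rfl⟩, f3, f4 ▸ c, ?_⟩)
      rw [f4, f2]
      exact lt_of_le_of_ne (not_lt.1 hlt) hne
    · have hr := (mem_filter.1 (mem_filter.1 (mem_coe.1 hx)).1).2.1
      have hr' := (mem_filter.1 (mem_filter.1 (mem_coe.1 hy)).1).2.1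
      refine C.φ_inj x hr.1 y hr'.1 ?_
      rw [← C.ι_ι _ hr.2.2.1, ← C.ι_ι _ hr'.2.2.1]
      exact congrArg C.ι h
  omega

end LCLabels

open LCLabels in
theorem Cluster.nLab_le [Fintype W] [Fintype P] (hΓ : Γ.Folded) (C : Cluster Γ D) {B : ℕ}
    {Bad : Finset (U ⊕ W)} (hS : C.Sparse B Bad) (Pr : Finset (P × P)) :
    ∃ f : ℕ → ℕ,
      (∀ j, C.nLab Pr j ≤ Pr.card ^ f j * (Fintype.card P + 1) ^ (B * B)) ∧
      4 * ∑ j ∈ Finset.Icc 1 B, f j ≤
        C.X.card + 2 * (C.X \ C.Mt).card + 2 * C.irregular.card + 2 * (B * B) := by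
  obtain ⟨rk, h1, h2⟩ := exists_rank (fun w => (pass C w).card) B (card_pass_le hS)
  exact ⟨fun j => (free C Bad rk j).card, nLab_le_free hS Pr h2,
    (Nat.mul_le_mul_left 4 (sum_free rk)).trans (count_free hΓ hS h1)⟩

end Crest.Agent.R177
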