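import Crest.Agent.R177.LCMult

/-!
# Sums over the multiplicity levels
-/

set_option autoImplicit false

namespace Crest.Agent.R177

open Classical

variable {U W E P : Type} {Γ : BGraph U W E P} {D : Type}

theorem Cluster.mult_pos (C : Cluster Γ D) {x : D} (hx : x ∈ C.X) : 1 ≤ C.mult (C.e x) :=
  Finset.card_pos.mpr ⟨x, Finset.mem_filter.mpr ⟨hx, rfl⟩⟩

theorem Cluster.Sparse.mult_le {C : Cluster Γ D} {B : ℕ} {Bad : Finset (U ⊕ W)}
    (hS : C.Sparse B Bad) (d : E) : C.mult d ≤ B := by
  refine le_trans (Finset.card_le_card ?_) (hS.inc_s (Γ.s d))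
  intro z hz
  simp only [Finset.mem_filter] at hz ⊢
  exact ⟨hz.1, by rw [hz.2]⟩

theorem Cluster.card_ends_eq (C : Cluster Γ D) : C.starts.card = C.ends.card := by
  unfold Cluster.starts Cluster.ends
  have h1 : C.St.image C.φ ⊆ C.X := by
    intro z hz
    obtain ⟨x, hx, rfl⟩ := Finset.mem_image.mp hz
    exact C.φ_mem x hx
  rw [Finset.card_sdiff_of_subset h1, Finset.card_sdiff_of_subset C.St_sub,
    Finset.card_image_of_injOn fun x hx y hy h => C.φ_inj x hx y hy h]

/-- The local inequality at the vertex `y`. -/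
theorem Cluster.two_mult_le (C : Cluster Γ D) {d : E} {y : U ⊕ W} (h : Γ.Meets d y) :
    2 * C.mult d ≤ (C.X.filter fun z => Γ.head (C.e z) (C.o z) = y).card +
      (C.X.filter fun z => Γ.tail (C.e z) (C.o z) = y).card +
      ((C.ends.filter fun z => Γ.head (C.e z) (C.o z) = y).card +
      (C.starts.filter fun z => Γ.tail (C.e z) (C.o z) = y).card) := by
  rw [C.mult_split h]
  have split : ∀ f : D → U ⊕ W, (C.X.filter fun z => f z = y).card =
      (C.X.filter fun z => f z = y ∧ C.e z = d).card +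
        (C.X.filter fun z => f z = y ∧ C.e z ≠ d).card := by
    intro f
    rw [← Finset.filter_filter, ← Finset.filter_filter,
      Finset.card_filter_add_card_filter_not]
  -- arriving positions over `d`
  have hA : (C.X.filter fun z => Γ.head (C.e z) (C.o z) = y ∧ C.e z = d).card ≤
      (C.ends.filter fun z => Γ.head (C.e z) (C.o z) = y).card +
      (C.X.filter fun z => Γ.tail (C.e z) (C.o z) = y ∧ C.e z ≠ d).card := by
    have i1 : (C.St.filter fun z => Γ.head (C.e z) (C.o z) = y ∧ C.e z = d).card ≤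
        (C.X.filter fun z => Γ.tail (C.e z) (C.o z) = y ∧ C.e z ≠ d).card := by
      apply Finset.card_le_card_of_injOn C.φ
      · intro z hz
        simp only [Finset.coe_filter, Set.mem_ofPred_eq] at hz ⊢
        obtain ⟨s1, s2⟩ := C.step z hz.1
        exact ⟨C.φ_mem z hz.1, s1 ▸ hz.2.1, hz.2.2 ▸ s2⟩
      · intro z hz z' hz' h
        simp only [Finset.coe_filter, Set.mem_ofPred_eq] at hz hz'
        exact C.φ_inj z hz.1 z' hz'.1 h
    refine le_trans ?_ (Nat.add_le_add_left i1 _)
    refine le_trans (Finset.card_le_card ?_) (Finset.card_union_le _ _)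
    intro z hz
    simp only [Finset.mem_filter, Finset.mem_union, Cluster.ends, Finset.mem_sdiff] at hz ⊢
    by_cases hSt : z ∈ C.St
    · exact Or.inr ⟨hSt, hz.2⟩
    · exact Or.inl ⟨⟨hz.1, hSt⟩, hz.2.1⟩
  -- leaving positions over `d`
  have hL : (C.X.filter fun z => Γ.tail (C.e z) (C.o z) = y ∧ C.e z = d).card ≤
      (C.starts.filter fun z => Γ.tail (C.e z) (C.o z) = y).card +
      (C.X.filter fun z => Γ.head (C.e z) (C.o z) = y ∧ C.e z ≠ d).card := by
    have i1 : ((C.St.filter fun z => Γ.head (C.e z) (C.o z) = y ∧ C.e z ≠ d).image C.φ).card ≤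
        (C.X.filter fun z => Γ.head (C.e z) (C.o z) = y ∧ C.e z ≠ d).card :=
      Finset.card_image_le.trans (Finset.card_le_card (Finset.filter_subset_filter _ C.St_sub))
    refine le_trans ?_ (Nat.add_le_add_left i1 _)
    refine le_trans (Finset.card_le_card ?_) (Finset.card_union_le _ _)
    intro z hz
    simp only [Finset.mem_filter, Finset.mem_union, Cluster.starts, Finset.mem_sdiff,
      Finset.mem_image] at hz ⊢
    by_cases hSt : ∃ a ∈ C.St, C.φ a = z
    · obtain ⟨a, ha, rfl⟩ := hSt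
      obtain ⟨s1, s2⟩ := C.step a ha
      exact Or.inr ⟨a, ⟨ha, s1.trans hz.2.1, fun h' => s2 (hz.2.2.trans h'.symm)⟩, rfl⟩
    · exact Or.inl ⟨⟨hz.1, hSt⟩, hz.2.1⟩
  have s1 := split fun z => Γ.head (C.e z) (C.o z)
  have s2 := split fun z => Γ.tail (C.e z) (C.o z)
  omega

/-- `d ∈ EE j ↔ d ∈ X.image e ∧ j ≤ mult d`, and `1 ≤ mult d ≤ B` on the image (`inc_s`). -/
theorem Cluster.sum_EE (C : Cluster Γ D) {B : ℕ} {Bad : Finset (U ⊕ W)} (hS : C.Sparse B Bad) :
    ∑ j ∈ Finset.Icc 1 B, (C.EE j).card = C.X.card := by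
  have h1 : ∀ j, C.EE j = (C.X.image C.e).filter fun d => j ≤ C.mult d := by
    intro j
    ext d
    simp only [Cluster.EE, Cluster.Y, Finset.mem_image, Finset.mem_filter]
    constructor
    · rintro ⟨x, ⟨hx, hj⟩, rfl⟩
      exact ⟨⟨x, hx, rfl⟩, hj⟩
    · rintro ⟨⟨x, hx, rfl⟩, hj⟩
      exact ⟨x, ⟨hx, hj⟩, rfl⟩
  simp only [h1, Finset.card_filter]
  rw [Finset.sum_comm, Finset.card_eq_sum_card_image C.e C.X]
  apply Finset.sum_congr rfl
  intro d _
  rw [← Finset.card_filter]
  have : (Finset.Icc 1 B).filter (fun j => j ≤ C.mult d) = Finset.Icc 1 (C.mult d) := by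
    ext j
    have := hS.mult_le d
    simp only [Finset.mem_filter, Finset.mem_Icc]
    omega
  rw [this, Nat.card_Icc]
  simp only [Cluster.mult, Nat.add_sub_cancel]

/-- Euler characteristic of the levels.  For a vertex `y` let `inc y` be the number of positions
whose edge meets `y`, `en y` the number of ends with head `y` plus the number of starts with tail
`y`.  For an edge `d` at `y`: `2 * mult d ≤ inc y + en y` (a position over `d` arriving at `y` and in
`St` goes to `φ x`, a position over `d` leaving `y` and in `φ(St)` goes to its predecessor: an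
injection into the positions at `y` not over `d`).  The number of levels `j ∈ [1, B]` containing `y` is at
most the largest `mult d`, `d` at `y`.  Sum over `y` using `∑ inc = 2 |X|`,
`∑ en = |ends| + |starts| = 2 |ends|`. -/
theorem Cluster.sum_vertices [Fintype U] [Fintype W] (C : Cluster Γ D) (B : ℕ) :
    ∑ j ∈ Finset.Icc 1 B, ((C.UU j).card + (C.WW j).card) ≤ C.X.card + C.ends.card := by
  have h1 : ∀ j, (C.UU j).card + (C.WW j).card =
      ((Finset.univ : Finset (U ⊕ W)).filter fun y => ∃ x ∈ C.Y j, Γ.Meets (C.e x) y).card := by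
    intro j
    rw [← Finset.card_disjSum]
    congr 1
    ext y
    rcases y with u | w
    · simp only [Finset.inl_mem_disjSum, Cluster.UU, Finset.mem_image, Finset.mem_filter,
        Finset.mem_univ, true_and]
      exact ⟨fun ⟨x, hx, h⟩ => ⟨x, hx, Or.inl (by rw [h])⟩, fun ⟨x, hx, h⟩ => ⟨x, hx, h.s_eq⟩⟩
    · simp only [Finset.inr_mem_disjSum, Cluster.WW, Finset.mem_image, Finset.mem_filter,
        Finset.mem_univ, true_and]
      exact ⟨fun ⟨x, hx, h⟩ => ⟨x, hx, Or.inr (by rw [h])⟩, fun ⟨x, hx, h⟩ => ⟨x, hx, h.t_eq⟩⟩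
  simp only [h1, Finset.card_filter]
  rw [Finset.sum_comm]
  simp only [← Finset.card_filter]
  have h2 : ∀ y : U ⊕ W,
      2 * ((Finset.Icc 1 B).filter fun j => ∃ x ∈ C.Y j, Γ.Meets (C.e x) y).card ≤
      (C.X.filter fun z => Γ.head (C.e z) (C.o z) = y).card +
      (C.X.filter fun z => Γ.tail (C.e z) (C.o z) = y).card +
      ((C.ends.filter fun z => Γ.head (C.e z) (C.o z) = y).card +
      (C.starts.filter fun z => Γ.tail (C.e z) (C.o z) = y).card) := by
    intro y
    rcases ((Finset.Icc 1 B).filter fun j => ∃ x ∈ C.Y j, Γ.Meets (C.e x) y).eq_empty_or_nonempty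
      with h | h
    · rw [h]; simp
    · obtain ⟨j, hj, hmax⟩ := Finset.exists_max_image _ id h
      obtain ⟨-, x, hx, hxy⟩ := Finset.mem_filter.mp hj
      refine le_trans (Nat.mul_le_mul_left 2 ?_) (C.two_mult_le hxy)
      have hjx : j ≤ C.mult (C.e x) := (Finset.mem_filter.mp hx).2
      calc _ ≤ (Finset.Icc 1 j).card := by
            apply Finset.card_le_card
            intro i hi
            have h3 := hmax i hi
            have h4 := (Finset.mem_Icc.mp (Finset.mem_filter.mp hi).1).1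
            exact Finset.mem_Icc.mpr ⟨h4, h3⟩
        _ ≤ C.mult (C.e x) := by rw [Nat.card_Icc]; omega
  have h3 := Finset.sum_le_sum fun y (_ : y ∈ (Finset.univ : Finset (U ⊕ W))) => h2 y
  rw [← Finset.mul_sum, Finset.sum_add_distrib, Finset.sum_add_distrib, Finset.sum_add_distrib,
    ← Finset.card_eq_sum_card_fiberwise (fun _ _ => Finset.mem_univ _),
    ← Finset.card_eq_sum_card_fiberwise (fun _ _ => Finset.mem_univ _),
    ← Finset.card_eq_sum_card_fiberwise (fun _ _ => Finset.mem_univ _),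
    ← Finset.card_eq_sum_card_fiberwise (fun _ _ => Finset.mem_univ _), C.card_ends_eq] at h3
  omega

/-- At a main vertex `u` with `inl u ∉ Bad`, met by a position, there are exactly two edges
`d₁ ≠ d₂` of the image, `mult d₁ = mult d₂ =: μ ≤ B` (`mult_eq`), the vertex meets `2 μ`
positions and lies in `U2 j` for `1 ≤ j ≤ μ`.  The other main vertices (at most `B`) meet at most
`B` positions each. -/
theorem Cluster.sum_U2 [Fintype U] (C : Cluster Γ D) {B : ℕ} {Bad : Finset (U ⊕ W)}
    (hS : C.Sparse B Bad) :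
    C.X.card ≤ 2 * ∑ j ∈ Finset.Icc 1 B, (C.U2 j).card + B * B := by
  have h1 : ∀ j, (C.U2 j).card =
      ((Finset.univ : Finset U).filter fun u => u ∈ C.U2 j).card := by
    intro j
    congr 1
    ext u
    simp
  simp only [h1, Finset.card_filter]
  rw [Finset.sum_comm]
  simp only [← Finset.card_filter]
  have h2 : ∀ u : U, (C.X.filter fun z => Γ.s (C.e z) = u).card ≤
      2 * ((Finset.Icc 1 B).filter fun j => u ∈ C.U2 j).card +
        if (Sum.inl u : U ⊕ W) ∈ Bad then B else 0 := by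
    intro u
    by_cases hu : (Sum.inl u : U ⊕ W) ∈ Bad
    · rw [if_pos hu]
      exact le_trans (hS.inc_s u) (Nat.le_add_left _ _)
    rw [if_neg hu, Nat.add_zero]
    rcases (C.X.filter fun z => Γ.s (C.e z) = u).eq_empty_or_nonempty with h | ⟨x₀, hx₀⟩
    · rw [h]; simp
    obtain ⟨hx₀X, hx₀u⟩ := Finset.mem_filter.mp hx₀
    obtain ⟨x, hx, hxu⟩ : ∃ x ∈ C.X, Γ.head (C.e x) (C.o x) = Sum.inl u := by
      have m : Γ.Meets (C.e x₀) (Sum.inl u) := Or.inl (by rw [hx₀u])
      rcases m.head_or_tail (C.o x₀) with h | h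
      · exact ⟨x₀, hx₀X, h⟩
      · obtain ⟨z, hz, rfl⟩ := hS.tail_St x₀ hx₀X (by rw [h]; exact hu)
        exact ⟨z, C.St_sub hz, (C.step z hz).1.trans h⟩
    have hb : Γ.head (C.e x) (C.o x) ∉ Bad := by rw [hxu]; exact hu
    have hSt : x ∈ C.St := hS.head_St x hx hb
    obtain ⟨s1, s2⟩ := C.step x hSt
    obtain ⟨m1, m2⟩ := C.mult_eq hS hx hb
    have m3 : Γ.Meets (C.e x) (Sum.inl u) := by rw [← hxu]; exact Γ.meets_head _ _
    have m4 : Γ.Meets (C.e (C.φ x)) (Sum.inl u) := by rw [← hxu, s1]; exact Γ.meets_tail _ _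
    have c1 : (C.X.filter fun z => Γ.s (C.e z) = u).card ≤
        C.mult (C.e x) + C.mult (C.e (C.φ x)) := by
      refine le_trans (Finset.card_le_card ?_) (Finset.card_union_le _ _)
      intro z hz
      simp only [Finset.mem_filter, Finset.mem_union] at hz ⊢
      rcases hS.two hu hx (C.φ_mem x hSt) hz.1 m3 m4 (Or.inl (by rw [hz.2])) s2.symm with h | h
      · exact Or.inl ⟨hz.1, h⟩
      · exact Or.inr ⟨hz.1, h⟩
    have c2 : C.mult (C.e x) ≤ ((Finset.Icc 1 B).filter fun j => u ∈ C.U2 j).card := by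
      calc C.mult (C.e x) = (Finset.Icc 1 (C.mult (C.e x))).card := by simp
        _ ≤ _ := by
          apply Finset.card_le_card
          intro j hj
          obtain ⟨hj1, hj2⟩ := Finset.mem_Icc.mp hj
          have hxY : x ∈ C.Y j := Finset.mem_filter.mpr ⟨hx, hj2⟩
          have hφY : C.φ x ∈ C.Y j :=
            Finset.mem_filter.mpr ⟨C.φ_mem x hSt, by rw [m2, ← m1]; exact hj2⟩
          refine Finset.mem_filter.mpr ⟨Finset.mem_Icc.mpr ⟨hj1, hj2.trans (hS.mult_le _)⟩, ?_⟩
          refine Finset.mem_filter.mpr ⟨Finset.mem_image.mpr ⟨x, hxY, m3.s_eq⟩, ?_⟩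
          exact ⟨x, hxY, C.φ x, hφY, m3.s_eq, m4.s_eq, s2.symm⟩
    omega
  have h3 := Finset.sum_le_sum fun u (_ : u ∈ (Finset.univ : Finset U)) => h2 u
  rw [← Finset.card_eq_sum_card_fiberwise (f := fun z => Γ.s (C.e z))
    (fun _ _ => Finset.mem_univ _), Finset.sum_add_distrib, ← Finset.mul_sum] at h3
  refine h3.trans (Nat.add_le_add_left ?_ _)
  rw [← Finset.sum_filter, Finset.sum_const, smul_eq_mul]
  apply Nat.mul_le_mul_right
  refine le_trans ?_ hS.card_le
  apply Finset.card_le_card_of_injOn (fun u => (Sum.inl u : U ⊕ W))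
  · intro u hu
    simpa using hu
  · intro u _ v _ h
    exact Sum.inl.inj h

end Crest.Agent.R177
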