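import Mathlib

/-!
# Choice of the constants for the first moment computation
-/

set_option autoImplicit false

namespace Crest.Agent.R177

open Real

theorem eventually_log_lt (a b δ : ℝ) (hb : 0 ≤ b) (hδ : 0 < δ) :
    ∃ ρ₀ : ℕ, ∀ ρ : ℕ, ρ₀ ≤ ρ → a + b * Real.log ρ < δ * ρ := by
  set ε : ℝ := δ / (2 * (b + 1)) with hε
  have hεpos : 0 < ε := by positivity
  obtain ⟨ρ₀, hρ₀⟩ := exists_nat_gt (2 * (|a| + b * |Real.log ε|) / δ)
  refine ⟨ρ₀ + 1, fun ρ hρ => ?_⟩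
  have hρ1 : (ρ₀ : ℝ) + 1 ≤ ρ := by exact_mod_cast hρ
  have hρ0 : (0 : ℝ) ≤ ρ₀ := Nat.cast_nonneg _
  have hρpos : (0 : ℝ) < ρ := by linarith
  have h1 : Real.log (ε * ρ) ≤ ε * ρ - 1 := Real.log_le_sub_one_of_pos (by positivity)
  rw [Real.log_mul hεpos.ne' hρpos.ne'] at h1
  have h2 : Real.log ρ ≤ ε * ρ + |Real.log ε| := by
    have := neg_abs_le (Real.log ε)
    linarith
  have h3 : b * Real.log ρ ≤ b * (ε * ρ) + b * |Real.log ε| := by
    have := mul_le_mul_of_nonneg_left h2 hb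
    linarith
  have h4 : b * (ε * ρ) ≤ δ / 2 * ρ := by
    have : b * ε ≤ δ / 2 := by
      rw [hε, mul_div_assoc', div_le_div_iff₀ (by positivity) (by positivity)]
      nlinarith
    nlinarith
  have h5 : 2 * (|a| + b * |Real.log ε|) < δ * ρ := by
    rw [div_lt_iff₀ hδ] at hρ₀
    nlinarith
  have := le_abs_self a
  linarith

theorem exists_params (Q t c₀ Dg : ℕ) (hQ : 2 ≤ Q) (ht : t < Q ^ 2) :
    ∃ H T : ℕ, 0 < H ∧ 0 < T ∧ ∀ K ℓ₀ r Z A N B₃ : ℕ, 0 < r → 0 < K → 0 < Z → 0 < A →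
      ∃ ρ M n₁ : ℕ, 0 < ρ ∧ ℓ₀ ≤ ρ ∧ ℓ₀ ≤ M ∧ r ∣ M ∧ 0 < n₁ ∧
        n₁ + K * (5 * ρ) + (Dg + 1) ^ (5 * ρ + 2) + c₀ ≤ Q * M ∧
        ∀ n u F A₂ c : ℕ, 5 * ρ ≤ K * n → H * u < n → c * (T * (5 * ρ)) ≤ n →
          4 * F ≤ n + 2 * u + B₃ → n ≤ 2 * A₂ + B₃ →
          Z * (A * (2 * ρ + 2)) ^ N * t ^ F * (Q * (M + c₀)) ^ (n + c) < n₁ ^ n * Q ^ A₂ := by
  set t' : ℕ := max t 1 with ht'
  have ht'1 : 1 ≤ t' := le_max_right _ _
  have ht'Q : t' < Q ^ 2 := max_lt ht (by nlinarith)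
  have hQR : (2 : ℝ) ≤ Q := by exact_mod_cast hQ
  set τ : ℝ := Real.log t' with hτ
  set lq : ℝ := Real.log Q with hlq
  have hτ0 : 0 ≤ τ := Real.log_nonneg (by exact_mod_cast ht'1)
  have hlq0 : 0 < lq := Real.log_pos (by linarith)
  have hγ : 0 < 2 * lq - τ := by
    have h1 : τ < Real.log ((Q : ℝ) ^ 2) :=
      Real.log_lt_log (by exact_mod_cast ht'1) (by exact_mod_cast ht'Q)
    rw [Real.log_pow] at h1
    push_cast at h1
    linarith
  set γ : ℝ := 2 * lq - τ with hγdef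
  set C₁ : ℝ := Real.log (Dg + 1) + 1 with hC₁
  have hlogD : 0 ≤ Real.log ((Dg : ℝ) + 1) :=
    Real.log_nonneg (by have := (Nat.cast_nonneg Dg : (0 : ℝ) ≤ Dg); linarith)
  obtain ⟨H, hH⟩ := exists_nat_gt (8 * τ / γ)
  obtain ⟨T, hT⟩ := exists_nat_gt (16 * C₁ / γ)
  obtain ⟨J, hJ⟩ := exists_nat_gt (16 / γ)
  have hHpos : 0 < H := by
    have : (0 : ℝ) < H := lt_of_le_of_lt (by positivity) hH
    exact_mod_cast this
  have hTpos : 0 < T := by
    have : (0 : ℝ) < T := lt_of_le_of_lt (by positivity) hT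
    exact_mod_cast this
  have hJpos : (0 : ℝ) < J := lt_of_le_of_lt (by positivity) hJ
  refine ⟨H, T, hHpos, hTpos, fun K ℓ₀ r Z A N B₃ hr hK hZ hA => ?_⟩
  set C₄ : ℕ := Q * (r * (J + 1) + 1) * (Q * c₀ + c₀ + K + (Dg + 1) ^ 2) with hC₄
  have hKR : (0 : ℝ) < K := by exact_mod_cast hK
  obtain ⟨ρ₁, hρ₁⟩ := eventually_log_lt (Real.log C₄ + Real.log 5) 1 5 zero_le_one (by norm_num)
  obtain ⟨ρ₂, hρ₂⟩ := eventually_log_lt
    (Real.log Z + N * Real.log (4 * A) + B₃ * (τ / 4 + lq / 2)) N (5 * γ / (16 * K))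
    (Nat.cast_nonneg _) (by positivity)
  set ρ : ℕ := max (max ρ₁ ρ₂) (max ℓ₀ 1) with hρ
  have hρa : ρ₁ ≤ ρ := le_trans (le_max_left _ _) (le_max_left _ _)
  have hρb : ρ₂ ≤ ρ := le_trans (le_max_right _ _) (le_max_left _ _)
  have hρc : ℓ₀ ≤ ρ := le_trans (le_max_left _ _) (le_max_right _ _)
  have hρd : 1 ≤ ρ := le_trans (le_max_right _ _) (le_max_right _ _)
  clear_value ρ
  set G : ℕ := c₀ + K * (5 * ρ) + (Dg + 1) ^ (5 * ρ + 2) with hG
  set Δ : ℕ := Q * c₀ + G with hΔ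
  set M : ℕ := r * ((J + 1) * Δ) with hM
  have hΔρ : ρ ≤ Δ := by
    have : ρ ≤ K * (5 * ρ) := by nlinarith
    omega
  have hΔpos : 0 < Δ := by omega
  have hMΔ : (J + 1) * Δ ≤ M := Nat.le_mul_of_pos_left _ hr
  have hQM : M ≤ Q * M := Nat.le_mul_of_pos_left _ (by omega)
  have hJΔ : (J + 1) * Δ = J * Δ + Δ := by ring
  have hGle : G ≤ Q * M := by omega
  set n₁ : ℕ := Q * M - G with hn₁
  have hn₁J : J * Δ ≤ n₁ := by omega
  have hJ1 : 1 ≤ J := by exact_mod_cast hJpos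
  have hn₁pos : 0 < n₁ := lt_of_lt_of_le (Nat.mul_pos hJ1 hΔpos) hn₁J
  have hb : Q * (M + c₀) = n₁ + Δ := by
    rw [mul_add]; omega
  refine ⟨ρ, M, n₁, hρd, hρc, by nlinarith, Dvd.intro _ rfl, hn₁pos, by omega, ?_⟩
  intro n u F A₂ c hn hu hc hF hA₂
  have hρR : (1 : ℝ) ≤ ρ := by exact_mod_cast hρd
  have hn₁R : (0 : ℝ) < n₁ := by exact_mod_cast hn₁pos
  set b : ℕ := Q * (M + c₀) with hbdef
  have hbpos : 0 < b := by omega
  have hbR : (0 : ℝ) < b := by exact_mod_cast hbpos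
  -- log b ≤ log n₁ + γ / 16
  have hlb1 : Real.log b ≤ Real.log n₁ + γ / 16 := by
    have h1 : (b : ℝ) / n₁ ≤ 1 + γ / 16 := by
      rw [div_le_iff₀ hn₁R, hb]
      push_cast
      have h2 : (J : ℝ) * Δ ≤ n₁ := by exact_mod_cast hn₁J
      have h3 : 16 < γ * J := by rw [div_lt_iff₀ hγ] at hJ; linarith
      have h4 : (0 : ℝ) ≤ Δ := Nat.cast_nonneg _
      nlinarith
    have h2 := Real.log_le_sub_one_of_pos (div_pos hbR hn₁R)
    rw [Real.log_div hbR.ne' hn₁R.ne'] at h2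
    linarith
  -- log b ≤ C₁ ℓ
  have hlb2 : Real.log b ≤ C₁ * (5 * ρ) := by
    have hp : 1 ≤ (Dg + 1) ^ (5 * ρ) := Nat.one_le_pow _ _ (by omega)
    have hq : 1 ≤ 5 * ρ * (Dg + 1) ^ (5 * ρ) := by nlinarith
    have h1 : Δ ≤ (Q * c₀ + c₀ + K + (Dg + 1) ^ 2) * (5 * ρ * (Dg + 1) ^ (5 * ρ)) := by
      have e1 : Q * c₀ + c₀ ≤ (Q * c₀ + c₀) * (5 * ρ * (Dg + 1) ^ (5 * ρ)) :=
        Nat.le_mul_of_pos_right _ hq
      have e2 : K * (5 * ρ) ≤ K * (5 * ρ * (Dg + 1) ^ (5 * ρ)) :=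
        Nat.mul_le_mul_left _ (Nat.le_mul_of_pos_right _ hp)
      have e3 : (Dg + 1) ^ (5 * ρ + 2) ≤ (Dg + 1) ^ 2 * (5 * ρ * (Dg + 1) ^ (5 * ρ)) := by
        rw [pow_add, mul_comm]
        exact Nat.mul_le_mul_left _ (Nat.le_mul_of_pos_left _ (by omega))
      rw [add_mul, add_mul]
      omega
    have h2 : b ≤ C₄ * (5 * ρ * (Dg + 1) ^ (5 * ρ)) := by
      have e1 : M + c₀ ≤ (r * (J + 1) + 1) * Δ := by
        have : c₀ ≤ Δ := by omega
        rw [add_mul, one_mul, mul_assoc]; omega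
      calc b ≤ Q * ((r * (J + 1) + 1) * Δ) := Nat.mul_le_mul_left _ e1
        _ ≤ Q * ((r * (J + 1) + 1) * ((Q * c₀ + c₀ + K + (Dg + 1) ^ 2) *
            (5 * ρ * (Dg + 1) ^ (5 * ρ)))) :=
          Nat.mul_le_mul_left _ (Nat.mul_le_mul_left _ h1)
        _ = _ := by rw [hC₄]; ring
    have hC₄pos : 0 < C₄ := by
      rw [hC₄]; positivity
    have hC₄R : (0 : ℝ) < C₄ := by exact_mod_cast hC₄pos
    have h3 : (b : ℝ) ≤ C₄ * (5 * ρ * ((Dg : ℝ) + 1) ^ (5 * ρ)) := by exact_mod_cast h2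
    have h4 := Real.log_le_log hbR h3
    rw [Real.log_mul hC₄R.ne' (by positivity), Real.log_mul (by positivity) (by positivity),
      Real.log_mul (by norm_num) (by positivity), Real.log_pow] at h4
    have h5 := hρ₁ ρ hρa
    push_cast at h4
    rw [hC₁]
    nlinarith
  have hlb0 : 0 ≤ Real.log b := Real.log_nonneg (by exact_mod_cast hbpos)
  have hnR : (5 : ℝ) * ρ ≤ K * n := by exact_mod_cast hn
  have hn0 : (0 : ℝ) ≤ n := Nat.cast_nonneg _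
  -- the four error terms
  have e1 : (c : ℝ) * Real.log b ≤ n * (γ / 16) := by
    have h1 : (c : ℝ) * (T * (5 * ρ)) ≤ n := by exact_mod_cast hc
    have h2 : 16 * C₁ < γ * T := by rw [div_lt_iff₀ hγ] at hT; linarith
    have hc0 : (0 : ℝ) ≤ c := Nat.cast_nonneg _
    have h3 : (c : ℝ) * Real.log b ≤ c * (C₁ * (5 * ρ)) := mul_le_mul_of_nonneg_left hlb2 hc0
    have h4 : (c : ℝ) * (C₁ * (5 * ρ)) ≤ c * (T * (5 * ρ)) * (γ / 16) := by
      have : C₁ * (5 * ρ) ≤ T * (5 * ρ) * (γ / 16) := by nlinarith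
      nlinarith
    nlinarith
  have e2 : (u : ℝ) * τ / 2 ≤ n * (γ / 16) := by
    have h1 : (H : ℝ) * u ≤ n := by exact_mod_cast hu.le
    have h2 : 8 * τ < γ * H := by rw [div_lt_iff₀ hγ] at hH; linarith
    have hu0 : (0 : ℝ) ≤ u := Nat.cast_nonneg _
    nlinarith
  have e3 : Real.log Z + N * Real.log (A * (2 * ρ + 2)) + B₃ * (τ / 4 + lq / 2) <
      n * (γ / 16) := by
    have hAR : (0 : ℝ) < A := by exact_mod_cast hA
    have h1 : Real.log (A * (2 * ρ + 2)) ≤ Real.log (4 * A) + Real.log ρ := by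
      rw [← Real.log_mul (by positivity) (by positivity)]
      exact Real.log_le_log (by positivity) (by nlinarith)
    have h2 := hρ₂ ρ hρb
    have h3 : 5 * γ / (16 * K) * ρ ≤ n * (γ / 16) := by
      rw [div_mul_eq_mul_div, div_le_iff₀ (by positivity)]
      nlinarith
    have h4 := mul_le_mul_of_nonneg_left h1 (Nat.cast_nonneg N : (0 : ℝ) ≤ N)
    linarith
  have hFR : (4 : ℝ) * F ≤ n + 2 * u + B₃ := by exact_mod_cast hF
  have hAR : (n : ℝ) ≤ 2 * A₂ + B₃ := by exact_mod_cast hA₂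
  have key : Real.log Z + N * Real.log (A * (2 * ρ + 2)) + F * τ + (n + c) * Real.log b <
      n * Real.log n₁ + A₂ * lq := by
    have h1 : (F : ℝ) * τ ≤ (n + 2 * u + B₃) / 4 * τ :=
      mul_le_mul_of_nonneg_right (by linarith) hτ0
    have h2 : ((n : ℝ) - B₃) / 2 * lq ≤ A₂ * lq :=
      mul_le_mul_of_nonneg_right (by linarith) hlq0.le
    have h3 : (n : ℝ) * Real.log b ≤ n * (Real.log n₁ + γ / 16) :=
      mul_le_mul_of_nonneg_left hlb1 hn0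
    have h4 : (n : ℝ) * γ = n * (2 * lq - τ) := by rw [hγdef]
    nlinarith
  have hZR : (0 : ℝ) < Z := by exact_mod_cast hZ
  have hAR' : (0 : ℝ) < A := by exact_mod_cast hA
  have ht'R : (0 : ℝ) < t' := by exact_mod_cast ht'1
  have fin : (Z : ℝ) * (A * (2 * ρ + 2)) ^ N * (t' : ℝ) ^ F * (b : ℝ) ^ (n + c) <
      (n₁ : ℝ) ^ n * (Q : ℝ) ^ A₂ := by
    rw [← Real.log_lt_log_iff (by positivity) (by positivity),
      Real.log_mul (by positivity) (by positivity), Real.log_mul (by positivity) (by positivity),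
      Real.log_mul (by positivity) (by positivity), Real.log_mul (by positivity) (by positivity),
      Real.log_pow, Real.log_pow, Real.log_pow, Real.log_pow, Real.log_pow]
    push_cast
    exact key
  have fin' : Z * (A * (2 * ρ + 2)) ^ N * t' ^ F * b ^ (n + c) < n₁ ^ n * Q ^ A₂ := by
    exact_mod_cast fin
  refine lt_of_le_of_lt ?_ fin'
  gcongr
  exact le_max_left _ _

end Crest.Agent.R177
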