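import Crest.Agent.R177.LCSwitch
import Crest.Agent.R177.LCCode
import Crest.Agent.R177.LCBricks
import Crest.Agent.R177.LCCount
import Crest.Agent.R177.LCLevels
import Crest.Agent.R177.LCLabels
import Crest.Agent.R177.LCNum

/-! # Existence of graphs with large girth and the local condition -/

set_option autoImplicit false

namespace Crest.Agent.R177

open Classical

/-- Some level of a sparse cluster violating the local condition has a small first moment. -/
theorem exists_level {U W E P S D : Type} [Fintype U] [Fintype W] [Fintype P] [Fintype S]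
    {Γ : BGraph U W E P} (hΓ : Γ.Folded) (C : Cluster Γ D) {B : ℕ} {Bad : Finset (U ⊕ W)}
    (hS : C.Sparse B Bad) (nx : S → P → P → S) (Pr : Finset (P × P)) (Q c₀ M n₁ cd K : ℕ)
    (hQ : 1 ≤ Q) (hb : 0 < Q * (M + c₀)) (hirr : C.irregular.card ≤ K)
    (hnum : ∀ F A₂ : ℕ, 4 * F ≤ C.X.card + 2 * (C.X \ C.Mt).card + (2 * K + 2 * (B * B)) →
      C.X.card ≤ 2 * A₂ + (2 * K + 2 * (B * B)) →
      ((Fintype.card S + 1) ^ (B * B) * (Fintype.card P + 1) ^ (B * B)) ^ B * cd ^ B *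
        Pr.card ^ F * (Q * (M + c₀)) ^ (C.X.card + C.ends.card) < n₁ ^ C.X.card * Q ^ A₂) :
    ∃ j, (C.nCol nx Pr j * ((M + c₀) ^ (C.U2 j).card *
        (Q * M + c₀) ^ (((C.UU j).card - (C.U2 j).card) + (C.WW j).card))) * cd <
      n₁ ^ (C.EE j).card := by
  by_contra hcon
  push Not at hcon
  obtain ⟨f, hf1, hf2⟩ := C.nLab_le hΓ hS Pr
  set b := Q * (M + c₀) with hbdef
  set Z₀ := (Fintype.card S + 1) ^ (B * B) * (Fintype.card P + 1) ^ (B * B) with hZ₀
  have hj : ∀ j, n₁ ^ (C.EE j).card * Q ^ (C.U2 j).card ≤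
      Z₀ * cd * Pr.card ^ f j * b ^ ((C.UU j).card + (C.WW j).card) := by
    intro j
    have h1 : C.nCol nx Pr j ≤ Z₀ * Pr.card ^ f j := by
      calc C.nCol nx Pr j ≤ (Fintype.card S + 1) ^ (B * B) * C.nLab Pr j := C.nCol_le hS nx Pr j
        _ ≤ (Fintype.card S + 1) ^ (B * B) * (Pr.card ^ f j * (Fintype.card P + 1) ^ (B * B)) :=
          Nat.mul_le_mul_left _ (hf1 j)
        _ = _ := by rw [hZ₀]; ring
    have h2 : Q * M + c₀ ≤ b := by
      have : c₀ ≤ Q * c₀ := Nat.le_mul_of_pos_left _ hQ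
      rw [hbdef, mul_add]; omega
    have h3 : (C.U2 j).card ≤ (C.UU j).card := Finset.card_le_card (Finset.filter_subset _ _)
    have h4 : (C.UU j).card + (C.WW j).card =
        (C.U2 j).card + (((C.UU j).card - (C.U2 j).card) + (C.WW j).card) := by omega
    calc n₁ ^ (C.EE j).card * Q ^ (C.U2 j).card
        ≤ (C.nCol nx Pr j * ((M + c₀) ^ (C.U2 j).card *
          (Q * M + c₀) ^ (((C.UU j).card - (C.U2 j).card) + (C.WW j).card))) * cd *
            Q ^ (C.U2 j).card := Nat.mul_le_mul_right _ (hcon j)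
      _ ≤ ((Z₀ * Pr.card ^ f j) * ((M + c₀) ^ (C.U2 j).card *
          b ^ (((C.UU j).card - (C.U2 j).card) + (C.WW j).card))) * cd *
            Q ^ (C.U2 j).card := by gcongr
      _ = _ := by
        have h5 : b ^ (C.U2 j).card = Q ^ (C.U2 j).card * (M + c₀) ^ (C.U2 j).card :=
          mul_pow _ _ _
        rw [h4, pow_add b (C.U2 j).card, h5]
        generalize b ^ (((C.UU j).card - (C.U2 j).card) + (C.WW j).card) = x
        generalize (M + c₀) ^ (C.U2 j).card = y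
        ring
  have hprod := Finset.prod_le_prod' (s := Finset.Icc 1 B) fun j _ => hj j
  simp only [Finset.prod_mul_distrib, Finset.prod_pow_eq_pow_sum, Finset.prod_const,
    Nat.card_Icc, Nat.add_sub_cancel] at hprod
  rw [C.sum_EE hS] at hprod
  have hV := C.sum_vertices B
  have hU := C.sum_U2 hS
  have hlt := hnum (∑ j ∈ Finset.Icc 1 B, f j) (∑ j ∈ Finset.Icc 1 B, (C.U2 j).card)
    (by omega) (by omega)
  have hpow : b ^ (∑ j ∈ Finset.Icc 1 B, ((C.UU j).card + (C.WW j).card)) ≤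
      b ^ (C.X.card + C.ends.card) := Nat.pow_le_pow_right hb hV
  have := Nat.mul_le_mul_left (Z₀ ^ B * cd ^ B * Pr.card ^ (∑ j ∈ Finset.Icc 1 B, f j)) hpow
  omega

theorem Cluster.exists_brick' {U W E P D : Type} {Γ : BGraph U W E P} {ρ K B : ℕ}
    (hB : B = 13 * K) (hg : Γ.Girth (5 * ρ)) (hρ : 0 < ρ) (hK : 0 < K)
    (C : Cluster Γ D) (hne : C.X.Nonempty)
    (h1 : C.X.card ≤ K * (5 * ρ)) (h2 : C.ends.card ≤ K) (h3 : C.irregular.card ≤ K) :
    ∃ (C' : Cluster Γ (Fin B × ℕ)) (len : Fin B → ℕ)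
      (mate : Fin B → Option (Fin B)), IsBrick C' (2 * ρ) len mate ∧
      C'.X.card = C.X.card ∧ C'.ends.card = C.ends.card ∧
      C'.irregular.card = C.irregular.card ∧
      (C'.X \ C'.Mt).card = (C.X \ C.Mt).card := by
  subst hB
  exact C.exists_brick hg hρ hK hne h1 h2 h3

theorem exists_good : GoodGraphs := by
  intro P S _ _ Q c₀ Pr hQ hPr
  obtain ⟨H, T, hH, hT, hpar⟩ := exists_params Q Pr.card c₀ (Fintype.card P) hQ hPr
  refine ⟨H, T, hH, hT, fun K ℓ₀ r hr => ?_⟩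
  obtain ⟨K₁, hK₁⟩ : ∃ K₁, K₁ = K + 1 := ⟨_, rfl⟩
  obtain ⟨B, hB⟩ : ∃ B, B = 13 * K₁ := ⟨_, rfl⟩
  obtain ⟨B', hB'⟩ : ∃ B', B' = 2 * B * B + 2 * B := ⟨_, rfl⟩
  obtain ⟨Z, hZ⟩ : ∃ Z, Z =
    ((Fintype.card S + 1) ^ (B' * B') * (Fintype.card P + 1) ^ (B' * B')) ^ B' := ⟨_, rfl⟩
  obtain ⟨ρ, M, n₁, hρ, hρℓ, hMℓ, hrM, hn₁, hsize, hnum⟩ :=
    hpar K₁ ℓ₀ r Z (2 * (B + 1)) ((3 * B + 4 * B * B) * B') (2 * K₁ + 2 * (B' * B')) hr
      (by omega) (by rw [hZ]; positivity) (by omega)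
  refine ⟨5 * ρ, M, by omega, hMℓ, hrM, fun U W E _ _ _ Γ srt nx hF => ?_⟩
  obtain ⟨Ω, hΩne, hΩ, hsw⟩ := switch_main Γ (fun d => (srt d, Γ.lab d)) (Fintype.card P)
    (5 * ρ) n₁ (K₁ * (5 * ρ))
    (fun u => by
      rw [← Finset.card_univ]
      refine Finset.card_le_card_of_injOn Γ.lab (fun _ _ => by simp) ?_
      intro d hd d' hd' h
      simp only [Finset.coe_filter, Finset.mem_univ, true_and, Set.mem_ofPred_eq] at hd hd'
      exact hF.folded.1 d d' (hd.trans hd'.symm) h)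
    (fun w => by
      rw [← Finset.card_univ]
      refine Finset.card_le_card_of_injOn Γ.lab (fun _ _ => by simp) ?_
      intro d hd d' hd' h
      simp only [Finset.coe_filter, Finset.mem_univ, true_and, Set.mem_ofPred_eq] at hd hd'
      exact hF.folded.2 d d' (hd.trans hd'.symm) h)
    (fun d d' h1 h2 => hF.folded.1 d d' h1 (congrArg Prod.snd h2)) hn₁
    (fun d => by
      have h1 := hF.lower d
      have h2 : (Finset.univ.filter fun d' => (srt d', Γ.lab d') = (srt d, Γ.lab d)) =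
          Finset.univ.filter fun d' => srt d' = srt d ∧ Γ.lab d' = Γ.lab d := by
        ext d'; simp
      have h3 := congrArg Finset.card h2
      refine le_trans ?_ (le_of_eq (by convert h3.symm))
      omega)
  have hΩ' : ∀ σ ∈ Ω, ∀ d, srt (σ d) = srt d ∧ Γ.lab (σ d) = Γ.lab d := fun σ hσ d =>
    ⟨congrArg Prod.fst ((hΩ σ hσ).1 d), congrArg Prod.snd ((hΩ σ hσ).1 d)⟩
  obtain ⟨Ty, Cd, code, hCd, hmem, hsame⟩ :=
    exists_code (U := U) (W := W) (E := E) (P := P) B (2 * ρ) (5 * ρ) (by omega) (by omega)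
  by_contra hcon
  push Not at hcon
  -- violating brick clusters
  let Viol : (σ : Equiv.Perm E) → Cluster (Γ.rewire σ) (Fin B × ℕ) → (Fin B → ℕ) →
      (Fin B → Option (Fin B)) → Prop := fun σ C len mate =>
    IsBrick C (2 * ρ) len mate ∧ C.X.card ≤ K₁ * (5 * ρ) ∧ 5 * ρ ≤ K₁ * C.X.card ∧
      C.irregular.card ≤ K₁ ∧ C.ends.card * (T * (5 * ρ)) ≤ C.X.card ∧
      H * (C.X \ C.Mt).card < C.X.card
  have hviol : ∀ σ ∈ Ω, ∃ C len mate, Viol σ C len mate := by
    intro σ hσ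
    have h := hcon σ (hΩ' σ hσ) (hΩ σ hσ).2
    unfold BGraph.LC at h
    push Not at h
    obtain ⟨D, C, h1, h2, h3, h4, h5, h6⟩ := h
    have hle : ∀ m, K * m ≤ K₁ * m := fun m => Nat.mul_le_mul_right _ (by omega)
    obtain ⟨C', len, mate, hbr, e1, e2, e3, e4⟩ := C.exists_brick' (K := K₁) hB (hΩ σ hσ).2 hρ
      (by omega) (Finset.card_pos.mp (by omega)) (h1.trans (hle _)) (by omega) (by omega)
    refine ⟨C', len, mate, hbr, ?_, ?_, ?_, ?_, ?_⟩
    · rw [e1]; exact h1.trans (hle _)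
    · rw [e1]; exact h2.trans (hle _)
    · rw [e3]; omega
    · rw [e1, e2]; exact h5
    · rw [e1, e4]; exact h6
  let Ωτ : Ty → Finset (Equiv.Perm E) := fun τ =>
    Ω.filter fun σ => ∃ C len mate, Viol σ C len mate ∧ code (Γ.rewire σ) C len mate = τ
  have hcover : Ω ⊆ Cd.biUnion Ωτ := by
    intro σ hσ
    obtain ⟨C, len, mate, hv⟩ := hviol σ hσ
    exact Finset.mem_biUnion.mpr ⟨_, hmem _ C len mate (hΩ σ hσ).2 hv.1,
      Finset.mem_filter.mpr ⟨hσ, C, len, mate, hv, rfl⟩⟩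
  have hΩpos : 0 < Ω.card := hΩne.card_pos
  have hsmall : ∀ τ, (Ωτ τ).card * Cd.card < Ω.card := by
    intro τ
    rcases (Ωτ τ).eq_empty_or_nonempty with h | ⟨σ₀, hσ₀⟩
    · rw [h]; simpa using hΩpos
    obtain ⟨hσ₀Ω, C₀, len₀, mate₀, hv₀, hc₀⟩ := Finset.mem_filter.mp hσ₀
    obtain ⟨hbr, h1, h2, h4, h5, h6⟩ := hv₀
    obtain ⟨Bad, hS⟩ := hbr.sparse (hΩ σ₀ hσ₀Ω).2 (by omega)
    rw [← hB'] at hS
    have hfold : (Γ.rewire σ₀).Folded := hF.folded.rewire fun d => (hΩ' σ₀ hσ₀Ω d).2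
    have hbpos : 0 < Q * (M + c₀) := by
      have : Q * M ≤ Q * (M + c₀) := Nat.mul_le_mul_left _ (by omega)
      omega
    obtain ⟨j, hj⟩ := exists_level hfold C₀ hS nx Pr Q c₀ M n₁ Cd.card K₁ (by omega) hbpos h4
      (fun F A₂ hF' hA' => by
        refine lt_of_le_of_lt ?_ (hnum C₀.X.card (C₀.X \ C₀.Mt).card F A₂ C₀.ends.card h2 h6 h5
          (by convert hF') hA')
        rw [← hZ, pow_mul]
        gcongr)
    have hcount := count_sameType hF Ω hΩ' n₁ (K₁ * (5 * ρ)) hsw C₀ h1 j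
    have hsub : Ωτ τ ⊆ Ω.filter fun σ => ∃ C : Cluster (Γ.rewire σ) (Fin B × ℕ),
        SameType C₀ C := by
      intro σ hσ
      obtain ⟨hσΩ, C, len, mate, hv, hc⟩ := Finset.mem_filter.mp hσ
      exact Finset.mem_filter.mpr ⟨hσΩ, C, hsame _ _ C₀ C len₀ len mate₀ mate (hΩ σ₀ hσ₀Ω).2
        (hΩ σ hσΩ).2 hbr hv.1 (hc₀.trans hc.symm)⟩
    have hcard := Finset.card_le_card hsub
    set N := C₀.nCol nx Pr j * ((M + c₀) ^ (C₀.U2 j).card *
        (Q * M + c₀) ^ (((C₀.UU j).card - (C₀.U2 j).card) + (C₀.WW j).card)) with hN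
    set p := n₁ ^ (C₀.EE j).card with hp
    have h7 : (Ωτ τ).card * p ≤ Ω.card * N :=
      le_trans (Nat.mul_le_mul_right _ hcard) hcount
    have h8 : (Ωτ τ).card * Cd.card * p < Ω.card * p := by
      calc (Ωτ τ).card * Cd.card * p = (Ωτ τ).card * p * Cd.card := by ring
        _ ≤ Ω.card * N * Cd.card := Nat.mul_le_mul_right _ h7
        _ = Ω.card * (N * Cd.card) := by ring
        _ < Ω.card * p := Nat.mul_lt_mul_of_pos_left hj hΩpos
    exact Nat.lt_of_mul_lt_mul_right h8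
  have h1 : Ω.card ≤ ∑ τ ∈ Cd, (Ωτ τ).card :=
    (Finset.card_le_card hcover).trans Finset.card_biUnion_le
  have hCdne : Cd.Nonempty := by
    obtain ⟨σ, hσ⟩ := hΩne
    obtain ⟨τ, hτ, _⟩ := Finset.mem_biUnion.mp (hcover hσ)
    exact ⟨τ, hτ⟩
  have h2 : ∑ τ ∈ Cd, (Ωτ τ).card * Cd.card < ∑ _τ ∈ Cd, Ω.card :=
    Finset.sum_lt_sum_of_nonempty hCdne fun τ _ => hsmall τ
  rw [← Finset.sum_mul, Finset.sum_const, smul_eq_mul, mul_comm Cd.card] at h2
  have := Nat.lt_of_mul_lt_mul_right h2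
  omega

/-- A configuration of `R177/Local.lean` as a cluster. -/
noncomputable def clusterOfConf {U W E P Y : Type} [Fintype Y] {Γ : BGraph U W E P}
    (C : Γ.toL.Conf Y) : Cluster Γ Y where
  X := Finset.univ
  e y := (C.ed y).1
  o y := (C.ed y).2
  φ y := (C.succ y).getD y
  ι y := (C.gl y).getD y
  St := Finset.univ.filter fun y => C.succ y ≠ none
  Mt := Finset.univ.filter fun y => C.gl y ≠ none
  St_sub := Finset.subset_univ _
  φ_mem := fun _ _ => Finset.mem_univ _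
  φ_inj := by
    intro x hx y hy h
    obtain ⟨x', hx'⟩ := Option.ne_none_iff_exists'.mp (Finset.mem_filter.mp hx).2
    obtain ⟨y', hy'⟩ := Option.ne_none_iff_exists'.mp (Finset.mem_filter.mp hy).2
    rw [hx', hy', Option.getD_some, Option.getD_some] at h
    exact C.succ_inj x y y' (h ▸ hx') hy'
  step := by
    intro x hx
    obtain ⟨x', hx'⟩ := Option.ne_none_iff_exists'.mp (Finset.mem_filter.mp hx).2
    rw [hx', Option.getD_some]
    obtain ⟨h1, h2⟩ := C.succ_cont x x' hx'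
    refine ⟨?_, h2⟩
    revert h1
    rcases C.ed x with ⟨d, _ | _⟩ <;> rcases C.ed x' with ⟨d', _ | _⟩ <;> exact id
  Mt_sub := Finset.subset_univ _
  ι_mem := by
    intro x hx
    obtain ⟨x', hx'⟩ := Option.ne_none_iff_exists'.mp (Finset.mem_filter.mp hx).2
    rw [hx', Option.getD_some]
    simp [C.gl_symm x x' hx']
  ι_ι := by
    intro x hx
    obtain ⟨x', hx'⟩ := Option.ne_none_iff_exists'.mp (Finset.mem_filter.mp hx).2
    rw [hx', Option.getD_some, C.gl_symm x x' hx', Option.getD_some]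
  ι_lab := by
    intro x hx
    obtain ⟨x', hx'⟩ := Option.ne_none_iff_exists'.mp (Finset.mem_filter.mp hx).2
    rw [hx', Option.getD_some]
    exact (C.gl_lab x x' hx').1
  ι_o := by
    intro x hx
    obtain ⟨x', hx'⟩ := Option.ne_none_iff_exists'.mp (Finset.mem_filter.mp hx).2
    rw [hx', Option.getD_some]
    exact (C.gl_lab x x' hx').2.1
  ι_ne := by
    intro x hx
    obtain ⟨x', hx'⟩ := Option.ne_none_iff_exists'.mp (Finset.mem_filter.mp hx).2
    rw [hx', Option.getD_some]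
    exact (C.gl_lab x x' hx').2.2

theorem BGraph.toL_head {U W E P : Type} (Γ : BGraph U W E P) (x : E × Bool) :
    Γ.toL.head x = Γ.head x.1 x.2 := by
  rcases x with ⟨d, _ | _⟩ <;> rfl

theorem BGraph.toL_tail {U W E P : Type} (Γ : BGraph U W E P) (x : E × Bool) :
    Γ.toL.tail x = Γ.tail x.1 x.2 := by
  rcases x with ⟨d, _ | _⟩ <;> rfl

theorem BGraph.Girth.toL {U W E P : Type} {Γ : BGraph U W E P} {g : ℕ} (h : Γ.Girth g) :
    Γ.toL.Girth g := by
  intro n f hn h1 h2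
  refine h n (fun i => (f i).1) (fun i => (f i).2) hn (fun k hk => ?_) ?_
  · have := h1 k hk
    rwa [Γ.toL_head, Γ.toL_tail] at this
  · rwa [Γ.toL_head, Γ.toL_tail] at h2

theorem BGraph.Folded.toL {U W E P : Type} {Γ : BGraph U W E P} (h : Γ.Folded) :
    Γ.toL.Folded :=
  ⟨fun d d' h1 h2 => h.1 d d' (Sum.inl_injective h1) h2,
    fun d d' h1 h2 => h.2 d d' (Sum.inr_injective h1) h2⟩

/-- A nonempty cluster without open ends contains a closed walk. -/
theorem Cluster.girth_le_card {U W E P D : Type} {Γ : BGraph U W E P} {g : ℕ} (hg : Γ.Girth g)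
    (C : Cluster Γ D) (hne : C.X.Nonempty) (hSt : ∀ x ∈ C.X, x ∈ C.St) : g ≤ C.X.card := by
  obtain ⟨x, hx⟩ := hne
  have hmem : ∀ k, C.φ^[k] x ∈ C.X := by
    intro k
    induction k with
    | zero => exact hx
    | succ k ih => rw [Function.iterate_succ_apply']; exact C.φ_mem _ (hSt _ ih)
  obtain ⟨i, hi, j, hj, hij, h⟩ := Finset.exists_ne_map_eq_of_card_lt_of_maps_to
    (s := Finset.range (C.X.card + 1)) (t := C.X) (f := fun k => C.φ^[k] x) (by simp)
    (fun k _ => hmem k)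
  have key : ∀ i j, i < j → j ≤ C.X.card → C.φ^[i] x = C.φ^[j] x → g ≤ C.X.card := by
    intro i j hij hj h
    refine le_trans (hg (j - i) (fun k => C.e (C.φ^[i + k] x)) (fun k => C.o (C.φ^[i + k] x))
      (by omega) (fun k _ => ?_) ?_) (by omega)
    · have := C.step _ (hSt _ (hmem (i + k)))
      rwa [← Function.iterate_succ_apply' C.φ] at this
    · have := (C.step _ (hSt _ (hmem (i + (j - i - 1))))).1
      rw [← Function.iterate_succ_apply' C.φ,
        show (i + (j - i - 1)).succ = j by omega, ← h] at this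
      exact this
  rw [Finset.mem_range] at hi hj
  rcases lt_or_gt_of_ne hij with h' | h'
  · exact key i j h' (by omega) h
  · exact key j i h' (by omega) h.symm

theorem BGraph.LC.localOK {U W E P : Type} {Γ : BGraph U W E P} {K T g H N J : ℕ}
    (hg : Γ.Girth g) (h : Γ.LC K T g H) (hT : 0 < T) (hK : 1 ≤ K) (hN : N ≤ K) (hJ : J ≤ K) :
    Γ.toL.LocalOK (N * g) J H (T * g) := by
  intro Y _ C h1 h2
  haveI := Fintype.ofFinite Y
  have hX : (clusterOfConf C).X.card = Nat.card Y := by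
    simp [clusterOfConf, Nat.card_eq_fintype_card]
  have hends : (clusterOfConf C).ends.card = C.opn := by
    rw [LGraph.Conf.opn, Nat.card_eq_fintype_card, Fintype.card_subtype]
    congr 1
    ext y
    simp [Cluster.ends, clusterOfConf]
  have hung : ((clusterOfConf C).X \ (clusterOfConf C).Mt).card = C.ung := by
    rw [LGraph.Conf.ung, Nat.card_eq_fintype_card, Fintype.card_subtype]
    congr 1
    ext y
    simp [clusterOfConf]
  have hbent : C.bent = (Finset.univ.filter fun y => ¬ C.Straight y).card := by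
    rw [LGraph.Conf.bent, Nat.card_eq_fintype_card, Fintype.card_subtype]
  have he : (clusterOfConf C).ends.card ≤ C.bent := by
    rw [hbent]
    refine Finset.card_le_card fun y hy => ?_
    have hy' : C.succ y = none := by simpa [Cluster.ends, clusterOfConf] using hy
    simp only [Finset.mem_filter, Finset.mem_univ, true_and]
    rintro ⟨y', h', -⟩
    rw [hy'] at h'
    cases h'
  have hi : (clusterOfConf C).irregular.card ≤ C.bent := by
    rw [hbent]
    refine Finset.card_le_card fun y hy => ?_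
    obtain ⟨hy1, hy2⟩ := Finset.mem_filter.mp hy
    have hy1' : C.gl y ≠ none := (Finset.mem_filter.mp hy1).2
    simp only [Finset.mem_filter, Finset.mem_univ, true_and]
    rintro ⟨y', h', ⟨h3, -⟩ | ⟨z, z', h3, h4, h5⟩⟩
    · exact hy1' h3
    · apply hy2
      simp [Cluster.Regular, clusterOfConf, h', h3, h4, h5]
  by_cases hc : Nat.card Y ≤ T * g * C.opn
  · omega
  have hlow : g ≤ K * (clusterOfConf C).X.card := by
    refine le_trans ?_ (Nat.le_mul_of_pos_left _ hK)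
    rcases Nat.eq_zero_or_pos C.opn with h0 | h0
    · refine (clusterOfConf C).girth_le_card hg (Finset.card_pos.mp (by omega)) fun x hx => ?_
      by_contra hx'
      have : 0 < (clusterOfConf C).ends.card :=
        Finset.card_pos.mpr ⟨x, Finset.mem_sdiff.mpr ⟨hx, hx'⟩⟩
      omega
    · have : g ≤ T * g * C.opn :=
        le_trans (Nat.le_mul_of_pos_left _ hT) (Nat.le_mul_of_pos_right _ h0)
      omega
  have := h Y (clusterOfConf C) (by rw [hX]; exact h1.trans (Nat.mul_le_mul_right _ hN)) hlow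
    (by omega) (by omega) (by rw [hX, hends, mul_comm]; omega)
  rw [hX, hung] at this
  omega

theorem exists_localOK : GoodLocal := by
  intro P S _ _ Q c₀ Pr hQ hPr
  obtain ⟨H, T, hH, hT, h⟩ := exists_good P S Q c₀ Pr hQ hPr
  refine ⟨H, T, hH, hT, fun N J g₀ r hr => ?_⟩
  obtain ⟨g, M, h1, h2, h3, h4⟩ := h (N + J + 1) g₀ r hr
  refine ⟨g, M, h1, h2, h3, fun U W E _ _ _ Γ srt nx hF => ?_⟩
  obtain ⟨σ, h5, h6, h7⟩ := h4 U W E Γ srt nx hF
  exact ⟨σ, h5, (hF.folded.rewire fun d => (h5 d).2).toL, h6.toL,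
    h7.localOK h6 hT (by omega) (by omega) (by omega)⟩

end Crest.Agent.R177
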