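import Crest.Agent.R177.LCDefs

/-!
# Shared definitions for the proof of `exists_good` (levels, bricks, types)

Owner helper53.  Do not edit; put extra lemmas in your own file.
-/

set_option autoImplicit false

namespace Crest.Agent.R177

open Classical

/-- A non-backtracking path of length `m` with vertices `v 0, …, v m`, edges `e k` run in the
direction `o k`. -/
structure NBPath {U W E P : Type} (Γ : BGraph U W E P) (m : ℕ) (v : ℕ → U ⊕ W) (e : ℕ → E)
    (o : ℕ → Bool) : Prop where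
  tl : ∀ k, k < m → Γ.tail (e k) (o k) = v k
  hd : ∀ k, k < m → Γ.head (e k) (o k) = v (k + 1)
  nb : ∀ k, k + 1 < m → e (k + 1) ≠ e k

namespace Cluster

variable {U W E P : Type} {Γ : BGraph U W E P} {D : Type} (C : Cluster Γ D)

/-- Number of positions running along the edge `d`. -/
noncomputable def mult (d : E) : ℕ := (C.X.filter fun x => C.e x = d).card

/-- Positions of level `j`. -/
noncomputable def Y (j : ℕ) : Finset D := C.X.filter fun x => j ≤ C.mult (C.e x)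

/-- Edges of level `j`. -/
noncomputable def EE (j : ℕ) : Finset E := (C.Y j).image C.e

/-- Main vertices of level `j`. -/
noncomputable def UU (j : ℕ) : Finset U := (C.Y j).image fun x => Γ.s (C.e x)

/-- Auxiliary vertices of level `j`. -/
noncomputable def WW (j : ℕ) : Finset W := (C.Y j).image fun x => Γ.t (C.e x)

/-- Main vertices having two distinct edges of level `j`. -/
noncomputable def U2 (j : ℕ) : Finset U :=
  (C.UU j).filter fun u =>
    ∃ x ∈ C.Y j, ∃ y ∈ C.Y j, Γ.s (C.e x) = u ∧ Γ.s (C.e y) = u ∧ C.e x ≠ C.e y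

/-- Labellings of the level `j` compatible with the combinatorial type of `C`. -/
def ValidLab (Pr : Finset (P × P)) (j : ℕ) (lam : {x // x ∈ C.Y j} → P) : Prop :=
  (∀ x y : {x // x ∈ C.Y j}, C.e x.1 = C.e y.1 → lam x = lam y) ∧
  (∀ x y : {x // x ∈ C.Y j}, x.1 ∈ C.Mt → C.ι x.1 = y.1 → lam x = lam y) ∧
  (∀ x y : {x // x ∈ C.Y j}, Γ.t (C.e x.1) = Γ.t (C.e y.1) → C.e x.1 ≠ C.e y.1 →
    (lam x, lam y) ∈ Pr) ∧
  (∀ x y : {x // x ∈ C.Y j}, Γ.s (C.e x.1) = Γ.s (C.e y.1) → C.e x.1 ≠ C.e y.1 →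
    lam x ≠ lam y)

/-- Number of valid labellings of the level `j`. -/
noncomputable def nLab [Fintype P] (Pr : Finset (P × P)) (j : ℕ) : ℕ :=
  (Finset.univ.filter fun lam : {x // x ∈ C.Y j} → P => C.ValidLab Pr j lam).card

/-- Colourings (sort, label) of the level `j` compatible with the combinatorial type of `C`. -/
def ValidCol {S : Type} (nx : S → P → P → S) (Pr : Finset (P × P)) (j : ℕ)
    (col : {x // x ∈ C.Y j} → S × P) : Prop :=
  C.ValidLab Pr j (fun x => (col x).2) ∧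
  (∀ x y : {x // x ∈ C.Y j}, Γ.s (C.e x.1) = Γ.s (C.e y.1) → (col x).1 = (col y).1) ∧
  (∀ x y : {x // x ∈ C.Y j}, Γ.t (C.e x.1) = Γ.t (C.e y.1) → C.e x.1 ≠ C.e y.1 →
    (col y).1 = nx (col x).1 (col x).2 (col y).2)

/-- Number of valid colourings of the level `j`. -/
noncomputable def nCol [Fintype P] {S : Type} [Fintype S] (nx : S → P → P → S)
    (Pr : Finset (P × P)) (j : ℕ) : ℕ :=
  (Finset.univ.filter fun col : {x // x ∈ C.Y j} → S × P => C.ValidCol nx Pr j col).card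

/-- Outside a set `Bad` of at most `B` vertices the image of the cluster looks like a union of
arcs; every vertex meets at most `B` positions. -/
structure Sparse (B : ℕ) (Bad : Finset (U ⊕ W)) : Prop where
  card_le : Bad.card ≤ B
  inc_s : ∀ u, (C.X.filter fun x => Γ.s (C.e x) = u).card ≤ B
  inc_t : ∀ w, (C.X.filter fun x => Γ.t (C.e x) = w).card ≤ B
  head_St : ∀ x ∈ C.X, Γ.head (C.e x) (C.o x) ∉ Bad → x ∈ C.St
  tail_St : ∀ x ∈ C.X, Γ.tail (C.e x) (C.o x) ∉ Bad → ∃ y ∈ C.St, C.φ y = x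
  two_s : ∀ x ∈ C.X, ∀ y ∈ C.X, ∀ z ∈ C.X, Γ.s (C.e y) = Γ.s (C.e x) →
    Γ.s (C.e z) = Γ.s (C.e x) → Sum.inl (Γ.s (C.e x)) ∉ Bad →
    C.e x = C.e y ∨ C.e x = C.e z ∨ C.e y = C.e z
  two_t : ∀ x ∈ C.X, ∀ y ∈ C.X, ∀ z ∈ C.X, Γ.t (C.e y) = Γ.t (C.e x) →
    Γ.t (C.e z) = Γ.t (C.e x) → Sum.inr (Γ.t (C.e x)) ∉ Bad →
    C.e x = C.e y ∨ C.e x = C.e z ∨ C.e y = C.e z
  reach : ∀ x ∈ C.X, ∃ k, Γ.head (C.e (C.φ^[k] x)) (C.o (C.φ^[k] x)) ∈ Bad

end Cluster

/-- Two clusters on the same positions, in two graphs on the same types, have the same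
combinatorial type. -/
structure SameType {U W E P D : Type} {Γ Γ' : BGraph U W E P}
    (C : Cluster Γ D) (C' : Cluster Γ' D) : Prop where
  X_eq : C'.X = C.X
  Mt_eq : C'.Mt = C.Mt
  ι_eq : ∀ x ∈ C.Mt, C'.ι x = C.ι x
  e_iff : ∀ x ∈ C.X, ∀ y ∈ C.X, C'.e x = C'.e y ↔ C.e x = C.e y
  s_iff : ∀ x ∈ C.X, ∀ y ∈ C.X, Γ'.s (C'.e x) = Γ'.s (C'.e y) ↔ Γ.s (C.e x) = Γ.s (C.e y)
  t_iff : ∀ x ∈ C.X, ∀ y ∈ C.X, Γ'.t (C'.e x) = Γ'.t (C'.e y) ↔ Γ.t (C.e x) = Γ.t (C.e y)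

/-- Brick normal form: the positions are `(b, k)`, `k < len b ≤ r`; inside a brick the step is
`k ↦ k + 1`; a brick is either unglued or glued, reversed, to the brick `mate b`. -/
structure IsBrick {U W E P : Type} {Γ : BGraph U W E P} {B : ℕ} (C : Cluster Γ (Fin B × ℕ))
    (r : ℕ) (len : Fin B → ℕ) (mate : Fin B → Option (Fin B)) : Prop where
  len_le : ∀ b, len b ≤ r
  mem_X : ∀ b k, (b, k) ∈ C.X ↔ k < len b
  step : ∀ b k, k + 1 < len b → (b, k) ∈ C.St ∧ C.φ (b, k) = (b, k + 1)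
  mem_Mt : ∀ b k, (b, k) ∈ C.Mt ↔ k < len b ∧ mate b ≠ none
  mate_ι : ∀ b b' k, mate b = some b' → k < len b → C.ι (b, k) = (b', len b - 1 - k)

/-- The `k`-th vertex (`k ≤ len b`) of the brick `b`. -/
def brickV {U W E P : Type} {Γ : BGraph U W E P} {B : ℕ} (C : Cluster Γ (Fin B × ℕ))
    (len : Fin B → ℕ) (b : Fin B) (k : ℕ) : U ⊕ W :=
  if k < len b then Γ.tail (C.e (b, k)) (C.o (b, k))
  else Γ.head (C.e (b, k - 1)) (C.o (b, k - 1))

end Crest.Agent.R177
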