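import Crest.Agent.Lib.CW2.Defs

/-!
# Rows 177/184/199: labelled graphs, their triangular presentations, the local condition

Interface between the random model (which produces a folded labelled graph of girth `≥ g` satisfying
`LocalOK`) and the van Kampen / local-to-global part (`R177/Global.lean`), which turns this into
injectivity of the boundary map and a linear isoperimetric inequality.  FROZEN (owner helper77).
-/

set_option autoImplicit false

namespace Crest.Agent.R177

open Crest.Agent.Lib.CW2

/-- a directed graph with vertices `V`, edges `E`, and edge labels in `A` -/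
structure LGraph (V A E : Type) where
  src : E → V
  tgt : E → V
  lab : E → A

namespace LGraph

variable {V A E : Type} (Γ : LGraph V A E)

/-- start of an oriented edge (`true` = forward) -/
def tail (o : E × Bool) : V := if o.2 then Γ.src o.1 else Γ.tgt o.1

/-- end of an oriented edge -/
def head (o : E × Bool) : V := if o.2 then Γ.tgt o.1 else Γ.src o.1

/-- at a vertex there is at most one outgoing and at most one incoming edge with a given label -/
def Folded : Prop :=
  (∀ e e', Γ.src e = Γ.src e' → Γ.lab e = Γ.lab e' → e = e') ∧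
    ∀ e e', Γ.tgt e = Γ.tgt e' → Γ.lab e = Γ.lab e' → e = e'

/-- every nonempty closed walk in which consecutive edges differ has length at least `g` -/
def Girth (g : ℕ) : Prop :=
  ∀ (n : ℕ) (f : ℕ → E × Bool), 0 < n →
    (∀ i, i + 1 < n → Γ.head (f i) = Γ.tail (f (i + 1)) ∧ (f (i + 1)).1 ≠ (f i).1) →
    Γ.head (f (n - 1)) = Γ.tail (f 0) → g ≤ n

/-- The group `⟨V ⊕ A | src e * lab e = tgt e⟩`. -/
abbrev Grp : Type :=
  PresentedGroup (triRels (S := V ⊕ A) (fun e => Sum.inl (Γ.src e)) (fun e => Sum.inr (Γ.lab e))
    (fun e => Sum.inl (Γ.tgt e)))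

/-- its triangular presentation -/
def pres : TriPres Γ.Grp (V ⊕ A) E :=
  TriPres.presented (fun e => Sum.inl (Γ.src e)) (fun e => Sum.inr (Γ.lab e))
    (fun e => Sum.inl (Γ.tgt e))

/-- A local configuration: a finite family of oriented edges `ed y`, organised by the partial
injection `succ` into non-backtracking walks (open or closed), some of them glued in pairs by `gl`
(same label, opposite orientation, different edges). -/
structure Conf (Y : Type) where
  ed : Y → E × Bool
  succ : Y → Option Y
  gl : Y → Option Y
  succ_inj : ∀ y₁ y₂ y, succ y₁ = some y → succ y₂ = some y → y₁ = y₂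
  succ_cont : ∀ y y', succ y = some y' → Γ.head (ed y) = Γ.tail (ed y') ∧ (ed y').1 ≠ (ed y).1
  gl_symm : ∀ y y', gl y = some y' → gl y' = some y
  gl_lab : ∀ y y', gl y = some y' →
    Γ.lab (ed y').1 = Γ.lab (ed y).1 ∧ (ed y').2 = !(ed y).2 ∧ (ed y').1 ≠ (ed y).1

variable {Γ}

/-- `y` has a successor `y'`, and either both are unglued, or the pass `(y, y')` is glued as a whole
to a pass `(z, z')` running the other way. -/
def Conf.Straight {Y : Type} (C : Γ.Conf Y) (y : Y) : Prop :=
  ∃ y', C.succ y = some y' ∧ ((C.gl y = none ∧ C.gl y' = none) ∨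
    ∃ z z', C.gl y' = some z ∧ C.succ z = some z' ∧ C.gl y = some z')

/-- number of open ends -/
noncomputable def Conf.opn {Y : Type} (C : Γ.Conf Y) : ℕ := Nat.card {y // C.succ y = none}

/-- number of unglued edges -/
noncomputable def Conf.ung {Y : Type} (C : Γ.Conf Y) : ℕ := Nat.card {y // C.gl y = none}

/-- number of non-straight places (open ends included) -/
noncomputable def Conf.bent {Y : Type} (C : Γ.Conf Y) : ℕ := Nat.card {y // ¬ C.Straight y}

variable (Γ)

/-- The local condition: a configuration with at most `N` edges and at most `J` bends has at most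
`k * (unglued edges) + Λ * (open ends)` edges.  To be used with `N = W g`, `Λ = Λ₁ g`, `g` the girth,
where `k, Λ₁` are absolute and `W, J` are constants depending on them. -/
def LocalOK (N J k Λ : ℕ) : Prop :=
  ∀ (Y : Type) [Finite Y] (C : Γ.Conf Y), Nat.card Y ≤ N → C.bent ≤ J →
    Nat.card Y ≤ k * C.ung + Λ * C.opn

end LGraph

section Chains

variable {G : Type} [Group G] {S T : Type} (P : TriData G S T)

/-- the group element of a letter -/
def letter (x : S × Bool) : G := if x.2 then P.of x.1 else (P.of x.1)⁻¹

/-- the group element of a word -/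
def wordProd (L : List (S × Bool)) : G := (L.map (letter P)).prod

/-- the 1-chain of one step from `g` along the letter `x` -/
noncomputable def stepChain (g : G) (x : S × Bool) : G × S →₀ ℤ :=
  if x.2 then Finsupp.single (g, x.1) 1 else -Finsupp.single (g * (P.of x.1)⁻¹, x.1) 1

/-- the 1-chain of the path in the Cayley graph that starts at `g` and reads the word -/
noncomputable def pathChain : G → List (S × Bool) → (G × S →₀ ℤ)
  | _, [] => 0
  | g, x :: L => stepChain P g x + pathChain (g * letter P x) L

/-- `ℓ¹` norm of a chain -/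
def l1 {α : Type} (c : α →₀ ℤ) : ℕ := c.sum fun _ n => n.natAbs

/-- linear (homological) isoperimetric inequality -/
def LinIso (C : ℕ) : Prop :=
  ∀ L : List (S × Bool), wordProd P L = 1 →
    ∃ c : G × T →₀ ℤ, P.bd c = pathChain P 1 L ∧ l1 c ≤ C * L.length

end Chains

/-- The statement proved in `R177/Global.lean` (`theorem global : GlobalStmt`). -/
def GlobalStmt : Prop :=
  ∀ (V A E : Type) (Γ : LGraph V A E) (g k Λ : ℕ), 3 ≤ g → 1 ≤ k → 1 ≤ Λ → Γ.Folded → Γ.Girth g →
    Γ.LocalOK (1000 * k * Λ * g) (100000 * k * Λ) k (Λ * g) →
    Function.Injective Γ.pres.toTriData.bd ∧ ∃ C, LinIso Γ.pres.toTriData C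

end Crest.Agent.R177
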