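import Mathlib
import Crest.Agent.R177.Local

/-!
# Labelled bipartite graphs, girth and the local condition `LC` (rows 177, 184, 199)

Interface between the random model (helper53), the planar diagrams (helper77) and the design
(helper3).  Do not change statements without telling helper53.
-/

set_option autoImplicit false

namespace Crest.Agent.R177

open Classical

/-- A bipartite labelled graph: the edge `d : E` goes from the main vertex `s d` to the auxiliary
vertex `t d` and carries the label `lab d`. -/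
structure BGraph (U W E P : Type) where
  s : E → U
  t : E → W
  lab : E → P

namespace BGraph

variable {U W E P : Type} (Γ : BGraph U W E P)

/-- Start vertex of the edge `d` run forwards (`true`) or backwards (`false`). -/
def tail (d : E) : Bool → U ⊕ W
  | true => Sum.inl (Γ.s d)
  | false => Sum.inr (Γ.t d)

/-- End vertex of the edge `d` run forwards (`true`) or backwards (`false`). -/
def head (d : E) : Bool → U ⊕ W
  | true => Sum.inr (Γ.t d)
  | false => Sum.inl (Γ.s d)

/-- Distinct edges at a common vertex carry distinct labels. -/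
def Folded : Prop :=
  (∀ d d', Γ.s d = Γ.s d' → Γ.lab d = Γ.lab d' → d = d') ∧
  (∀ d d', Γ.t d = Γ.t d' → Γ.lab d = Γ.lab d' → d = d')

/-- Every closed non-backtracking walk of positive length `m` has `ℓ ≤ m` (no condition at the
closing corner). -/
def Girth (ℓ : ℕ) : Prop :=
  ∀ (m : ℕ) (e : ℕ → E) (o : ℕ → Bool), 0 < m →
    (∀ k, k + 1 < m → Γ.head (e k) (o k) = Γ.tail (e (k + 1)) (o (k + 1)) ∧ e (k + 1) ≠ e k) →
    Γ.head (e (m - 1)) (o (m - 1)) = Γ.tail (e 0) (o 0) → ℓ ≤ m

/-- The same graph with the targets of the edges permuted. -/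
def rewire (σ : Equiv.Perm E) : BGraph U W E P :=
  ⟨Γ.s, fun d => Γ.t (σ d), Γ.lab⟩

theorem Folded.rewire {Γ : BGraph U W E P} (h : Γ.Folded) {σ : Equiv.Perm E}
    (hσ : ∀ d, Γ.lab (σ d) = Γ.lab d) : (Γ.rewire σ).Folded :=
  ⟨h.1, fun d d' h1 h2 => σ.injective (h.2 _ _ h1 (by rw [hσ, hσ]; exact h2))⟩

end BGraph

/-- A finite family of non-backtracking paths and cycles of `Γ` with a partial gluing.
`X` = positions (darts), position `x` runs along the edge `e x` in direction `o x`;
`St` = positions followed by a real step `x ↦ φ x` inside `X`; `Mt` = glued positions, `ι` the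
gluing (same label, opposite direction, different edges of `Γ`). -/
structure Cluster {U W E P : Type} (Γ : BGraph U W E P) (D : Type) where
  X : Finset D
  e : D → E
  o : D → Bool
  φ : D → D
  ι : D → D
  St : Finset D
  Mt : Finset D
  St_sub : St ⊆ X
  φ_mem : ∀ x ∈ St, φ x ∈ X
  φ_inj : ∀ x ∈ St, ∀ y ∈ St, φ x = φ y → x = y
  step : ∀ x ∈ St, Γ.head (e x) (o x) = Γ.tail (e (φ x)) (o (φ x)) ∧ e (φ x) ≠ e x
  Mt_sub : Mt ⊆ X
  ι_mem : ∀ x ∈ Mt, ι x ∈ Mt
  ι_ι : ∀ x ∈ Mt, ι (ι x) = x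
  ι_lab : ∀ x ∈ Mt, Γ.lab (e (ι x)) = Γ.lab (e x)
  ι_o : ∀ x ∈ Mt, o (ι x) = !o x
  ι_ne : ∀ x ∈ Mt, e (ι x) ≠ e x

namespace Cluster

variable {U W E P : Type} {Γ : BGraph U W E P} {D : Type} (C : Cluster Γ D)

/-- The corner after `x` is glued to the corner after `ι (φ x)` (a vertex of degree two). -/
def Regular (x : D) : Prop :=
  x ∈ C.St ∧ x ∈ C.Mt ∧ C.φ x ∈ C.Mt ∧ C.ι (C.φ x) ∈ C.St ∧ C.φ (C.ι (C.φ x)) = C.ι x

/-- Last positions of the open paths. -/
noncomputable def ends : Finset D := C.X \ C.St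

/-- First positions of the open paths. -/
noncomputable def starts : Finset D := C.X \ C.St.image C.φ

/-- Glued positions where a run of the gluing stops. -/
noncomputable def irregular : Finset D := C.Mt.filter fun x => ¬ C.Regular x

end Cluster

/-- Local condition: a cluster of size between `ℓ / K` and `K ℓ`, with at most `K` open paths and
at most `K` run ends, in which the number of open paths is at most `|X| / (T ℓ)`, has at least
`|X| / H` unglued positions. -/
def BGraph.LC {U W E P : Type} (Γ : BGraph U W E P) (K T ℓ H : ℕ) : Prop :=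
  ∀ (D : Type) (C : Cluster Γ D), C.X.card ≤ K * ℓ → ℓ ≤ K * C.X.card →
    C.ends.card ≤ K → C.irregular.card ≤ K → C.ends.card * (T * ℓ) ≤ C.X.card →
    C.X.card ≤ H * (C.X \ C.Mt).card

/-- Numerical hypotheses on a frame at scale `M`.  `srt d` is the sort of the edge `d` (graph it
belongs to, sign, …): it is constant at each main vertex, and at an auxiliary vertex the sort of one
edge and the labels determine the sort of another one through `nx` (take `nx a _ _ = a` when the
sort is constant).  The colour of an edge is (sort, label).  Each nonempty colour class has about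
`Q M` edges, two distinct labels lie on at most about `M` main vertices of a given sort, and the
labels of two distinct edges at an auxiliary vertex form a pair from `Pr`. -/
structure Frame {U W E P S : Type} [Fintype U] [Fintype E] (Γ : BGraph U W E P) (srt : E → S)
    (nx : S → P → P → S) (Q c₀ M : ℕ) (Pr : Finset (P × P)) : Prop where
  folded : Γ.Folded
  srt_s : ∀ d d', Γ.s d = Γ.s d' → srt d = srt d'
  srt_t : ∀ d d', Γ.t d = Γ.t d' → d ≠ d' → srt d' = nx (srt d) (Γ.lab d) (Γ.lab d')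
  lower : ∀ d, Q * M ≤
    (Finset.univ.filter fun d' => srt d' = srt d ∧ Γ.lab d' = Γ.lab d).card + c₀
  upper : ∀ d,
    (Finset.univ.filter fun d' => srt d' = srt d ∧ Γ.lab d' = Γ.lab d).card ≤ Q * M + c₀
  two : ∀ (a : S) (h h' : P), h ≠ h' →
    (Finset.univ.filter fun u => ∃ d d', Γ.s d = u ∧ Γ.s d' = u ∧ srt d = a ∧
      Γ.lab d = h ∧ Γ.lab d' = h').card ≤ M + c₀
  pairs : ∀ d d', Γ.t d = Γ.t d' → d ≠ d' → (Γ.lab d, Γ.lab d') ∈ Pr

/-- The bipartite graph as a labelled graph on `U ⊕ W`. -/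
def BGraph.toL {U W E P : Type} (Γ : BGraph U W E P) : LGraph (U ⊕ W) P E :=
  ⟨fun d => Sum.inl (Γ.s d), fun d => Sum.inr (Γ.t d), Γ.lab⟩

/-- The internal form of the statement (`exists_good` in `R177/LC.lean`). -/
def GoodGraphs : Prop :=
  ∀ (P S : Type) [Fintype P] [Fintype S] (Q c₀ : ℕ) (Pr : Finset (P × P)),
    2 ≤ Q → Pr.card < Q ^ 2 →
    ∃ H T : ℕ, 0 < H ∧ 0 < T ∧ ∀ K ℓ₀ r : ℕ, 0 < r → ∃ ℓ M : ℕ, ℓ₀ ≤ ℓ ∧ ℓ₀ ≤ M ∧ r ∣ M ∧
      ∀ (U W E : Type) [Fintype U] [Fintype W] [Fintype E] (Γ : BGraph U W E P) (srt : E → S)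
        (nx : S → P → P → S), Frame Γ srt nx Q c₀ M Pr →
        ∃ σ : Equiv.Perm E, (∀ d, srt (σ d) = srt d ∧ Γ.lab (σ d) = Γ.lab d) ∧
          (Γ.rewire σ).Girth ℓ ∧ (Γ.rewire σ).LC K T ℓ H

/-- The statement for the consumers (`exists_localOK` in `R177/LC.lean`), in the language of
`R177/Local.lean`: it feeds `GlobalStmt` directly. -/
def GoodLocal : Prop :=
  ∀ (P S : Type) [Fintype P] [Fintype S] (Q c₀ : ℕ) (Pr : Finset (P × P)),
    2 ≤ Q → Pr.card < Q ^ 2 →
    ∃ k Λ : ℕ, 1 ≤ k ∧ 1 ≤ Λ ∧ ∀ N J g₀ r : ℕ, 0 < r → ∃ g M : ℕ, g₀ ≤ g ∧ g₀ ≤ M ∧ r ∣ M ∧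
      ∀ (U W E : Type) [Fintype U] [Fintype W] [Fintype E] (Γ : BGraph U W E P) (srt : E → S)
        (nx : S → P → P → S), Frame Γ srt nx Q c₀ M Pr →
        ∃ σ : Equiv.Perm E, (∀ d, srt (σ d) = srt d ∧ Γ.lab (σ d) = Γ.lab d) ∧
          (Γ.rewire σ).toL.Folded ∧ (Γ.rewire σ).toL.Girth g ∧
          (Γ.rewire σ).toL.LocalOK (N * g) J k (Λ * g)

end Crest.Agent.R177
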