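import Crest.Agent.R177.LCBasic

/-!
# Short non-backtracking paths in a graph of large girth; bricks are sparse
-/

set_option autoImplicit false

namespace Crest.Agent.R177

open Classical

variable {U W E P : Type} {Γ : BGraph U W E P}

theorem LCGeo_tail_not (d : E) (b : Bool) : Γ.tail d (!b) = Γ.head d b := by
  cases b <;> rfl

theorem LCGeo_head_not (d : E) (b : Bool) : Γ.head d (!b) = Γ.tail d b := by
  cases b <;> rfl

theorem LCGeo_tail_inj {d : E} {b b' : Bool} (h : Γ.tail d b = Γ.tail d b') : b = b' := by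
  cases b <;> cases b' <;> simp [BGraph.tail] at h ⊢

theorem NBPath.shift {m : ℕ} {v : ℕ → U ⊕ W} {e : ℕ → E} {o : ℕ → Bool}
    (h : NBPath Γ m v e o) (a n : ℕ) (hn : a + n ≤ m) :
    NBPath Γ n (fun k => v (a + k)) (fun k => e (a + k)) (fun k => o (a + k)) :=
  ⟨fun k hk => h.tl (a + k) (by omega), fun k hk => h.hd (a + k) (by omega),
    fun k hk => h.nb (a + k) (by omega)⟩

theorem NBPath.rev {m : ℕ} {v : ℕ → U ⊕ W} {e : ℕ → E} {o : ℕ → Bool}
    (h : NBPath Γ m v e o) :
    NBPath Γ m (fun k => v (m - k)) (fun k => e (m - k - 1)) (fun k => !o (m - k - 1)) := by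
  refine ⟨fun k hk => ?_, fun k hk => ?_, fun k hk => ?_⟩
  · rw [LCGeo_tail_not, h.hd _ (by omega), show m - k - 1 + 1 = m - k by omega]
  · rw [LCGeo_head_not, h.tl _ (by omega), show m - k - 1 = m - (k + 1) by omega]
  · have := h.nb (m - (k + 1) - 1) (by omega)
    rw [show m - (k + 1) - 1 + 1 = m - k - 1 by omega] at this
    exact this.symm

theorem NBPath.append {m m' : ℕ} {v v' : ℕ → U ⊕ W} {e e' : ℕ → E} {o o' : ℕ → Bool}
    (h : NBPath Γ m v e o) (h' : NBPath Γ m' v' e' o') (hv : v m = v' 0)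
    (he : e' 0 ≠ e (m - 1)) :
    NBPath Γ (m + m') (fun k => if k < m then v k else v' (k - m))
      (fun k => if k < m then e k else e' (k - m)) (fun k => if k < m then o k else o' (k - m)) := by
  refine ⟨fun k hk => ?_, fun k hk => ?_, fun k hk => ?_⟩
  · by_cases hkm : k < m
    · simp only [if_pos hkm]; exact h.tl k hkm
    · simp only [if_neg hkm]; exact h'.tl _ (by omega)
  · by_cases hkm : k < m
    · simp only [if_pos hkm]
      rw [h.hd k hkm]
      by_cases hk1 : k + 1 < m
      · rw [if_pos hk1]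
      · rw [if_neg hk1, show k + 1 - m = 0 by omega, ← hv, show k + 1 = m by omega]
    · simp only [if_neg hkm]
      rw [if_neg (by omega), h'.hd _ (by omega), show k + 1 - m = k - m + 1 by omega]
  · by_cases hk1 : k + 1 < m
    · simp only [if_pos hk1, if_pos (show k < m by omega)]
      exact h.nb k hk1
    · by_cases hkm : k < m
      · simp only [if_neg hk1, if_pos hkm]
        rw [show k + 1 - m = 0 by omega, show k = m - 1 by omega]
        exact he
      · simp only [if_neg hk1, if_neg hkm]
        rw [show k + 1 - m = k - m + 1 by omega]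
        exact h'.nb _ (by omega)

/-- A non-backtracking path shorter than the girth visits each vertex once (apply `Girth` to the
shifted walk `k ↦ e (i + k)` of length `j - i`). -/
theorem NBPath.inj {ℓ m : ℕ} {v : ℕ → U ⊕ W} {e : ℕ → E} {o : ℕ → Bool} (hg : Γ.Girth ℓ)
    (h : NBPath Γ m v e o) (hm : m < ℓ) {i j : ℕ} (hi : i ≤ m) (hj : j ≤ m)
    (hij : v i = v j) : i = j := by
  have key : ∀ i j, i < j → j ≤ m → v i = v j → False := by
    intro i j hlt hj hij
    have := hg (j - i) (fun k => e (i + k)) (fun k => o (i + k)) (by omega)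
      (fun k hk => by
        refine ⟨?_, h.nb (i + k) (by omega)⟩
        rw [h.hd (i + k) (by omega), h.tl (i + (k + 1)) (by omega)]
        rfl)
      (by
        rw [h.hd (i + (j - i - 1)) (by omega), h.tl (i + 0) (by omega),
          show i + (j - i - 1) + 1 = j by omega, ← hij]
        rfl)
    omega
  rcases lt_trichotomy i j with hlt | heq | hlt
  · exact (key i j hlt hj hij).elim
  · exact heq
  · exact (key j i hlt hi hij.symm).elim

/-- Two short non-backtracking paths with the same ends coincide.  Induction on `m`: if one length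
is `0` use `inj`; if the first edges agree (then so do the directions and `v 1 = v' 1`, the graph
being bipartite) shift both paths; otherwise the reverse of the first path followed by the second
one is a non-backtracking path of length `m + m'` with equal ends, contradicting `inj`. -/
theorem NBPath.uniq {ℓ m m' : ℕ} {v v' : ℕ → U ⊕ W} {e e' : ℕ → E} {o o' : ℕ → Bool}
    (hg : Γ.Girth ℓ) (h : NBPath Γ m v e o) (h' : NBPath Γ m' v' e' o') (hm : m + m' < ℓ)
    (h0 : v 0 = v' 0) (h1 : v m = v' m') :
    m = m' ∧ (∀ k, k < m → e k = e' k) ∧ ∀ k, k ≤ m → v k = v' k := by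
  induction m generalizing m' v v' e e' o o' with
  | zero =>
    have : 0 = m' := h'.inj hg (by omega) (by omega) le_rfl (h0.symm.trans h1)
    refine ⟨this, fun k hk => by omega, fun k hk => ?_⟩
    rw [show k = 0 by omega]; exact h0
  | succ m ih =>
    rcases m' with _ | m'
    · have := h.inj hg (by omega) (Nat.zero_le _) le_rfl (h0.trans h1.symm)
      omega
    by_cases he : e 0 = e' 0
    · have ho : o 0 = o' 0 := by
        apply LCGeo_tail_inj (Γ := Γ) (d := e 0)
        rw [h.tl 0 (by omega), h0, he, h'.tl 0 (by omega)]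
      have hv : v 1 = v' 1 := by
        rw [← h.hd 0 (by omega), ← h'.hd 0 (by omega), he, ho]
      obtain ⟨i1, i2, i3⟩ := ih (h.shift 1 m (by omega)) (h'.shift 1 m' (by omega)) (by omega) hv
        (by simpa [add_comm] using h1)
      refine ⟨by omega, fun k hk => ?_, fun k hk => ?_⟩
      · rcases k with _ | k
        · exact he
        · simpa [add_comm] using i2 k (by omega)
      · rcases k with _ | k
        · exact h0
        · simpa [add_comm] using i3 k (by omega)
    · exfalso
      have hp := h.rev.append h' (by simpa using h0) (by simpa using fun h => he h.symm)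
      have := hp.inj hg hm (Nat.zero_le _) le_rfl (by
        rw [if_pos (by omega), if_neg (by omega)]
        simpa using h1)
      omega

/-- Two short paths meeting twice run together between the meeting points (apply `uniq` to the
sub-path `a … b` of the first path and to the sub-path `a' … b'` of the second one, reversed when
`b' < a'`). -/
theorem NBPath.geo {ℓ m m' : ℕ} {v v' : ℕ → U ⊕ W} {e e' : ℕ → E} {o o' : ℕ → Bool}
    (hg : Γ.Girth ℓ) (h : NBPath Γ m v e o) (h' : NBPath Γ m' v' e' o') (hm : m + m' < ℓ)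
    {a b a' b' : ℕ} (hab : a ≤ b) (hb : b ≤ m) (ha' : a' ≤ m') (hb' : b' ≤ m')
    (h0 : v a = v' a') (h1 : v b = v' b') :
    (b' = a' + (b - a) ∧ (∀ i, i < b - a → e (a + i) = e' (a' + i)) ∧
        ∀ i, i ≤ b - a → v (a + i) = v' (a' + i)) ∨
      (a' = b' + (b - a) ∧ (∀ i, i < b - a → e (a + i) = e' (a' - i - 1)) ∧
        ∀ i, i ≤ b - a → v (a + i) = v' (a' - i)) := by
  have hs := h.shift a (b - a) (by omega)
  rcases le_total a' b' with hle | hle
  · have hs' := h'.shift a' (b' - a') (by omega)
    obtain ⟨i1, i2, i3⟩ := NBPath.uniq hg hs hs' (by omega) (by simpa using h0) (by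
      simp only [show a + (b - a) = b by omega, show a' + (b' - a') = b' by omega]
      exact h1)
    exact Or.inl ⟨by omega, i2, i3⟩
  · have hs' := (h'.shift b' (a' - b') (by omega)).rev
    obtain ⟨i1, i2, i3⟩ := NBPath.uniq hg hs hs' (by omega) (by
      simp only [show b' + (a' - b' - 0) = a' by omega]
      exact h0) (by
      simp only [show a + (b - a) = b by omega, show b' + (a' - b' - (a' - b')) = b' by omega]
      exact h1)
    refine Or.inr ⟨by omega, fun i hi => ?_, fun i hi => ?_⟩
    · have := i2 i hi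
      simp only [show b' + (a' - b' - i - 1) = a' - i - 1 by omega] at this
      exact this
    · have := i3 i hi
      simp only [show b' + (a' - b' - i) = a' - i by omega] at this
      exact this

/-- Each brick is a non-backtracking path. -/
theorem IsBrick.nbPath {B r : ℕ} {C : Cluster Γ (Fin B × ℕ)} {len : Fin B → ℕ}
    {mate : Fin B → Option (Fin B)} (h : IsBrick C r len mate) (b : Fin B) :
    NBPath Γ (len b) (brickV C len b) (fun k => C.e (b, k)) (fun k => C.o (b, k)) := by
  refine ⟨fun k hk => ?_, fun k hk => ?_, fun k hk => ?_⟩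
  · rw [brickV, if_pos hk]
  · rw [brickV]
    by_cases hk1 : k + 1 < len b
    · rw [if_pos hk1]
      obtain ⟨h1, h2⟩ := h.step b k hk1
      have := (C.step _ h1).1
      rw [h2] at this
      exact this
    · rw [if_neg hk1]
      rfl
  · obtain ⟨h1, h2⟩ := h.step b k hk
    have := (C.step _ h1).2
    rw [h2] at this
    exact this

/-- Bricks are sparse.  `Bad` = the vertices `brickV b 0`, `brickV b (len b)` (at most `2 B`)
together with, for each pair `(b, b')`, the vertices `brickV b k` for `k` the least and the largest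
element of `{k ≤ len b | ∃ k' ≤ len b', brickV b k = brickV b' k'}` (at most `2 B²`).
A position `(b, k)` has tail `brickV b k` and head `brickV b (k+1)`, so by `inj` a vertex meets at
most two positions of each brick.  At a vertex `y ∉ Bad` met by a position of the brick `b`,
`y = brickV b k` with `0 < k < len b`, the positions of `b` at `y` are `(b, k-1)`, `(b, k)`, and for
another brick `b'` through `y`, `geo` applied to the least and largest meeting indices shows that
its two edges at `y` are the same two edges.  `reach`: iterate `φ` to the last position of the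
brick. -/
theorem IsBrick.sparse {B r ℓ : ℕ} {C : Cluster Γ (Fin B × ℕ)} {len : Fin B → ℕ}
    {mate : Fin B → Option (Fin B)} (hg : Γ.Girth ℓ) (hr : 2 * r < ℓ)
    (h : IsBrick C r len mate) : ∃ Bad, C.Sparse (2 * B * B + 2 * B) Bad := by
  set V := brickV C len with hV
  have hP := h.nbPath
  have hlen : ∀ b, len b < ℓ := fun b => by have := h.len_le b; omega
  have hlen2 : ∀ b b', len b + len b' < ℓ := fun b b' => by
    have := h.len_le b; have := h.len_le b'; omega
  have hinj : ∀ b i j, i ≤ len b → j ≤ len b → V b i = V b j → i = j := fun b i j hi hj hij =>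
    (hP b).inj hg (hlen b) hi hj hij
  -- least and largest meeting indices
  have hex : ∀ b b' : Fin B, ∃ lo hi : ℕ, ∀ k, k ≤ len b → (∃ k' ≤ len b', V b k = V b' k') →
      lo ≤ k ∧ k ≤ hi ∧ hi ≤ len b ∧ (∃ k' ≤ len b', V b lo = V b' k') ∧
        ∃ k' ≤ len b', V b hi = V b' k' := by
    intro b b'
    set M := (Finset.range (len b + 1)).filter fun k => ∃ k' ≤ len b', V b k = V b' k' with hM
    have memM : ∀ k, k ∈ M ↔ k ≤ len b ∧ ∃ k' ≤ len b', V b k = V b' k' := by
      intro k
      rw [hM, Finset.mem_filter, Finset.mem_range, Nat.lt_succ_iff]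
    by_cases hne : M.Nonempty
    · refine ⟨M.min' hne, M.max' hne, fun k hk hk' => ?_⟩
      have hkM := (memM k).2 ⟨hk, hk'⟩
      exact ⟨M.min'_le k hkM, M.le_max' k hkM, ((memM _).1 (M.max'_mem hne)).1,
        ((memM _).1 (M.min'_mem hne)).2, ((memM _).1 (M.max'_mem hne)).2⟩
    · exact ⟨0, 0, fun k hk hk' => (hne ⟨k, (memM k).2 ⟨hk, hk'⟩⟩).elim⟩
  choose lo hi hlh using hex
  set Bad : Finset (U ⊕ W) :=
    (Finset.univ.image fun p : Fin B × Fin B => V p.1 (lo p.1 p.2)) ∪
      (Finset.univ.image fun p : Fin B × Fin B => V p.1 (hi p.1 p.2)) with hBad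
  have badlo : ∀ b b', V b (lo b b') ∈ Bad := fun b b' =>
    Finset.mem_union_left _ (Finset.mem_image.2 ⟨(b, b'), Finset.mem_univ _, rfl⟩)
  have badhi : ∀ b b', V b (hi b b') ∈ Bad := fun b b' =>
    Finset.mem_union_right _ (Finset.mem_image.2 ⟨(b, b'), Finset.mem_univ _, rfl⟩)
  have bad0 : ∀ b, V b 0 ∈ Bad := fun b => by
    have := (hlh b b 0 (Nat.zero_le _) ⟨0, Nat.zero_le _, rfl⟩).1
    have h2 := badlo b b
    rwa [show lo b b = 0 by omega] at h2
  have badL : ∀ b, V b (len b) ∈ Bad := fun b => by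
    have := hlh b b (len b) le_rfl ⟨len b, le_rfl, rfl⟩
    have h2 := badhi b b
    rwa [show hi b b = len b by omega] at h2
  have htl : ∀ b k, k < len b → Γ.tail (C.e (b, k)) (C.o (b, k)) = V b k := fun b k hk =>
    (hP b).tl k hk
  have hhd : ∀ b k, k < len b → Γ.head (C.e (b, k)) (C.o (b, k)) = V b (k + 1) := fun b k hk =>
    (hP b).hd k hk
  -- incidence
  have hinc : ∀ (y : U ⊕ W) (Q : Fin B × ℕ → Prop) [DecidablePred Q],
      (∀ x, Q x → Γ.tail (C.e x) (C.o x) = y ∨ Γ.head (C.e x) (C.o x) = y) →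
      (C.X.filter Q).card ≤ 2 * B * B + 2 * B := by
    intro y Q _ hQ
    have : (C.X.filter Q).card ≤ (Finset.univ : Finset (Fin B × Prop)).card := by
      apply Finset.card_le_card_of_injOn (fun x => (x.1, Γ.tail (C.e x) (C.o x) = y))
        (fun _ _ => Finset.mem_coe.2 (Finset.mem_univ _))
      rintro ⟨b, k⟩ hx ⟨b', k'⟩ hx' hxx
      obtain ⟨hx1, hx2⟩ := Finset.mem_filter.1 (Finset.mem_coe.1 hx)
      obtain ⟨hx1', hx2'⟩ := Finset.mem_filter.1 (Finset.mem_coe.1 hx')
      rw [h.mem_X] at hx1 hx1'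
      obtain ⟨h1, h2⟩ := Prod.mk.inj hxx
      dsimp only at h1
      subst h1
      have q := hQ _ hx2
      have q' := hQ _ hx2'
      rw [htl b k hx1, hhd b k hx1] at q
      rw [htl b k' hx1', hhd b k' hx1'] at q'
      rw [htl b k hx1, htl b k' hx1'] at h2
      by_cases hy : V b k = y
      · have hy' : V b k' = y := h2 ▸ hy
        rw [hinj b k k' hx1.le hx1'.le (hy.trans hy'.symm)]
      · have hy' : ¬ V b k' = y := h2 ▸ hy
        have := hinj b (k + 1) (k' + 1) hx1 hx1'
          ((q.resolve_left hy).trans (q'.resolve_left hy').symm)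
        rw [show k = k' by omega]
    simp only [Finset.card_univ, Fintype.card_prod, Fintype.card_fin, Fintype.card_prop] at this
    nlinarith [Nat.zero_le (B * B)]
  -- a position at a good vertex
  have hat : ∀ y ∉ Bad, ∀ x ∈ C.X, (Γ.tail (C.e x) (C.o x) = y ∨ Γ.head (C.e x) (C.o x) = y) →
      ∃ j, 0 < j ∧ j < len x.1 ∧ V x.1 j = y ∧
        (C.e x = C.e (x.1, j - 1) ∨ C.e x = C.e (x.1, j)) := by
    rintro y hy ⟨b, k⟩ hx hq
    rw [h.mem_X] at hx
    rw [htl b k hx, hhd b k hx] at hq
    rcases hq with hq | hq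
    · refine ⟨k, Nat.pos_of_ne_zero ?_, hx, hq, Or.inr rfl⟩
      rintro rfl
      exact hy (hq ▸ bad0 b)
    · refine ⟨k + 1, by omega, lt_of_le_of_ne hx ?_, hq, Or.inl rfl⟩
      intro hk
      dsimp only at hk
      rw [hk] at hq
      exact hy (hq ▸ badL b)
  have hsame : ∀ b j b' j', j ≤ len b → j' ≤ len b' → V b j = V b' j' → V b j ∉ Bad →
      (C.e (b', j' - 1) = C.e (b, j - 1) ∧ C.e (b', j') = C.e (b, j)) ∨
      (C.e (b', j' - 1) = C.e (b, j) ∧ C.e (b', j') = C.e (b, j - 1)) := by
    intro b j b' j' hj hj' hjj hy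
    obtain ⟨h1, h2, h3, ⟨a', ha', h4⟩, c', hc', h5⟩ := hlh b b' j hj ⟨j', hj', hjj⟩
    have h1' : lo b b' < j := lt_of_le_of_ne h1 fun hh => hy (hh ▸ badlo b b')
    have h2' : j < hi b b' := lt_of_le_of_ne h2 fun hh => hy (hh ▸ badhi b b')
    rcases NBPath.geo hg (hP b) (hP b') (hlen2 b b') (h1.trans h2) h3 ha' hc' h4 h5 with
      ⟨i1, i2, i3⟩ | ⟨i1, i2, i3⟩
    · have e1 := i3 (j - lo b b') (by omega)
      have e2 := i2 (j - lo b b') (by omega)
      have e3 := i2 (j - lo b b' - 1) (by omega)
      simp only [show lo b b' + (j - lo b b') = j by omega,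
        show lo b b' + (j - lo b b' - 1) = j - 1 by omega] at e1 e2 e3
      have e4 := hinj b' j' (a' + (j - lo b b')) hj' (by omega) (hjj.symm.trans e1)
      left
      rw [e2, e3, e4, show a' + (j - lo b b') - 1 = a' + (j - lo b b' - 1) by omega]
      exact ⟨rfl, rfl⟩
    · have e1 := i3 (j - lo b b') (by omega)
      have e2 := i2 (j - lo b b') (by omega)
      have e3 := i2 (j - lo b b' - 1) (by omega)
      simp only [show lo b b' + (j - lo b b') = j by omega,
        show lo b b' + (j - lo b b' - 1) = j - 1 by omega] at e1 e2 e3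
      have e4 := hinj b' j' (a' - (j - lo b b')) hj' (by omega) (hjj.symm.trans e1)
      right
      rw [e2, e3, e4, show a' - (j - lo b b' - 1) - 1 = a' - (j - lo b b') by omega]
      exact ⟨rfl, rfl⟩
  have htwo : ∀ y ∉ Bad, ∀ x ∈ C.X, ∀ x' ∈ C.X, ∀ x'' ∈ C.X,
      (Γ.tail (C.e x) (C.o x) = y ∨ Γ.head (C.e x) (C.o x) = y) →
      (Γ.tail (C.e x') (C.o x') = y ∨ Γ.head (C.e x') (C.o x') = y) →
      (Γ.tail (C.e x'') (C.o x'') = y ∨ Γ.head (C.e x'') (C.o x'') = y) →
      C.e x = C.e x' ∨ C.e x = C.e x'' ∨ C.e x' = C.e x'' := by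
    intro y hy x hx x' hx' x'' hx'' q q' q''
    obtain ⟨j, -, hj, hv, he⟩ := hat y hy x hx q
    obtain ⟨j', -, hj', hv', he'⟩ := hat y hy x' hx' q'
    obtain ⟨j'', -, hj'', hv'', he''⟩ := hat y hy x'' hx'' q''
    have s1 := hsame x.1 j x'.1 j' hj.le hj'.le (hv.trans hv'.symm) (hv ▸ hy)
    have s2 := hsame x.1 j x''.1 j'' hj.le hj''.le (hv.trans hv''.symm) (hv ▸ hy)
    have t1 : C.e x' = C.e (x.1, j - 1) ∨ C.e x' = C.e (x.1, j) := by
      rcases he' with he' | he' <;> rcases s1 with ⟨s, s'⟩ | ⟨s, s'⟩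
      exacts [Or.inl (he'.trans s), Or.inr (he'.trans s), Or.inr (he'.trans s'),
        Or.inl (he'.trans s')]
    have t2 : C.e x'' = C.e (x.1, j - 1) ∨ C.e x'' = C.e (x.1, j) := by
      rcases he'' with he'' | he'' <;> rcases s2 with ⟨s, s'⟩ | ⟨s, s'⟩
      exacts [Or.inl (he''.trans s), Or.inr (he''.trans s), Or.inr (he''.trans s'),
        Or.inl (he''.trans s')]
    rcases he with he | he <;> rcases t1 with t1 | t1 <;> rcases t2 with t2 | t2 <;>
      simp [he, t1, t2]
  have ats : ∀ (d : E) (b : Bool), Γ.tail d b = Sum.inl (Γ.s d) ∨ Γ.head d b = Sum.inl (Γ.s d) :=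
    fun d b => by cases b <;> simp [BGraph.tail, BGraph.head]
  have att : ∀ (d : E) (b : Bool), Γ.tail d b = Sum.inr (Γ.t d) ∨ Γ.head d b = Sum.inr (Γ.t d) :=
    fun d b => by cases b <;> simp [BGraph.tail, BGraph.head]
  refine ⟨Bad, ?_, fun u => ?_, fun w => ?_, ?_, ?_, ?_, ?_, ?_⟩
  · refine (Finset.card_union_le _ _).trans ?_
    have h1 := Finset.card_image_le (s := Finset.univ)
      (f := fun p : Fin B × Fin B => V p.1 (lo p.1 p.2))
    have h2 := Finset.card_image_le (s := Finset.univ)
      (f := fun p : Fin B × Fin B => V p.1 (hi p.1 p.2))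
    simp only [Finset.card_univ, Fintype.card_prod, Fintype.card_fin] at h1 h2
    nlinarith [Nat.zero_le B]
  · exact hinc (Sum.inl u) _ fun x hx => hx ▸ ats _ _
  · exact hinc (Sum.inr w) _ fun x hx => hx ▸ att _ _
  · rintro ⟨b, k⟩ hx hy
    rw [h.mem_X] at hx
    rw [hhd b k hx] at hy
    refine (h.step b k (lt_of_le_of_ne hx fun hk => hy ?_)).1
    rw [hk]
    exact badL b
  · rintro ⟨b, k⟩ hx hy
    rw [h.mem_X] at hx
    rw [htl b k hx] at hy
    rcases k with _ | k
    · exact (hy (bad0 b)).elim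
    · exact ⟨(b, k), h.step b k hx⟩
  · intro x hx y hy z hz h1 h2 hb
    exact htwo _ hb x hx y hy z hz (ats _ _) (h1 ▸ ats _ _) (h2 ▸ ats _ _)
  · intro x hx y hy z hz h1 h2 hb
    exact htwo _ hb x hx y hy z hz (att _ _) (h1 ▸ att _ _) (h2 ▸ att _ _)
  · rintro ⟨b, k⟩ hx
    rw [h.mem_X] at hx
    have hit : ∀ i, k + i < len b → C.φ^[i] (b, k) = (b, k + i) := by
      intro i
      induction i with
      | zero => intro _; rfl
      | succ i ih =>
        intro hi'
        rw [Function.iterate_succ_apply', ih (by omega)]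
        exact (h.step b (k + i) hi').2
    refine ⟨len b - 1 - k, ?_⟩
    rw [hit _ (by omega), hhd b _ (by omega), show k + (len b - 1 - k) + 1 = len b by omega]
    exact badL b

end Crest.Agent.R177
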