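import Crest.Agent.R177.LCBasic

/-!
# Random colour preserving rewirings conditioned on large girth (switching)

Recipe.  For a graph `G` define inductively `Near G (A : Set E) n x y`: there is a walk of length
`≤ n` from `x` to `y` using no edge of `A`
(`refl n x : Near n x x`, `step : d ∉ A → Near n x (G.tail d b) → Near (n+1) x (G.head d b)`;
monotone in `n` and antitone in `A`, symmetric, transitive with added lengths).
Put `Far σ := ∀ d, ¬ Near (Γ.rewire σ) {d} L (inl (s d)) (inr (t (σ d)))` and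
`Ω := {σ | (∀ d, col (σ d) = col d) ∧ Far σ}`.

* `Far σ → Girth L`: in a closed non-backtracking walk of length `0 < m < L` take `i < j ≤ m` with
  equal vertices and `j - i` minimal; the edges `i+1 … j-1` form a walk joining the ends of the edge
  `i` which avoids it (vertices `i … j-1` are distinct, no backtracking).
* Ball bound: `{y | Near G ∅ n x y}` has at most `(Dg+1)^n` elements (degrees of `Γ.rewire σ` are
  those of `Γ`).  Hence for a given `d` all but at most `(Dg+1)^(L+2)` edges `d'` of the colour of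
  `d` satisfy `¬ Near (Γ.rewire σ) ∅ (L+2) (inl (s d)) (inl (s d'))` ("far", uses `hs`); then no end
  of `d` is joined to an end of `d'` by a walk of length `≤ L`.
* Switch `σ' = σ * Equiv.swap d d'` (`d`, `d'` far, same colour; all other edges keep their ends).
  Decomposition: a walk of `σ'` from `x` avoiding `A` of length `≤ n` either avoids `d, d'` (then it
  is a walk of `σ` avoiding `A ∪ {d, d'}`) or has a first part, of length `a`, and a last part, of
  length `c`, `a + c + 1 ≤ n`, that avoid `A ∪ {d, d'}` and end / start at one of the four ends.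
  (i) for an old edge `g ∉ {d, d'}` and `n ≤ L - 1`... in fact for every `n ≤ L`: a walk of length
  `≤ n` in `σ'` joining the ends of `g` and avoiding `g` gives one in `σ` (first part `x ⇝ z₁`, last
  part `z₂ ⇝ y`; `z₁ ⇝ x – y ⇝ z₂` has length `≤ a + c + 1 ≤ L`, so `z₁, z₂` are ends of the same edge
  `d` or `d'` of `σ`; join them by that edge or by nothing).
  (ii) for a new edge (`d` joins `s d` to `t (σ d')`): a walk of length `≤ n ≤ L` avoiding it yields
  walks in `σ` joining the ends of `d` avoiding `d` (length `a`) and joining the ends of `d'` avoiding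
  `d'` (length `c`) with `a + c + 1 ≤ n`.  Same for `d'`.
* Hence `σ ∈ Ω → σ' ∈ Ω`.  Counting: induction on `Y`; for `d ∈ Y` the map
  `(σ, d') ↦ σ * swap d d'` from `{σ ∈ Ω | σ = f on Y} × {far d' ∉ Y of the colour of d}` to
  `{σ ∈ Ω | σ = f on Y.erase d}` is injective (`d' = σ'⁻¹ (f d)`), and there are at least `n₁`
  choices of `d'`.
* `Ω` is nonempty: minimise over colour preserving `σ` the potential
  `Φ σ = ∑ g, #{n ∈ range (L+1) | Near (Γ.rewire σ) {g} n (ends of g)}`.  With `c g` the least such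
  `n` (or `L+1`) the term is `L + 1 - c g`; if `c d ≤ L`, switching `d` with a far `d'` does not
  increase the old terms and replaces `(L+1-a) + (L+1-c)` by at most `2 * (L+1-(a+c+1))`
  (truncated), which is smaller.
-/

set_option autoImplicit false

namespace Crest.Agent.R177

open Classical

namespace Sw

variable {V E : Type}

/-- walks of length at most `n` -/
inductive Near (R : V → V → Prop) : ℕ → V → V → Prop
  | refl (n : ℕ) (x : V) : Near R n x x
  | step {n : ℕ} {x y z : V} : Near R n x y → R y z → Near R (n + 1) x z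

namespace Near
variable {R R' : V → V → Prop}

lemma succ {n : ℕ} {x y : V} (h : Near R n x y) : Near R (n + 1) x y := by
  induction h with
  | refl n x => exact refl _ _
  | step _ hr ih => exact ih.step hr

lemma mono {n m : ℕ} {x y : V} (h : Near R n x y) (hnm : n ≤ m) : Near R m x y := by
  induction hnm with
  | refl => exact h
  | step _ ih => exact ih.succ

lemma imp (hR : ∀ x y, R x y → R' x y) {n : ℕ} {x y : V} (h : Near R n x y) : Near R' n x y := by
  induction h with
  | refl n x => exact refl _ _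
  | step _ hr ih => exact ih.step (hR _ _ hr)

lemma trans {n m : ℕ} {x y z : V} (h : Near R n x y) (h' : Near R m y z) :
    Near R (n + m) x z := by
  induction h' with
  | refl m y => exact h.mono (Nat.le_add_right _ _)
  | step _ hr ih => exact (ih h).step hr

lemma single {x y : V} (h : R x y) : Near R 1 x y := (refl 0 x).step h

lemma symm (hR : ∀ x y, R x y → R y x) {n : ℕ} {x y : V} (h : Near R n x y) : Near R n y x := by
  induction h with
  | refl n x => exact refl _ _
  | step _ hr ih => exact ((single (hR _ _ hr)).trans ih).mono (by omega)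

lemma decomp {Z : V → Prop} (hR : ∀ x y, R' x y → R x y ∨ (Z x ∧ Z y)) {n : ℕ} {x y : V}
    (h : Near R' n x y) : Near R n x y ∨
      ∃ z₁ z₂ α γ, Z z₁ ∧ Z z₂ ∧ α + γ + 1 ≤ n ∧ Near R α x z₁ ∧ Near R γ z₂ y := by
  induction h with
  | refl n x => exact Or.inl (refl _ _)
  | @step n x y z _ hr ih =>
    rcases ih with ih | ⟨z₁, z₂, α, γ, h1, h2, h3, h4, h5⟩
    · rcases hR _ _ hr with h | h
      · exact Or.inl (ih.step h)
      · exact Or.inr ⟨y, z, n, 0, h.1, h.2, le_rfl, ih, refl _ _⟩
    · rcases hR _ _ hr with h | h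
      · exact Or.inr ⟨z₁, z₂, α, γ + 1, h1, h2, by omega, h4, h5.step h⟩
      · exact Or.inr ⟨z₁, z, α, 0, h1, h.2, by omega, h4, refl _ _⟩

lemma card_ball [Fintype V] {Dg : ℕ} (hR : ∀ x, (Finset.univ.filter (R x)).card ≤ Dg) (x : V)
    (n : ℕ) : (Finset.univ.filter (Near R n x)).card ≤ (Dg + 1) ^ n := by
  induction n with
  | zero =>
    refine Finset.card_le_one.2 fun y hy z hz => ?_
    cases (Finset.mem_filter.1 hy).2
    cases (Finset.mem_filter.1 hz).2
    rfl
  | succ n ih =>
    have : Finset.univ.filter (Near R (n + 1) x) ⊆ (Finset.univ.filter (Near R n x)).biUnion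
        fun y => insert y (Finset.univ.filter (R y)) := by
      intro z hz
      simp only [Finset.mem_biUnion, Finset.mem_filter, Finset.mem_univ, true_and,
        Finset.mem_insert] at hz ⊢
      cases hz with
      | refl => exact ⟨x, refl _ _, Or.inl rfl⟩
      | step h hr => exact ⟨_, h, Or.inr hr⟩
    refine (Finset.card_le_card this).trans ((Finset.card_biUnion_le_card_mul _ _ (Dg + 1)
      fun y _ => (Finset.card_insert_le _ _).trans (Nat.succ_le_succ (hR y))).trans ?_)
    rw [pow_succ]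
    exact Nat.mul_le_mul_right _ ih

end Near

/-- adjacency through an edge outside `A` -/
def Adj (a b : E → V) (A : Set E) (x y : V) : Prop :=
  ∃ e, e ∉ A ∧ ((a e = x ∧ b e = y) ∨ (a e = y ∧ b e = x))

variable {a b : E → V}

lemma Adj.symm {A : Set E} (x y : V) (h : Adj a b A x y) : Adj a b A y x := by
  obtain ⟨e, he, h⟩ := h
  exact ⟨e, he, h.symm⟩

lemma Adj.anti {A B : Set E} (hAB : A ⊆ B) (x y : V) (h : Adj a b B x y) : Adj a b A x y := by
  obtain ⟨e, he, h⟩ := h
  exact ⟨e, fun h' => he (hAB h'), h⟩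

lemma adj_edge {A : Set E} {e : E} (he : e ∉ A) : Adj a b A (a e) (b e) :=
  ⟨e, he, Or.inl ⟨rfl, rfl⟩⟩

lemma card_adj [Fintype V] [Fintype E] (x : V) : (Finset.univ.filter (Adj a b ∅ x)).card ≤
    (Finset.univ.filter fun e => a e = x ∨ b e = x).card := by
  refine le_trans (Finset.card_le_card ?_)
    (Finset.card_image_le (f := fun e => if a e = x then b e else a e))
  intro y hy
  obtain ⟨e, -, h⟩ := (Finset.mem_filter.1 hy).2
  refine Finset.mem_image.2 ⟨e, Finset.mem_filter.2 ⟨Finset.mem_univ _, ?_⟩, ?_⟩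
  · exact h.imp And.left And.right
  · rcases h with ⟨h1, h2⟩ | ⟨h1, h2⟩
    · rw [if_pos h1, h2]
    · split_ifs with h3
      · rw [h2, ← h3, h1]
      · exact h1

/-- `x` is an end of `e` -/
def End (a b : E → V) (e : E) (x : V) : Prop := x = a e ∨ x = b e

lemma near_ends {A : Set E} {e : E} (he : e ∉ A) {x y : V} (hx : End a b e x) (hy : End a b e y) :
    Near (Adj a b A) 1 x y := by
  rcases hx with rfl | rfl <;> rcases hy with rfl | rfl
  · exact Near.refl _ _
  · exact Near.single (adj_edge he)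
  · exact Near.single (Adj.symm _ _ (adj_edge he))
  · exact Near.refl _ _

/-- the edges `d`, `d'` are far from each other -/
def FarP (a b : E → V) (L : ℕ) (d d' : E) : Prop :=
  ∀ x y, End a b d x → End a b d' y → ¬ Near (Adj a b ∅) L x y

lemma FarP.symm {L : ℕ} {d d' : E} (h : FarP a b L d d') : FarP a b L d' d :=
  fun x y hx hy h' => h y x hy hx (h'.symm Adj.symm)

lemma FarP.ne {L : ℕ} {d d' : E} (h : FarP a b L d d') : d ≠ d' := by
  rintro rfl
  exact h _ _ (Or.inl rfl) (Or.inl rfl) (Near.refl _ _)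

lemma farP_of {L : ℕ} {d d' : E} (h : ¬ Near (Adj a b ∅) (L + 2) (a d) (a d')) :
    FarP a b L d d' := fun _ _ hx hy h' =>
  h ((((near_ends (Set.notMem_empty d) (Or.inl rfl) hx).trans h').trans
    (near_ends (Set.notMem_empty d') hy (Or.inl rfl))).mono (by omega))

/-- a short cycle through `g` -/
def Cyc (a b : E → V) (g : E) (n : ℕ) : Prop := Near (Adj a b {g}) n (a g) (b g)

lemma sw_old {L n : ℕ} {d d' g : E} (h : FarP a b L d d') (hn : n ≤ L) (h1 : g ≠ d) (h2 : g ≠ d')
    (hc : Cyc a (b ∘ Equiv.swap d d') g n) : Cyc a b g n := by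
  rw [Cyc, Function.comp_apply, Equiv.swap_apply_of_ne_of_ne h1 h2] at hc
  have hR : ∀ x y, Adj a (b ∘ Equiv.swap d d') {g} x y → Adj a b {g} x y ∨
      ((End a b d x ∨ End a b d' x) ∧ (End a b d y ∨ End a b d' y)) := by
    rintro x y ⟨e, he, hxy⟩
    by_cases e1 : e = d
    · subst e1
      simp only [Function.comp_apply, Equiv.swap_apply_left] at hxy
      rcases hxy with ⟨rfl, rfl⟩ | ⟨rfl, rfl⟩ <;> simp [End]
    by_cases e2 : e = d'
    · subst e2
      simp only [Function.comp_apply, Equiv.swap_apply_right] at hxy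
      rcases hxy with ⟨rfl, rfl⟩ | ⟨rfl, rfl⟩ <;> simp [End]
    rw [Function.comp_apply, Equiv.swap_apply_of_ne_of_ne e1 e2] at hxy
    exact Or.inl ⟨e, he, hxy⟩
  rcases hc.decomp (Z := fun x => End a b d x ∨ End a b d' x) hR with
    hc | ⟨z₁, z₂, α, γ, hz₁, hz₂, hle, w₁, w₂⟩
  · exact hc
  · have w : Near (Adj a b ∅) L z₁ z₂ :=
      ((((w₁.imp (Adj.anti (Set.empty_subset _))).symm Adj.symm).trans
        (Near.single (adj_edge (Set.notMem_empty g)))).trans
        ((w₂.imp (Adj.anti (Set.empty_subset _))).symm Adj.symm)).mono (by omega)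
    have w' : Near (Adj a b {g}) 1 z₁ z₂ := by
      rcases hz₁ with hz₁ | hz₁ <;> rcases hz₂ with hz₂ | hz₂
      · exact near_ends (Set.notMem_singleton_iff.2 h1.symm) hz₁ hz₂
      · exact (h _ _ hz₁ hz₂ w).elim
      · exact (h.symm _ _ hz₁ hz₂ w).elim
      · exact near_ends (Set.notMem_singleton_iff.2 h2.symm) hz₁ hz₂
    exact ((w₁.trans w').trans w₂).mono (by omega)

lemma sw_new {L n : ℕ} {d d' : E} (h : FarP a b L d d') (hn : n ≤ L)
    (hc : Cyc a (b ∘ Equiv.swap d d') d n) : ∃ α, α < n ∧ Cyc a b d α := by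
  rw [Cyc, Function.comp_apply, Equiv.swap_apply_left] at hc
  have hR : ∀ x y, Adj a (b ∘ Equiv.swap d d') {d} x y → Adj a b {d} x y ∨
      ((x = a d' ∨ x = b d) ∧ (y = a d' ∨ y = b d)) := by
    rintro x y ⟨e, he, hxy⟩
    by_cases e2 : e = d'
    · subst e2
      simp only [Function.comp_apply, Equiv.swap_apply_right] at hxy
      rcases hxy with ⟨rfl, rfl⟩ | ⟨rfl, rfl⟩ <;> simp
    rw [Function.comp_apply, Equiv.swap_apply_of_ne_of_ne he e2] at hxy
    exact Or.inl ⟨e, he, hxy⟩
  rcases hc.decomp (Z := fun x => x = a d' ∨ x = b d) hR with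
    hc | ⟨z₁, z₂, α, γ, hz₁, -, hle, w₁, -⟩
  · exact (h _ _ (Or.inl rfl) (Or.inr rfl)
      ((hc.imp (Adj.anti (Set.empty_subset _))).mono hn)).elim
  · rcases hz₁ with rfl | rfl
    · exact (h _ _ (Or.inl rfl) (Or.inl rfl)
        ((w₁.imp (Adj.anti (Set.empty_subset _))).mono (by omega))).elim
    · exact ⟨α, by omega, w₁⟩

lemma sw_all {L n : ℕ} {d d' : E} (h : FarP a b L d d') (hn : n ≤ L) (g : E)
    (hc : Cyc a (b ∘ Equiv.swap d d') g n) : Cyc a b g n := by
  by_cases h1 : g = d
  · subst h1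
    obtain ⟨α, hα, w⟩ := sw_new h hn hc
    exact w.mono hα.le
  by_cases h2 : g = d'
  · subst h2
    rw [Equiv.swap_comm] at hc
    obtain ⟨α, hα, w⟩ := sw_new h.symm hn hc
    exact w.mono hα.le
  exact sw_old h hn h1 h2 hc

section Graph

variable {U W P : Type}

/-- main end -/
def ea (G : BGraph U W E P) (d : E) : U ⊕ W := Sum.inl (G.s d)

/-- auxiliary end -/
def eb (G : BGraph U W E P) (d : E) : U ⊕ W := Sum.inr (G.t d)

lemma adj_tail_head (G : BGraph U W E P) {A : Set E} {e : E} (he : e ∉ A) (o : Bool) :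
    Adj (ea G) (eb G) A (G.tail e o) (G.head e o) := by
  cases o
  · exact Adj.symm _ _ (adj_edge he)
  · exact adj_edge he

lemma exists_cyc (G : BGraph U W E P) (m : ℕ) : ∀ (e : ℕ → E) (o : ℕ → Bool), 0 < m →
    (∀ k, k + 1 < m → G.head (e k) (o k) = G.tail (e (k + 1)) (o (k + 1)) ∧ e (k + 1) ≠ e k) →
    G.head (e (m - 1)) (o (m - 1)) = G.tail (e 0) (o 0) → ∃ g, Cyc (ea G) (eb G) g m := by
  induction m using Nat.strong_induction_on with
  | _ m ih =>
    intro e o hm hch hcl
    by_cases hrep : ∃ j, j + 1 < m ∧ e (j + 1) = e 0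
    · obtain ⟨j, hj, hej⟩ := hrep
      by_cases ho : o (j + 1) = o 0
      · obtain ⟨g, hg⟩ := ih (j + 1) hj e o (Nat.succ_pos j) (fun k hk => hch k (by omega))
          (by rw [Nat.add_sub_cancel, (hch j hj).1, hej, ho])
        exact ⟨g, hg.mono hj.le⟩
      · cases j with
        | zero => exact ((hch 0 hj).2 hej).elim
        | succ j =>
          obtain ⟨g, hg⟩ := ih (j + 1) (by omega) (fun k => e (k + 1)) (fun k => o (k + 1))
            (Nat.succ_pos j) (fun k hk => hch (k + 1) (by omega)) (by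
              rw [Nat.add_sub_cancel, (hch (j + 1) hj).1, hej, ← (hch 0 (by omega)).1]
              revert ho
              cases o (j + 1 + 1) <;> cases o 0 <;> simp [BGraph.head, BGraph.tail])
          exact ⟨g, hg.mono (by omega)⟩
    · push Not at hrep
      have hw : ∀ k, k < m →
          Near (Adj (ea G) (eb G) {e 0}) k (G.head (e 0) (o 0)) (G.head (e k) (o k)) := by
        intro k
        induction k with
        | zero => exact fun _ => Near.refl _ _
        | succ k ihk =>
          intro hk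
          refine (ihk (by omega)).step ?_
          rw [(hch k hk).1]
          exact adj_tail_head G (Set.notMem_singleton_iff.2 (hrep k hk)) _
      have h := (hw (m - 1) (by omega)).mono (Nat.sub_le m 1)
      rw [hcl] at h
      refine ⟨e 0, ?_⟩
      revert h
      cases o 0
      · exact id
      · exact fun h => h.symm Adj.symm

lemma girth_of (G : BGraph U W E P) {L : ℕ} (h : ∀ g, ¬ Cyc (ea G) (eb G) g L) : G.Girth L := by
  intro m e o hm hch hcl
  by_contra hlt
  obtain ⟨g, hg⟩ := exists_cyc G m e o hm hch hcl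
  exact h g (hg.mono (by omega))

lemma card_far [Fintype U] [Fintype W] [Fintype E] {C : Type} (Γ : BGraph U W E P) (col : E → C)
    {Dg L N : ℕ} (hdeg_s : ∀ u, (Finset.univ.filter fun d => Γ.s d = u).card ≤ Dg)
    (hdeg_t : ∀ w, (Finset.univ.filter fun d => Γ.t d = w).card ≤ Dg)
    (hs : ∀ d d', Γ.s d = Γ.s d' → col d = col d' → d = d') (σ : Equiv.Perm E) (d : E)
    (hn : N + (Dg + 1) ^ (L + 2) ≤ (Finset.univ.filter fun d' => col d' = col d).card) :
    N ≤ (Finset.univ.filter fun d' => col d' = col d ∧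
      FarP (ea (Γ.rewire σ)) (eb (Γ.rewire σ)) L d d').card := by
  have hdeg : ∀ x, (Finset.univ.filter (Adj (ea (Γ.rewire σ)) (eb (Γ.rewire σ)) ∅ x)).card ≤ Dg := by
    intro x
    refine (card_adj x).trans ?_
    cases x with
    | inl u => simpa [ea, eb, BGraph.rewire] using hdeg_s u
    | inr w =>
      refine le_trans (Finset.card_le_card_of_injOn σ (fun e he => ?_) σ.injective.injOn) (hdeg_t w)
      simpa [ea, eb, BGraph.rewire] using he
  have h1 := Near.card_ball hdeg (ea (Γ.rewire σ) d) (L + 2)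
  have h2 : ((Finset.univ.filter fun d' => col d' = col d).filter fun d' =>
      ¬ FarP (ea (Γ.rewire σ)) (eb (Γ.rewire σ)) L d d').card ≤ (Dg + 1) ^ (L + 2) := by
    refine le_trans (Finset.card_le_card_of_injOn (ea (Γ.rewire σ)) (fun e he => ?_)
      fun e he e' he' h => ?_) h1
    · simp only [Finset.coe_filter, Finset.mem_filter, Finset.mem_univ, true_and,
        Set.mem_ofPred_eq] at he ⊢
      exact not_not.1 fun h => he.2 (farP_of h)
    · simp only [Finset.coe_filter, Finset.mem_filter, Finset.mem_univ, true_and,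
        Set.mem_ofPred_eq] at he he'
      exact hs e e' (Sum.inl.inj h) (he.1.trans he'.1.symm)
  have h3 := Finset.card_filter_add_card_filter_not (s := Finset.univ.filter fun d' => col d' = col d)
    fun d' => FarP (ea (Γ.rewire σ)) (eb (Γ.rewire σ)) L d d'
  rw [Finset.filter_filter] at h3
  omega

lemma col_swap {C : Type} {col : E → C} {σ : Equiv.Perm E} (hσ : ∀ e, col (σ e) = col e) {d d' : E}
    (h : col d' = col d) (e : E) : col ((σ * Equiv.swap d d') e) = col e := by
  rw [Equiv.Perm.mul_apply, hσ, Equiv.swap_apply_def]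
  split_ifs with h1 h2
  · rw [h, h1]
  · rw [h2, h]
  · rfl

end Graph

end Sw

open Sw in
theorem switch_main {U W E P C : Type} [Fintype U] [Fintype W] [Fintype E]
    (Γ : BGraph U W E P) (col : E → C) (Dg L n₁ k : ℕ)
    (hdeg_s : ∀ u, (Finset.univ.filter fun d => Γ.s d = u).card ≤ Dg)
    (hdeg_t : ∀ w, (Finset.univ.filter fun d => Γ.t d = w).card ≤ Dg)
    (hs : ∀ d d', Γ.s d = Γ.s d' → col d = col d' → d = d')
    (hn₁ : 0 < n₁)
    (hn : ∀ d, n₁ + k + (Dg + 1) ^ (L + 2) ≤
      (Finset.univ.filter fun d' => col d' = col d).card) :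
    ∃ Ω : Finset (Equiv.Perm E), Ω.Nonempty ∧
      (∀ σ ∈ Ω, (∀ d, col (σ d) = col d) ∧ (Γ.rewire σ).Girth L) ∧
      ∀ (Y : Finset E) (f : E → E), Y.card ≤ k →
        (Ω.filter fun σ => ∀ d ∈ Y, σ d = f d).card * n₁ ^ Y.card ≤ Ω.card := by
  let Ω : Finset (Equiv.Perm E) := Finset.univ.filter fun σ => (∀ d, col (σ d) = col d) ∧
    ∀ g, ¬ Cyc (ea (Γ.rewire σ)) (eb (Γ.rewire σ)) g L
  have hΩ : ∀ σ, σ ∈ Ω ↔ (∀ d, col (σ d) = col d) ∧
      ∀ g, ¬ Cyc (ea (Γ.rewire σ)) (eb (Γ.rewire σ)) g L := fun σ => by simp [Ω]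
  have hfar := fun σ d => card_far Γ col hdeg_s hdeg_t hs σ d (hn d)
  refine ⟨Ω, ?_, fun σ hσ => ⟨((hΩ σ).1 hσ).1, girth_of _ ((hΩ σ).1 hσ).2⟩, fun Y f => ?_⟩
  · let T : Equiv.Perm E → Finset (E × ℕ) := fun σ =>
      (Finset.univ ×ˢ Finset.range (L + 1)).filter fun p =>
        Cyc (ea (Γ.rewire σ)) (eb (Γ.rewire σ)) p.1 p.2
    have hT : ∀ σ g n, (g, n) ∈ T σ ↔ n ≤ L ∧ Cyc (ea (Γ.rewire σ)) (eb (Γ.rewire σ)) g n :=
      fun σ g n => by simp [T]
    obtain ⟨σ, hσ, hmin⟩ := Finset.exists_min_image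
      (Finset.univ.filter fun σ : Equiv.Perm E => ∀ d, col (σ d) = col d) (fun σ => (T σ).card)
      ⟨1, by simp⟩
    have hσ' := (Finset.mem_filter.1 hσ).2
    refine ⟨σ, (hΩ σ).2 ⟨hσ', fun d hd => ?_⟩⟩
    obtain ⟨d', hd'⟩ := Finset.card_pos.1 (lt_of_lt_of_le (by omega) (hfar σ d))
    obtain ⟨hc, hf⟩ := (Finset.mem_filter.1 hd').2
    refine (hmin (σ * Equiv.swap d d')
      (Finset.mem_filter.2 ⟨Finset.mem_univ _, col_swap hσ' hc⟩)).not_gt (Finset.card_lt_card ?_)
    have hex : ∃ n, Cyc (ea (Γ.rewire σ)) (eb (Γ.rewire σ)) d n := ⟨L, hd⟩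
    have hle : Nat.find hex ≤ L := Nat.find_min' hex hd
    refine (Finset.ssubset_iff_of_subset ?_).2
      ⟨(d, Nat.find hex), (hT _ _ _).2 ⟨hle, Nat.find_spec hex⟩, fun h => ?_⟩
    · rintro ⟨g, n⟩ h
      obtain ⟨h1, h2⟩ := (hT _ _ _).1 h
      exact (hT _ _ _).2 ⟨h1, sw_all hf h1 g h2⟩
    · obtain ⟨α, hα, w⟩ := sw_new hf hle ((hT _ _ _).1 h).2
      exact Nat.find_min hex hα w
  · induction Y using Finset.induction_on with
    | empty => simp
    | insert d Y hd ih =>
      intro hk
      rw [Finset.card_insert_of_notMem hd] at hk ⊢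
      refine le_trans ?_ (ih (by omega))
      rw [pow_succ', ← mul_assoc]
      refine Nat.mul_le_mul_right _ (le_trans (Finset.card_mul_le_card_mul (n := 1)
        (fun σ τ => ∃ d', τ = σ * Equiv.swap d d') (fun σ hσ => ?_) fun τ _ => ?_) (mul_one _).le)
      · obtain ⟨hσ, hf⟩ := Finset.mem_filter.1 hσ
        obtain ⟨h1, h2⟩ := (hΩ σ).1 hσ
        have h3 := hfar σ d
        have h4 := Finset.le_card_sdiff Y (Finset.univ.filter fun d' => col d' = col d ∧
          FarP (ea (Γ.rewire σ)) (eb (Γ.rewire σ)) L d d')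
        refine le_trans (le_trans (by omega) h4)
          (Finset.card_le_card_of_injOn (fun d' => σ * Equiv.swap d d') (fun d' hd' => ?_)
            fun d₁ _ d₂ _ h => ?_)
        · obtain ⟨h5, h6⟩ := Finset.mem_sdiff.1 (Finset.mem_coe.1 hd')
          obtain ⟨hc, hf'⟩ := (Finset.mem_filter.1 h5).2
          refine Finset.mem_coe.2 (Finset.mem_bipartiteAbove _ |>.2 ⟨Finset.mem_filter.2
            ⟨(hΩ _).2 ⟨col_swap h1 hc, fun g hg => h2 g (sw_all hf' le_rfl g hg)⟩,
              fun e he => ?_⟩, d', rfl⟩)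
          rw [Equiv.Perm.mul_apply, Equiv.swap_apply_of_ne_of_ne (ne_of_mem_of_not_mem he hd)
            (ne_of_mem_of_not_mem he h6)]
          exact hf e (Finset.mem_insert_of_mem he)
        · simpa using DFunLike.congr_fun h d
      · refine Finset.card_le_one.2 fun σ₁ h₁ σ₂ h₂ => ?_
        obtain ⟨h₁, d₁, e₁⟩ := (Finset.mem_bipartiteBelow _).1 h₁
        obtain ⟨h₂, d₂, e₂⟩ := (Finset.mem_bipartiteBelow _).1 h₂
        have k₁ : τ d₁ = f d := by
          rw [e₁, Equiv.Perm.mul_apply, Equiv.swap_apply_right]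
          exact (Finset.mem_filter.1 h₁).2 d (Finset.mem_insert_self _ _)
        have k₂ : τ d₂ = f d := by
          rw [e₂, Equiv.Perm.mul_apply, Equiv.swap_apply_right]
          exact (Finset.mem_filter.1 h₂).2 d (Finset.mem_insert_self _ _)
        obtain rfl : d₁ = d₂ := τ.injective (k₁.trans k₂.symm)
        exact mul_right_cancel (e₁.symm.trans e₂)

end Crest.Agent.R177
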