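import Mathlib

/-!
# Rows 177/184/199: the design (a projective plane with two disjoint blocking sets)

Interface file (owner helper3).  Do not change statements.
-/

set_option autoImplicit false

namespace Crest.Agent.R177

variable {P L : Type} [Fintype P] [Fintype L] [DecidableEq P]

/-- Points `P`, lines `L`; every point is on `Q` lines, two points on at most one line; two lines
(equal or not) meet in `1 mod p` points; `B`, `B'` are disjoint sets of size `1 mod p` meeting every
line in `1 mod p` points. -/
structure IsPlane (p : ℕ) (ln : L → Finset P) (Q : ℕ) (B B' : Finset P) : Prop where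
  two_le : 2 ≤ Q
  cardP : Fintype.card P + 9 < Q ^ 2
  through : ∀ h, (Finset.univ.filter fun l => h ∈ ln l).card = Q
  two : ∀ h h', h ≠ h' → (Finset.univ.filter fun l => h ∈ ln l ∧ h' ∈ ln l).card ≤ 1
  meet : ∀ l l', ((ln l ∩ ln l').card : ZMod p) = 1
  meetB : ∀ l, ((B ∩ ln l).card : ZMod p) = 1
  meetB' : ∀ l, ((B' ∩ ln l).card : ZMod p) = 1
  cardB : (B.card : ZMod p) = 1
  cardB' : (B'.card : ZMod p) = 1
  disj : Disjoint B B'

/-- A fixed-point free permutation of the points with cycles of length two or three, preserving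
`B` and `B'`, with at most nine points on cycles of length three. -/
structure IsRho (B B' : Finset P) (ρ : Equiv.Perm P) : Prop where
  ne : ∀ h, ρ h ≠ h
  ord : ∀ h, ρ (ρ h) = h ∨ ρ (ρ (ρ h)) = h
  memB : ∀ h, ρ h ∈ B ↔ h ∈ B
  memB' : ∀ h, ρ h ∈ B' ↔ h ∈ B'
  few : (Finset.univ.filter fun h => ρ (ρ h) ≠ h).card ≤ 9

end Crest.Agent.R177
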