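import Crest.Agent.R177.Local

/-!
# Reduced planar diagrams (abstract form).  FROZEN (owner helper77).

A diagram consists of triangles `Tri` and outer darts `Out`.  The triangle `τ` carries the oriented
edge `ed τ` of `Γ`; its darts `(τ,0), (τ,1), (τ,2)` read `tail`, the label of the edge, `head⁻¹`.
`opp` glues darts in pairs.  Planarity is recorded as the vanishing of `H¹(D, ∂D; 𝔽₂)` (`planar`).
-/

set_option autoImplicit false

namespace Crest.Agent.R177

open LGraph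

/-- derivations of words that are trivial in a triangular presentation, with their 2-chains -/
inductive Der {G : Type} [Group G] {S T : Type} (P : Crest.Agent.Lib.CW2.TriData G S T) :
    List (S × Bool) → (G × T →₀ ℤ) → Prop
  | nil : Der P [] 0
  | ins (L₁ L₂ : List (S × Bool)) (x : S) (b : Bool) (c : G × T →₀ ℤ) :
      Der P (L₁ ++ L₂) c → Der P (L₁ ++ (x, b) :: (x, !b) :: L₂) c
  | del (L₁ L₂ : List (S × Bool)) (x : S) (b : Bool) (c : G × T →₀ ℤ) :
      Der P (L₁ ++ (x, b) :: (x, !b) :: L₂) c → Der P (L₁ ++ L₂) c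
  | pos (L₁ L₂ : List (S × Bool)) (t : T) (c : G × T →₀ ℤ) :
      Der P (L₁ ++ L₂) c →
      Der P (L₁ ++ (P.d01 t, true) :: (P.d12 t, true) :: (P.d02 t, false) :: L₂)
        (c + Finsupp.single (wordProd P L₁, t) 1)
  | neg (L₁ L₂ : List (S × Bool)) (t : T) (c : G × T →₀ ℤ) :
      Der P (L₁ ++ L₂) c →
      Der P (L₁ ++ (P.d02 t, true) :: (P.d12 t, false) :: (P.d01 t, false) :: L₂)
        (c - Finsupp.single (wordProd P L₁, t) 1)

/-- a reduced planar diagram over `Γ` -/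
structure RMap {V A E : Type} (Γ : LGraph V A E) (Tri Out : Type) where
  ed : Tri → E × Bool
  opp : (Tri × Fin 3) ⊕ Out → (Tri × Fin 3) ⊕ Out
  opp_opp : ∀ d, opp (opp d) = d
  opp_ne : ∀ d, opp d ≠ d
  /-- inner darts are glued `0 ↔ 2`, `1 ↔ 1` -/
  idx : ∀ τ i τ' i', opp (.inl (τ, i)) = .inl (τ', i') → i' = Fin.rev i
  spoke : ∀ τ τ', opp (.inl (τ, 2)) = .inl (τ', 0) →
    Γ.head (ed τ) = Γ.tail (ed τ') ∧ (ed τ').1 ≠ (ed τ).1
  base : ∀ τ τ', opp (.inl (τ, 1)) = .inl (τ', 1) →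
    Γ.lab (ed τ').1 = Γ.lab (ed τ).1 ∧ (ed τ').2 = !(ed τ).2 ∧ (ed τ').1 ≠ (ed τ).1
  /-- every relative 1-cocycle with values in `𝔽₂` is a relative coboundary -/
  planar : ∀ ψ : (Tri × Fin 3) ⊕ Out → ZMod 2, (∀ d, ψ (opp d) = ψ d) → (∀ o, ψ (.inr o) = 0) →
    (∀ τ, ψ (.inl (τ, 0)) + ψ (.inl (τ, 1)) + ψ (.inl (τ, 2)) = 0) →
    ∃ π : (Tri × Fin 3) ⊕ Out → ZMod 2, (∀ o, π (.inr o) = 0) ∧ (∀ d, π (opp d) = π d + ψ d) ∧
      ∀ τ i, π (.inl (τ, i + 1)) = π (.inl (τ, i)) + ψ (.inl (τ, i))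

namespace RMap

variable {V A E Tri Out : Type} {Γ : LGraph V A E} (M : RMap Γ Tri Out)

/-- the triangle on the other side of the dart `(τ, i)`, if any -/
def nbr (τ : Tri) (i : Fin 3) : Option Tri :=
  match M.opp (.inl (τ, i)) with
  | .inl p => some p.1
  | .inr _ => none

lemma nbr_eq_some {τ τ' : Tri} {i : Fin 3} :
    M.nbr τ i = some τ' ↔ M.opp (.inl (τ, i)) = .inl (τ', Fin.rev i) := by
  unfold nbr
  constructor
  · intro h
    rcases h' : M.opp (.inl (τ, i)) with ⟨σ, j⟩ | o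
    · rw [h'] at h
      obtain rfl : σ = τ' := by simpa using h
      rw [M.idx _ _ _ _ h']
    · rw [h'] at h
      simp at h
  · intro h
    rw [h]

lemma nbr_eq_none {τ : Tri} {i : Fin 3} :
    M.nbr τ i = none ↔ ∃ o, M.opp (.inl (τ, i)) = .inr o := by
  unfold nbr
  rcases h' : M.opp (.inl (τ, i)) with ⟨σ, j⟩ | o <;> simp

lemma nbr_symm {τ τ' : Tri} {i : Fin 3} (h : M.nbr τ i = some τ') :
    M.nbr τ' (Fin.rev i) = some τ := by
  rw [nbr_eq_some] at h ⊢
  rw [← h, M.opp_opp, Fin.rev_rev]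

/-- the configuration of all triangles: `succ` turns around the apex, `gl` crosses the base -/
def conf : Γ.Conf Tri where
  ed := M.ed
  succ τ := M.nbr τ 2
  gl τ := M.nbr τ 1
  succ_inj y₁ y₂ y h₁ h₂ := by
    have h := (M.nbr_symm h₁).symm.trans (M.nbr_symm h₂)
    simpa using h
  succ_cont y y' h := M.spoke y y' (M.nbr_eq_some.1 h)
  gl_symm y y' h := M.nbr_symm h
  gl_lab y y' h := M.base y y' (M.nbr_eq_some.1 h)

end RMap

namespace LGraph.Conf

variable {V A E Y K : Type} {Γ : LGraph V A E} (C : Γ.Conf Y)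

/-- number of gluings cut by the partition `κ` -/
noncomputable def cutGl (κ : Y → K) : ℕ := Nat.card {y // ∃ y', C.gl y = some y' ∧ κ y' ≠ κ y}

/-- number of successor steps cut by the partition `κ` -/
noncomputable def cutSucc (κ : Y → K) : ℕ := Nat.card {y // ∃ y', C.succ y = some y' ∧ κ y' ≠ κ y}

end LGraph.Conf

end Crest.Agent.R177
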