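import Crest.Agent.R177.RMap
import Crest.Agent.R177.Forest

/-!
# Tree–cotree decomposition of a reduced planar diagram

The boundary is contracted to one vertex.  The primal forest is a breadth-first forest that uses spokes only,
the dual forest uses the remaining inner edges; by planarity every inner edge lies in one of the two forests.
-/

set_option autoImplicit false

namespace Crest.Agent.R177

variable {V A E Tri Out : Type} {Γ : LGraph V A E}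

/-- tree–cotree data -/
structure TC (M : RMap Γ Tri Out) (Vx : Type) where
  vx : (Tri × Fin 3) ⊕ Out → Vx
  vx_nxt : ∀ τ i, vx (.inl (τ, i + 1)) = vx (M.opp (.inl (τ, i)))
  lev : Vx → ℕ
  par : Vx → Option (Tri × Fin 3)
  lev_out : ∀ o, lev (vx (.inr o)) = 0 ∧ vx (M.opp (.inr o)) = vx (.inr o)
  par_zero : ∀ a, lev a = 0 → par a = none
  par_spec : ∀ a, lev a ≠ 0 → ∃ p, par a = some p ∧ p.2 ≠ 1 ∧ vx (.inl p) = a ∧
    lev (vx (M.opp (.inl p))) + 1 = lev a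
  lev_le : ∀ p : Tri × Fin 3, p.2 ≠ 1 → lev (vx (.inl p)) ≤ lev (vx (M.opp (.inl p))) + 1 ∧
    lev (vx (M.opp (.inl p))) ≤ lev (vx (.inl p)) + 1
  lev₂ : Tri → ℕ
  pi : Tri → Fin 3
  up : Tri → Tri
  up_spec : ∀ τ, lev₂ τ ≠ 0 →
    M.opp (.inl (τ, pi τ)) = .inl (up τ, Fin.rev (pi τ)) ∧ lev₂ (up τ) + 1 = lev₂ τ
  cotree : ∀ τ i τ', M.opp (.inl (τ, i)) = .inl (τ', Fin.rev i) →
    par (vx (.inl (τ, i))) = some (τ, i) ∨ par (vx (.inl (τ', Fin.rev i))) = some (τ', Fin.rev i) ∨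
      (lev₂ τ ≠ 0 ∧ pi τ = i) ∨ (lev₂ τ' ≠ 0 ∧ pi τ' = Fin.rev i)

namespace RMap

variable (M : RMap Γ Tri Out)

lemma opp_inj {d d' : (Tri × Fin 3) ⊕ Out} (h : M.opp d = M.opp d') : d = d' := by
  rw [← M.opp_opp d, h, M.opp_opp]

/-- darts on the boundary -/
def Bd (d : (Tri × Fin 3) ⊕ Out) : Prop := (∃ o, d = .inr o) ∨ ∃ o, M.opp d = .inr o

/-- two darts start at the same vertex (generating relation) -/
def vrel (d d' : (Tri × Fin 3) ⊕ Out) : Prop :=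
  (∃ τ i, d = .inl (τ, i + 1) ∧ d' = M.opp (.inl (τ, i))) ∨ (M.Bd d ∧ M.Bd d')

lemma bd_opp {d : (Tri × Fin 3) ⊕ Out} (h : M.Bd d) : M.Bd (M.opp d) := by
  rcases h with ⟨o, rfl⟩ | ⟨o, h⟩
  · exact Or.inr ⟨o, M.opp_opp _⟩
  · exact Or.inl ⟨o, h⟩

open Classical in
/-- indicator of the edge of the dart `p` -/
noncomputable def ind (p : Tri × Fin 3) (d : (Tri × Fin 3) ⊕ Out) : ZMod 2 :=
  (if d = .inl p then 1 else 0) + if d = M.opp (.inl p) then 1 else 0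

lemma ind_opp (p : Tri × Fin 3) (d : (Tri × Fin 3) ⊕ Out) : M.ind p (M.opp d) = M.ind p d := by
  have h1 : (M.opp d = .inl p) ↔ d = M.opp (.inl p) :=
    ⟨fun h => by rw [← h, M.opp_opp], fun h => by rw [h, M.opp_opp]⟩
  have h2 : (M.opp d = M.opp (.inl p)) ↔ d = .inl p := ⟨M.opp_inj, fun h => by rw [h]⟩
  unfold ind
  by_cases ha : d = .inl p <;> by_cases hb : d = M.opp (.inl p)
  · rw [if_pos (h1.2 hb), if_pos (h2.2 ha), if_pos ha, if_pos hb]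
  · rw [if_neg (mt h1.1 hb), if_pos (h2.2 ha), if_pos ha, if_neg hb, add_comm]
  · rw [if_pos (h1.2 hb), if_neg (mt h2.1 ha), if_neg ha, if_pos hb, add_comm]
  · rw [if_neg (mt h1.1 hb), if_neg (mt h2.1 ha), if_neg ha, if_neg hb]

lemma ind_eq_zero {p : Tri × Fin 3} {d : (Tri × Fin 3) ⊕ Out} (h₁ : d ≠ .inl p)
    (h₂ : d ≠ M.opp (.inl p)) : M.ind p d = 0 := by
  simp [ind, h₁, h₂]

lemma ind_self (p : Tri × Fin 3) : M.ind p (.inl p) = 1 := by
  simp [ind, (M.opp_ne (.inl p)).symm]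

open Classical in
lemma sum_ite_dart (p : Tri × Fin 3) (τ : Tri) :
    ((if (Sum.inl (τ, 0) : (Tri × Fin 3) ⊕ Out) = .inl p then (1 : ZMod 2) else 0) +
      (if (Sum.inl (τ, 1) : (Tri × Fin 3) ⊕ Out) = .inl p then 1 else 0) +
      if (Sum.inl (τ, 2) : (Tri × Fin 3) ⊕ Out) = .inl p then 1 else 0) =
      if τ = p.1 then 1 else 0 := by
  obtain ⟨σ, i⟩ := p
  by_cases h : τ = σ
  · subst h
    fin_cases i <;> simp
  · simp [h]

open Classical in
lemma ind_sum {p q : Tri × Fin 3} (h : M.opp (.inl p) = .inl q) (τ : Tri) :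
    M.ind p (.inl (τ, 0)) + M.ind p (.inl (τ, 1)) + M.ind p (.inl (τ, 2)) =
      (if τ = p.1 then 1 else 0) + if τ = q.1 then 1 else 0 := by
  rw [← sum_ite_dart (Out := Out) p τ, ← sum_ite_dart (Out := Out) q τ]
  simp only [ind, h]
  ring

end RMap

theorem RMap.exists_tc (M : RMap Γ Tri Out) : ∃ Vx : Type, Nonempty (TC M Vx) := by
  classical
  let vx : (Tri × Fin 3) ⊕ Out → Quot M.vrel := Quot.mk _
  have hnxt : ∀ τ i, vx (.inl (τ, i + 1)) = vx (M.opp (.inl (τ, i))) := fun τ i =>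
    Quot.sound (Or.inl ⟨τ, i, rfl, rfl⟩)
  have hbd : ∀ d d', M.Bd d → M.Bd d' → vx d = vx d' := fun d d' h h' => Quot.sound (Or.inr ⟨h, h'⟩)
  have hrev1 : ∀ i : Fin 3, i ≠ 1 → Fin.rev i ≠ 1 := by decide
  -- the primal forest
  obtain ⟨lev, root, par, hR, h0, hpar, hok⟩ := exists_bfs (A := Quot M.vrel) (D := Tri × Fin 3)
    (fun p => vx (.inl p)) (fun p => vx (M.opp (.inl p))) (fun p => p.2 ≠ 1) (by
      rintro ⟨τ, i⟩ hi
      rcases h : M.opp (.inl (τ, i)) with ⟨τ', i'⟩ | o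
      · refine ⟨(τ', i'), ?_, rfl, ?_⟩
        · rw [M.idx _ _ _ _ h]
          exact hrev1 i hi
        · rw [← h, M.opp_opp]
      · have hb : M.Bd (.inl (τ, i)) := Or.inr ⟨o, h⟩
        refine ⟨(τ, i), hi, ?_, ?_⟩
        · exact hbd _ _ hb (Or.inl ⟨o, rfl⟩)
        · exact hbd _ _ (M.bd_opp hb) hb)
    {a | ∃ d, M.Bd d ∧ vx d = a} (by
      rintro _ ⟨d, hd, rfl⟩ _ ⟨d', hd', rfl⟩
      exact hbd _ _ hd hd')
  let Tr : Tri × Fin 3 → Prop := fun p =>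
    par (vx (.inl p)) = some p ∨ ∃ q, M.opp (.inl p) = .inl q ∧ par (vx (.inl q)) = some q
  have hTr : ∀ p q, M.opp (.inl p) = .inl q → Tr p → Tr q := by
    intro p q h hp
    have h' : M.opp (.inl q) = .inl p := by rw [← h, M.opp_opp]
    rcases hp with hp | ⟨q', hq', hp⟩
    · exact Or.inr ⟨p, h', hp⟩
    · obtain rfl : q = q' := Sum.inl_injective (h.symm.trans hq')
      exact Or.inl hp
  -- the dual forest
  obtain ⟨lev₂, root₂, par₂, -, h0₂, hpar₂, hok₂⟩ := exists_bfs (A := Tri) (D := Tri × Fin 3)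
    (fun p => p.1) (fun p => (M.nbr p.1 p.2).getD p.1)
    (fun p => (∃ τ', M.opp (.inl p) = .inl (τ', Fin.rev p.2)) ∧ ¬ Tr p) (by
      rintro ⟨τ, i⟩ ⟨⟨τ', h⟩, hT⟩
      have h' : M.opp (.inl (τ', Fin.rev i)) = .inl (τ, i) := by rw [← h, M.opp_opp]
      refine ⟨(τ', Fin.rev i), ⟨⟨τ, by simpa using h'⟩, fun hT' => hT (hTr _ _ h' hT')⟩, ?_, ?_⟩
      · simp [M.nbr_eq_some.2 h]
      · simp [M.nbr_symm (M.nbr_eq_some.2 h)])
    ∅ Set.subsingleton_empty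
  let pi : Tri → Fin 3 := fun τ => ((par₂ τ).getD (τ, 0)).2
  let up : Tri → Tri := fun τ => (M.nbr τ (pi τ)).getD τ
  have hup : ∀ τ, lev₂ τ ≠ 0 → M.opp (.inl (τ, pi τ)) = .inl (up τ, Fin.rev (pi τ)) ∧
      lev₂ (up τ) + 1 = lev₂ τ ∧ ¬ Tr (τ, pi τ) ∧ root₂ (up τ) = root₂ τ := by
    intro τ hτ
    obtain ⟨⟨σ, i⟩, h1, ⟨⟨τ', h2⟩, h3⟩, h4, h5⟩ := hpar₂ τ hτ
    obtain rfl : σ = τ := h4
    have hpi : pi σ = i := by simp [pi, h1]
    have hu : up σ = τ' := by simp [up, hpi, M.nbr_eq_some.2 h2]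
    have h6 := (hok₂ (σ, i) ⟨⟨τ', h2⟩, h3⟩).1
    simp only [M.nbr_eq_some.2 h2, Option.getD_some] at h5 h6
    rw [hpi, hu]
    exact ⟨h2, h5, h3, h6.symm⟩
  -- cochains of the paths to the dual roots
  have hθ : ∀ n f, lev₂ f = n → ∃ θ : (Tri × Fin 3) ⊕ Out → ZMod 2, (∀ d, θ (M.opp d) = θ d) ∧
      (∀ d, (∀ a, lev₂ a ≠ 0 → d ≠ .inl (a, pi a) ∧ d ≠ M.opp (.inl (a, pi a))) → θ d = 0) ∧
      ∀ τ, θ (.inl (τ, 0)) + θ (.inl (τ, 1)) + θ (.inl (τ, 2)) =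
        (if τ = f then 1 else 0) + if τ = root₂ f then 1 else 0 := by
    intro n
    induction n with
    | zero =>
      intro f hf
      refine ⟨0, fun _ => rfl, fun _ _ => rfl, fun τ => ?_⟩
      rw [(h0₂ f hf).1]
      split_ifs <;> rfl
    | succ n ih =>
      intro f hf
      have hf0 : lev₂ f ≠ 0 := by omega
      obtain ⟨h1, h2, -, h4⟩ := hup f hf0
      obtain ⟨θ, hθ1, hθ2, hθ3⟩ := ih (up f) (by omega)
      refine ⟨θ + M.ind (f, pi f), fun d => ?_, fun d hd => ?_, fun τ => ?_⟩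
      · simp only [Pi.add_apply, hθ1, M.ind_opp]
      · simp only [Pi.add_apply, hθ2 d hd, M.ind_eq_zero (hd f hf0).1 (hd f hf0).2, add_zero]
      · have h5 := M.ind_sum h1 τ
        have h6 := hθ3 τ
        rw [h4] at h6
        simp only [Pi.add_apply]
        have h7 : ((if τ = up f then 1 else 0) + if τ = up f then 1 else 0 : ZMod 2) = 0 := by
          split_ifs <;> rfl
        linear_combination h5 + h6 + h7
  refine ⟨Quot M.vrel, ⟨⟨vx, hnxt, lev, par, fun o => ⟨hR _ ⟨_, Or.inl ⟨o, rfl⟩, rfl⟩,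
    hbd _ _ (M.bd_opp (Or.inl ⟨o, rfl⟩)) (Or.inl ⟨o, rfl⟩)⟩, fun a ha => (h0 a ha).2, hpar,
    fun p hp => ⟨(hok p hp).2, ?_⟩, lev₂, pi, up, fun τ hτ => ⟨(hup τ hτ).1, (hup τ hτ).2.1⟩, ?_⟩⟩⟩
  · obtain ⟨τ, i⟩ := p
    rcases h : M.opp (.inl (τ, i)) with ⟨τ', i'⟩ | o
    · have := (hok (τ', i') (by rw [M.idx _ _ _ _ h]; exact hrev1 i hp)).2
      rwa [← h, M.opp_opp, h] at this
    · rw [hbd (.inr o) (.inl (τ, i)) (Or.inl ⟨o, rfl⟩) (Or.inr ⟨o, h⟩)]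
      omega
  intro τ i τ' h
  by_contra hcon
  simp only [not_or, not_and] at hcon
  obtain ⟨hc1, hc2, hc3, hc4⟩ := hcon
  have h' : M.opp (.inl (τ', Fin.rev i)) = .inl (τ, i) := by rw [← h, M.opp_opp]
  have hT : ¬ Tr (τ, i) := by
    rintro (hp | ⟨q, hq, hp⟩)
    · exact hc1 hp
    · obtain rfl : (τ', Fin.rev i) = q := Sum.inl_injective (h.symm.trans hq)
      exact hc2 hp
  have hroot : root₂ τ = root₂ τ' := by
    have := (hok₂ (τ, i) ⟨⟨τ', h⟩, hT⟩).1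
    simpa [M.nbr_eq_some.2 h] using this
  obtain ⟨θ₁, a1, a2, a3⟩ := hθ _ τ rfl
  obtain ⟨θ₂, b1, b2, b3⟩ := hθ _ τ' rfl
  let ψ := θ₁ + θ₂ + M.ind (τ, i)
  have hout : ∀ o a, lev₂ a ≠ 0 → (Sum.inr o : (Tri × Fin 3) ⊕ Out) ≠ .inl (a, pi a) ∧
      Sum.inr o ≠ M.opp (.inl (a, pi a)) := fun o a ha => ⟨by simp, by rw [(hup a ha).1]; simp⟩
  have hψout : ∀ o, ψ (.inr o) = 0 := fun o => by
    simp only [ψ, Pi.add_apply, a2 _ (hout o), b2 _ (hout o), zero_add]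
    exact M.ind_eq_zero (by simp) (by rw [h]; simp)
  have hψopp : ∀ d, ψ (M.opp d) = ψ d := fun d => by
    simp only [ψ, Pi.add_apply, a1, b1, M.ind_opp]
  obtain ⟨π, p1, p2, p3⟩ := M.planar ψ hψopp hψout (fun σ => by
    have h5 := M.ind_sum h σ
    have h6 := a3 σ
    have h7 := b3 σ
    rw [hroot] at h6
    simp only [ψ, Pi.add_apply]
    have h8 : ∀ f, ((if σ = f then 1 else 0) + if σ = f then 1 else 0 : ZMod 2) = 0 := by
      intro f
      split_ifs <;> rfl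
    linear_combination h5 + h6 + h7 + h8 τ + h8 τ' + h8 (root₂ τ'))
  have hπbd : ∀ d, M.Bd d → π d = 0 := by
    rintro d (⟨o, rfl⟩ | ⟨o, ho⟩)
    · exact p1 o
    · have := p2 (.inr o)
      rw [p1, hψout, ← ho, M.opp_opp] at this
      simpa using this
  let πq : Quot M.vrel → ZMod 2 := Quot.lift π (by
    rintro d d' (⟨σ, j, rfl, rfl⟩ | ⟨hd, hd'⟩)
    · rw [p3, p2]
    · rw [hπbd d hd, hπbd d' hd'])
  have hπq : ∀ d, πq (vx d) = π d := fun _ => rfl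
  have hψTr : ∀ p, Tr p → ψ (.inl p) = 0 := by
    intro p hp
    have hne : ∀ q q', ¬ Tr q → M.opp (.inl q) = .inl q' →
        (Sum.inl p : (Tri × Fin 3) ⊕ Out) ≠ .inl q ∧ Sum.inl p ≠ M.opp (.inl q) := by
      intro q q' hq hqq
      refine ⟨fun he => hq (Sum.inl_injective he ▸ hp), fun he => hq (hTr p q ?_ hp)⟩
      rw [he, M.opp_opp]
    have hz : ∀ a, lev₂ a ≠ 0 → (Sum.inl p : (Tri × Fin 3) ⊕ Out) ≠ .inl (a, pi a) ∧
        Sum.inl p ≠ M.opp (.inl (a, pi a)) := fun a ha => hne _ _ (hup a ha).2.2.1 (hup a ha).1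
    simp only [ψ, Pi.add_apply, a2 _ hz, b2 _ hz, zero_add]
    exact M.ind_eq_zero (hne _ _ hT h).1 (hne _ _ hT h).2
  have hconst : ∀ n a, lev a = n → πq a = πq (root a) := by
    intro n
    induction n with
    | zero => intro a ha; rw [(h0 a ha).1]
    | succ n ih =>
      intro a ha
      obtain ⟨p, h1, h2, h3, h4⟩ := hpar a (by omega)
      have h5 := ih (vx (M.opp (.inl p))) (by omega)
      have h6 := (hok p h2).1
      rw [hπq, p2, hψTr p (Or.inl (by rw [h3]; exact h1)), add_zero, ← h6, ← hπq, h3] at h5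
      exact h5
  have hsame : root (vx (.inl (τ, i))) = root (vx (M.opp (.inl (τ, i)))) := by
    by_cases hi : i = 1
    · subst hi
      have e0 := (hok (τ, 0) (by simp)).1
      have e2 := (hok (τ, 2) (by simp)).1
      simp only [← hnxt] at e0 e2 ⊢
      exact e0.symm.trans e2.symm
    · exact (hok (τ, i) hi).1
  have hz : ∀ a, lev₂ a ≠ 0 → (Sum.inl (τ, i) : (Tri × Fin 3) ⊕ Out) ≠ .inl (a, pi a) ∧
      Sum.inl (τ, i) ≠ M.opp (.inl (a, pi a)) := by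
    intro a ha
    constructor
    · intro he
      obtain ⟨rfl, he'⟩ := Prod.mk.inj (Sum.inl_injective he)
      exact hc3 ha he'.symm
    · intro he
      have he2 : M.opp (.inl (τ, i)) = .inl (a, pi a) := by rw [he, M.opp_opp]
      obtain ⟨rfl, he'⟩ := Prod.mk.inj (Sum.inl_injective (h.symm.trans he2))
      exact hc4 ha he'.symm
  have hψ1 : ψ (.inl (τ, i)) = 1 := by
    simp only [ψ, Pi.add_apply, a2 _ hz, b2 _ hz, zero_add, M.ind_self]
  have e1 := hconst _ (vx (.inl (τ, i))) rfl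
  have e2 := hconst _ (vx (M.opp (.inl (τ, i)))) rfl
  rw [← hsame, ← e1, hπq, hπq, p2, hψ1] at e2
  exact one_ne_zero (add_eq_left.1 e2)

end Crest.Agent.R177
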